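import Vale.Agent.Lib.P329.Blocks2

/-!
# P329: finite groups with an abelian normal subgroup of index three

Let `G` be a finite group with an abelian normal subgroup `N` of index three. Then every
language recognized by a map from a finite alphabet to `G` has generalized star height at most
one. The image of a word is determined by its total weight modulo three times the order of `G`
and by the phase counts of the letters modulo the order of `G`.
-/

namespace Vale.Agent.Lib.P329

open Language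

section GroupPart

variable {α : Type} [DecidableEq α] {G : Type} [Group G] {A : Type} [CommGroup A]

omit [DecidableEq α] in
theorem conj_pow_mod (ι : A →* G) (g0 : G) (hz : ∀ x : A, g0 ^ 3 * ι x = ι x * g0 ^ 3)
    (n : ℕ) (x : A) :
    g0 ^ n * ι x * (g0 ^ n)⁻¹ = g0 ^ (n % 3) * ι x * (g0 ^ (n % 3))⁻¹ := by
  have hz' : ∀ j : ℕ, (g0 ^ 3) ^ j * ι x = ι x * (g0 ^ 3) ^ j := by
    intro j
    induction j with
    | zero => simp
    | succ j ih => rw [pow_succ, mul_assoc, hz, ← mul_assoc, ih, mul_assoc]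
  have hn : g0 ^ n = g0 ^ (n % 3) * (g0 ^ 3) ^ (n / 3) := by
    rw [← pow_mul, ← pow_add, Nat.mod_add_div]
  have hzx := hz' (n / 3)
  rw [hn]
  generalize (g0 ^ 3) ^ (n / 3) = Z at hzx ⊢
  generalize g0 ^ (n % 3) = P
  calc P * Z * ι x * (P * Z)⁻¹ = P * (Z * ι x) * Z⁻¹ * P⁻¹ := by group
    _ = P * (ι x * Z) * Z⁻¹ * P⁻¹ := by rw [hzx]
    _ = P * ι x * P⁻¹ := by group

theorem image_formula3' [Fintype α] (φ : α → G) (ι : A →* G) (g0 : G)
    (hz : ∀ x : A, g0 ^ 3 * ι x = ι x * g0 ^ 3)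
    (k : α → ℕ) (ν : α → A) (hφ : ∀ a, φ a = ι (ν a) * g0 ^ k a) (γ : α → ℕ → A)
    (hγ : ∀ b c, c < 3 → ι (γ b c) = g0 ^ (2 * c) * ι (ν b) * (g0 ^ (2 * c))⁻¹)
    (w : List α) :
    (w.map φ).prod =
      ι (∏ b : α, ∏ c ∈ Finset.range 3, γ b c ^ tc k b c w) * g0 ^ wsum k w := by
  induction w using List.reverseRecOn with
  | nil => simp [tc, wsum]
  | append_singleton w a ih =>
    rw [List.map_append, List.prod_append, ih]
    simp only [List.map_cons, List.map_nil, List.prod_cons, List.prod_nil, mul_one]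
    have hc3 : (3 - wsum k w % 3) % 3 < 3 := Nat.mod_lt _ (by norm_num)
    have h1 : ∀ b ∈ (Finset.univ : Finset α), ∀ c ∈ Finset.range 3,
        γ b c ^ tc k b c (w ++ [a]) = γ b c ^ tc k b c w *
          (if b = a ∧ c = (3 - wsum k w % 3) % 3 then γ b c else 1) := by
      intro b _ c hc
      have hc' : c < 3 := Finset.mem_range.1 hc
      rw [tc_snoc, pow_add]
      congr 1
      have hiff : (a = b ∧ (c + wsum k w) % 3 = 0) ↔
          (b = a ∧ c = (3 - wsum k w % 3) % 3) := by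
        constructor
        · rintro ⟨h4, h5⟩
          exact ⟨h4.symm, by omega⟩
        · rintro ⟨h4, h5⟩
          exact ⟨h4.symm, by omega⟩
      by_cases h : b = a ∧ c = (3 - wsum k w % 3) % 3
      · rw [if_pos h, if_pos (hiff.2 h), pow_one]
      · rw [if_neg h, if_neg (fun h' => h (hiff.1 h')), pow_zero]
    rw [Finset.prod_congr rfl (fun b hb => Finset.prod_congr rfl (h1 b hb))]
    simp only [Finset.prod_mul_distrib]
    have h2 : (∏ b : α, ∏ c ∈ Finset.range 3,
        (if b = a ∧ c = (3 - wsum k w % 3) % 3 then γ b c else 1)) =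
          γ a ((3 - wsum k w % 3) % 3) := by
      rw [Finset.prod_eq_single a]
      · rw [Finset.prod_eq_single ((3 - wsum k w % 3) % 3)]
        · simp
        · intro l _ hl
          simp [hl]
        · intro h
          exact absurd (Finset.mem_range.2 hc3) h
      · intro b _ hb
        simp [hb]
      · intro h
        exact absurd (Finset.mem_univ a) h
    rw [h2, map_mul, hγ a _ hc3, hφ a, wsum_snoc]
    have h3 : g0 ^ (2 * ((3 - wsum k w % 3) % 3)) * ι (ν a) *
        (g0 ^ (2 * ((3 - wsum k w % 3) % 3)))⁻¹ =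
        g0 ^ wsum k w * ι (ν a) * (g0 ^ wsum k w)⁻¹ := by
      rw [conj_pow_mod ι g0 hz (2 * ((3 - wsum k w % 3) % 3)),
        conj_pow_mod ι g0 hz (wsum k w)]
      have hmod : (2 * ((3 - wsum k w % 3) % 3)) % 3 = wsum k w % 3 := by omega
      rw [hmod]
    rw [h3, pow_add]
    group

theorem image_congr3' [Fintype α] (φ : α → G) (ι : A →* G) (g0 : G)
    (hz : ∀ x : A, g0 ^ 3 * ι x = ι x * g0 ^ 3)
    (k : α → ℕ) (ν : α → A) (hφ : ∀ a, φ a = ι (ν a) * g0 ^ k a) (γ : α → ℕ → A)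
    (hγ : ∀ b c, c < 3 → ι (γ b c) = g0 ^ (2 * c) * ι (ν b) * (g0 ^ (2 * c))⁻¹)
    (M : ℕ) (hA : ∀ x : A, x ^ M = 1) (hg : g0 ^ (3 * M) = 1) (w w' : List α)
    (h1 : wsum k w % (3 * M) = wsum k w' % (3 * M))
    (h2 : ∀ b c, c < 3 → tc k b c w % M = tc k b c w' % M) :
    (w.map φ).prod = (w'.map φ).prod := by
  rw [image_formula3' φ ι g0 hz k ν hφ γ hγ w, image_formula3' φ ι g0 hz k ν hφ γ hγ w']
  rw [pow_eq_pow_mod (wsum k w) hg, pow_eq_pow_mod (wsum k w') hg, h1]
  congr 2
  apply Finset.prod_congr rfl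
  intro b _
  apply Finset.prod_congr rfl
  intro c hc
  rw [pow_eq_pow_mod (tc k b c w) (hA (γ b c)), pow_eq_pow_mod (tc k b c w') (hA (γ b c)),
    h2 b c (Finset.mem_range.1 hc)]

end GroupPart

theorem detects_profile3 {α : Type} [Fintype α] [DecidableEq α] (k : α → ℕ) (M : ℕ)
    (hM : 0 < M) :
    Detects (fun w : List α =>
      (wsum k w % (3 * M), fun (b : α) (l : Fin 3) => tc k b l.val w % M)) := by
  refine (detects_wsum k (3 * M) (by omega)).prod ?_
  exact Detects.pi (fun (b : α) (w : List α) (l : Fin 3) => tc k b l.val w % M)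
    (fun b => Detects.pi (fun (l : Fin 3) (w : List α) => tc k b l.val w % M)
      (fun l => detects_tc k b l.val M hM))

/-- Every language recognized by a finite group with an abelian normal subgroup of index
three has generalized star height at most one. -/
theorem recognized_abelian_index_three (α : Type) [Fintype α] [DecidableEq α] (G : Type)
    [Group G] [Finite G] (N : Subgroup G) [hn : N.Normal]
    (hN : ∀ x ∈ N, ∀ y ∈ N, x * y = y * x) (hidx : N.index = 3) (φ : α → G) (P : Set G) :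
    ∃ e : GExp α, e.sh ≤ 1 ∧ ∀ w : List α, w ∈ e.lang ↔ (w.map φ).prod ∈ P := by
  classical
  have hne : N ≠ ⊤ := by
    intro h
    rw [h] at hidx
    simp at hidx
  obtain ⟨g, hg⟩ : ∃ g, g ∉ N := by
    by_contra hcon
    push_neg at hcon
    exact hne (eq_top_iff.2 fun x _ => hcon x)
  have hg3 : g ^ 3 ∈ N := by
    have h := N.pow_index_mem g
    rwa [hidx] at h
  have hcard : Nat.card (G ⧸ N) = 3 := hidx
  have hp3 : Fact (Nat.Prime 3) := ⟨Nat.prime_three⟩
  have hq : ((g : G) : G ⧸ N) ≠ 1 := fun h => hg ((QuotientGroup.eq_one_iff _).1 h)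
  have htop := zpowers_eq_top_of_prime_card hcard hq
  have hex : ∀ a, ∃ i : ℕ, φ a * (g ^ i)⁻¹ ∈ N := by
    intro a
    have hmem : ((φ a : G) : G ⧸ N) ∈ Subgroup.zpowers ((g : G) : G ⧸ N) := by
      rw [htop]
      exact Subgroup.mem_top _
    obtain ⟨z, hz⟩ := Subgroup.mem_zpowers_iff.1 hmem
    have hq3 : ((g : G) : G ⧸ N) ^ (3 : ℤ) = 1 := by
      have h1 : (((g ^ 3 : G)) : G ⧸ N) = 1 := (QuotientGroup.eq_one_iff _).2 hg3
      rw [QuotientGroup.mk_pow] at h1
      rw [← h1]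
      exact zpow_natCast _ 3
    have hnn : 0 ≤ z % 3 := Int.emod_nonneg z (by norm_num)
    refine ⟨(z % 3).toNat, ?_⟩
    have h2 : (((g ^ (z % 3).toNat : G)) : G ⧸ N) = ((φ a : G) : G ⧸ N) := by
      rw [QuotientGroup.mk_pow, ← zpow_natCast, Int.toNat_of_nonneg hnn,
        ← zpow_eq_zpow_emod z hq3]
      exact hz
    have h3 : (g ^ (z % 3).toNat)⁻¹ * φ a ∈ N := QuotientGroup.eq.1 h2
    have h4 := hn.conj_mem _ h3 (g ^ (z % 3).toNat)
    have h5 : g ^ (z % 3).toNat * ((g ^ (z % 3).toNat)⁻¹ * φ a) * (g ^ (z % 3).toNat)⁻¹ =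
        φ a * (g ^ (z % 3).toNat)⁻¹ := by group
    rw [h5] at h4
    exact h4
  choose k hk using hex
  let _ : CommGroup N := { (inferInstance : Group N) with
    mul_comm := fun a b => Subtype.ext (hN a a.2 b b.2) }
  let ι : N →* G := { toFun := fun a => a.1, map_one' := rfl, map_mul' := fun _ _ => rfl }
  let ν : α → N := fun a => ⟨φ a * (g ^ k a)⁻¹, hk a⟩
  have hφ' : ∀ a, φ a = ι (ν a) * g ^ k a := by
    intro a
    show φ a = φ a * (g ^ k a)⁻¹ * g ^ k a
    group
  let γ : α → ℕ → N := fun b l =>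
    ⟨g ^ (2 * l) * (ν b).1 * (g ^ (2 * l))⁻¹, hn.conj_mem _ (ν b).2 _⟩
  have hγ : ∀ b l, l < 3 → ι (γ b l) = g ^ (2 * l) * ι (ν b) * (g ^ (2 * l))⁻¹ := by
    intro b l _
    rfl
  have hz : ∀ x : N, g ^ 3 * ι x = ι x * g ^ 3 := fun x => hN _ hg3 _ x.2
  have hMpos : 0 < Nat.card G := Nat.card_pos
  have hA : ∀ x : N, x ^ Nat.card G = 1 := by
    intro x
    apply Subtype.ext
    rw [Subgroup.coe_pow]
    exact pow_card_eq_one'
  have hg0 : g ^ (3 * Nat.card G) = 1 := by
    rw [mul_comm, pow_mul, pow_card_eq_one', one_pow]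
  refine (detects_profile3 k (Nat.card G) hMpos).expr {w | (w.map φ).prod ∈ P} ?_
  intro w w' hww
  have key : (w.map φ).prod = (w'.map φ).prod := by
    apply image_congr3' φ ι g hz k ν hφ' γ hγ (Nat.card G) hA hg0
    · exact congrArg Prod.fst hww
    · intro b l hl
      exact congrFun (congrFun (congrArg Prod.snd hww) b) ⟨l, hl⟩
  show (w.map φ).prod ∈ P ↔ (w'.map φ).prod ∈ P
  rw [key]

end Vale.Agent.Lib.P329
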