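import Vale.Agent.Lib.P329.Taylor

/-!
# P329: an affine recursion with commuting operators and symmetrised subword counts

For commuting endomorphisms `N a` of a commutative group `V` and elements `t a`, the state
reached by the recursion `s ↦ s * N x s * t x` along a word `w` is the product, over the
scattered subwords `x :: l` of `w`, of the iterated images of `t x` under the `N a`, `a ∈ l`.
Since the operators commute, this coefficient depends only on the first letter `x` and the
multiset of the letters of `l`. If every fourfold product of the operators kills every `t x`,
the state depends only on the numbers, modulo an exponent of `V`, of the scattered subwords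
with a given first letter and a given multiset of at most three further letters.
-/

namespace Vale.Agent.Lib.P329

section AffSym

variable {α : Type}

/-- The first letter of a word (if any) and the multiset of its remaining letters. -/
def headTail (u : List α) : Option α × Multiset α := (u.head?, (u.tail : Multiset α))

/-- The number of scattered subwords of `w` with a given first letter and a given multiset of
the remaining letters. -/
def symCount [DecidableEq α] (c : Option α × Multiset α) (w : List α) : ℕ :=
  ((List.sublists w).map headTail).count c

variable {V : Type} [CommGroup V]

/-- The coefficient of a scattered subword. -/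
def asCoef (N : α → V → V) (t : α → V) : List α → V
  | [] => 1
  | x :: l => l.foldl (fun v a => N a v) (t x)

theorem asCoef_nil (N : α → V → V) (t : α → V) : asCoef N t [] = 1 := rfl

theorem asCoef_cons (N : α → V → V) (t : α → V) (x : α) (l : List α) :
    asCoef N t (x :: l) = l.foldl (fun v a => N a v) (t x) := rfl

theorem asCoef_snoc_prod (N : α → V → V) (hN1 : ∀ a, N a 1 = 1)
    (hNm : ∀ a u v, N a (u * v) = N a u * N a v) (t : α → V) (y : α) :
    ∀ L : List (List α), ((L.map (fun u => u ++ [y])).map (asCoef N t)).prod =
      N y ((L.map (asCoef N t)).prod) * t y ^ L.countP (fun u => u.isEmpty) := by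
  intro L
  induction L with
  | nil => simp [hN1]
  | cons u L ih =>
    rw [List.map_cons, List.map_cons, List.prod_cons, ih, List.map_cons, List.prod_cons, hNm]
    cases u with
    | nil =>
      have e1 : asCoef N t ([] ++ [y]) = t y := rfl
      have e2 : List.countP (fun u : List α => u.isEmpty) ([] :: L) =
          List.countP (fun u : List α => u.isEmpty) L + 1 := by
        rw [List.countP_cons_of_pos (by rfl)]
      rw [e1, e2, asCoef_nil, hN1, pow_succ]
      simp only [one_mul]
      rw [mul_comm (t y), mul_assoc]
    | cons x l =>
      have e1 : asCoef N t ((x :: l) ++ [y]) = N y (asCoef N t (x :: l)) := by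
        show (l ++ [y]).foldl (fun v a => N a v) (t x) = N y (l.foldl (fun v a => N a v) (t x))
        rw [List.foldl_append]
        rfl
      have e2 : List.countP (fun u : List α => u.isEmpty) ((x :: l) :: L) =
          List.countP (fun u : List α => u.isEmpty) L := by
        rw [List.countP_cons_of_neg (by simp)]
      rw [e1, e2, mul_assoc]

theorem countP_isEmpty_sublists (w : List α) :
    (List.sublists w).countP (fun u => u.isEmpty) = 1 := by
  induction w using List.reverseRecOn with
  | nil => simp
  | append_singleton w x ih =>
    rw [List.sublists_concat, List.countP_append, ih]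
    have : List.countP (fun u : List α => u.isEmpty)
        (List.map (fun s => s ++ [x]) (List.sublists w)) = 0 := by
      rw [List.countP_eq_zero]
      intro u hu
      obtain ⟨s, -, rfl⟩ := List.mem_map.1 hu
      simp
    rw [this]

/-- The state of the recursion is the product of the coefficients of the scattered subwords. -/
theorem affine_state (N : α → V → V) (hN1 : ∀ a, N a 1 = 1)
    (hNm : ∀ a u v, N a (u * v) = N a u * N a v) (t : α → V) (w : List α) :
    w.foldl (fun s x => s * N x s * t x) 1 = ((List.sublists w).map (asCoef N t)).prod := by
  induction w using List.reverseRecOn with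
  | nil => simp [asCoef_nil]
  | append_singleton w y ih =>
    rw [List.foldl_append, List.sublists_concat, List.map_append, List.prod_append,
      asCoef_snoc_prod N hN1 hNm t y, countP_isEmpty_sublists, pow_one, ← ih]
    show w.foldl (fun s x => s * N x s * t x) 1 * N y (w.foldl (fun s x => s * N x s * t x) 1) *
      t y = _
    rw [mul_assoc]

/-- The coefficient only depends on the first letter and the multiset of the other letters. -/
theorem asCoef_headTail (N : α → V → V) (hNc : ∀ a b v, N a (N b v) = N b (N a v)) (t : α → V)
    (u u' : List α) (h : headTail u = headTail u') : asCoef N t u = asCoef N t u' := by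
  have : RightCommutative (fun (v : V) (a : α) => N a v) := ⟨fun b a₁ a₂ => hNc a₂ a₁ b⟩
  have h1 : u.head? = u'.head? := congrArg Prod.fst h
  have h2 : (u.tail : Multiset α) = (u'.tail : Multiset α) := congrArg Prod.snd h
  cases u with
  | nil =>
    cases u' with
    | nil => rfl
    | cons x' l' => simp at h1
  | cons x l =>
    cases u' with
    | nil => simp at h1
    | cons x' l' =>
      have hx : x = x' := by simpa using h1
      have hl : l.Perm l' := Multiset.coe_eq_coe.1 h2
      subst hx
      rw [asCoef_cons, asCoef_cons]
      exact hl.foldl_eq _

theorem foldl_one (N : α → V → V) (hN1 : ∀ a, N a 1 = 1) (l : List α) :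
    l.foldl (fun v a => N a v) 1 = 1 := by
  induction l with
  | nil => rfl
  | cons a l ih =>
    rw [List.foldl_cons, hN1, ih]

/-- Coefficients of subwords with at least four letters after the first vanish. -/
theorem asCoef_eq_one (N : α → V → V) (hN1 : ∀ a, N a 1 = 1) (t : α → V)
    (hN4 : ∀ a b c d x, N d (N c (N b (N a (t x)))) = 1) (x : α) (l : List α)
    (hl : 4 ≤ l.length) : asCoef N t (x :: l) = 1 := by
  rw [asCoef_cons]
  match l, hl with
  | a :: b :: c :: d :: r, _ =>
    rw [List.foldl_cons, List.foldl_cons, List.foldl_cons, List.foldl_cons, hN4]
    exact foldl_one N hN1 r

/-- The coefficient factors through `headTail`. -/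
theorem exists_asC (N : α → V → V) (hNc : ∀ a b v, N a (N b v) = N b (N a v)) (t : α → V) :
    ∃ C : Option α × Multiset α → V, (∀ u : List α, asCoef N t u = C (headTail u)) ∧
      ∀ c, (¬ ∃ u : List α, headTail u = c) → C c = 1 := by
  classical
  refine ⟨fun c => if h : ∃ u : List α, headTail u = c then asCoef N t (Classical.choose h)
    else 1, ?_, ?_⟩
  · intro u
    have h : ∃ u' : List α, headTail u' = headTail u := ⟨u, rfl⟩
    show asCoef N t u = if h : ∃ u' : List α, headTail u' = headTail u then
      asCoef N t (Classical.choose h) else 1
    rw [dif_pos h]
    exact asCoef_headTail N hNc t u _ (Classical.choose_spec h).symm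
  · intro c hc
    show (if h : ∃ u : List α, headTail u = c then asCoef N t (Classical.choose h) else 1) = 1
    rw [dif_neg hc]

variable [DecidableEq α]

/-- The count in `symCount` in terms of a decidable predicate on the scattered subwords. -/
theorem symCount_eq_countP (c : Option α × Multiset α) (w : List α) :
    symCount c w = (List.sublists w).countP (fun u => decide (headTail u = c)) := by
  unfold symCount
  rw [List.count_eq_countP, List.countP_map]
  apply List.countP_congr
  intro u _
  simp

/-- The count in `symCount` agrees with the count for the comparison by decidable equality. -/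
theorem symCount_eq_count (c : Option α × Multiset α) (w : List α) :
    @List.count (Option α × Multiset α) instBEqOfDecidableEq c
      ((List.sublists w).map headTail) = symCount c w := by
  rw [symCount_eq_countP]
  unfold List.count
  rw [List.countP_map]
  apply List.countP_congr
  intro u _
  simp

theorem symCount_eq_zero (c : Option α × Multiset α) (w : List α)
    (h : c ∉ (List.sublists w).map headTail) : symCount c w = 0 := by
  unfold symCount
  exact List.count_eq_zero_of_not_mem h

/-- The number of scattered subwords consisting of the single letter `x`. -/
theorem symCount_single (x : α) (w : List α) : symCount (some x, 0) w = w.count x := by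
  rw [symCount_eq_countP, ← count_sublists_singleton x w, List.count_eq_countP]
  apply List.countP_congr
  intro u _
  have e : headTail u = (some x, (0 : Multiset α)) ↔ u = [x] := by
    constructor
    · intro h
      have h1 : u.head? = some x := congrArg Prod.fst h
      have h2 : (u.tail : Multiset α) = 0 := congrArg Prod.snd h
      cases u with
      | nil => simp at h1
      | cons y l =>
        have hy : y = x := by simpa using h1
        have hl : l = [] := by simpa using h2
        rw [hy, hl]
    · intro h
      rw [h]
      rfl
  simp [e]

/-- If the operators `N a` are commuting endomorphisms of `V`, every fourfold product of them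
kills every `t x`, and `e` is an exponent of `V`, then the state reached by the recursion
`s ↦ s * N x s * t x` along a word depends only on the numbers modulo `e` of the scattered
subwords with a given first letter and a given multiset of at most three further letters. -/
theorem affine_sym_det (N : α → V → V) (hN1 : ∀ a, N a 1 = 1)
    (hNm : ∀ a u v, N a (u * v) = N a u * N a v) (hNc : ∀ a b v, N a (N b v) = N b (N a v))
    (t : α → V) (hN4 : ∀ a b c d x, N d (N c (N b (N a (t x)))) = 1) (e : ℕ)
    (he : ∀ v : V, v ^ e = 1) (w w' : List α)
    (hp : ∀ (x : α) (m : Multiset α), m.card ≤ 3 →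
      symCount (some x, m) w % e = symCount (some x, m) w' % e) :
    w.foldl (fun s x => s * N x s * t x) 1 = w'.foldl (fun s x => s * N x s * t x) 1 := by
  obtain ⟨C, hC, hC1⟩ := exists_asC N hNc t
  have hstate : ∀ v : List α, v.foldl (fun s x => s * N x s * t x) 1 =
      (((List.sublists v).map headTail).map C).prod := by
    intro v
    rw [affine_state N hN1 hNm t v, List.map_map]
    congr 1
    apply List.map_congr_left
    intro u _
    exact hC u
  have hCone : ∀ c : Option α × Multiset α, (∀ x m, c = (some x, m) → 4 ≤ m.card) → C c = 1 := by
    intro c hc
    by_cases hex : ∃ u : List α, headTail u = c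
    · obtain ⟨u, hu⟩ := hex
      rw [← hu, ← hC u]
      cases u with
      | nil => rfl
      | cons x l =>
        have h4 := hc x (l : Multiset α) hu.symm
        exact asCoef_eq_one N hN1 t hN4 x l (by simpa using h4)
    · exact hC1 c hex
  rw [hstate w, hstate w', Finset.prod_list_map_count, Finset.prod_list_map_count]
  simp only [symCount_eq_count]
  refine (Finset.prod_subset (s₂ := ((List.sublists w).map headTail).toFinset ∪
    ((List.sublists w').map headTail).toFinset) Finset.subset_union_left ?_).trans
    ((Finset.prod_congr rfl ?_).trans (Finset.prod_subset Finset.subset_union_right ?_).symm)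
  · intro c _ hc
    rw [symCount_eq_zero c w (fun hmem => hc (List.mem_toFinset.2 hmem)), pow_zero]
  · intro c _
    by_cases hsmall : ∃ x m, c = (some x, m) ∧ m.card ≤ 3
    · obtain ⟨x, m, rfl, hm⟩ := hsmall
      exact pow_eq_of_mod_eq e he _ _ _ (hp x m hm)
    · have h1 : C c = 1 := by
        apply hCone
        intro x m hcm
        by_contra hlt
        exact hsmall ⟨x, m, hcm, by omega⟩
      rw [h1, one_pow, one_pow]
  · intro c _ hc
    rw [symCount_eq_zero c w' (fun hmem => hc (List.mem_toFinset.2 hmem)), pow_zero]

end AffSym

end Vale.Agent.Lib.P329
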