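import Vale.Agent.Lib.P329.Sub3

/-!
# P329: closed form of an affine unipotent recursion on a commutative group

Let `V` be a commutative group, `N a` multiplicative maps of `V` and `t a` elements of `V`, one
for each letter `a`, such that `N c (N b (N a (t x))) = 1` for all letters. Reading a word `w`
letter by letter, start from `1` and replace the state `s` by `s * N x s * t x` at the letter
`x`. The final state is a product of the elements `t x`, `N a (t x)`, `N b (N a (t x))` raised
to the numbers of occurrences in `w` of the scattered subwords `[x]`, `[x, a]`, `[x, a, b]`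
(`affine_expand`). In particular, if `V` has exponent dividing `e`, the final state depends
only on these numbers modulo `e` (`affine_det`).
-/

namespace Vale.Agent.Lib.P329

section Affine

variable {α V : Type} [Fintype α] [DecidableEq α] [CommGroup V]

theorem affine_expand (N : α → V → V) (hN1 : ∀ a, N a 1 = 1)
    (hNm : ∀ a u v, N a (u * v) = N a u * N a v) (t : α → V)
    (hN3 : ∀ a b c x, N c (N b (N a (t x))) = 1) (w : List α) :
    w.foldl (fun s x => s * N x s * t x) 1 =
      (∏ x, t x ^ w.count x) * (∏ x, ∏ a, N a (t x) ^ sc [x, a] w) *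
        ∏ x, ∏ a, ∏ b, N b (N a (t x)) ^ sc [x, a, b] w := by
  have hprod : ∀ (y : α) (f : α → V), N y (∏ x, f x) = ∏ x, N y (f x) := by
    intro y f
    exact map_prod (⟨⟨N y, hN1 y⟩, hNm y⟩ : V →* V) f Finset.univ
  have hpow : ∀ (y : α) (v : V) (k : ℕ), N y (v ^ k) = N y v ^ k := by
    intro y v k
    exact map_pow (⟨⟨N y, hN1 y⟩, hNm y⟩ : V →* V) v k
  induction w using List.reverseRecOn with
  | nil => simp [sc_cons_nil]
  | append_singleton w y ih =>
    simp only [List.foldl_append, List.foldl_cons, List.foldl_nil]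
    rw [ih]
    have h1 : ∏ x, t x ^ (w ++ [y]).count x = (∏ x, t x ^ w.count x) * t y := by
      have : ∀ x, t x ^ (w ++ [y]).count x
          = t x ^ w.count x * (if y = x then t x else 1) := by
        intro x
        rw [count_snoc, pow_add]
        by_cases h : y = x
        · simp [h]
        · simp [h]
      rw [Finset.prod_congr rfl (fun x _ => this x), Finset.prod_mul_distrib,
        Finset.prod_ite_eq]
      simp
    have h2 : ∏ x, ∏ a, N a (t x) ^ sc [x, a] (w ++ [y])
        = (∏ x, ∏ a, N a (t x) ^ sc [x, a] w) * ∏ x, N y (t x) ^ w.count x := by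
      have : ∀ x, ∏ a, N a (t x) ^ sc [x, a] (w ++ [y])
          = (∏ a, N a (t x) ^ sc [x, a] w) * N y (t x) ^ w.count x := by
        intro x
        have ha : ∀ a, N a (t x) ^ sc [x, a] (w ++ [y])
            = N a (t x) ^ sc [x, a] w
              * (if y = a then N a (t x) ^ w.count x else 1) := by
          intro a
          rw [sc2_snoc, sc_one, pow_add]
          by_cases h : y = a
          · simp [h]
          · simp [h]
        rw [Finset.prod_congr rfl (fun a _ => ha a), Finset.prod_mul_distrib,
          Finset.prod_ite_eq]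
        simp
      rw [Finset.prod_congr rfl (fun x _ => this x), Finset.prod_mul_distrib]
    have h3 : ∏ x, ∏ a, ∏ b, N b (N a (t x)) ^ sc [x, a, b] (w ++ [y])
        = (∏ x, ∏ a, ∏ b, N b (N a (t x)) ^ sc [x, a, b] w)
          * ∏ x, ∏ a, N y (N a (t x)) ^ sc [x, a] w := by
      have : ∀ x a, ∏ b, N b (N a (t x)) ^ sc [x, a, b] (w ++ [y])
          = (∏ b, N b (N a (t x)) ^ sc [x, a, b] w)
            * N y (N a (t x)) ^ sc [x, a] w := by
        intro x a
        have hb : ∀ b, N b (N a (t x)) ^ sc [x, a, b] (w ++ [y])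
            = N b (N a (t x)) ^ sc [x, a, b] w
              * (if y = b then N b (N a (t x)) ^ sc [x, a] w else 1) := by
          intro b
          rw [sc3_snoc, pow_add]
          by_cases h : y = b
          · simp [h]
          · simp [h]
        rw [Finset.prod_congr rfl (fun b _ => hb b), Finset.prod_mul_distrib,
          Finset.prod_ite_eq]
        simp
      rw [Finset.prod_congr rfl (fun x _ => Finset.prod_congr rfl (fun a _ => this x a))]
      simp only [Finset.prod_mul_distrib]
    have k1 : N y (∏ x, t x ^ w.count x) = ∏ x, N y (t x) ^ w.count x := by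
      rw [hprod]
      exact Finset.prod_congr rfl (fun x _ => hpow y _ _)
    have k2 : N y (∏ x, ∏ a, N a (t x) ^ sc [x, a] w)
        = ∏ x, ∏ a, N y (N a (t x)) ^ sc [x, a] w := by
      rw [hprod]
      refine Finset.prod_congr rfl (fun x _ => ?_)
      rw [hprod]
      exact Finset.prod_congr rfl (fun a _ => hpow y _ _)
    have k3 : N y (∏ x, ∏ a, ∏ b, N b (N a (t x)) ^ sc [x, a, b] w) = 1 := by
      rw [hprod]
      refine Finset.prod_eq_one (fun x _ => ?_)
      rw [hprod]
      refine Finset.prod_eq_one (fun a _ => ?_)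
      rw [hprod]
      refine Finset.prod_eq_one (fun b _ => ?_)
      rw [hpow, hN3, one_pow]
    rw [h1, h2, h3, hNm, hNm, k1, k2, k3, mul_one]
    ac_rfl

theorem affine_det (N : α → V → V) (hN1 : ∀ a, N a 1 = 1)
    (hNm : ∀ a u v, N a (u * v) = N a u * N a v) (t : α → V)
    (hN3 : ∀ a b c x, N c (N b (N a (t x))) = 1) (e : ℕ) (he : ∀ v : V, v ^ e = 1)
    (w w' : List α) (hp : ∀ u : List α, u.length ≤ 3 → sc u w % e = sc u w' % e) :
    w.foldl (fun s x => s * N x s * t x) 1 = w'.foldl (fun s x => s * N x s * t x) 1 := by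
  rw [affine_expand N hN1 hNm t hN3 w, affine_expand N hN1 hNm t hN3 w']
  have pw : ∀ (v : V) (m m' : ℕ), m % e = m' % e → v ^ m = v ^ m' := by
    intro v m m' h
    rw [pow_eq_pow_mod m (he v), pow_eq_pow_mod m' (he v), h]
  have c1 : ∀ x, w.count x % e = w'.count x % e := by
    intro x
    have h := hp [x] (by simp)
    rwa [sc_one, sc_one] at h
  have s1 : ∏ x, t x ^ w.count x = ∏ x, t x ^ w'.count x :=
    Finset.prod_congr rfl (fun x _ => pw _ _ _ (c1 x))
  have s2 : ∏ x, ∏ a, N a (t x) ^ sc [x, a] w = ∏ x, ∏ a, N a (t x) ^ sc [x, a] w' :=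
    Finset.prod_congr rfl (fun x _ => Finset.prod_congr rfl (fun a _ =>
      pw _ _ _ (hp [x, a] (by simp))))
  have s3 : ∏ x, ∏ a, ∏ b, N b (N a (t x)) ^ sc [x, a, b] w
      = ∏ x, ∏ a, ∏ b, N b (N a (t x)) ^ sc [x, a, b] w' :=
    Finset.prod_congr rfl (fun x _ => Finset.prod_congr rfl (fun a _ =>
      Finset.prod_congr rfl (fun b _ => pw _ _ _ (hp [x, a, b] (by simp)))))
  rw [s1, s2, s3]

end Affine

end Vale.Agent.Lib.P329
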