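import Vale.Agent.Lib.P329.Three

/-!
# P329: every language recognized by the alternating group on four points

The Klein four-group is a normal subgroup of exponent two of the alternating group on four
points, and an element of order three generates the quotient. So the statement on groups with
a normal subgroup of exponent two and a quotient of order three applies to every map from a
finite alphabet to this group.
-/

namespace Vale.Agent.Lib.P329

open Language

theorem recognized_alt4 (α : Type) [Fintype α] [DecidableEq α]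
    (φ : α → alternatingGroup (Fin 4)) (P : Set (alternatingGroup (Fin 4))) :
    ∃ e : GExp α, e.sh ≤ 1 ∧ ∀ w : List α, w ∈ e.lang ↔ (w.map φ).prod ∈ P := by
  have h4 : Nat.card (Fin 4) = 4 := by simp
  haveI hn : (alternatingGroup.kleinFour (Fin 4)).Normal := alternatingGroup.normal_kleinFour h4
  have hexp := alternatingGroup.exponent_kleinFour_of_card_eq_four h4
  have hN : ∀ x ∈ alternatingGroup.kleinFour (Fin 4), x * x = 1 := by
    intro x hx
    have h := Monoid.pow_exponent_eq_one (⟨x, hx⟩ : alternatingGroup.kleinFour (Fin 4))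
    rw [hexp] at h
    have h' := congrArg Subtype.val h
    rw [← pow_two]
    exact h'
  have hcard : Nat.card (alternatingGroup (Fin 4)) = 12 :=
    alternatingGroup.card_of_card_eq_four h4
  haveI : Fact (Nat.Prime 3) := ⟨by norm_num⟩
  obtain ⟨c, hc⟩ := exists_prime_orderOf_dvd_card' (G := alternatingGroup (Fin 4)) 3
    (by rw [hcard]; norm_num)
  have hc3 : c ^ 3 = 1 := by
    rw [← hc]; exact pow_orderOf_eq_one c
  have hcN : c ∉ alternatingGroup.kleinFour (Fin 4) := by
    intro hmem
    have h2 : c ^ 2 = 1 := by rw [pow_two]; exact hN c hmem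
    have h3 := orderOf_dvd_of_pow_eq_one h2
    rw [hc] at h3
    omega
  have hq : Nat.card (alternatingGroup (Fin 4) ⧸ alternatingGroup.kleinFour (Fin 4)) = 3 := by
    have h1 := Subgroup.card_eq_card_quotient_mul_card_subgroup
      (alternatingGroup.kleinFour (Fin 4))
    rw [hcard, alternatingGroup.kleinFour_card_of_card_eq_four h4] at h1
    omega
  have hgen : Subgroup.zpowers
      (QuotientGroup.mk c : alternatingGroup (Fin 4) ⧸ alternatingGroup.kleinFour (Fin 4)) = ⊤ := by
    apply zpowers_eq_top_of_prime_card hq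
    intro h
    exact hcN ((QuotientGroup.eq_one_iff c).1 h)
  apply recognized_two_by_three α (alternatingGroup (Fin 4)) (alternatingGroup.kleinFour (Fin 4))
    hN c hc3 φ
  intro a
  have hmem : (QuotientGroup.mk (φ a) :
      alternatingGroup (Fin 4) ⧸ alternatingGroup.kleinFour (Fin 4)) ∈ Subgroup.zpowers
        (QuotientGroup.mk c : alternatingGroup (Fin 4) ⧸ alternatingGroup.kleinFour (Fin 4)) := by
    rw [hgen]; exact Subgroup.mem_top _
  obtain ⟨z, hz⟩ := Subgroup.mem_zpowers_iff.1 hmem
  have h1 : (c ^ z)⁻¹ * φ a ∈ alternatingGroup.kleinFour (Fin 4) := by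
    rw [← QuotientGroup.eq]
    rw [← hz]
    rfl
  have h2 : φ a * (c ^ z)⁻¹ ∈ alternatingGroup.kleinFour (Fin 4) := hn.mem_comm h1
  have h3 : (c ^ z)⁻¹ = c ^ ((-z) % 3).toNat := by
    rw [← zpow_neg, zpow_eq_zpow_emod' (-z) hc3]
    have h5 : (0 : ℤ) ≤ (-z) % ((3 : ℕ) : ℤ) := Int.emod_nonneg _ (by norm_num)
    rw [← zpow_natCast]
    congr 1
    exact (Int.toNat_of_nonneg h5).symm
  rw [h3] at h2
  exact ⟨_, h2⟩

end Vale.Agent.Lib.P329
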