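import Vale.Agent.Lib.P329.Prime3

/-!
# P329: phase counts for weights zero, one and minus one, modulo any number of phases

If every letter has weight `0`, `1` or `-1` in `ZMod M`, a run of the phase automaton without
marked transitions that starts at a nonzero phase is an integer walk with steps `0`, `1`, `-1`
that stays strictly between `0` and `M`; so it cannot wrap around, and the automaton of the
unmarked transitions is counter-free. Hence the number of occurrences of a letter of weight
zero read at a given phase, and the number of arrivals at phase zero, are determined modulo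
any `N` by finitely many tests of star height at most one.
-/

namespace Vale.Agent.Lib.P329

section PlusMinus

variable {α : Type} [DecidableEq α] {M : ℕ}

/-- The integer displacement of a word: the sum of the steps `0`, `1`, `-1` of its letters. -/
def iw (ω : α → ZMod M) (w : List α) : ℤ :=
  (w.map (fun a => if ω a = 0 then (0 : ℤ) else if ω a = 1 then 1 else -1)).sum

omit [DecidableEq α] in
theorem iw_nil (ω : α → ZMod M) : iw ω [] = 0 := rfl

omit [DecidableEq α] in
theorem iw_cons (ω : α → ZMod M) (a : α) (w : List α) :
    iw ω (a :: w) = (if ω a = 0 then (0 : ℤ) else if ω a = 1 then 1 else -1) + iw ω w := by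
  simp [iw]

omit [DecidableEq α] in
theorem iw_append (ω : α → ZMod M) (u v : List α) : iw ω (u ++ v) = iw ω u + iw ω v := by
  simp [iw]

omit [DecidableEq α] in
theorem iw_rep (ω : α → ZMod M) (n : ℕ) (u : List α) : iw ω (rep n u) = n * iw ω u := by
  induction n with
  | zero => simp [rep_zero, iw_nil]
  | succ n ih =>
    rw [rep_succ, iw_append, ih]
    push_cast
    ring

omit [DecidableEq α] in
theorem wz_eq_iw (ω : α → ZMod M) (hω : ∀ a, ω a = 0 ∨ ω a = 1 ∨ ω a = -1) (w : List α) :
    wz ω w = ((iw ω w : ℤ) : ZMod M) := by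
  induction w with
  | nil => simp [wz_nil, iw_nil]
  | cons a w ih =>
    rw [wz_cons, iw_cons, ih]
    by_cases h0 : ω a = 0
    · rw [if_pos h0, h0]
      simp
    · by_cases h1 : ω a = 1
      · rw [if_neg h0, if_pos h1, h1]
        push_cast
        ring
      · have hm : ω a = -1 := by
          rcases hω a with h | h | h
          · exact absurd h h0
          · exact absurd h h1
          · exact h
        rw [if_neg h0, if_neg h1, hm]
        push_cast
        ring

/-- A run without marked transitions from a nonzero phase stays strictly between `0` and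
`M`. -/
theorem no_wrap_pm (ω : α → ZMod M) (hω : ∀ a, ω a = 0 ∨ ω a = 1 ∨ ω a = -1) (b : α)
    (wb : Bool) (w : List α) : ∀ k : ℕ, 0 < k → k < M →
      cntN (DRp ω) (CRp ω b wb) ((k : ℕ) : ZMod M) w = 0 →
      0 < (k : ℤ) + iw ω w ∧ (k : ℤ) + iw ω w < M := by
  induction w with
  | nil =>
    intro k hk0 hkM _
    rw [iw_nil]
    constructor <;> omega
  | cons a w ih =>
    intro k hk0 hkM hc
    have hc' : (if CRp ω b wb ((k : ℕ) : ZMod M) a = true then 1 else 0) +
        cntN (DRp ω) (CRp ω b wb) (DRp ω ((k : ℕ) : ZMod M) a) w = 0 := hc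
    have h1 : CRp ω b wb ((k : ℕ) : ZMod M) a = false := by
      by_contra hne
      have : CRp ω b wb ((k : ℕ) : ZMod M) a = true := by
        cases hcr : CRp ω b wb ((k : ℕ) : ZMod M) a with
        | true => rfl
        | false => exact absurd hcr hne
      rw [if_pos this] at hc'
      omega
    have h2 : cntN (DRp ω) (CRp ω b wb) (DRp ω ((k : ℕ) : ZMod M) a) w = 0 := by omega
    rw [iw_cons]
    by_cases h0 : ω a = 0
    · rw [if_pos h0]
      have e : DRp ω ((k : ℕ) : ZMod M) a = ((k : ℕ) : ZMod M) := by
        unfold DRp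
        rw [h0, add_zero]
      rw [e] at h2
      have := ih k hk0 hkM h2
      omega
    · rw [if_neg h0]
      by_cases h1' : ω a = 1
      · rw [if_pos h1']
        have e : DRp ω ((k : ℕ) : ZMod M) a = ((k + 1 : ℕ) : ZMod M) := by
          unfold DRp
          rw [h1']
          push_cast
          rfl
        have hne : ((k + 1 : ℕ) : ZMod M) ≠ 0 := by
          intro hz
          unfold CRp at h1
          rw [if_neg h0, h1'] at h1
          have : ((k : ℕ) : ZMod M) + 1 = 0 := by
            have := hz
            push_cast at this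
            exact this
          simp [this] at h1
        have hk1 : k + 1 < M := by
          by_contra hge
          have hkeq : k + 1 = M := by omega
          apply hne
          rw [hkeq]
          exact ZMod.natCast_self M
        rw [e] at h2
        have := ih (k + 1) (by omega) hk1 h2
        push_cast at this
        omega
      · rw [if_neg h1']
        have hm : ω a = -1 := by
          rcases hω a with h | h | h
          · exact absurd h h0
          · exact absurd h h1'
          · exact h
        have hk2 : 2 ≤ k := by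
          by_contra hlt
          have hk1 : k = 1 := by omega
          unfold CRp at h1
          rw [if_neg h0, hm, hk1] at h1
          simp at h1
        have e : DRp ω ((k : ℕ) : ZMod M) a = ((k - 1 : ℕ) : ZMod M) := by
          unfold DRp
          rw [hm, Nat.cast_sub (by omega : 1 ≤ k)]
          push_cast
          ring
        rw [e] at h2
        have := ih (k - 1) (by omega) (by omega) h2
        have hcast : ((k - 1 : ℕ) : ℤ) = (k : ℤ) - 1 := by omega
        rw [hcast] at this
        omega

/-- The automaton of the unmarked transitions of the phase automaton is counter-free when all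
weights are zero, one or minus one. -/
theorem cf_Rpm [NeZero M] (ω : α → ZMod M) (hω : ∀ a, ω a = 0 ∨ ω a = 1 ∨ ω a = -1) (b : α)
    (wb : Bool) : CF (dUnc (DRp ω) (CRp ω b wb)) := by
  apply cf_of_phase (DRp ω) (CRp ω b wb) (fun s => s) ω (fun _ => 0) 0
  · intro q a
    rfl
  · intro q a ha
    show q + ω a = q
    rw [ha, add_zero]
  · intro q a _ h
    exact h
  · intro q a _ _
    exact le_rfl
  · intro q q' h _
    exact h
  · intro s u m hw hper
    obtain ⟨x, hx, hx0⟩ := exists_nonzero_letter ω u hw
    obtain ⟨u₁, u₂, hu⟩ := List.append_of_mem hx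
    rw [hu] at hper
    have hr := hper.rot
    obtain ⟨hc, -, -⟩ := hr.first
    have hr' : Per (DRp ω) (CRp ω b wb) (run (DRp ω) s u₁) ([x] ++ (u₂ ++ u₁)) (m + 1) := hr
    have hr2 := hr'.rot
    have ht : run (DRp ω) (run (DRp ω) s u₁) [x] = run (DRp ω) s u₁ + ω x := rfl
    rw [ht] at hr2
    have htne : run (DRp ω) s u₁ + ω x ≠ 0 := by
      intro hz
      unfold CRp at hc
      rw [if_neg hx0] at hc
      simp [hz] at hc
    obtain ⟨hrun, hcnt⟩ := hr2
    have hMpos : 0 < M := Nat.pos_of_ne_zero (NeZero.ne M)
    have hval : (((run (DRp ω) s u₁ + ω x).val : ℕ) : ZMod M) = run (DRp ω) s u₁ + ω x :=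
      ZMod.natCast_zmod_val _
    have hpos : 0 < (run (DRp ω) s u₁ + ω x).val := (ZMod.val_pos).2 htne
    have hlt : (run (DRp ω) s u₁ + ω x).val < M := ZMod.val_lt _
    rw [← hval] at hcnt
    have hnw := no_wrap_pm ω hω b wb _ _ hpos hlt hcnt
    rw [run_DRp] at hrun
    have hz : wz ω (rep (m + 1) (u₂ ++ u₁ ++ [x])) = 0 := by
      have := hrun
      exact add_eq_left.1 this
    rw [wz_eq_iw ω hω] at hz
    have hdvd : (M : ℤ) ∣ iw ω (rep (m + 1) (u₂ ++ u₁ ++ [x])) :=
      (ZMod.intCast_zmod_eq_zero_iff_dvd _ _).1 hz
    have hzero : iw ω (rep (m + 1) (u₂ ++ u₁ ++ [x])) = 0 := by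
      obtain ⟨q, hq⟩ := hdvd
      have hkM : ((run (DRp ω) s u₁ + ω x).val : ℤ) < M := by exact_mod_cast hlt
      have hk0 : (0 : ℤ) < ((run (DRp ω) s u₁ + ω x).val : ℤ) := by exact_mod_cast hpos
      have hM' : (0 : ℤ) < M := by exact_mod_cast hMpos
      rw [hq] at hnw ⊢
      have hq0 : q = 0 := by
        rcases lt_trichotomy q 0 with h | h | h
        · exfalso
          nlinarith [hnw.1, hnw.2]
        · exact h
        · exfalso
          nlinarith [hnw.1, hnw.2]
      rw [hq0, mul_zero]
    rw [iw_rep] at hzero
    have hv : iw ω (u₂ ++ u₁ ++ [x]) = 0 := by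
      rcases mul_eq_zero.1 hzero with h | h
      · exfalso
        have h' : ((m + 1 : ℕ) : ℤ) = 0 := h
        omega
      · exact h
    apply hw
    rw [hu, wz_eq_iw ω hω]
    have e : iw ω (u₁ ++ x :: u₂) = iw ω (u₂ ++ u₁ ++ [x]) := by
      rw [iw_append, iw_cons, iw_append, iw_append, iw_cons, iw_nil]
      ring
    rw [e, hv]
    simp

/-- The number of arrivals at phase zero by a letter of nonzero weight, along the run from
phase `c`. -/
def arr (ω : α → ZMod M) : ZMod M → List α → ℕ
  | _, [] => 0
  | c, a :: w => (if ω a ≠ 0 ∧ c + ω a = 0 then 1 else 0) + arr ω (c + ω a) w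

theorem arr_eq_cntN (ω : α → ZMod M) (b : α) (w : List α) :
    ∀ c : ZMod M, arr ω c w = cntN (DRp ω) (CRp ω b false) c w := by
  induction w with
  | nil =>
    intro c
    rfl
  | cons a w ih =>
    intro c
    show (if ω a ≠ 0 ∧ c + ω a = 0 then 1 else 0) + arr ω (c + ω a) w =
      (if CRp ω b false c a = true then 1 else 0) + cntN (DRp ω) (CRp ω b false) (DRp ω c a) w
    rw [ih (c + ω a)]
    have e : DRp ω c a = c + ω a := rfl
    rw [e]
    congr 1
    unfold CRp
    by_cases h0 : ω a = 0
    · simp [h0]
    · simp [h0]

end PlusMinus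

section DetPm

variable {α : Type} [Fintype α] [DecidableEq α] {M : ℕ} [NeZero M]

/-- Weights zero, one, minus one: the number of occurrences of a letter `b` of weight zero at
which the part of the word before it has weight `-c` is determined modulo any `N`. -/
theorem detects_tcz_pm (ω : α → ZMod M) (hω : ∀ a, ω a = 0 ∨ ω a = 1 ∨ ω a = -1) (b : α)
    (hb : ω b = 0) (c : ZMod M) (N : ℕ) (hN : 0 < N) :
    Detects (fun w : List α => tcz ω b c w % N) := by
  have h1 := detects_cnt (DRp ω) (CRp ω b true) N hN 0 (fun s a h => CRp_home ω b true s a h)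
    (cf_Rpm ω hω b true) c
  have h2 := detects_cnt (DRp ω) (CRp ω b false) N hN 0
    (fun s a h => CRp_home ω b false s a h) (cf_Rpm ω hω b false) c
  refine (h1.prod h2).of_eq _ ?_
  intro w w' h
  have e1 : cntN (DRp ω) (CRp ω b true) c w % N = cntN (DRp ω) (CRp ω b true) c w' % N :=
    congrArg (fun x => x.1.2) h
  have e2 : cntN (DRp ω) (CRp ω b false) c w % N = cntN (DRp ω) (CRp ω b false) c w' % N :=
    congrArg (fun x => x.2.2) h
  rw [cnt_Rp ω b hb c w, cnt_Rp ω b hb c w'] at e1
  exact Nat.ModEq.add_left_cancel e2 e1

/-- Weights zero, one, minus one: the number of arrivals at phase zero is determined modulo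
any `N`. -/
theorem detects_arr_pm (ω : α → ZMod M) (hω : ∀ a, ω a = 0 ∨ ω a = 1 ∨ ω a = -1)
    (c : ZMod M) (N : ℕ) (hN : 0 < N) : Detects (fun w : List α => arr ω c w % N) := by
  rcases isEmpty_or_nonempty α with hα | ⟨⟨b⟩⟩
  · refine ⟨[], fun t ht => absurd ht (List.not_mem_nil), fun w w' _ => ?_⟩
    have hw : ∀ v : List α, v = [] := by
      intro v
      cases v with
      | nil => rfl
      | cons a _ => exact isEmptyElim a
    rw [hw w, hw w']
  · have h2 := detects_cnt (DRp ω) (CRp ω b false) N hN 0
      (fun s a h => CRp_home ω b false s a h) (cf_Rpm ω hω b false) c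
    refine (h2.comp (fun x => x.2)).congr ?_
    intro w
    show cntN (DRp ω) (CRp ω b false) c w % N = arr ω c w % N
    rw [arr_eq_cntN ω b w c]

end DetPm

end Vale.Agent.Lib.P329
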