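import Vale.Agent.Lib.P329.NeutralPivot
import Vale.Agent.Lib.P329.Pm1

/-!
# P329: the pivot sum of `c_x * binom(c_a, 2)` at the letter `x` itself

The sum, over the occurrences of `x`, of (number of earlier `x`) times (number of pairs of
earlier `a`) is determined modulo `N` by finitely many tests of star height at most one. It is
recovered from the arrival counts of the counter with weights `+1` on `x` and `-1` on `a`
(the sum of the cubes of the phases after the steps), neutral single counter pivot sums and
the two letter counts.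
-/

namespace Vale.Agent.Lib.P329

section ArrivalSum

variable {α : Type} [DecidableEq α] {M : ℕ}

omit [DecidableEq α] in
theorem arr_snoc_bk (ω : α → ZMod M) (w : List α) (y : α) : ∀ c : ZMod M,
    arr ω c (w ++ [y]) = arr ω c w + (if ω y ≠ 0 ∧ c + wz ω w + ω y = 0 then 1 else 0) := by
  induction w with
  | nil =>
    intro c
    simp [arr, wz_nil]
  | cons a w ih =>
    intro c
    show (if ω a ≠ 0 ∧ c + ω a = 0 then 1 else 0) + arr ω (c + ω a) (w ++ [y]) =
      (if ω a ≠ 0 ∧ c + ω a = 0 then 1 else 0) + arr ω (c + ω a) w +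
        (if ω y ≠ 0 ∧ c + wz ω (a :: w) + ω y = 0 then 1 else 0)
    rw [ih (c + ω a), wz_cons]
    have e : c + ω a + wz ω w = c + (ω a + wz ω w) := add_assoc _ _ _
    rw [e]
    exact (add_assoc _ _ _).symm

omit [DecidableEq α] in
theorem arr_sum_snoc_bk [NeZero M] (ω : α → ZMod M) (G : ZMod M → ℕ) (w : List α) (y : α) :
    ∑ c : ZMod M, G c * arr ω (-c) (w ++ [y]) =
      ∑ c : ZMod M, G c * arr ω (-c) w + (if ω y ≠ 0 then G (wz ω w + ω y) else 0) := by
  simp only [arr_snoc_bk, mul_add, Finset.sum_add_distrib]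
  congr 1
  by_cases hy : ω y ≠ 0
  · rw [if_pos hy]
    have e : ∀ c : ZMod M, G c * (if ω y ≠ 0 ∧ -c + wz ω w + ω y = 0 then 1 else 0) =
        if c = wz ω w + ω y then G c else 0 := by
      intro c
      by_cases hc : c = wz ω w + ω y
      · rw [if_pos hc, if_pos ⟨hy, by rw [hc]; ring⟩, mul_one]
      · rw [if_neg hc, if_neg, mul_zero]
        rintro ⟨-, h⟩
        apply hc
        have h2 : wz ω w + ω y = c + (-c + wz ω w + ω y) := by ring
        rw [h2, h, add_zero]
    rw [Finset.sum_congr rfl (fun c _ => e c)]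
    simp
  · rw [if_neg hy]
    apply Finset.sum_eq_zero
    intro c _
    rw [if_neg (fun h => hy h.1), mul_zero]

/-- The two pivot sums with the roles of the letters exchanged add up to a product of
binomial coefficients of the letter counts. -/
theorem psum_self_choose_add_bk (x a : α) (hxa : x ≠ a) (w : List α) :
    psum x (fun pre => pre.count x * (pre.count a).choose 2) w +
      psum a (fun pre => pre.count a * (pre.count x).choose 2) w =
      (w.count x).choose 2 * (w.count a).choose 2 := by
  induction w using List.reverseRecOn with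
  | nil => simp [psum_nil]
  | append_singleton w y ih =>
    rw [psum_snoc, psum_snoc, count_snoc, count_snoc]
    by_cases hyx : y = x
    · have hya : ¬ y = a := fun h => hxa (hyx.symm.trans h)
      rw [if_pos hyx, if_neg hya, if_pos hyx, if_neg hya, add_zero, add_zero, choose_two_succ,
        add_mul, ← ih]
      ring
    · by_cases hya : y = a
      · rw [if_neg hyx, if_pos hya, if_neg hyx, if_pos hya, add_zero, add_zero,
          choose_two_succ, mul_add, ← ih]
        ring
      · rw [if_neg hyx, if_neg hya, if_neg hyx, if_neg hya, add_zero, add_zero, add_zero,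
          add_zero, ih]

/-- The arrival identity: the sum of the cubes of the phases after the steps of the counter
with weights `+1` on `x` and `-1` on `a`, in terms of pivot sums and letter counts. -/
theorem arrival_identity_bk (K : ℕ) [NeZero K] (hK : 1 < K) (x a : α) (hxa : x ≠ a)
    (w : List α) :
    ((∑ c : ZMod K, c.val ^ 3 * arr (pmw K x a) (-c) w : ℕ) : ZMod K) =
      6 * ((psum x (fun pre => pre.count x * (pre.count a).choose 2) w : ℕ) : ZMod K)
      - 6 * ((psum a (fun pre => pre.count a * (pre.count x).choose 2) w : ℕ) : ZMod K)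
      - 2 * ((psum x (fun pre => pre.count a ^ 3) w : ℕ) : ZMod K)
      + 3 * ((psum x (fun pre => pre.count a ^ 2) w : ℕ) : ZMod K)
      - 2 * ((psum x (fun pre => pre.count a) w : ℕ) : ZMod K)
      + 2 * ((psum a (fun pre => pre.count x ^ 3) w : ℕ) : ZMod K)
      - 3 * ((psum a (fun pre => pre.count x ^ 2) w : ℕ) : ZMod K)
      + 2 * ((psum a (fun pre => pre.count x) w : ℕ) : ZMod K)
      + (((w.count x + 1).choose 2 : ℕ) : ZMod K) ^ 2
      - (((w.count a + 1).choose 2 : ℕ) : ZMod K) ^ 2
      + ((w.count x : ℕ) : ZMod K) * ((w.count a : ℕ) : ZMod K) ^ 3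
      - ((w.count a : ℕ) : ZMod K) * ((w.count x : ℕ) : ZMod K) ^ 3 := by
  have : Fact (1 < K) := ⟨hK⟩
  have h1 : (1 : ZMod K) ≠ 0 := one_ne_zero
  have hm1 : (-1 : ZMod K) ≠ 0 := neg_ne_zero.mpr one_ne_zero
  induction w using List.reverseRecOn with
  | nil => simp [psum_nil, arr]
  | append_singleton w y ih =>
    rw [arr_sum_snoc_bk]
    generalize (∑ c : ZMod K, c.val ^ 3 * arr (pmw K x a) (-c) w) = S at ih ⊢
    simp only [psum_snoc, count_snoc]
    have hX2 : 2 * (((w.count x).choose 2 : ℕ) : ZMod K) + ((w.count x : ℕ) : ZMod K) =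
        ((w.count x : ℕ) : ZMod K) * ((w.count x : ℕ) : ZMod K) := by
      have := congrArg (Nat.cast : ℕ → ZMod K) (two_choose_two (w.count x))
      push_cast at this
      exact this
    have hA2 : 2 * (((w.count a).choose 2 : ℕ) : ZMod K) + ((w.count a : ℕ) : ZMod K) =
        ((w.count a : ℕ) : ZMod K) * ((w.count a : ℕ) : ZMod K) := by
      have := congrArg (Nat.cast : ℕ → ZMod K) (two_choose_two (w.count a))
      push_cast at this
      exact this
    have hXT : 2 * (((w.count x + 1).choose 2 : ℕ) : ZMod K) + (((w.count x : ℕ) : ZMod K) + 1) =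
        (((w.count x : ℕ) : ZMod K) + 1) * (((w.count x : ℕ) : ZMod K) + 1) := by
      have := congrArg (Nat.cast : ℕ → ZMod K) (two_choose_two (w.count x + 1))
      push_cast at this
      exact this
    have hAT : 2 * (((w.count a + 1).choose 2 : ℕ) : ZMod K) + (((w.count a : ℕ) : ZMod K) + 1) =
        (((w.count a : ℕ) : ZMod K) + 1) * (((w.count a : ℕ) : ZMod K) + 1) := by
      have := congrArg (Nat.cast : ℕ → ZMod K) (two_choose_two (w.count a + 1))
      push_cast at this
      exact this
    have hwz := wz_pmw K x a hxa w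
    by_cases hyx : y = x
    · have hya : ¬ y = a := fun h => hxa (hyx.symm.trans h)
      have hω : pmw K x a y = 1 := by
        unfold pmw
        rw [if_pos hyx]
      simp only [if_pos hyx, if_neg hya, hω, add_zero, if_pos h1]
      rw [choose_two_succ (w.count x + 1)]
      push_cast
      rw [ZMod.natCast_zmod_val, hwz]
      linear_combination ih - 3 * ((w.count x : ℕ) : ZMod K) * hA2 -
        (((w.count x : ℕ) : ZMod K) + 1) * hXT
    · by_cases hya : y = a
      · have hω : pmw K x a y = -1 := by
          unfold pmw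
          rw [if_neg hyx, if_pos hya]
        simp only [if_neg hyx, if_pos hya, hω, add_zero, if_pos hm1]
        rw [choose_two_succ (w.count a + 1)]
        push_cast
        rw [ZMod.natCast_zmod_val, hwz]
        linear_combination ih + 3 * ((w.count a : ℕ) : ZMod K) * hX2 +
          (((w.count a : ℕ) : ZMod K) + 1) * hAT
      · have hω : pmw K x a y = 0 := by
          unfold pmw
          rw [if_neg hyx, if_neg hya]
        simp only [if_neg hyx, if_neg hya, hω, add_zero, ne_eq, not_true_eq_false, if_false]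
        exact ih

end ArrivalSum

section ArrivalDet

variable {α : Type} [Fintype α] [DecidableEq α]

/-- Weighted sums of the arrival counts of a counter with weights zero, one, minus one are
determined modulo any `N`. -/
theorem detects_arr_sum_bk (M : ℕ) [NeZero M] (ω : α → ZMod M)
    (hω : ∀ a, ω a = 0 ∨ ω a = 1 ∨ ω a = -1) (G : ZMod M → ℕ) (N : ℕ) (hN : 0 < N) :
    Detects (fun w : List α => (∑ c : ZMod M, G c * arr ω (-c) w) % N) := by
  have h := Detects.pi (fun (c : ZMod M) (w : List α) => arr ω c w % N)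
    (fun c => detects_arr_pm ω hω c N hN)
  refine h.of_eq _ ?_
  intro w w' hww
  have hc : ∀ c, arr ω c w % N = arr ω c w' % N := fun c => congrFun hww c
  show (∑ c : ZMod M, G c * arr ω (-c) w) % N = (∑ c : ZMod M, G c * arr ω (-c) w') % N
  have s1 := Finset.sum_nat_mod Finset.univ N (fun c : ZMod M => G c * arr ω (-c) w)
  have s2 := Finset.sum_nat_mod Finset.univ N (fun c : ZMod M => G c * arr ω (-c) w')
  rw [s1, s2]
  congr 1
  apply Finset.sum_congr rfl
  intro c _
  have e1 := Nat.mul_mod (G c) (arr ω (-c) w) N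
  have e2 := Nat.mul_mod (G c) (arr ω (-c) w') N
  show G c * arr ω (-c) w % N = G c * arr ω (-c) w' % N
  rw [e1, e2, hc (-c)]

/-- The pivot sum of `c_x * binom(c_a, 2)` at the letter `x` itself. -/
theorem detects_psum_self_choose (N : ℕ) (hN : 0 < N) (x a : α) (hxa : x ≠ a) :
    Detects (fun w : List α =>
      psum x (fun pre => pre.count x * (pre.count a).choose 2) w % N) := by
  have hK : 0 < 12 * N := by omega
  have hK1 : 1 < 12 * N := by omega
  have h2K : 0 < 2 * (12 * N) := by omega
  have : NeZero (12 * N) := ⟨by omega⟩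
  have hcube : ∀ k : ℕ, (k ^ 3) % (12 * N) = ((k % (12 * N)) ^ 3) % (12 * N) :=
    fun k => Nat.pow_mod k 3 (12 * N)
  have hsq : ∀ k : ℕ, (k ^ 2) % (12 * N) = ((k % (12 * N)) ^ 2) % (12 * N) :=
    fun k => Nat.pow_mod k 2 (12 * N)
  have hid : ∀ k : ℕ, k % (12 * N) = (k % (12 * N)) % (12 * N) :=
    fun k => (Nat.mod_mod k (12 * N)).symm
  have dV := detects_arr_sum_bk (12 * N) (pmw (12 * N) x a) (pmw_cases (12 * N) x a)
    (fun c => c.val ^ 3) (12 * N) hK
  have d1 := detects_psum_count (12 * N) a x hxa (fun k => k ^ 3) (12 * N) hK hcube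
  have d2 := detects_psum_count (12 * N) a x hxa (fun k => k ^ 2) (12 * N) hK hsq
  have d3 := detects_psum_count (12 * N) a x hxa (fun k => k) (12 * N) hK hid
  have d4 := detects_psum_count (12 * N) x a hxa.symm (fun k => k ^ 3) (12 * N) hK hcube
  have d5 := detects_psum_count (12 * N) x a hxa.symm (fun k => k ^ 2) (12 * N) hK hsq
  have d6 := detects_psum_count (12 * N) x a hxa.symm (fun k => k) (12 * N) hK hid
  have dX := detects_letter_count x (2 * (12 * N)) h2K
  have dA := detects_letter_count a (2 * (12 * N)) h2K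
  refine ((((((((dV.prod d1).prod d2).prod d3).prod d4).prod d5).prod d6).prod dX).prod dA).of_eq
    _ ?_
  intro w w' h
  have eV : (∑ c : ZMod (12 * N), c.val ^ 3 * arr (pmw (12 * N) x a) (-c) w) % (12 * N) =
      (∑ c : ZMod (12 * N), c.val ^ 3 * arr (pmw (12 * N) x a) (-c) w') % (12 * N) :=
    congrArg (fun t => t.1.1.1.1.1.1.1.1) h
  have e1 : psum x (fun pre => pre.count a ^ 3) w % (12 * N) =
      psum x (fun pre => pre.count a ^ 3) w' % (12 * N) :=
    congrArg (fun t => t.1.1.1.1.1.1.1.2) h
  have e2 : psum x (fun pre => pre.count a ^ 2) w % (12 * N) =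
      psum x (fun pre => pre.count a ^ 2) w' % (12 * N) :=
    congrArg (fun t => t.1.1.1.1.1.1.2) h
  have e3 : psum x (fun pre => pre.count a) w % (12 * N) =
      psum x (fun pre => pre.count a) w' % (12 * N) :=
    congrArg (fun t => t.1.1.1.1.1.2) h
  have e4 : psum a (fun pre => pre.count x ^ 3) w % (12 * N) =
      psum a (fun pre => pre.count x ^ 3) w' % (12 * N) :=
    congrArg (fun t => t.1.1.1.1.2) h
  have e5 : psum a (fun pre => pre.count x ^ 2) w % (12 * N) =
      psum a (fun pre => pre.count x ^ 2) w' % (12 * N) :=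
    congrArg (fun t => t.1.1.1.2) h
  have e6 : psum a (fun pre => pre.count x) w % (12 * N) =
      psum a (fun pre => pre.count x) w' % (12 * N) :=
    congrArg (fun t => t.1.1.2) h
  have eX : w.count x % (2 * (12 * N)) = w'.count x % (2 * (12 * N)) :=
    congrArg (fun t => t.1.2) h
  have eA : w.count a % (2 * (12 * N)) = w'.count a % (2 * (12 * N)) :=
    congrArg Prod.snd h
  have eX1 : w.count x % (12 * N) = w'.count x % (12 * N) := Nat.ModEq.of_mul_left 2 eX
  have eA1 : w.count a % (12 * N) = w'.count a % (12 * N) := Nat.ModEq.of_mul_left 2 eA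
  have eXc : (w.count x).choose 2 % (12 * N) = (w'.count x).choose 2 % (12 * N) :=
    choose_two_mod (12 * N) _ _ eX
  have eAc : (w.count a).choose 2 % (12 * N) = (w'.count a).choose 2 % (12 * N) :=
    choose_two_mod (12 * N) _ _ eA
  have eXT : (w.count x + 1).choose 2 % (12 * N) = (w'.count x + 1).choose 2 % (12 * N) :=
    choose_two_mod (12 * N) _ _ (Nat.ModEq.add_right 1 eX)
  have eAT : (w.count a + 1).choose 2 % (12 * N) = (w'.count a + 1).choose 2 % (12 * N) :=
    choose_two_mod (12 * N) _ _ (Nat.ModEq.add_right 1 eA)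
  have cV := (ZMod.natCast_eq_natCast_iff' _ _ (12 * N)).2 eV
  have c1 := (ZMod.natCast_eq_natCast_iff' _ _ (12 * N)).2 e1
  have c2 := (ZMod.natCast_eq_natCast_iff' _ _ (12 * N)).2 e2
  have c3 := (ZMod.natCast_eq_natCast_iff' _ _ (12 * N)).2 e3
  have c4 := (ZMod.natCast_eq_natCast_iff' _ _ (12 * N)).2 e4
  have c5 := (ZMod.natCast_eq_natCast_iff' _ _ (12 * N)).2 e5
  have c6 := (ZMod.natCast_eq_natCast_iff' _ _ (12 * N)).2 e6
  have cX := (ZMod.natCast_eq_natCast_iff' _ _ (12 * N)).2 eX1
  have cA := (ZMod.natCast_eq_natCast_iff' _ _ (12 * N)).2 eA1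
  have cXc := (ZMod.natCast_eq_natCast_iff' _ _ (12 * N)).2 eXc
  have cAc := (ZMod.natCast_eq_natCast_iff' _ _ (12 * N)).2 eAc
  have cXT := (ZMod.natCast_eq_natCast_iff' _ _ (12 * N)).2 eXT
  have cAT := (ZMod.natCast_eq_natCast_iff' _ _ (12 * N)).2 eAT
  have iw := arrival_identity_bk (12 * N) hK1 x a hxa w
  have iw' := arrival_identity_bk (12 * N) hK1 x a hxa w'
  have tw := congrArg (Nat.cast : ℕ → ZMod (12 * N)) (psum_self_choose_add_bk x a hxa w)
  have tw' := congrArg (Nat.cast : ℕ → ZMod (12 * N)) (psum_self_choose_add_bk x a hxa w')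
  push_cast at tw tw'
  rw [cV, c1, c2, c3, c4, c5, c6, cX, cA, cXT, cAT] at iw
  rw [cXc, cAc] at tw
  have fin : ((12 * psum x (fun pre => pre.count x * (pre.count a).choose 2) w : ℕ) :
      ZMod (12 * N)) =
      ((12 * psum x (fun pre => pre.count x * (pre.count a).choose 2) w' : ℕ) :
        ZMod (12 * N)) := by
    push_cast
    linear_combination (-1 : ZMod (12 * N)) * iw + 6 * tw + iw' - 6 * tw'
  have fin2 : 12 * psum x (fun pre => pre.count x * (pre.count a).choose 2) w ≡
      12 * psum x (fun pre => pre.count x * (pre.count a).choose 2) w' [MOD 12 * N] :=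
    (ZMod.natCast_eq_natCast_iff _ _ (12 * N)).1 fin
  exact Nat.ModEq.mul_left_cancel' (by norm_num) fin2

end ArrivalDet

end Vale.Agent.Lib.P329
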