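import Vale.Agent.Lib.P329.CounterFree4

/-!
# P329: small automata that count first return blocks modulo three phases

Letters carry a weight class in `Fin 3` and a mark saying whether the letter is the counted
letter. The automata below follow the phase (the sum of the weight classes) and mark some of the
transitions that come back to phase zero:

* `DR`, `CR`: the phase automaton; the marked transitions are the returns to phase zero and,
  optionally, the counted letter read at phase zero (for a counted letter of weight class zero);
* `DV1`, `CV1`: a block is a first return to phase zero; the marked blocks are those that do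
  not start with the counted letter, and the blocks whose three letters of nonzero weight are
  all the counted letter;
* `DV2`, `CV2`: the marked blocks are those that do not end with the counted letter, and the
  blocks whose three letters of nonzero weight are all the counted letter.

In each case the automaton of the unmarked transitions is counter-free; this is certified by
the list of all maps induced by words, which was computed outside and is checked here.
-/

namespace Vale.Agent.Lib.P329

/-- All letter classes. -/
def clAll : List (Bool × Fin 3) :=
  [(false, 0), (false, 1), (false, 2), (true, 0), (true, 1), (true, 2)]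

theorem clAll_mem : ∀ c : Bool × Fin 3, c ∈ clAll := by decide

theorem cf_dUnc_map {α Q C : Type} (D : Q → C → Q) (Cn : Q → C → Bool) (f : α → C)
    (h : CF (dUnc D Cn)) : CF (dUnc (fun s a => D s (f a)) (fun s a => Cn s (f a))) := by
  have heq : dUnc (fun s a => D s (f a)) (fun s a => Cn s (f a)) =
      fun x a => dUnc D Cn x (f a) := by
    funext x a
    cases x <;> rfl
  rw [heq]
  exact cf_map (dUnc D Cn) f h

/-! ### The phase automaton with marked returns -/

/-- The phase automaton. -/
def DR (s : Fin 3) (cl : Bool × Fin 3) : Fin 3 := s + cl.2

/-- The marked transitions of the phase automaton: the returns to phase zero and, if `wb`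
holds, the counted letter of weight class zero read at phase zero. -/
def CR (wb : Bool) (s : Fin 3) (cl : Bool × Fin 3) : Bool :=
  if cl.2 = 0 then (wb && cl.1 && decide (s = 0)) else decide (s + cl.2 = 0)

theorem CR_home : ∀ (wb : Bool) (s : Fin 3) (cl : Bool × Fin 3),
    CR wb s cl = true → DR s cl = 0 := by decide

theorem CR_step : ∀ (s : Fin 3) (cl : Bool × Fin 3), (cl.1 = true → cl.2 = 0) →
    (if CR true s cl = true then 1 else 0) =
      (if CR false s cl = true then 1 else 0) + (if cl.1 = true ∧ s = 0 then 1 else 0) := by
  decide

/-- Enumeration of the states of the phase automaton with a sink. -/
def eR : List (Option (Fin 3)) := [none, some 0, some 1, some 2]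

theorem eR_mem : ∀ x : Option (Fin 3), x ∈ eR := by decide

/-- The maps induced by words on the unmarked phase automaton (counted letter marked). -/
def sR1 : List (List (Option (Fin 3))) :=
  [[none, some 0, some 1, some 2], [none, some 1, some 2, none], [none, some 2, none, some 1],
   [none, none, some 1, some 2], [none, some 2, none, none], [none, none, some 1, none],
   [none, none, none, some 2], [none, some 1, none, none], [none, none, some 2, none],
   [none, none, none, some 1], [none, none, none, none]]

/-- The maps induced by words on the unmarked phase automaton (returns only). -/
def sR0 : List (List (Option (Fin 3))) :=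
  [[none, some 0, some 1, some 2], [none, some 1, some 2, none], [none, some 2, none, some 1],
   [none, some 2, none, none], [none, none, some 1, none], [none, none, none, some 2],
   [none, some 1, none, none], [none, none, none, none], [none, none, some 2, none],
   [none, none, none, some 1]]

theorem cf_R1 : CF (dUnc DR (CR true)) :=
  cf_of_cert _ eR eR_mem clAll clAll_mem sR1 (by decide) (by decide +kernel) (by decide +kernel)

theorem cf_R0 : CF (dUnc DR (CR false)) :=
  cf_of_cert _ eR eR_mem clAll clAll_mem sR0 (by decide) (by decide +kernel) (by decide +kernel)

/-! ### Blocks by their first letter -/

/-- Whether a letter class is the counted letter of weight class one. -/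
def isb (cl : Bool × Fin 3) : Bool := cl.1 && decide (cl.2 = 1)

/-- The block automaton with a flag: `0` if the current block does not start with the counted
letter, `1` if its letters of nonzero weight so far are all the counted letter, `2` if it
starts with the counted letter and has met another letter of nonzero weight. -/
def DV1 (s : Fin 3 × Fin 3) (cl : Bool × Fin 3) : Fin 3 × Fin 3 :=
  if cl.2 = 0 then s
  else if s.1 = 0 then (cl.2, if isb cl = true then 1 else 0)
  else if s.1 + cl.2 = 0 then (0, 0)
  else (s.1 + cl.2, if s.2 = 1 then (if isb cl = true ∧ s.1 = 1 then 1 else 2) else s.2)

/-- The marked transitions: the ends of the blocks that do not start with the counted letter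
and of the blocks made of three counted letters. -/
def CV1 (s : Fin 3 × Fin 3) (cl : Bool × Fin 3) : Bool :=
  decide (cl.2 ≠ 0 ∧ s.1 ≠ 0 ∧ s.1 + cl.2 = 0 ∧
    (s.2 = 0 ∨ (s.2 = 1 ∧ isb cl = true ∧ s.1 = 2)))

theorem CV1_home : ∀ (s : Fin 3 × Fin 3) (cl : Bool × Fin 3),
    CV1 s cl = true → DV1 s cl = (0, 0) := by decide

/-- Enumeration of the states of the first block automaton with a sink. -/
def eV1 : List (Option (Fin 3 × Fin 3)) :=
  [none, some (0, 0), some (0, 1), some (0, 2), some (1, 0), some (1, 1), some (1, 2), some (2, 0), some (2, 1), some (2, 2)]

theorem eV1_mem : ∀ x : Option (Fin 3 × Fin 3), x ∈ eV1 := by decide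

/-- The maps induced by words on the unmarked first block automaton. -/
def sV1 : List (List (Option (Fin 3 × Fin 3))) :=
  [
   [none, some (0, 0), some (0, 1), some (0, 2), some (1, 0), some (1, 1), some (1, 2), some (2, 0), some (2, 1), some (2, 2)],
   [none, some (1, 0), some (1, 0), some (1, 0), some (2, 0), some (2, 2), some (2, 2), none, some (0, 0), some (0, 0)],
   [none, some (2, 0), some (2, 0), some (2, 0), none, some (0, 0), some (0, 0), some (1, 0), some (1, 2), some (1, 2)],
   [none, some (1, 1), some (1, 1), some (1, 1), some (2, 0), some (2, 1), some (2, 2), none, none, some (0, 0)],
   [none, some (2, 0), some (2, 0), some (2, 0), none, some (0, 0), some (0, 0), none, some (1, 0), some (1, 0)],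
   [none, none, none, none, some (1, 0), some (1, 2), some (1, 2), none, some (2, 0), some (2, 0)],
   [none, some (2, 0), some (2, 0), some (2, 0), none, some (0, 0), some (0, 0), none, some (1, 1), some (1, 1)],
   [none, none, none, none, none, some (1, 0), some (1, 0), some (2, 0), some (2, 2), some (2, 2)],
   [none, some (1, 0), some (1, 0), some (1, 0), none, some (2, 0), some (2, 0), none, some (0, 0), some (0, 0)],
   [none, none, none, none, none, some (1, 1), some (1, 1), some (2, 0), some (2, 2), some (2, 2)],
   [none, some (2, 2), some (2, 2), some (2, 2), none, some (0, 0), some (0, 0), none, none, some (1, 0)],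
   [none, some (0, 0), some (0, 0), some (0, 0), some (1, 0), some (1, 2), some (1, 2), none, none, some (2, 0)],
   [none, some (2, 1), some (2, 1), some (2, 1), none, none, some (0, 0), none, none, some (1, 1)],
   [none, none, none, none, none, some (1, 0), some (1, 0), none, some (2, 0), some (2, 0)],
   [none, some (1, 0), some (1, 0), some (1, 0), none, some (2, 0), some (2, 0), none, none, none],
   [none, none, none, none, none, some (1, 1), some (1, 1), none, some (2, 0), some (2, 0)],
   [none, none, none, none, some (2, 0), some (2, 2), some (2, 2), none, none, none],
   [none, none, none, none, none, some (0, 0), some (0, 0), none, some (1, 0), some (1, 0)],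
   [none, none, none, none, none, some (1, 0), some (1, 0), none, some (2, 2), some (2, 2)],
   [none, none, none, none, none, some (1, 1), some (1, 1), none, some (2, 1), some (2, 1)],
   [none, none, none, none, none, some (2, 0), some (2, 0), none, some (0, 0), some (0, 0)],
   [none, none, none, none, none, none, none, some (1, 0), some (1, 2), some (1, 2)],
   [none, some (2, 0), some (2, 0), some (2, 0), none, none, none, none, some (1, 0), some (1, 0)],
   [none, some (2, 0), some (2, 0), some (2, 0), none, none, none, none, some (1, 1), some (1, 1)],
   [none, none, none, none, none, some (2, 2), some (2, 2), none, some (0, 0), some (0, 0)],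
   [none, none, none, none, none, some (0, 0), some (0, 0), some (1, 0), some (1, 2), some (1, 2)],
   [none, none, none, none, none, some (2, 1), some (2, 1), none, some (0, 0), some (0, 0)],
   [none, some (0, 0), some (0, 0), some (0, 0), none, some (1, 0), some (1, 0), none, none, some (2, 0)],
   [none, some (1, 2), some (1, 2), some (1, 2), none, some (2, 0), some (2, 0), none, none, none],
   [none, some (0, 0), some (0, 0), some (0, 0), none, some (1, 1), some (1, 1), none, none, some (2, 0)],
   [none, some (1, 0), some (1, 0), some (1, 0), some (2, 0), some (2, 2), some (2, 2), none, none, none],
   [none, some (2, 0), some (2, 0), some (2, 0), none, some (0, 0), some (0, 0), none, none, some (1, 0)],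
   [none, some (1, 1), some (1, 1), some (1, 1), some (2, 0), some (2, 2), some (2, 2), none, none, none],
   [none, some (0, 0), some (0, 0), some (0, 0), none, none, some (1, 0), none, none, some (2, 2)],
   [none, some (1, 2), some (1, 2), some (1, 2), none, none, some (2, 0), none, none, some (0, 0)],
   [none, none, none, none, none, none, some (1, 1), none, none, some (2, 1)],
   [none, none, none, none, none, some (2, 0), some (2, 0), none, none, none],
   [none, none, none, none, none, none, none, none, some (1, 0), some (1, 0)],
   [none, some (2, 0), some (2, 0), some (2, 0), none, none, none, none, none, none],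
   [none, none, none, none, none, some (1, 0), some (1, 0), none, none, none],
   [none, none, none, none, none, some (2, 2), some (2, 2), none, none, none],
   [none, none, none, none, none, some (2, 1), some (2, 1), none, none, none],
   [none, none, none, none, none, some (0, 0), some (0, 0), none, none, none],
   [none, none, none, none, some (1, 0), some (1, 2), some (1, 2), none, none, none],
   [none, none, none, none, none, none, none, none, some (1, 2), some (1, 2)],
   [none, none, none, none, none, some (0, 0), some (0, 0), none, some (1, 2), some (1, 2)],
   [none, none, none, none, none, none, none, none, some (1, 1), some (1, 1)],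
   [none, none, none, none, none, none, none, some (2, 0), some (2, 2), some (2, 2)],
   [none, none, none, none, none, none, none, none, some (0, 0), some (0, 0)],
   [none, none, none, none, none, none, none, none, some (2, 0), some (2, 0)],
   [none, some (1, 0), some (1, 0), some (1, 0), none, none, none, none, none, none],
   [none, none, none, none, none, none, none, none, some (2, 2), some (2, 2)],
   [none, some (1, 0), some (1, 0), some (1, 0), none, none, none, none, some (0, 0), some (0, 0)],
   [none, none, none, none, none, none, none, none, some (2, 1), some (2, 1)],
   [none, none, none, none, none, some (1, 2), some (1, 2), none, some (2, 0), some (2, 0)],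
   [none, none, none, none, none, some (0, 0), some (0, 0), none, some (1, 1), some (1, 1)],
   [none, some (2, 0), some (2, 0), some (2, 0), none, none, none, none, none, some (1, 0)],
   [none, some (1, 1), some (1, 1), some (1, 1), none, some (2, 0), some (2, 0), none, none, none],
   [none, some (2, 2), some (2, 2), some (2, 2), none, none, none, none, none, none],
   [none, some (0, 0), some (0, 0), some (0, 0), none, some (1, 0), some (1, 0), none, none, none],
   [none, some (1, 0), some (1, 0), some (1, 0), none, some (2, 2), some (2, 2), none, none, none],
   [none, some (1, 1), some (1, 1), some (1, 1), none, some (2, 1), some (2, 1), none, none, none],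
   [none, some (2, 0), some (2, 0), some (2, 0), none, some (0, 0), some (0, 0), none, none, none],
   [none, none, none, none, none, some (1, 0), some (1, 0), none, none, some (2, 0)],
   [none, none, none, none, none, some (1, 1), some (1, 1), none, none, some (2, 0)],
   [none, some (2, 2), some (2, 2), some (2, 2), none, some (0, 0), some (0, 0), none, none, none],
   [none, some (0, 0), some (0, 0), some (0, 0), some (1, 0), some (1, 2), some (1, 2), none, none, none],
   [none, some (2, 1), some (2, 1), some (2, 1), none, some (0, 0), some (0, 0), none, none, none],
   [none, some (1, 0), some (1, 0), some (1, 0), none, none, some (2, 0), none, none, some (0, 0)],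
   [none, some (2, 0), some (2, 0), some (2, 0), none, none, none, none, none, some (1, 2)],
   [none, some (1, 1), some (1, 1), some (1, 1), none, none, some (2, 0), none, none, some (0, 0)],
   [none, some (2, 2), some (2, 2), some (2, 2), none, none, none, none, none, some (1, 0)],
   [none, some (0, 0), some (0, 0), some (0, 0), none, none, some (1, 0), none, none, some (2, 0)],
   [none, some (2, 2), some (2, 2), some (2, 2), none, none, none, none, none, some (1, 1)],
   [none, none, none, none, none, none, some (2, 2), none, none, some (0, 0)],
   [none, none, none, none, none, none, some (0, 0), none, none, some (1, 2)],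
   [none, none, none, none, none, none, some (2, 1), none, none, none],
   [none, none, none, none, none, none, none, none, none, none],
   [none, none, none, none, none, some (1, 2), some (1, 2), none, none, none],
   [none, none, none, none, none, some (1, 1), some (1, 1), none, none, none],
   [none, none, none, none, none, some (1, 1), some (1, 1), none, some (2, 2), some (2, 2)],
   [none, none, none, none, none, none, none, none, none, some (2, 0)],
   [none, some (2, 1), some (2, 1), some (2, 1), none, none, none, none, none, none],
   [none, some (0, 0), some (0, 0), some (0, 0), none, none, none, none, none, none],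
   [none, some (1, 2), some (1, 2), some (1, 2), none, none, none, none, none, none],
   [none, some (0, 0), some (0, 0), some (0, 0), none, some (1, 2), some (1, 2), none, none, none],
   [none, none, none, none, none, none, none, none, none, some (1, 0)],
   [none, none, none, none, none, some (0, 0), some (0, 0), none, none, some (1, 0)],
   [none, some (0, 0), some (0, 0), some (0, 0), none, some (1, 1), some (1, 1), none, none, none],
   [none, none, none, none, none, none, some (1, 0), none, none, some (2, 0)],
   [none, some (2, 0), some (2, 0), some (2, 0), none, none, none, none, none, some (1, 1)],
   [none, none, none, none, none, none, none, none, none, some (2, 2)],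
   [none, some (1, 0), some (1, 0), some (1, 0), none, none, none, none, none, some (0, 0)],
   [none, some (2, 1), some (2, 1), some (2, 1), none, none, none, none, none, some (1, 1)],
   [none, some (0, 0), some (0, 0), some (0, 0), none, none, none, none, none, some (2, 0)],
   [none, some (1, 0), some (1, 0), some (1, 0), none, none, some (2, 0), none, none, none],
   [none, some (1, 1), some (1, 1), some (1, 1), none, none, some (2, 0), none, none, none],
   [none, some (0, 0), some (0, 0), some (0, 0), none, none, none, none, none, some (2, 2)],
   [none, some (1, 2), some (1, 2), some (1, 2), none, none, none, none, none, some (0, 0)],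
   [none, some (0, 0), some (0, 0), some (0, 0), none, none, none, none, none, some (2, 1)],
   [none, none, none, none, none, none, some (0, 0), none, none, some (1, 0)],
   [none, none, none, none, none, none, some (1, 2), none, none, some (2, 0)],
   [none, none, none, none, none, none, some (0, 0), none, none, some (1, 1)],
   [none, none, none, none, none, none, some (1, 0), none, none, some (2, 2)],
   [none, none, none, none, none, none, some (2, 0), none, none, some (0, 0)],
   [none, none, none, none, none, none, some (1, 1), none, none, some (2, 2)],
   [none, none, none, none, none, none, some (0, 0), none, none, none],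
   [none, none, none, none, none, none, some (1, 2), none, none, none],
   [none, some (1, 1), some (1, 1), some (1, 1), none, none, none, none, none, none],
   [none, some (1, 1), some (1, 1), some (1, 1), none, some (2, 2), some (2, 2), none, none, none],
   [none, none, none, none, none, none, some (2, 0), none, none, none],
   [none, none, none, none, none, none, none, none, none, some (2, 1)],
   [none, none, none, none, none, none, none, none, none, some (0, 0)],
   [none, none, none, none, none, none, none, none, none, some (1, 2)],
   [none, none, none, none, none, none, some (1, 0), none, none, none],
   [none, some (0, 0), some (0, 0), some (0, 0), none, none, some (1, 0), none, none, none],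
   [none, some (1, 1), some (1, 1), some (1, 1), none, none, none, none, none, some (0, 0)],
   [none, none, none, none, none, none, some (1, 1), none, none, some (2, 0)],
   [none, none, none, none, none, none, some (2, 2), none, none, none],
   [none, none, none, none, none, none, none, none, none, some (1, 1)],
   [none, none, none, none, none, none, some (2, 1), none, none, some (0, 0)],
   [none, none, none, none, none, none, some (1, 1), none, none, none]]

theorem cf_V1 : CF (dUnc DV1 CV1) :=
  cf_of_cert _ eV1 eV1_mem clAll clAll_mem sV1 (by decide +kernel) (by decide +kernel)
    (by decide +kernel)

/-! ### Blocks by their last letter -/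

/-- The block automaton with a flag saying whether the letters of nonzero weight of the
current block so far are all the counted letter. -/
def DV2 (s : Fin 3 × Bool) (cl : Bool × Fin 3) : Fin 3 × Bool :=
  if cl.2 = 0 then s
  else if s.1 = 0 then (cl.2, isb cl)
  else if s.1 + cl.2 = 0 then (0, false)
  else (s.1 + cl.2, s.2 && isb cl && decide (s.1 = 1))

/-- The marked transitions: the ends of the blocks that do not end with the counted letter
and of the blocks made of three counted letters. -/
def CV2 (s : Fin 3 × Bool) (cl : Bool × Fin 3) : Bool :=
  decide (cl.2 ≠ 0 ∧ s.1 ≠ 0 ∧ s.1 + cl.2 = 0 ∧ (isb cl = false ∨ (s.2 = true ∧ s.1 = 2)))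

theorem CV2_home : ∀ (s : Fin 3 × Bool) (cl : Bool × Fin 3),
    CV2 s cl = true → DV2 s cl = (0, false) := by decide

/-- Enumeration of the states of the second block automaton with a sink. -/
def eV2 : List (Option (Fin 3 × Bool)) :=
  [none, some (0, false), some (0, true), some (1, false), some (1, true), some (2, false), some (2, true)]

theorem eV2_mem : ∀ x : Option (Fin 3 × Bool), x ∈ eV2 := by decide

/-- The maps induced by words on the unmarked second block automaton. -/
def sV2 : List (List (Option (Fin 3 × Bool))) :=
  [
   [none, some (0, false), some (0, true), some (1, false), some (1, true), some (2, false), some (2, true)],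
   [none, some (1, false), some (1, false), some (2, false), some (2, false), none, none],
   [none, some (2, false), some (2, false), none, none, some (1, false), some (1, false)],
   [none, some (1, true), some (1, true), some (2, false), some (2, true), some (0, false), none],
   [none, some (2, false), some (2, false), none, none, none, none],
   [none, none, none, some (1, false), some (1, false), none, none],
   [none, some (2, false), some (2, false), some (0, false), some (0, false), none, none],
   [none, none, none, none, none, some (2, false), some (2, false)],
   [none, some (1, false), some (1, false), none, none, none, none],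
   [none, some (0, false), some (0, false), none, none, some (2, false), some (2, false)],
   [none, some (2, false), some (2, false), none, none, some (1, false), none],
   [none, none, none, some (1, false), some (1, false), some (2, false), none],
   [none, some (2, true), some (2, true), some (0, false), none, some (1, true), none],
   [none, none, none, none, none, none, none],
   [none, some (0, false), some (0, false), none, none, none, none],
   [none, none, none, some (2, false), some (2, false), none, none],
   [none, some (0, false), some (0, false), some (1, true), some (1, true), none, none],
   [none, none, none, none, none, some (1, false), some (1, false)],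
   [none, none, none, none, none, some (0, false), some (0, false)],
   [none, some (1, true), some (1, true), none, none, some (0, false), some (0, false)],
   [none, none, none, none, none, some (2, false), none],
   [none, some (0, false), some (0, false), none, none, some (2, false), none],
   [none, none, none, none, none, some (1, false), none],
   [none, none, none, some (2, false), some (2, false), some (0, false), none],
   [none, none, none, some (1, false), none, some (2, false), none],
   [none, some (1, false), some (1, false), some (2, false), none, none, none],
   [none, none, none, some (1, true), none, some (2, true), none],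
   [none, some (1, true), some (1, true), none, none, none, none],
   [none, none, none, some (0, false), some (0, false), none, none],
   [none, some (1, true), some (1, true), some (2, true), some (2, true), none, none],
   [none, none, none, none, none, some (1, true), some (1, true)],
   [none, some (2, true), some (2, true), none, none, some (1, true), some (1, true)],
   [none, none, none, none, none, some (0, false), none],
   [none, some (1, true), some (1, true), none, none, some (0, false), none],
   [none, none, none, some (0, false), some (0, false), some (1, true), none],
   [none, none, none, some (2, false), none, none, none],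
   [none, none, none, some (2, false), none, some (0, false), none],
   [none, none, none, some (1, false), none, none, none],
   [none, some (2, false), some (2, false), some (0, false), none, none, none],
   [none, none, none, some (2, true), none, none, none],
   [none, some (2, true), some (2, true), none, none, none, none],
   [none, none, none, some (1, true), some (1, true), none, none],
   [none, none, none, none, none, some (2, true), some (2, true)],
   [none, none, none, none, none, some (1, true), none],
   [none, some (2, true), some (2, true), none, none, some (1, true), none],
   [none, none, none, some (1, true), some (1, true), some (2, true), none],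
   [none, none, none, some (0, false), none, none, none],
   [none, none, none, some (0, false), none, some (1, true), none],
   [none, some (0, false), some (0, false), some (1, true), none, none, none],
   [none, none, none, some (2, true), some (2, true), none, none],
   [none, none, none, none, none, some (2, true), none],
   [none, none, none, some (1, true), none, none, none],
   [none, some (1, true), some (1, true), some (2, true), none, none, none]]

theorem cf_V2 : CF (dUnc DV2 CV2) :=
  cf_of_cert _ eV2 eV2_mem clAll clAll_mem sV2 (by decide +kernel) (by decide +kernel)
    (by decide +kernel)

/-! ### The two block automata side by side -/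

/-- Whether the current block starts with the counted letter. -/
def fl (s : Fin 3 × Fin 3) : ℕ := if s.2 = 0 then 0 else 1

theorem V_step1 : ∀ (s1 : Fin 3 × Fin 3) (cl : Bool × Fin 3), (cl.1 = true → cl.2 = 1) →
    (s1.1 = 0 → s1.2 = 0) →
    (DV1 s1 cl).1 = s1.1 + cl.2 ∧ ((DV1 s1 cl).1 = 0 → (DV1 s1 cl).2 = 0) := by
  decide

/-- The hypotheses on a pair of states of the two block automata, as a Boolean test. -/
def vHyp (s1 : Fin 3 × Fin 3) (s2 : Fin 3 × Bool) (cl : Bool × Fin 3) : Bool :=
  decide (cl.1 = true → cl.2 = 1) && decide (s2.1 = s1.1) &&
    decide (s2.2 = true ↔ s1.2 = 1) && decide (s1.1 = 0 → s1.2 = 0)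

/-- The conclusions on the next pair of states, as a Boolean test. -/
def vConcl (s1 : Fin 3 × Fin 3) (s2 : Fin 3 × Bool) (cl : Bool × Fin 3) : Bool :=
  decide ((DV2 s2 cl).1 = (DV1 s1 cl).1) &&
    decide ((DV2 s2 cl).2 = true ↔ (DV1 s1 cl).2 = 1) &&
    decide ((if CV2 s2 cl = true then 1 else 0) + fl (DV1 s1 cl) +
        (if cl.1 = true ∧ s1.1 = 2 then 1 else 0) =
      (if CV1 s1 cl = true then 1 else 0) + (if cl.1 = true ∧ s1.1 = 0 then 1 else 0) +
        fl s1)

theorem V_step2 : ∀ (s1 : Fin 3 × Fin 3) (s2 : Fin 3 × Bool) (cl : Bool × Fin 3),
    vHyp s1 s2 cl = true → vConcl s1 s2 cl = true := by
  decide

theorem V_step (s1 : Fin 3 × Fin 3) (s2 : Fin 3 × Bool) (cl : Bool × Fin 3)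
    (h1 : cl.1 = true → cl.2 = 1) (h2 : s2.1 = s1.1) (h3 : s2.2 = true ↔ s1.2 = 1)
    (h4 : s1.1 = 0 → s1.2 = 0) :
    (DV1 s1 cl).1 = s1.1 + cl.2 ∧ (DV2 s2 cl).1 = (DV1 s1 cl).1 ∧
    ((DV2 s2 cl).2 = true ↔ (DV1 s1 cl).2 = 1) ∧ ((DV1 s1 cl).1 = 0 → (DV1 s1 cl).2 = 0) ∧
    (if CV2 s2 cl = true then 1 else 0) + fl (DV1 s1 cl) +
        (if cl.1 = true ∧ s1.1 = 2 then 1 else 0) =
      (if CV1 s1 cl = true then 1 else 0) + (if cl.1 = true ∧ s1.1 = 0 then 1 else 0) +
        fl s1 := by
  have hyp : vHyp s1 s2 cl = true := by
    simp only [vHyp, Bool.and_eq_true, decide_eq_true_eq]
    exact ⟨⟨⟨h1, h2⟩, h3⟩, h4⟩
  have hc := V_step2 s1 s2 cl hyp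
  simp only [vConcl, Bool.and_eq_true, decide_eq_true_eq] at hc
  obtain ⟨⟨c1, c2⟩, c3⟩ := hc
  obtain ⟨d1, d2⟩ := V_step1 s1 cl h1 h4
  exact ⟨d1, c1, c2, d2, c3⟩

/-! ### Counting one letter -/

theorem cf_U : CF (dUnc (fun (_ : Unit) (_ : Bool) => ()) (fun _ c => c)) :=
  cf_of_cert _ [none, some ()] (by decide) [false, true] (by decide)
    [[none, some ()], [none, none]] (by decide) (by decide) (by decide)

end Vale.Agent.Lib.P329
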