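import Vale.Agent.Lib.P329.Blocks

/-!
# P329: phase counts modulo any number are determined by tests of star height at most one

For weights `k` on the letters, a letter `b`, an offset `c` and a modulus `M`, the number
`tc k b c w` of occurrences of `b` in `w` at phase `- c` modulo three is determined modulo `M`
by finitely many tests of star height at most one. For a letter of weight class zero this
follows from counting returns; for a letter of nonzero weight class the blocks that start with
`b` and the blocks that end with `b` are counted, which gives the difference of two phase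
counts, and the three phase counts add up to the number of occurrences of `b`.
-/

namespace Vale.Agent.Lib.P329

open Language

/-- The residue of a natural number modulo three. -/
def ph3 (n : ℕ) : Fin 3 := ⟨n % 3, Nat.mod_lt _ (by norm_num)⟩

theorem ph3_zero_iff (n : ℕ) : ph3 n = 0 ↔ n % 3 = 0 := by
  constructor
  · intro h
    exact congrArg Fin.val h
  · intro h
    exact Fin.ext h

theorem ph3_two_iff (c s : ℕ) : ph3 (c + s) = 2 ↔ (c + 1 + s) % 3 = 0 := by
  constructor
  · intro h
    have h1 := congrArg Fin.val h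
    change (c + s) % 3 = 2 at h1
    omega
  · intro h
    apply Fin.ext
    show (c + s) % 3 = 2
    omega

/-- Initial state of the first block automaton at offset `c`. -/
def init1 (c : ℕ) : Fin 3 × Fin 3 := (ph3 c, 0)

/-- Initial state of the second block automaton at offset `c`. -/
def init2 (c : ℕ) : Fin 3 × Bool := (ph3 c, false)

section Sem

variable {α : Type} [DecidableEq α]

/-- The class of a letter: whether it is the counted letter `b`, and its weight class. -/
def lcl (k : α → ℕ) (b : α) (a : α) : Bool × Fin 3 := (decide (a = b), wcl k a)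

theorem lcl_fst (k : α → ℕ) (b a : α) : (lcl k b a).1 = true ↔ a = b := by
  simp [lcl]

omit [DecidableEq α] in
theorem ph3_snoc (k : α → ℕ) (c : ℕ) (w : List α) (a : α) :
    ph3 (c + wsum k (w ++ [a])) = ph3 (c + wsum k w) + wcl k a := by
  apply Fin.ext
  rw [Fin.val_add]
  simp only [ph3, wcl, wsum_snoc]
  omega

theorem run_R (k : α → ℕ) (b : α) (c : ℕ) (w : List α) :
    run (fun s a => DR s (lcl k b a)) (ph3 c) w = ph3 (c + wsum k w) := by
  induction w using List.reverseRecOn with
  | nil => simp [wsum]
  | append_singleton w a ih =>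
    rw [run_append, ih, ph3_snoc]
    rfl

theorem cnt_R (k : α → ℕ) (b : α) (hb : wcl k b = 0) (c : ℕ) (w : List α) :
    cntN (fun s a => DR s (lcl k b a)) (fun s a => CR true s (lcl k b a)) (ph3 c) w =
      cntN (fun s a => DR s (lcl k b a)) (fun s a => CR false s (lcl k b a)) (ph3 c) w +
        tc k b c w := by
  induction w using List.reverseRecOn with
  | nil => simp [cntN, tc]
  | append_singleton w a ih =>
    rw [cntN_snoc, cntN_snoc, tc_snoc, ih]
    simp only [run_R]
    have hcl : (lcl k b a).1 = true → (lcl k b a).2 = 0 := by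
      intro h
      rw [(lcl_fst k b a).1 h]
      exact hb
    have hstep := CR_step (ph3 (c + wsum k w)) (lcl k b a) hcl
    by_cases hcond : a = b ∧ (c + wsum k w) % 3 = 0
    · have hcond' : (lcl k b a).1 = true ∧ ph3 (c + wsum k w) = 0 :=
        ⟨(lcl_fst k b a).2 hcond.1, (ph3_zero_iff _).2 hcond.2⟩
      rw [if_pos hcond'] at hstep
      rw [if_pos hcond]
      omega
    · have hcond' : ¬ ((lcl k b a).1 = true ∧ ph3 (c + wsum k w) = 0) := by
        rintro ⟨h1, h2⟩
        exact hcond ⟨(lcl_fst k b a).1 h1, (ph3_zero_iff _).1 h2⟩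
      rw [if_neg hcond'] at hstep
      rw [if_neg hcond]
      omega

theorem inv_V (k : α → ℕ) (b : α) (hb : wcl k b = 1) (c : ℕ) (w : List α) :
    (run (fun s a => DV1 s (lcl k b a)) (init1 c) w).1 = ph3 (c + wsum k w) ∧
    (run (fun s a => DV2 s (lcl k b a)) (init2 c) w).1 =
      (run (fun s a => DV1 s (lcl k b a)) (init1 c) w).1 ∧
    ((run (fun s a => DV2 s (lcl k b a)) (init2 c) w).2 = true ↔
      (run (fun s a => DV1 s (lcl k b a)) (init1 c) w).2 = 1) ∧
    ((run (fun s a => DV1 s (lcl k b a)) (init1 c) w).1 = 0 →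
      (run (fun s a => DV1 s (lcl k b a)) (init1 c) w).2 = 0) ∧
    cntN (fun s a => DV2 s (lcl k b a)) (fun s a => CV2 s (lcl k b a)) (init2 c) w +
        fl (run (fun s a => DV1 s (lcl k b a)) (init1 c) w) + tc k b (c + 1) w =
      cntN (fun s a => DV1 s (lcl k b a)) (fun s a => CV1 s (lcl k b a)) (init1 c) w +
        tc k b c w := by
  induction w using List.reverseRecOn with
  | nil =>
    refine ⟨by simp [init1, wsum], rfl, by simp [init1, init2], fun _ => rfl,
      by simp [cntN, tc, fl, init1]⟩
  | append_singleton w a ih =>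
    obtain ⟨h1, h2, h3, h4, h5⟩ := ih
    have hcl : (lcl k b a).1 = true → (lcl k b a).2 = 1 := by
      intro h
      rw [(lcl_fst k b a).1 h]
      exact hb
    obtain ⟨g1, g2, g3, g4, g5⟩ := V_step _ _ (lcl k b a) hcl h2 h3 h4
    have r1 : run (fun s a => DV1 s (lcl k b a)) (init1 c) (w ++ [a]) =
        DV1 (run (fun s a => DV1 s (lcl k b a)) (init1 c) w) (lcl k b a) := by
      rw [run_append]
      rfl
    have r2 : run (fun s a => DV2 s (lcl k b a)) (init2 c) (w ++ [a]) =
        DV2 (run (fun s a => DV2 s (lcl k b a)) (init2 c) w) (lcl k b a) := by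
      rw [run_append]
      rfl
    rw [r1, r2]
    refine ⟨?_, g2, g3, g4, ?_⟩
    · rw [g1, h1, ph3_snoc]
      rfl
    · rw [cntN_snoc, cntN_snoc, tc_snoc, tc_snoc]
      have hiff0 : ((lcl k b a).1 = true ∧
          (run (fun s a => DV1 s (lcl k b a)) (init1 c) w).1 = 0) ↔
          (a = b ∧ (c + wsum k w) % 3 = 0) := by
        rw [lcl_fst, h1, ph3_zero_iff]
      have hiff2 : ((lcl k b a).1 = true ∧
          (run (fun s a => DV1 s (lcl k b a)) (init1 c) w).1 = 2) ↔
          (a = b ∧ (c + 1 + wsum k w) % 3 = 0) := by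
        rw [lcl_fst, h1, ph3_two_iff]
      have q0 : (if (lcl k b a).1 = true ∧
          (run (fun s a => DV1 s (lcl k b a)) (init1 c) w).1 = 0 then 1 else 0 : ℕ) =
          (if a = b ∧ (c + wsum k w) % 3 = 0 then 1 else 0) := if_congr hiff0 rfl rfl
      have q2 : (if (lcl k b a).1 = true ∧
          (run (fun s a => DV1 s (lcl k b a)) (init1 c) w).1 = 2 then 1 else 0 : ℕ) =
          (if a = b ∧ (c + 1 + wsum k w) % 3 = 0 then 1 else 0) := if_congr hiff2 rfl rfl
      rw [q0, q2] at g5
      omega

theorem tc_total (k : α → ℕ) (b : α) (c : ℕ) (w : List α) :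
    tc k b c w + tc k b (c + 1) w + tc k b (c + 2) w = w.count b := by
  induction w generalizing c with
  | nil => simp [tc]
  | cons a w ih =>
    have h := ih (c + k a)
    simp only [tc]
    rw [show c + 1 + k a = c + k a + 1 by omega, show c + 2 + k a = c + k a + 2 by omega]
    by_cases hab : a = b
    · subst hab
      rw [List.count_cons_self]
      rcases (by omega : c % 3 = 0 ∨ c % 3 = 1 ∨ c % 3 = 2) with h0 | h0 | h0
      · rw [if_pos ⟨rfl, h0⟩, if_neg (fun hh => by omega), if_neg (fun hh => by omega)]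
        omega
      · rw [if_neg (fun hh => by omega), if_neg (fun hh => by omega),
          if_pos ⟨rfl, by omega⟩]
        omega
      · rw [if_neg (fun hh => by omega), if_pos ⟨rfl, by omega⟩,
          if_neg (fun hh => by omega)]
        omega
    · rw [List.count_cons_of_ne (fun hh => hab hh), if_neg (fun hh => hab hh.1),
        if_neg (fun hh => hab hh.1), if_neg (fun hh => hab hh.1)]
      omega

theorem tc_scale (k : α → ℕ) (b : α) (c : ℕ) (w : List α) :
    tc k b c w = tc (fun a => 2 * k a) b (2 * c) w := by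
  induction w generalizing c with
  | nil => rfl
  | cons a w ih =>
    simp only [tc]
    rw [ih (c + k a), show 2 * (c + k a) = 2 * c + 2 * k a by ring]
    congr 1
    by_cases h : a = b ∧ c % 3 = 0
    · rw [if_pos h, if_pos ⟨h.1, by omega⟩]
    · rw [if_neg h, if_neg (fun hh => h ⟨hh.1, by omega⟩)]

theorem cntN_unit (b : α) (w : List α) :
    cntN (fun (_ : Unit) (_ : α) => ()) (fun _ a => decide (a = b)) () w = w.count b := by
  induction w with
  | nil => rfl
  | cons a w ih =>
    show (if decide (a = b) = true then 1 else 0) +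
      cntN (fun (_ : Unit) (_ : α) => ()) (fun _ a => decide (a = b)) () w = (a :: w).count b
    rw [ih]
    by_cases h : a = b
    · subst h
      rw [List.count_cons_self]
      simp
      omega
    · rw [List.count_cons_of_ne (fun hh => h hh)]
      simp [h]

end Sem

/-! ### Detection -/

section Det

variable {α : Type} [Fintype α] [DecidableEq α]

omit [Fintype α] [DecidableEq α] in
theorem Detects.of_eq {β γ : Type} {f : List α → β} (h : Detects f) (g : List α → γ)
    (hg : ∀ w w', f w = f w' → g w = g w') : Detects g := by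
  obtain ⟨T, hT, hf⟩ := h
  exact ⟨T, hT, fun w w' hw => hg w w' (hf w w' hw)⟩

theorem detects_letter_count (b : α) (N : ℕ) (hN : 0 < N) :
    Detects (fun w : List α => w.count b % N) := by
  have h := detects_cnt (fun (_ : Unit) (_ : α) => ()) (fun _ a => decide (a = b)) N hN ()
    (fun _ _ _ => rfl)
    (cf_dUnc_map (fun (_ : Unit) (_ : Bool) => ()) (fun _ c => c) (fun a => decide (a = b))
      cf_U) ()
  refine (h.comp Prod.snd).congr ?_
  intro w
  show cntN (fun (_ : Unit) (_ : α) => ()) (fun _ a => decide (a = b)) () w % N =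
    w.count b % N
  rw [cntN_unit]

theorem detects_tc0 (k : α → ℕ) (b : α) (hb : wcl k b = 0) (c M : ℕ) (hM : 0 < M) :
    Detects (fun w : List α => tc k b c w % M) := by
  have h1 := detects_cnt (fun s a => DR s (lcl k b a)) (fun s a => CR true s (lcl k b a)) M hM
    0 (fun s a h => CR_home true s (lcl k b a) h) (cf_dUnc_map DR (CR true) (lcl k b) cf_R1)
    (ph3 c)
  have h2 := detects_cnt (fun s a => DR s (lcl k b a)) (fun s a => CR false s (lcl k b a)) M hM
    0 (fun s a h => CR_home false s (lcl k b a) h) (cf_dUnc_map DR (CR false) (lcl k b) cf_R0)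
    (ph3 c)
  refine (h1.prod h2).of_eq _ ?_
  intro w w' h
  have e1 : cntN (fun s a => DR s (lcl k b a)) (fun s a => CR true s (lcl k b a)) (ph3 c) w % M
      = cntN (fun s a => DR s (lcl k b a)) (fun s a => CR true s (lcl k b a)) (ph3 c) w' % M :=
    congrArg (fun x => x.1.2) h
  have e2 : cntN (fun s a => DR s (lcl k b a)) (fun s a => CR false s (lcl k b a)) (ph3 c) w % M
      = cntN (fun s a => DR s (lcl k b a)) (fun s a => CR false s (lcl k b a)) (ph3 c) w' % M :=
    congrArg (fun x => x.2.2) h
  rw [cnt_R k b hb c w, cnt_R k b hb c w'] at e1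
  exact Nat.ModEq.add_left_cancel e2 e1

theorem detects_tc1 (k : α → ℕ) (b : α) (hb : wcl k b = 1) (c M : ℕ) (hM : 0 < M) :
    Detects (fun w : List α => tc k b c w % M) := by
  have hM3 : 0 < 3 * M := by omega
  have v1 := fun c' => detects_cnt (fun s a => DV1 s (lcl k b a))
    (fun s a => CV1 s (lcl k b a)) (3 * M) hM3 (0, 0)
    (fun s a h => CV1_home s (lcl k b a) h) (cf_dUnc_map DV1 CV1 (lcl k b) cf_V1) (init1 c')
  have v2 := fun c' => detects_cnt (fun s a => DV2 s (lcl k b a))
    (fun s a => CV2 s (lcl k b a)) (3 * M) hM3 (0, false)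
    (fun s a h => CV2_home s (lcl k b a) h) (cf_dUnc_map DV2 CV2 (lcl k b) cf_V2) (init2 c')
  have v5 := detects_letter_count b (3 * M) hM3
  refine ((((v1 c).prod (v2 c)).prod ((v1 (c + 1)).prod (v2 (c + 1)))).prod v5).of_eq _ ?_
  intro w w' h
  have a1 : run (fun s a => DV1 s (lcl k b a)) (init1 c) w =
      run (fun s a => DV1 s (lcl k b a)) (init1 c) w' := congrArg (fun x => x.1.1.1.1) h
  have a2 : cntN (fun s a => DV1 s (lcl k b a)) (fun s a => CV1 s (lcl k b a)) (init1 c) w %
      (3 * M) = cntN (fun s a => DV1 s (lcl k b a)) (fun s a => CV1 s (lcl k b a)) (init1 c) w'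
      % (3 * M) := congrArg (fun x => x.1.1.1.2) h
  have a3 : cntN (fun s a => DV2 s (lcl k b a)) (fun s a => CV2 s (lcl k b a)) (init2 c) w %
      (3 * M) = cntN (fun s a => DV2 s (lcl k b a)) (fun s a => CV2 s (lcl k b a)) (init2 c) w'
      % (3 * M) := congrArg (fun x => x.1.1.2.2) h
  have b1 : run (fun s a => DV1 s (lcl k b a)) (init1 (c + 1)) w =
      run (fun s a => DV1 s (lcl k b a)) (init1 (c + 1)) w' := congrArg (fun x => x.1.2.1.1) h
  have b2 : cntN (fun s a => DV1 s (lcl k b a)) (fun s a => CV1 s (lcl k b a)) (init1 (c + 1)) w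
      % (3 * M) = cntN (fun s a => DV1 s (lcl k b a)) (fun s a => CV1 s (lcl k b a))
      (init1 (c + 1)) w' % (3 * M) := congrArg (fun x => x.1.2.1.2) h
  have b3 : cntN (fun s a => DV2 s (lcl k b a)) (fun s a => CV2 s (lcl k b a)) (init2 (c + 1)) w
      % (3 * M) = cntN (fun s a => DV2 s (lcl k b a)) (fun s a => CV2 s (lcl k b a))
      (init2 (c + 1)) w' % (3 * M) := congrArg (fun x => x.1.2.2.2) h
  have s5 : w.count b % (3 * M) = w'.count b % (3 * M) := congrArg (fun x => x.2) h
  obtain ⟨-, -, -, -, i1⟩ := inv_V k b hb c w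
  obtain ⟨-, -, -, -, i1'⟩ := inv_V k b hb c w'
  obtain ⟨-, -, -, -, i2⟩ := inv_V k b hb (c + 1) w
  obtain ⟨-, -, -, -, i2'⟩ := inv_V k b hb (c + 1) w'
  have i3 := tc_total k b c w
  have i3' := tc_total k b c w'
  rw [a1] at i1
  rw [b1] at i2
  have e2 : c + 1 + 1 = c + 2 := rfl
  rw [e2] at i2 i2'
  have key : 3 * tc k b c w +
      (2 * cntN (fun s a => DV1 s (lcl k b a)) (fun s a => CV1 s (lcl k b a)) (init1 c) w +
        cntN (fun s a => DV1 s (lcl k b a)) (fun s a => CV1 s (lcl k b a)) (init1 (c + 1)) w) =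
      w.count b +
        2 * (cntN (fun s a => DV2 s (lcl k b a)) (fun s a => CV2 s (lcl k b a)) (init2 c) w +
          fl (run (fun s a => DV1 s (lcl k b a)) (init1 c) w')) +
        (cntN (fun s a => DV2 s (lcl k b a)) (fun s a => CV2 s (lcl k b a)) (init2 (c + 1)) w +
          fl (run (fun s a => DV1 s (lcl k b a)) (init1 (c + 1)) w')) := by
    omega
  have key' : 3 * tc k b c w' +
      (2 * cntN (fun s a => DV1 s (lcl k b a)) (fun s a => CV1 s (lcl k b a)) (init1 c) w' +
        cntN (fun s a => DV1 s (lcl k b a)) (fun s a => CV1 s (lcl k b a)) (init1 (c + 1)) w') =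
      w'.count b +
        2 * (cntN (fun s a => DV2 s (lcl k b a)) (fun s a => CV2 s (lcl k b a)) (init2 c) w' +
          fl (run (fun s a => DV1 s (lcl k b a)) (init1 c) w')) +
        (cntN (fun s a => DV2 s (lcl k b a)) (fun s a => CV2 s (lcl k b a)) (init2 (c + 1)) w' +
          fl (run (fun s a => DV1 s (lcl k b a)) (init1 (c + 1)) w')) := by
    omega
  have hL : 2 * cntN (fun s a => DV1 s (lcl k b a)) (fun s a => CV1 s (lcl k b a)) (init1 c) w +
        cntN (fun s a => DV1 s (lcl k b a)) (fun s a => CV1 s (lcl k b a)) (init1 (c + 1)) w ≡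
      2 * cntN (fun s a => DV1 s (lcl k b a)) (fun s a => CV1 s (lcl k b a)) (init1 c) w' +
        cntN (fun s a => DV1 s (lcl k b a)) (fun s a => CV1 s (lcl k b a)) (init1 (c + 1)) w'
      [MOD 3 * M] := (Nat.ModEq.mul_left 2 a2).add b2
  have hT : 3 * tc k b c w +
      (2 * cntN (fun s a => DV1 s (lcl k b a)) (fun s a => CV1 s (lcl k b a)) (init1 c) w +
        cntN (fun s a => DV1 s (lcl k b a)) (fun s a => CV1 s (lcl k b a)) (init1 (c + 1)) w) ≡
      3 * tc k b c w' +
      (2 * cntN (fun s a => DV1 s (lcl k b a)) (fun s a => CV1 s (lcl k b a)) (init1 c) w' +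
        cntN (fun s a => DV1 s (lcl k b a)) (fun s a => CV1 s (lcl k b a)) (init1 (c + 1)) w')
      [MOD 3 * M] := by
    rw [key, key']
    exact (Nat.ModEq.add (Nat.ModEq.add s5 (Nat.ModEq.mul_left 2 (Nat.ModEq.add_right _ a3)))
      (Nat.ModEq.add_right _ b3))
  have h3 : 3 * tc k b c w ≡ 3 * tc k b c w' [MOD 3 * M] := Nat.ModEq.add_right_cancel hL hT
  exact Nat.ModEq.mul_left_cancel' (by norm_num) h3

/-- Every phase count is determined modulo `M` by finitely many tests of star height at most
one. -/
theorem detects_tc (k : α → ℕ) (b : α) (c M : ℕ) (hM : 0 < M) :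
    Detects (fun w : List α => tc k b c w % M) := by
  have h3 : wcl k b = 0 ∨ wcl k b = 1 ∨ wcl k b = 2 := by
    rcases wcl k b with ⟨v, hv⟩
    interval_cases v
    · left; rfl
    · right; left; rfl
    · right; right; rfl
  rcases h3 with hb | hb | hb
  · exact detects_tc0 k b hb c M hM
  · exact detects_tc1 k b hb c M hM
  · have hb' : wcl (fun a => 2 * k a) b = 1 := by
      apply Fin.ext
      have h2 := congrArg Fin.val hb
      change k b % 3 = 2 at h2
      show (2 * k b) % 3 = 1
      omega
    refine (detects_tc1 (fun a => 2 * k a) b hb' (2 * c) M hM).congr ?_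
    intro w
    rw [← tc_scale]

theorem wsum_count (k : α → ℕ) (w : List α) : wsum k w = ∑ a, k a * w.count a := by
  induction w with
  | nil => simp [wsum]
  | cons c w ih =>
    have h1 : wsum k (c :: w) = k c + wsum k w := by simp [wsum]
    rw [h1, ih]
    simp only [List.count_cons, mul_add, Finset.sum_add_distrib]
    simp
    omega

theorem detects_wsum (k : α → ℕ) (N : ℕ) (hN : 0 < N) :
    Detects (fun w : List α => wsum k w % N) := by
  have h := Detects.pi (fun (a : α) (w : List α) => w.count a % N)
    (fun a => detects_letter_count a N hN)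
  refine h.of_eq _ ?_
  intro w w' hww
  have hc : ∀ a, w.count a % N = w'.count a % N := fun a => congrFun hww a
  have hz : ((wsum k w : ℕ) : ZMod N) = ((wsum k w' : ℕ) : ZMod N) := by
    rw [wsum_count, wsum_count]
    push_cast
    apply Finset.sum_congr rfl
    intro a _
    congr 1
    exact (ZMod.natCast_eq_natCast_iff' _ _ _).2 (hc a)
  exact (ZMod.natCast_eq_natCast_iff' _ _ _).1 hz

end Det

end Vale.Agent.Lib.P329
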