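import Mathlib

/-!
# P329: groups satisfying the class-three commutator law

Let `G` be a group in which every commutator `⁅⁅⁅x, y⁆, z⁆, t⁆` is trivial (a nilpotent group of
class at most three). `Gam2 G` is the subgroup generated by all commutators; it is commutative.
For `y c : G` put `lam y c = c⁻¹ * y⁻¹ * c * y`. It always lies in `Gam2 G`; for `c` in
`Gam2 G` it is central, `lam y` is multiplicative on `Gam2 G`, and it kills central elements.
-/

namespace Vale.Agent.Lib.P329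

open scoped commutatorElement

variable {G : Type} [Group G]

/-- The subgroup generated by all commutators. -/
def Gam2 (G : Type) [Group G] : Subgroup G :=
  Subgroup.closure {c : G | ∃ a b : G, c = ⁅a, b⁆}

/-- `lam y c = c⁻¹ * y⁻¹ * c * y`, the commutator of `c⁻¹` and `y⁻¹`. -/
def lam (y c : G) : G := c⁻¹ * y⁻¹ * c * y

theorem lam_eq_commutator (y c : G) : lam y c = ⁅c⁻¹, y⁻¹⁆ := by
  rw [commutatorElement_def, inv_inv, inv_inv]
  rfl

theorem lam_mem (y c : G) : lam y c ∈ Gam2 G :=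
  Subgroup.subset_closure ⟨c⁻¹, y⁻¹, lam_eq_commutator y c⟩

/-- Under the class-three law, every commutator `⁅⁅x, y⁆, z⁆` is central. -/
theorem triple_central (hc : ∀ x y z t : G, ⁅⁅⁅x, y⁆, z⁆, t⁆ = 1) (x y z t : G) :
    ⁅⁅x, y⁆, z⁆ * t = t * ⁅⁅x, y⁆, z⁆ :=
  commutatorElement_eq_one_iff_mul_comm.1 (hc x y z t)

/-- A central factor on the left does not change a commutator. -/
theorem commutator_central_mul_left (z c d : G) (hz : ∀ t, z * t = t * z) :
    ⁅z * c, d⁆ = ⁅c, d⁆ := by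
  rw [commutatorElement_def, commutatorElement_def]
  have h := hz (c * d * c⁻¹)
  calc z * c * d * (z * c)⁻¹ * d⁻¹ = z * (c * d * c⁻¹) * z⁻¹ * d⁻¹ := by group
    _ = c * d * c⁻¹ * z * z⁻¹ * d⁻¹ := by rw [h]
    _ = c * d * c⁻¹ * d⁻¹ := by group

/-- A central factor on the right does not change a commutator. -/
theorem commutator_central_mul_right (z c d : G) (hz : ∀ t, z * t = t * z) :
    ⁅c, z * d⁆ = ⁅c, d⁆ := by
  rw [commutatorElement_def, commutatorElement_def]
  have h1 := hz c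
  have h2 := hz (c * d * c⁻¹ * d⁻¹)
  calc c * (z * d) * c⁻¹ * (z * d)⁻¹ = c * z * d * c⁻¹ * d⁻¹ * z⁻¹ := by group
    _ = z * c * d * c⁻¹ * d⁻¹ * z⁻¹ := by rw [h1]
    _ = z * (c * d * c⁻¹ * d⁻¹) * z⁻¹ := by group
    _ = c * d * c⁻¹ * d⁻¹ * z * z⁻¹ := by rw [h2]
    _ = c * d * c⁻¹ * d⁻¹ := by group

/-- Under the class-three law, any two commutators commute. -/
theorem commutators_commute (hc : ∀ x y z t : G, ⁅⁅⁅x, y⁆, z⁆, t⁆ = 1) (a b c d : G) :
    ⁅a, b⁆ * ⁅c, d⁆ = ⁅c, d⁆ * ⁅a, b⁆ := by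
  have h1 : ⁅a, b⁆ * c * ⁅a, b⁆⁻¹ = ⁅⁅a, b⁆, c⁆ * c := by
    rw [commutatorElement_def ⁅a, b⁆ c]
    group
  have h2 : ⁅a, b⁆ * d * ⁅a, b⁆⁻¹ = ⁅⁅a, b⁆, d⁆ * d := by
    rw [commutatorElement_def ⁅a, b⁆ d]
    group
  have h3 : ⁅a, b⁆ * ⁅c, d⁆ * ⁅a, b⁆⁻¹ =
      ⁅⁅a, b⁆ * c * ⁅a, b⁆⁻¹, ⁅a, b⁆ * d * ⁅a, b⁆⁻¹⁆ := by
    rw [commutatorElement_def c d,
      commutatorElement_def (⁅a, b⁆ * c * ⁅a, b⁆⁻¹) (⁅a, b⁆ * d * ⁅a, b⁆⁻¹)]
    group
  rw [h1, h2, commutator_central_mul_left _ _ _ (triple_central hc a b c),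
    commutator_central_mul_right _ _ _ (triple_central hc a b d)] at h3
  exact mul_inv_eq_iff_eq_mul.1 h3

/-- Under the class-three law, the subgroup generated by the commutators is commutative. -/
theorem gam2_comm (hc : ∀ x y z t : G, ⁅⁅⁅x, y⁆, z⁆, t⁆ = 1) :
    ∀ x ∈ Gam2 G, ∀ y ∈ Gam2 G, x * y = y * x := by
  have h1 : {c : G | ∃ a b : G, c = ⁅a, b⁆} ⊆
      (Subgroup.centralizer {c : G | ∃ a b : G, c = ⁅a, b⁆} : Set G) := by
    rintro _ ⟨a, b, rfl⟩
    rw [SetLike.mem_coe, Subgroup.mem_centralizer_iff]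
    rintro _ ⟨c, d, rfl⟩
    exact commutators_commute hc c d a b
  have h2 : Gam2 G ≤ Subgroup.centralizer {c : G | ∃ a b : G, c = ⁅a, b⁆} :=
    (Subgroup.closure_le _).2 h1
  have h3 : {c : G | ∃ a b : G, c = ⁅a, b⁆} ⊆
      (Subgroup.centralizer (Gam2 G : Set G) : Set G) := by
    rintro _ ⟨a, b, rfl⟩
    rw [SetLike.mem_coe, Subgroup.mem_centralizer_iff]
    intro h hh
    exact (Subgroup.mem_centralizer_iff.1 (h2 hh) ⁅a, b⁆ ⟨a, b, rfl⟩).symm
  have h4 : Gam2 G ≤ Subgroup.centralizer (Gam2 G : Set G) :=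
    (Subgroup.closure_le _).2 h3
  intro x hx y hy
  exact Subgroup.mem_centralizer_iff.1 (h4 hy) x hx

theorem lam_one_right (y : G) : lam y (1 : G) = 1 := by
  unfold lam
  group

/-- If `lam y c` is central, then `lam y (c * c') = lam y c * lam y c'`. -/
theorem lam_mul_of_central (y c c' : G) (hcent : ∀ t, lam y c * t = t * lam y c) :
    lam y (c * c') = lam y c * lam y c' := by
  have e1 : lam y (c * c') = c'⁻¹ * lam y c * (y⁻¹ * c' * y) := by
    unfold lam
    group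
  rw [e1, ← hcent c'⁻¹]
  unfold lam
  group

/-- Under the class-three law, `lam y c` is central for every `c` in the subgroup generated by
the commutators. -/
theorem lam_central (hc : ∀ x y z t : G, ⁅⁅⁅x, y⁆, z⁆, t⁆ = 1) (y : G) {c : G}
    (hcm : c ∈ Gam2 G) (t : G) : lam y c * t = t * lam y c := by
  have key : ∀ c : G, c ∈ Subgroup.closure {c : G | ∃ a b : G, c = ⁅a, b⁆} →
      ∀ t : G, lam y c * t = t * lam y c := by
    intro c hcm
    refine Subgroup.closure_induction (p := fun c _ => ∀ t : G, lam y c * t = t * lam y c)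
      ?_ ?_ ?_ ?_ hcm
    · rintro _ ⟨a, b, rfl⟩ t
      have e : lam y ⁅a, b⁆ = ⁅⁅b, a⁆, y⁻¹⁆ := by
        rw [lam_eq_commutator, commutatorElement_inv]
      rw [e]
      exact triple_central hc b a y⁻¹ t
    · intro t
      rw [lam_one_right, one_mul, mul_one]
    · intro x x' _ _ ihx ihx' t
      rw [lam_mul_of_central y x x' ihx, mul_assoc, ihx' t, ← mul_assoc, ihx t, mul_assoc]
    · intro x _ ih t
      have e : lam y x⁻¹ = (lam y x)⁻¹ := by
        have h := lam_mul_of_central y x x⁻¹ ih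
        rw [mul_inv_cancel, lam_one_right] at h
        exact eq_inv_of_mul_eq_one_right h.symm
      rw [e]
      have h := ih t
      calc (lam y x)⁻¹ * t = (lam y x)⁻¹ * (t * lam y x) * (lam y x)⁻¹ := by group
        _ = (lam y x)⁻¹ * (lam y x * t) * (lam y x)⁻¹ := by rw [h]
        _ = t * (lam y x)⁻¹ := by group
  exact key c hcm t

/-- Under the class-three law, `lam y` is multiplicative on the subgroup generated by the
commutators (the second factor may be arbitrary). -/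
theorem lam_mul (hc : ∀ x y z t : G, ⁅⁅⁅x, y⁆, z⁆, t⁆ = 1) (y : G) {c : G}
    (hcm : c ∈ Gam2 G) (c' : G) : lam y (c * c') = lam y c * lam y c' :=
  lam_mul_of_central y c c' (lam_central hc y hcm)

/-- `lam y` kills central elements. -/
theorem lam_of_central (y z : G) (hz : ∀ t, z * t = t * z) : lam y z = 1 := by
  unfold lam
  have h := hz y⁻¹
  calc z⁻¹ * y⁻¹ * z * y = z⁻¹ * (z * y⁻¹) * y := by rw [h]; group
    _ = 1 := by group

/-- Under the class-three law, `lam y` sends inverses of elements of the subgroup generated by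
the commutators to inverses. -/
theorem lam_inv_right (hc : ∀ x y z t : G, ⁅⁅⁅x, y⁆, z⁆, t⁆ = 1) (y : G) {c : G}
    (hcm : c ∈ Gam2 G) : lam y c⁻¹ = (lam y c)⁻¹ := by
  have h := lam_mul hc y hcm c⁻¹
  rw [mul_inv_cancel, lam_one_right] at h
  exact eq_inv_of_mul_eq_one_right h.symm

end Vale.Agent.Lib.P329
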