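import Vale.Agent.Lib.P329.NeutralPivot
import Vale.Agent.Lib.P329.Pm1

/-!
# P329: the degree three pivot sums at a neutral letter

The two pivot sums, over the occurrences of a letter `x`, that involve only letters other
than `x`: `binom(A, 2) * B` for two distinct letters and `A * B * C` for three distinct
letters, where `A`, `B`, `C` are the numbers of earlier occurrences. Both are determined
modulo `N` by finitely many tests of star height at most one.
-/

namespace Vale.Agent.Lib.P329

section NeutralFinal

variable {α : Type} [Fintype α] [DecidableEq α]

/-- The pivot sum of `binom(A, 2) * B` at a letter `x` different from `a` and `b`. -/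
theorem detects_psum_choose_mul (N : ℕ) (hN : 0 < N) (x a b : α) (hxa : x ≠ a) (hxb : x ≠ b)
    (hab : a ≠ b) :
    Detects (fun w : List α =>
      psum x (fun pre => (pre.count a).choose 2 * pre.count b) w % N) := by
  have hM : 0 < 12 * N := by omega
  have : NeZero (12 * N) := ⟨by omega⟩
  exact detects_psum_choose_two_mul_of N hN a b x hab hxa hxb
    (fun c => detects_tcz_pm (pmw (12 * N) a b) (pmw_cases (12 * N) a b) x
      (pmw_neutral (12 * N) a b x hxa hxb) c (12 * N) hM)

/-- The pivot sum of `A * B * C` at a letter `x` different from the distinct letters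
`a`, `b`, `c`. -/
theorem detects_psum_mul3 (N : ℕ) (hN : 0 < N) (x a b c : α) (hxa : x ≠ a) (hxb : x ≠ b)
    (hxc : x ≠ c) (hab : a ≠ b) (hac : a ≠ c) (hbc : b ≠ c) :
    Detects (fun w : List α =>
      psum x (fun pre => pre.count a * pre.count b * pre.count c) w % N) :=
  detects_psum_mul3_aux N hN a b c x hab hac hbc hxa hxb hxc

end NeutralFinal

end Vale.Agent.Lib.P329
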