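import Vale.Agent.Lib.P329.Sub4
import Vale.Agent.Lib.P329.AffSym
import Vale.Agent.Lib.P329.Sym4N
import Vale.Agent.Lib.P329.Arrival

/-!
# P329: symmetrised subword counts with at most three letters after the first one

`symCount (some x, m) w` is the number of scattered subwords of `w` that start with the letter
`x` and whose remaining letters form the multiset `m`.  It equals the sum, over the occurrences
of `x` in `w`, of the product over all letters `a` of the binomial coefficients
C(number of a after the occurrence, multiplicity of a in m) (`symCount_eq_psum`, stated
for the reversed word with the pivot sums of `Sub2`).  For `m` with at most three elements these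
numbers are determined modulo `N` by finitely many tests of star height at most one
(`detects_symCount`).  The cases with at most two letters come from the subword counts of length
at most three; the cases with three letters use the pivot sums with a neutral pivot letter
(`Sym4N`), the sums in which the pivot letter itself is counted (the lemmas with the suffix
`_h9` below, by telescoping), and the arrival counts of a signed counter (`Arrival`).
-/

namespace Vale.Agent.Lib.P329


section Formula

variable {α : Type} [DecidableEq α]

/-- The number of sublists of `w` whose multiset of letters is `m`. -/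
def msub (m : Multiset α) (w : List α) : ℕ :=
  ((List.sublists' w).map Multiset.ofList).count m

theorem msub_nil (m : Multiset α) : msub m [] = if m = 0 then 1 else 0 := by
  unfold msub
  by_cases hm : m = 0
  · subst hm
    simp
  · rw [if_neg hm]
    simp only [List.sublists'_nil, List.map_cons, List.map_nil, Multiset.coe_nil]
    exact List.count_eq_zero.2 (by simpa using fun h => hm h)

theorem msub_cons (m : Multiset α) (a : α) (w : List α) :
    msub m (a :: w) = msub m w + (if a ∈ m then msub (m.erase a) w else 0) := by
  unfold msub
  rw [List.sublists'_cons, List.map_append, List.count_append, List.map_map]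
  congr 1
  rw [List.count_eq_countP, List.countP_map]
  by_cases ha : a ∈ m
  · rw [if_pos ha, List.count_eq_countP, List.countP_map]
    apply List.countP_congr
    intro l _
    simp only [Function.comp, beq_iff_eq]
    constructor
    · intro h
      rw [← h]
      simp
    · intro h
      rw [← Multiset.cons_coe, h, Multiset.cons_erase ha]
  · rw [if_neg ha]
    apply List.countP_eq_zero.2
    intro l _
    simp only [Function.comp, beq_iff_eq]
    intro h
    apply ha
    rw [← h]
    simp

theorem msub_eq_prod [Fintype α] (m : Multiset α) (w : List α) :
    msub m w = ∏ a : α, (w.count a).choose (m.count a) := by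
  induction w generalizing m with
  | nil =>
    rw [msub_nil]
    by_cases hm : m = 0
    · subst hm
      simp
    · rw [if_neg hm]
      obtain ⟨a, ha⟩ := Multiset.exists_mem_of_ne_zero hm
      symm
      apply Finset.prod_eq_zero (Finset.mem_univ a)
      have hpos : 0 < m.count a := Multiset.count_pos.2 ha
      rw [List.count_nil]
      exact Nat.choose_eq_zero_of_lt hpos
  | cons a w ih =>
    rw [msub_cons, ih m]
    rw [← Finset.mul_prod_erase Finset.univ
      (fun b => ((a :: w).count b).choose (m.count b)) (Finset.mem_univ a)]
    rw [← Finset.mul_prod_erase Finset.univ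
      (fun b => (w.count b).choose (m.count b)) (Finset.mem_univ a)]
    have hrest : ∏ b ∈ Finset.univ.erase a, ((a :: w).count b).choose (m.count b) =
        ∏ b ∈ Finset.univ.erase a, (w.count b).choose (m.count b) := by
      apply Finset.prod_congr rfl
      intro b hb
      rw [List.count_cons_of_ne (Finset.ne_of_mem_erase hb).symm]
    rw [hrest, List.count_cons_self]
    by_cases ha : a ∈ m
    · rw [if_pos ha, ih (m.erase a)]
      rw [← Finset.mul_prod_erase Finset.univ
        (fun b => (w.count b).choose ((m.erase a).count b)) (Finset.mem_univ a)]
      have hrest2 : ∏ b ∈ Finset.univ.erase a, (w.count b).choose ((m.erase a).count b) =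
          ∏ b ∈ Finset.univ.erase a, (w.count b).choose (m.count b) := by
        apply Finset.prod_congr rfl
        intro b hb
        rw [Multiset.count_erase_of_ne (Finset.ne_of_mem_erase hb)]
      rw [hrest2, Multiset.count_erase_self]
      obtain ⟨k, hk⟩ : ∃ k, m.count a = k + 1 :=
        ⟨m.count a - 1, by have := Multiset.count_pos.2 ha; omega⟩
      rw [hk, Nat.add_sub_cancel, Nat.choose_succ_succ]
      ring
    · rw [if_neg ha, Multiset.count_eq_zero_of_notMem ha]
      simp

theorem symCount_cons (x : α) (m : Multiset α) (a : α) (w : List α) :
    symCount (some x, m) (a :: w) =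
      symCount (some x, m) w + (if a = x then msub m w else 0) := by
  unfold symCount msub
  have hperm : ∀ v : List α, ((List.sublists v).map headTail).count (some x, m) =
      ((List.sublists' v).map headTail).count (some x, m) :=
    fun v => ((List.sublists_perm_sublists' v).map _).count_eq _
  rw [hperm, hperm, List.sublists'_cons, List.map_append, List.count_append, List.map_map]
  congr 1
  rw [List.count_eq_countP, List.countP_map]
  by_cases ha : a = x
  · subst ha
    rw [if_pos rfl, List.count_eq_countP, List.countP_map]
    apply List.countP_congr
    intro l _
    simp [headTail]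
  · rw [if_neg ha]
    apply List.countP_eq_zero.2
    intro l _
    simp [headTail, ha]

theorem symCount_eq_psum [Fintype α] (x : α) (m : Multiset α) (w : List α) :
    symCount (some x, m) w =
      psum x (fun pre => ∏ a : α, (pre.count a).choose (m.count a)) w.reverse := by
  induction w with
  | nil => simp [symCount, headTail, psum_nil]
  | cons a w ih =>
    rw [symCount_cons, List.reverse_cons, psum_snoc, ih, msub_eq_prod]
    congr 1
    by_cases ha : a = x
    · rw [if_pos ha, if_pos ha]
      simp [List.count_reverse]
    · rw [if_neg ha, if_neg ha]

end Formula

section OwnAbx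

variable {α : Type} [DecidableEq α]

theorem psum_tel_abx_h9 (a b x : α) (hax : a ≠ x) (hbx : b ≠ x) (hab : a ≠ b) (w : List α) :
    psum x (fun pre => pre.count a * pre.count b * pre.count x) w +
        psum a (fun pre => (pre.count x).choose 2 * pre.count b) w +
        psum b (fun pre => (pre.count x).choose 2 * pre.count a) w =
      w.count a * w.count b * (w.count x).choose 2 := by
  induction w using List.reverseRecOn with
  | nil => simp [psum_nil]
  | append_singleton w y ih =>
    rw [psum_snoc, psum_snoc, psum_snoc, count_snoc, count_snoc, count_snoc]
    by_cases hyx : y = x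
    · have hya : y ≠ a := fun h => hax (h.symm.trans hyx)
      have hyb : y ≠ b := fun h => hbx (h.symm.trans hyx)
      simp only [if_pos hyx, if_neg hya, if_neg hyb, add_zero]
      rw [choose_two_succ, mul_add, ← ih]
      ring
    · by_cases hya : y = a
      · have hyb : y ≠ b := fun h => hab (hya.symm.trans h)
        simp only [if_neg hyx, if_pos hya, if_neg hyb, add_zero]
        rw [add_mul, add_mul, one_mul, ← ih]
        ring
      · by_cases hyb : y = b
        · simp only [if_neg hyx, if_neg hya, if_pos hyb, add_zero]
          rw [mul_add, add_mul, mul_one, ← ih]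
          ring
        · simp only [if_neg hyx, if_neg hya, if_neg hyb, add_zero]
          exact ih

variable [Fintype α]

theorem detects_own_abx_h9 (N : ℕ) (hN : 0 < N) (a b x : α) (hax : a ≠ x) (hbx : b ≠ x)
    (hab : a ≠ b) :
    Detects (fun w : List α =>
      psum x (fun pre => pre.count a * pre.count b * pre.count x) w % N) := by
  have h1 := detects_psum_choose_mul N hN a x b hax hab (fun h => hbx h.symm)
  have h2 := detects_psum_choose_mul N hN b x a hbx (fun h => hab h.symm) (fun h => hax h.symm)
  have h3 := detects_letter_count a N hN
  have h4 := detects_letter_count b N hN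
  have h5 := detects_letter_count x (2 * N) (by omega)
  have h := (((h1.prod h2).prod h3).prod h4).prod h5
  refine h.of_eq _ ?_
  intro w w' hww
  have e1 : psum a (fun pre => (pre.count x).choose 2 * pre.count b) w % N =
      psum a (fun pre => (pre.count x).choose 2 * pre.count b) w' % N :=
    congrArg (fun p => p.1.1.1.1) hww
  have e2 : psum b (fun pre => (pre.count x).choose 2 * pre.count a) w % N =
      psum b (fun pre => (pre.count x).choose 2 * pre.count a) w' % N :=
    congrArg (fun p => p.1.1.1.2) hww
  have e3 : w.count a % N = w'.count a % N := congrArg (fun p => p.1.1.2) hww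
  have e4 : w.count b % N = w'.count b % N := congrArg (fun p => p.1.2) hww
  have e5 : w.count x % (2 * N) = w'.count x % (2 * N) := congrArg (fun p => p.2) hww
  have e6 : (w.count x).choose 2 % N = (w'.count x).choose 2 % N := choose_two_mod N _ _ e5
  have t := psum_tel_abx_h9 a b x hax hbx hab w
  have t' := psum_tel_abx_h9 a b x hax hbx hab w'
  have q : w.count a * w.count b * (w.count x).choose 2 ≡
      w'.count a * w'.count b * (w'.count x).choose 2 [MOD N] :=
    Nat.ModEq.mul (Nat.ModEq.mul e3 e4) e6
  have p : psum a (fun pre => (pre.count x).choose 2 * pre.count b) w +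
      psum b (fun pre => (pre.count x).choose 2 * pre.count a) w ≡
      psum a (fun pre => (pre.count x).choose 2 * pre.count b) w' +
      psum b (fun pre => (pre.count x).choose 2 * pre.count a) w' [MOD N] :=
    Nat.ModEq.add e1 e2
  show psum x (fun pre => pre.count a * pre.count b * pre.count x) w ≡
    psum x (fun pre => pre.count a * pre.count b * pre.count x) w' [MOD N]
  apply Nat.ModEq.add_right_cancel p
  rw [← add_assoc, ← add_assoc, t, t']
  exact q

omit [Fintype α] in
theorem psum_own_choose_h9 (x : α) (k : ℕ) (w : List α) :
    psum x (fun pre => (pre.count x).choose k) w = (w.count x).choose (k + 1) := by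
  induction w using List.reverseRecOn with
  | nil => simp [psum_nil]
  | append_singleton w y ih =>
    rw [psum_snoc, count_snoc, ih]
    by_cases hyx : y = x
    · rw [if_pos hyx, if_pos hyx, Nat.choose_succ_succ]
      ring
    · rw [if_neg hyx, if_neg hyx]
      rfl

omit [Fintype α] in
theorem psum_tel_xxb_h9 (x b : α) (hbx : b ≠ x) (w : List α) :
    psum x (fun pre => (pre.count x).choose 2 * pre.count b) w +
        psum b (fun pre => (pre.count x).choose 3) w =
      w.count b * (w.count x).choose 3 := by
  induction w using List.reverseRecOn with
  | nil => simp [psum_nil]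
  | append_singleton w y ih =>
    rw [psum_snoc, psum_snoc, count_snoc, count_snoc]
    by_cases hyx : y = x
    · have hyb : y ≠ b := fun h => hbx (h.symm.trans hyx)
      simp only [if_pos hyx, if_neg hyb, add_zero]
      rw [choose_three_succ, mul_add, ← ih]
      ring
    · by_cases hyb : y = b
      · simp only [if_neg hyx, if_pos hyb, add_zero]
        rw [add_mul, one_mul, ← ih]
        ring
      · simp only [if_neg hyx, if_neg hyb, add_zero]
        exact ih

theorem detects_own_xxb_h9 (N : ℕ) (hN : 0 < N) (x b : α) (hbx : b ≠ x) :
    Detects (fun w : List α =>
      psum x (fun pre => (pre.count x).choose 2 * pre.count b) w % N) := by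
  have : NeZero (6 * N) := ⟨by omega⟩
  have h1 := detects_psum_count (6 * N) x b hbx (fun k => k.choose 3) N hN
    (fun k => choose_three_mod N k (k % (6 * N)) (Nat.mod_mod _ _).symm)
  have h2 := detects_letter_count b N hN
  have h3 := detects_letter_count x (6 * N) (by omega)
  have h := (h1.prod h2).prod h3
  refine h.of_eq _ ?_
  intro w w' hww
  have e1 : psum b (fun pre => (pre.count x).choose 3) w % N =
      psum b (fun pre => (pre.count x).choose 3) w' % N := congrArg (fun p => p.1.1) hww
  have e2 : w.count b % N = w'.count b % N := congrArg (fun p => p.1.2) hww
  have e3 : w.count x % (6 * N) = w'.count x % (6 * N) := congrArg (fun p => p.2) hww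
  have e4 : (w.count x).choose 3 % N = (w'.count x).choose 3 % N := choose_three_mod N _ _ e3
  have t := psum_tel_xxb_h9 x b hbx w
  have t' := psum_tel_xxb_h9 x b hbx w'
  have q : w.count b * (w.count x).choose 3 ≡ w'.count b * (w'.count x).choose 3 [MOD N] :=
    Nat.ModEq.mul e2 e4
  show psum x (fun pre => (pre.count x).choose 2 * pre.count b) w ≡
    psum x (fun pre => (pre.count x).choose 2 * pre.count b) w' [MOD N]
  apply Nat.ModEq.add_right_cancel (show psum b (fun pre => (pre.count x).choose 3) w ≡
    psum b (fun pre => (pre.count x).choose 3) w' [MOD N] from e1)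
  rw [t, t']
  exact q

end OwnAbx

section Eval

set_option linter.unusedSimpArgs false

variable {α : Type} [Fintype α] [DecidableEq α]

theorem symW_one (a : α) (pre : List α) :
    ∏ d : α, (pre.count d).choose (({a} : Multiset α).count d) = pre.count a := by
  rw [Finset.prod_eq_single a]
  · simp
  · intro d _ hd
    simp [Multiset.count_singleton, hd]
  · intro h
    exact (h (Finset.mem_univ a)).elim

theorem symW_aa (a : α) (pre : List α) :
    ∏ d : α, (pre.count d).choose (({a, a} : Multiset α).count d) = (pre.count a).choose 2 := by
  rw [Finset.prod_eq_single a]
  · simp [Multiset.insert_eq_cons]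
  · intro d _ hd
    simp [Multiset.insert_eq_cons, Multiset.count_cons, Multiset.count_singleton, hd]
  · intro h
    exact (h (Finset.mem_univ a)).elim

theorem symW_ab (a b : α) (hab : a ≠ b) (pre : List α) :
    ∏ d : α, (pre.count d).choose (({a, b} : Multiset α).count d) =
      pre.count a * pre.count b := by
  rw [Finset.prod_eq_mul a b hab]
  · simp [Multiset.insert_eq_cons, Multiset.count_cons, Multiset.count_singleton, hab, hab.symm]
  · intro d _ hd
    simp [Multiset.insert_eq_cons, Multiset.count_cons, Multiset.count_singleton, hd.1, hd.2]
  · intro h
    exact (h (Finset.mem_univ a)).elim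
  · intro h
    exact (h (Finset.mem_univ b)).elim

theorem symW_aaa (a : α) (pre : List α) :
    ∏ d : α, (pre.count d).choose (({a, a, a} : Multiset α).count d) =
      (pre.count a).choose 3 := by
  rw [Finset.prod_eq_single a]
  · simp [Multiset.insert_eq_cons]
  · intro d _ hd
    simp [Multiset.insert_eq_cons, Multiset.count_cons, Multiset.count_singleton, hd]
  · intro h
    exact (h (Finset.mem_univ a)).elim

theorem symW_aab (a b : α) (hab : a ≠ b) (pre : List α) :
    ∏ d : α, (pre.count d).choose (({a, a, b} : Multiset α).count d) =
      (pre.count a).choose 2 * pre.count b := by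
  rw [Finset.prod_eq_mul a b hab]
  · simp [Multiset.insert_eq_cons, Multiset.count_cons, Multiset.count_singleton, hab, hab.symm]
  · intro d _ hd
    simp [Multiset.insert_eq_cons, Multiset.count_cons, Multiset.count_singleton, hd.1, hd.2]
  · intro h
    exact (h (Finset.mem_univ a)).elim
  · intro h
    exact (h (Finset.mem_univ b)).elim

theorem symW_abc (a b c : α) (hab : a ≠ b) (hac : a ≠ c) (hbc : b ≠ c) (pre : List α) :
    ∏ d : α, (pre.count d).choose (({a, b, c} : Multiset α).count d) =
      pre.count a * pre.count b * pre.count c := by
  rw [← Finset.mul_prod_erase Finset.univ _ (Finset.mem_univ a),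
    Finset.prod_eq_mul b c hbc]
  · simp [Multiset.insert_eq_cons, Multiset.count_cons, Multiset.count_singleton, hab, hac,
      hbc, hab.symm, hac.symm, hbc.symm]
    ring
  · intro d hda hd
    have hda' : d ≠ a := Finset.ne_of_mem_erase hda
    simp [Multiset.insert_eq_cons, Multiset.count_cons, hd.1, hd.2, hda']
  · intro h
    exact (h (Finset.mem_erase.2 ⟨hab.symm, Finset.mem_univ b⟩)).elim
  · intro h
    exact (h (Finset.mem_erase.2 ⟨hac.symm, Finset.mem_univ c⟩)).elim

end Eval

section Det4

variable {α : Type} [Fintype α] [DecidableEq α]

theorem detects_symCount_of (x : α) (m : Multiset α) (N : ℕ) (F : List α → ℕ)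
    (hF : ∀ pre : List α, (∏ a : α, (pre.count a).choose (m.count a)) = F pre)
    (h : Detects (fun w : List α => psum x F w % N)) :
    Detects (fun w : List α => symCount (some x, m) w % N) := by
  refine h.reverse.congr ?_
  intro w
  show psum x F w.reverse % N = symCount (some x, m) w % N
  rw [symCount_eq_psum]
  have e : (fun pre : List α => ∏ a : α, (pre.count a).choose (m.count a)) = F := funext hF
  rw [e]

omit [Fintype α] in
theorem psum_choose_two (a x : α) (w : List α) :
    psum x (fun pre => (pre.count a).choose 2) w = sc [a, a, x] w := by
  induction w using List.reverseRecOn with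
  | nil => simp [sc_cons_nil, psum_nil]
  | append_singleton w y ih => rw [sc3_snoc, psum_snoc, ih, sc_aa]

omit [Fintype α] in
theorem psum_mul_two (a b x : α) (hab : a ≠ b) (w : List α) :
    psum x (fun pre => pre.count a * pre.count b) w = sc [a, b, x] w + sc [b, a, x] w := by
  induction w using List.reverseRecOn with
  | nil => simp [sc_cons_nil, psum_nil]
  | append_singleton w y ih =>
    rw [sc3_snoc, sc3_snoc, psum_snoc, ih, ← sc_pair_sum a b hab w]
    by_cases hy : y = x
    · rw [if_pos hy, if_pos hy, if_pos hy]
      omega
    · rw [if_neg hy, if_neg hy, if_neg hy]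
      omega

theorem detects_sym_zero (x : α) (N : ℕ) (hN : 0 < N) :
    Detects (fun w : List α => symCount (some x, 0) w % N) :=
  (detects_letter_count x N hN).congr (fun w => by rw [symCount_single])

theorem detects_sym_one (x a : α) (N : ℕ) (hN : 0 < N) :
    Detects (fun w : List α => symCount (some x, {a}) w % N) := by
  apply detects_symCount_of x {a} N (fun pre => pre.count a) (symW_one a)
  refine (detects_pair N hN a x).congr ?_
  intro w
  show sc [a, x] w % N = psum x (fun pre => pre.count a) w % N
  rw [sc_pair]

theorem detects_sym_aa (x a : α) (N : ℕ) (hN : 0 < N) :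
    Detects (fun w : List α => symCount (some x, {a, a}) w % N) := by
  apply detects_symCount_of x {a, a} N (fun pre => (pre.count a).choose 2) (symW_aa a)
  refine (detects_triple N hN a a x).congr ?_
  intro w
  show sc [a, a, x] w % N = psum x (fun pre => (pre.count a).choose 2) w % N
  rw [psum_choose_two]

theorem detects_sym_ab (x a b : α) (hab : a ≠ b) (N : ℕ) (hN : 0 < N) :
    Detects (fun w : List α => symCount (some x, {a, b}) w % N) := by
  apply detects_symCount_of x {a, b} N (fun pre => pre.count a * pre.count b)
    (symW_ab a b hab)
  have h := (detects_triple N hN a b x).prod (detects_triple N hN b a x)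
  refine h.of_eq _ ?_
  intro w w' hww
  show psum x (fun pre => pre.count a * pre.count b) w % N =
    psum x (fun pre => pre.count a * pre.count b) w' % N
  have h1 : sc [a, b, x] w % N = sc [a, b, x] w' % N := congrArg Prod.fst hww
  have h2 : sc [b, a, x] w % N = sc [b, a, x] w' % N := congrArg Prod.snd hww
  rw [psum_mul_two a b x hab, psum_mul_two a b x hab, Nat.add_mod, h1, h2, ← Nat.add_mod]

theorem detects_sym_aaa (x a : α) (N : ℕ) (hN : 0 < N) :
    Detects (fun w : List α => symCount (some x, {a, a, a}) w % N) := by
  apply detects_symCount_of x {a, a, a} N (fun pre => (pre.count a).choose 3) (symW_aaa a)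
  by_cases hxa : x = a
  · subst hxa
    refine (detects_replicate x 4 N hN).congr ?_
    intro w
    show List.count (List.replicate 4 x) (List.sublists w) % N =
      psum x (fun pre => (pre.count x).choose 3) w % N
    rw [count_sublists_replicate, psum_own_choose_h9]
  · have : NeZero (6 * N) := ⟨by omega⟩
    exact detects_psum_count (6 * N) a x hxa (fun k => k.choose 3) N hN
      (fun k => choose_three_mod N k (k % (6 * N)) (Nat.mod_mod _ _).symm)

theorem detects_sym_aab (x a b : α) (hab : a ≠ b) (N : ℕ) (hN : 0 < N) :
    Detects (fun w : List α => symCount (some x, {a, a, b}) w % N) := by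
  by_cases hxa : x = a
  · subst hxa
    exact detects_symCount_of x {x, x, b} N _ (symW_aab x b hab)
      (detects_own_xxb_h9 N hN x b hab.symm)
  · by_cases hxb : x = b
    · subst hxb
      apply detects_symCount_of x {a, a, x} N (fun pre => pre.count x * (pre.count a).choose 2)
      · intro pre
        rw [symW_aab a x hab, mul_comm]
      · exact detects_psum_self_choose N hN x a (fun h => hab h.symm)
    · exact detects_symCount_of x {a, a, b} N _ (symW_aab a b hab)
        (detects_psum_choose_mul N hN x a b hxa hxb hab)

theorem detects_sym_abc (x a b c : α) (hab : a ≠ b) (hac : a ≠ c) (hbc : b ≠ c) (N : ℕ)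
    (hN : 0 < N) : Detects (fun w : List α => symCount (some x, {a, b, c}) w % N) := by
  by_cases hxa : x = a
  · subst hxa
    apply detects_symCount_of x {x, b, c} N (fun pre => pre.count b * pre.count c * pre.count x)
    · intro pre
      rw [symW_abc x b c hab hac hbc]
      ring
    · exact detects_own_abx_h9 N hN b c x hab.symm hac.symm hbc
  · by_cases hxb : x = b
    · subst hxb
      apply detects_symCount_of x {a, x, c} N
        (fun pre => pre.count a * pre.count c * pre.count x)
      · intro pre
        rw [symW_abc a x c hab hac hbc]
        ring
      · exact detects_own_abx_h9 N hN a c x hab hbc.symm hac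
    · by_cases hxc : x = c
      · subst hxc
        exact detects_symCount_of x {a, b, x} N _ (symW_abc a b x hab hac hbc)
          (detects_own_abx_h9 N hN a b x hac hbc hab)
      · exact detects_symCount_of x {a, b, c} N _ (symW_abc a b c hab hac hbc)
          (detects_psum_mul3 N hN x a b c hxa hxb hxc hab hac hbc)

/-- The symmetrised subword counts with at most three letters after the first one are
determined modulo `N` by finitely many tests of star height at most one. -/
theorem detects_symCount (x : α) (m : Multiset α) (hm : m.card ≤ 3) (N : ℕ) (hN : 0 < N) :
    Detects (fun w : List α => symCount (some x, m) w % N) := by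
  obtain h | h | h | h : m.card = 0 ∨ m.card = 1 ∨ m.card = 2 ∨ m.card = 3 := by omega
  · rw [Multiset.card_eq_zero] at h
    subst h
    exact detects_sym_zero x N hN
  · obtain ⟨a, rfl⟩ := Multiset.card_eq_one.1 h
    exact detects_sym_one x a N hN
  · obtain ⟨a, b, rfl⟩ := Multiset.card_eq_two.1 h
    by_cases hab : a = b
    · subst hab
      exact detects_sym_aa x a N hN
    · exact detects_sym_ab x a b hab N hN
  · obtain ⟨a, b, c, rfl⟩ := Multiset.card_eq_three.1 h
    by_cases hab : a = b
    · subst hab
      by_cases hac : a = c
      · subst hac
        exact detects_sym_aaa x a N hN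
      · exact detects_sym_aab x a c hac N hN
    · by_cases hac : a = c
      · subst hac
        have e : ({a, b, a} : Multiset α) = {a, a, b} := by
          simp only [Multiset.insert_eq_cons]
          congr 1
          exact Multiset.pair_comm b a
        rw [e]
        exact detects_sym_aab x a b hab N hN
      · by_cases hbc : b = c
        · subst hbc
          have e : ({a, b, b} : Multiset α) = {b, b, a} := by
            simp only [Multiset.insert_eq_cons]
            rw [Multiset.cons_swap]
            congr 1
            exact Multiset.pair_comm a b
          rw [e]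
          exact detects_sym_aab x b a (fun h => hab h.symm) N hN
        · exact detects_sym_abc x a b c hab hac hbc N hN

end Det4

end Vale.Agent.Lib.P329
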