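import Vale.Agent.Lib.P329.Peel4
import Vale.Agent.Lib.P329.Sym4

/-!
# P329: finite metabelian nilpotent groups of class at most four

In a nilpotent group of class at most four with commutative commutator subgroup, the product of
the values of a map `φ` along a word depends only on the numbers, modulo the order of the group,
of the scattered subwords with a given first letter and a given multiset of at most three
further letters (`prod_eq_of_symCount`). Each of these numbers modulo `N` is detected by
expressions of star height at most one (`detects_symCount`). Hence every language recognized by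
such a group has generalized star height at most one.
-/

namespace Vale.Agent.Lib.P329

section ClassFour

variable {α : Type} [DecidableEq α]

/-- The multiset of the letters present in a triple of optional letters. -/
def optMultiset (t : Option α × Option α × Option α) : Multiset α :=
  ((t.1.toList ++ t.2.1.toList ++ t.2.2.toList : List α) : Multiset α)

omit [DecidableEq α] in
theorem card_optMultiset (t : Option α × Option α × Option α) : (optMultiset t).card ≤ 3 := by
  obtain ⟨_ | a, _ | b, _ | c⟩ := t <;> simp [optMultiset]

omit [DecidableEq α] in
theorem exists_optMultiset (m : Multiset α) (hm : m.card ≤ 3) :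
    ∃ t : Option α × Option α × Option α, optMultiset t = m := by
  obtain ⟨L, rfl⟩ : ∃ L : List α, (L : Multiset α) = m := ⟨m.toList, Multiset.coe_toList m⟩
  rw [Multiset.coe_card] at hm
  match L, hm with
  | [], _ => exact ⟨(none, none, none), rfl⟩
  | [a], _ => exact ⟨(some a, none, none), rfl⟩
  | [a, b], _ => exact ⟨(some a, some b, none), rfl⟩
  | [a, b, c], _ => exact ⟨(some a, some b, some c), rfl⟩
  | a :: b :: c :: d :: L, h =>
    exfalso
    simp only [List.length_cons] at h
    omega

/-- Every language recognized by a finite nilpotent group of class at most four with
commutative commutator subgroup has generalized star height at most one. -/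
theorem metabelian_class_four_language {G : Type} [Fintype α] [Group G] [Finite G]
    [Group.IsNilpotent G] (hcl : Group.nilpotencyClass G ≤ 4)
    (hmet : ∀ a ∈ commutator G, ∀ b ∈ commutator G, a * b = b * a)
    (φ : α → G) (P : Set G) :
    ∃ e : GExp α, e.sh ≤ 1 ∧ ∀ w : List α, w ∈ e.lang ↔ (w.map φ).prod ∈ P := by
  have hN : 0 < Nat.card G := Nat.card_pos
  have hpow : ∀ g : G, g ^ Nat.card G = 1 := fun g => pow_card_eq_one'
  have hdet := Detects.pi
    (fun (p : α × (Option α × Option α × Option α)) (w : List α) =>
      symCount (some p.1, optMultiset p.2) w % Nat.card G)
    (fun p => detects_symCount p.1 (optMultiset p.2) (card_optMultiset p.2) (Nat.card G) hN)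
  have hF : Detects (fun w : List α => (w.map φ).prod) := by
    refine hdet.of_eq _ ?_
    intro w w' h
    refine prod_eq_of_symCount hcl hmet (Nat.card G) hpow w w' ?_ φ
    intro x m hm
    obtain ⟨t, rfl⟩ := exists_optMultiset m hm
    exact congrFun h (x, t)
  apply hF.expr {w | (w.map φ).prod ∈ P}
  intro w w' h
  show (w.map φ).prod ∈ P ↔ (w'.map φ).prod ∈ P
  rw [h]

end ClassFour

end Vale.Agent.Lib.P329
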