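import Mathlib

/-!
# P329: peeling letters one at a time

Let `φ : α → G` be a map from a finite alphabet to a group all of whose elements have order
dividing `N`, and let `w`, `w'` be two words with the same letter counts modulo `N`.  Suppose
that for every map `ψ` and every letter `d` the correction term
`(ψ d ^ (count of d) * (product with d sent to 1))⁻¹ * (product)` takes the same value on `w`
and on `w'`.  Then the two words have the same image under every map.  The proof is an
induction on the number of letters that are not sent to `1`.
-/

namespace Vale.Agent.Lib.P329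

theorem prod_eq_one_of_forall {α G : Type} [Group G] (φ : α → G) (h : ∀ a, φ a = 1)
    (w : List α) : (w.map φ).prod = 1 := by
  apply List.prod_eq_one
  intro x hx
  obtain ⟨a, -, rfl⟩ := List.mem_map.1 hx
  exact h a

theorem prod_eq_of_peel {α G : Type} [DecidableEq α] [Finite α] [Group G] (N : ℕ)
    (hN : ∀ x : G, x ^ N = 1) (w w' : List α)
    (hcount : ∀ d : α, w.count d % N = w'.count d % N)
    (hpeel : ∀ (φ : α → G) (d : α),
      (φ d ^ w.count d * (w.map (Function.update φ d 1)).prod)⁻¹ * (w.map φ).prod =
        (φ d ^ w'.count d * (w'.map (Function.update φ d 1)).prod)⁻¹ * (w'.map φ).prod)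
    (φ : α → G) : (w.map φ).prod = (w'.map φ).prod := by
  classical
  have : Fintype α := Fintype.ofFinite α
  suffices H : ∀ (n : ℕ) (ψ : α → G),
      (Finset.univ.filter (fun a => ψ a ≠ 1)).card ≤ n →
        (w.map ψ).prod = (w'.map ψ).prod from H _ φ le_rfl
  intro n
  induction n with
  | zero =>
    intro ψ h
    have h0 : Finset.univ.filter (fun a => ψ a ≠ 1) = ∅ :=
      Finset.card_eq_zero.1 (Nat.le_zero.1 h)
    have hall : ∀ a, ψ a = 1 := by
      intro a
      by_contra ha
      have hmem : a ∈ Finset.univ.filter (fun a => ψ a ≠ 1) :=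
        Finset.mem_filter.2 ⟨Finset.mem_univ a, ha⟩
      rw [h0] at hmem
      exact (Finset.notMem_empty a) hmem
    rw [prod_eq_one_of_forall ψ hall w, prod_eq_one_of_forall ψ hall w']
  | succ n ih =>
    intro ψ h
    by_cases hall : ∀ a, ψ a = 1
    · rw [prod_eq_one_of_forall ψ hall w, prod_eq_one_of_forall ψ hall w']
    · obtain ⟨d, hd⟩ := not_forall.1 hall
      have hsub : Finset.univ.filter (fun a => Function.update ψ d 1 a ≠ 1) ⊆
          (Finset.univ.filter (fun a => ψ a ≠ 1)).erase d := by
        intro a ha
        have ha' : Function.update ψ d 1 a ≠ 1 := (Finset.mem_filter.1 ha).2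
        have hne : a ≠ d := by
          intro hEq
          apply ha'
          rw [hEq, Function.update_self]
        rw [Function.update_of_ne hne] at ha'
        exact Finset.mem_erase.2 ⟨hne, Finset.mem_filter.2 ⟨Finset.mem_univ a, ha'⟩⟩
      have hdmem : d ∈ Finset.univ.filter (fun a => ψ a ≠ 1) :=
        Finset.mem_filter.2 ⟨Finset.mem_univ d, hd⟩
      have hcard : (Finset.univ.filter (fun a => Function.update ψ d 1 a ≠ 1)).card ≤ n := by
        have h1 := Finset.card_le_card hsub
        rw [Finset.card_erase_of_mem hdmem] at h1
        omega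
      have hQ := ih (Function.update ψ d 1) hcard
      have hp := hpeel ψ d
      have hpow : ψ d ^ w.count d = ψ d ^ w'.count d := by
        rw [pow_eq_pow_mod (w.count d) (hN (ψ d)), pow_eq_pow_mod (w'.count d) (hN (ψ d)),
          hcount d]
      rw [hQ, hpow] at hp
      exact mul_left_cancel hp

end Vale.Agent.Lib.P329
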