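import Vale.Agent.Lib.P329.Sub4

/-!
# P329: from profile-determined functions to expressions

A function on words whose value depends only on the numbers modulo `N` of occurrences of the
scattered subwords of length at most three yields, for every set `P` of values, a language of
star height at most one.
-/

namespace Vale.Agent.Lib.P329

theorem language_of_profile_determined {α G : Type} [Fintype α] [DecidableEq α] (N : ℕ)
    (hN : 0 < N) (F : List α → G)
    (hF : ∀ w w' : List α, (∀ u : List α, u.length ≤ 3 →
      List.count u (List.sublists w) % N = List.count u (List.sublists w') % N) → F w = F w')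
    (P : Set G) : ∃ e : GExp α, e.sh ≤ 1 ∧ ∀ w : List α, w ∈ e.lang ↔ F w ∈ P := by
  apply (detects_profile (α := α) N hN).expr {w | F w ∈ P}
  intro w w' h
  have hp : ∀ u : List α, u.length ≤ 3 →
      List.count u (List.sublists w) % N = List.count u (List.sublists w') % N := by
    intro u hu
    have h0 := congrFun h u
    simpa [hu] using h0
  show F w ∈ P ↔ F w' ∈ P
  rw [hF w w' hp]

end Vale.Agent.Lib.P329
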