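import Vale.Agent.Lib.P329.Collect
import Vale.Agent.Lib.P329.Peel
import Vale.Agent.Lib.P329.ProfileLang

/-!
# P329: finite groups of nilpotency class at most three

In a group satisfying the law `[[[x, y], z], t] = 1` whose elements all satisfy `x ^ N = 1`,
the product of the values of a map `φ` along a word depends only on the numbers modulo `N` of
occurrences of the scattered subwords of length at most three. Hence every language recognized
by a finite group of nilpotency class at most three has generalized star height at most one.
-/

namespace Vale.Agent.Lib.P329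

open scoped commutatorElement

section ClassThree

variable {α : Type} [Fintype α] [DecidableEq α] {G : Type} [Group G]

/-- The product along a word is determined by the numbers modulo `N` of occurrences of the
scattered subwords of length at most three. -/
theorem prod_eq_of_subword_counts (hc : ∀ x y z t : G, ⁅⁅⁅x, y⁆, z⁆, t⁆ = 1) (N : ℕ)
    (hN : ∀ x : G, x ^ N = 1) (φ : α → G) (w w' : List α)
    (hp : ∀ u : List α, u.length ≤ 3 →
      List.count u (List.sublists w) % N = List.count u (List.sublists w') % N) :
    (w.map φ).prod = (w'.map φ).prod := by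
  refine prod_eq_of_peel N hN w w' ?_ (fun ψ d => peel_step hc N hN w w' hp ψ d) φ
  intro d
  have e := hp [d] (by simp)
  have e1 : ∀ v : List α, List.count [d] (List.sublists v) = v.count d := fun v => sc_one d v
  rwa [e1 w, e1 w'] at e

/-- Every language recognized by a finite group satisfying the law `[[[x, y], z], t] = 1` has
generalized star height at most one. -/
theorem class_three_law_language [Finite G] (hc : ∀ x y z t : G, ⁅⁅⁅x, y⁆, z⁆, t⁆ = 1)
    (φ : α → G) (P : Set G) :
    ∃ e : GExp α, e.sh ≤ 1 ∧ ∀ w : List α, w ∈ e.lang ↔ (w.map φ).prod ∈ P :=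
  language_of_profile_determined (Nat.card G) Nat.card_pos (fun w : List α => (w.map φ).prod)
    (fun w w' hp =>
      prod_eq_of_subword_counts hc (Nat.card G) (fun _ => pow_card_eq_one') φ w w' hp) P

/-- In a nilpotent group of class at most three all commutators of weight four are trivial. -/
theorem class_three_law_of_nilpotencyClass [Group.IsNilpotent G]
    (h : Group.nilpotencyClass G ≤ 3) (x y z t : G) : ⁅⁅⁅x, y⁆, z⁆, t⁆ = 1 := by
  have h3 : Subgroup.lowerCentralSeries (⊤ : Subgroup G) 3 = ⊥ :=
    Subgroup.lowerCentralSeries_eq_bot_iff_nilpotencyClass_le.mpr h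
  have m1 : ⁅x, y⁆ ∈ Subgroup.lowerCentralSeries (⊤ : Subgroup G) 1 :=
    Subgroup.commutator_mem_commutator (Subgroup.mem_top x) (Subgroup.mem_top y)
  have m2 : ⁅⁅x, y⁆, z⁆ ∈ Subgroup.lowerCentralSeries (⊤ : Subgroup G) 2 :=
    Subgroup.commutator_mem_commutator m1 (Subgroup.mem_top z)
  have m3 : ⁅⁅⁅x, y⁆, z⁆, t⁆ ∈ Subgroup.lowerCentralSeries (⊤ : Subgroup G) 3 :=
    Subgroup.commutator_mem_commutator m2 (Subgroup.mem_top t)
  rw [h3] at m3
  exact Subgroup.mem_bot.mp m3

/-- Every language recognized by a finite nilpotent group of class at most three has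
generalized star height at most one. -/
theorem class_three_language [Finite G] [Group.IsNilpotent G] (h3 : Group.nilpotencyClass G ≤ 3)
    (φ : α → G) (P : Set G) :
    ∃ e : GExp α, e.sh ≤ 1 ∧ ∀ w : List α, w ∈ e.lang ↔ (w.map φ).prod ∈ P :=
  class_three_law_language (class_three_law_of_nilpotencyClass h3) φ P

end ClassThree

end Vale.Agent.Lib.P329
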