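import Vale.Agent.Lib.P329.Taylor
import Vale.Agent.Lib.P329.Class3

/-!
# P329: peeling one letter in a group of nilpotency class at most three

For a map `φ` from the letters to a group `G` satisfying the law `[[[x, y], z], t] = 1` and a
letter `d`, the correction term
`peelH φ d w = (φ d ^ (number of d in w) * product of w with d erased)⁻¹ * product of w`
lies in the commutator subgroup, and all its fourfold discrete derivatives vanish. Hence it
depends only on the numbers of occurrences of the scattered subwords of length at most three,
modulo any exponent of the group.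
-/

namespace Vale.Agent.Lib.P329

open scoped commutatorElement

section Collect

variable {α : Type}

/-- Abstract form of the computation: a function `h` with values in a commutative group whose
one-letter increments are given by `m` and by homomorphisms `L i` with `L i ∘ L j = 1` has
vanishing fourfold derivatives. -/
theorem van_four {B ι : Type} [CommGroup B] (L : ι → B →* B)
    (hLL : ∀ (i j : ι) (b : B), L i (L j b) = 1)
    (h m : List α → B) (d : α) (ix : α → ι) (ig : ι) (iq : α → ι) (κ : α → B)
    (h1 : ∀ x, x ≠ d → ∀ w, h (w ++ [x]) = h w * L (ix x) (h w))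
    (h2 : ∀ w, h (w ++ [d]) = m w * h w * L ig (h w))
    (h3 : ∀ x w, m (w ++ [x]) = m w * L (iq x) (m w) * κ x) : Van 4 h := by
  classical
  have c1 : ∀ i, Van 2 (fun w => L i (m w)) := by
    intro i
    show ∀ x, Van 1 (der x (fun w => L i (m w)))
    intro x
    have e : der x (fun w => L i (m w)) = fun _ => L i (κ x) := by
      funext w
      show (L i (m w))⁻¹ * L i (m (w ++ [x])) = L i (κ x)
      rw [h3 x w, map_mul, map_mul, hLL, mul_one, inv_mul_cancel_left]
    rw [e]
    exact van_const _
  have c2 : Van 3 m := by
    show ∀ x, Van 2 (der x m)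
    intro x
    have e : der x m = fun w => L (iq x) (m w) * κ x := by
      funext w
      show (m w)⁻¹ * m (w ++ [x]) = _
      rw [h3 x w, mul_assoc, inv_mul_cancel_left]
    rw [e]
    exact Van.mul (c1 (iq x)) (Van.mono (by norm_num) (van_const (κ x)))
  have c3 : ∀ i, Van 3 (fun w => L i (h w)) := by
    intro i
    show ∀ x, Van 2 (der x (fun w => L i (h w)))
    intro x
    by_cases hx : x = d
    · subst hx
      have e : der x (fun w => L i (h w)) = fun w => L i (m w) := by
        funext w
        show (L i (h w))⁻¹ * L i (h (w ++ [x])) = _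
        rw [h2 w, map_mul, map_mul, hLL, mul_one, mul_comm (L i (m w)), inv_mul_cancel_left]
      rw [e]
      exact c1 i
    · have e : der x (fun w => L i (h w)) = fun _ => 1 := by
        funext w
        show (L i (h w))⁻¹ * L i (h (w ++ [x])) = _
        rw [h1 x hx w, map_mul, hLL, mul_one, inv_mul_cancel]
      rw [e]
      exact Van.mono (Nat.zero_le 2) (fun _ => rfl)
  show ∀ x, Van 3 (der x h)
  intro x
  by_cases hx : x = d
  · subst hx
    have e : der x h = fun w => m w * L ig (h w) := by
      funext w
      show (h w)⁻¹ * h (w ++ [x]) = _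
      rw [h2 w, mul_comm (m w) (h w), mul_assoc, inv_mul_cancel_left]
    rw [e]
    exact Van.mul c2 (c3 ig)
  · have e : der x h = fun w => L (ix x) (h w) := by
      funext w
      show (h w)⁻¹ * h (w ++ [x]) = _
      rw [h1 x hx w, inv_mul_cancel_left]
    rw [e]
    exact c3 (ix x)

variable [DecidableEq α] {G : Type} [Group G]

/-- The correction term of peeling the letter `d`. -/
def peelH (φ : α → G) (d : α) (w : List α) : G :=
  (φ d ^ w.count d * (w.map (Function.update φ d 1)).prod)⁻¹ * (w.map φ).prod

/-- The auxiliary term: the commutator of the peeled letter with the remaining product. -/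
def peelM (φ : α → G) (d : α) (w : List α) : G :=
  lam (φ d) (w.map (Function.update φ d 1)).prod

theorem peelH_snoc_ne (φ : α → G) (d x : α) (hx : x ≠ d) (w : List α) :
    peelH φ d (w ++ [x]) = peelH φ d w * lam (φ x) (peelH φ d w) := by
  have hcnt : List.count d (w ++ [x]) = List.count d w := by
    rw [List.count_append]
    simp [hx]
  unfold peelH lam
  rw [hcnt, List.map_append, List.map_append, List.prod_append, List.prod_append]
  simp only [List.map_cons, List.map_nil, List.prod_cons, List.prod_nil, mul_one,
    Function.update_of_ne hx]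
  group

theorem peelH_snoc_self (φ : α → G) (d : α) (w : List α) :
    peelH φ d (w ++ [d]) = peelM φ d w * peelH φ d w * lam (φ d) (peelH φ d w) := by
  have hcnt : List.count d (w ++ [d]) = List.count d w + 1 := by
    rw [List.count_append]
    simp
  unfold peelH peelM lam
  rw [hcnt, List.map_append, List.map_append, List.prod_append, List.prod_append, pow_succ]
  simp only [List.map_cons, List.map_nil, List.prod_cons, List.prod_nil, mul_one,
    Function.update_self]
  group

theorem peelM_snoc (φ : α → G) (d x : α) (w : List α) :
    peelM φ d (w ++ [x]) = peelM φ d w * lam (Function.update φ d 1 x) (peelM φ d w) *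
      lam (φ d) (Function.update φ d 1 x) := by
  unfold peelM lam
  rw [List.map_append, List.prod_append]
  simp only [List.map_cons, List.map_nil, List.prod_cons, List.prod_nil, mul_one]
  group

theorem peelH_mem (φ : α → G) (d : α) (w : List α) : peelH φ d w ∈ Gam2 G := by
  induction w using List.reverseRecOn with
  | nil =>
    have e : peelH φ d [] = 1 := by
      simp [peelH]
    rw [e]
    exact one_mem _
  | append_singleton w x ih =>
    by_cases hx : x = d
    · subst hx
      rw [peelH_snoc_self]
      exact mul_mem (mul_mem (lam_mem _ _) ih) (lam_mem _ _)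
    · rw [peelH_snoc_ne φ d x hx]
      exact mul_mem ih (lam_mem _ _)

/-- The commutator subgroup of a group satisfying the class three law is commutative. -/
@[reducible] def gam2CommGroup (hc : ∀ x y z t : G, ⁅⁅⁅x, y⁆, z⁆, t⁆ = 1) :
    CommGroup (Gam2 G) :=
  { (Gam2 G).toGroup with
    mul_comm := fun a b => Subtype.ext (gam2_comm hc a.1 a.2 b.1 b.2) }

/-- The correction term of peeling one letter depends only on the numbers, modulo an exponent
`N` of the group, of occurrences of the scattered subwords of length at most three. -/
theorem peel_step (hc : ∀ x y z t : G, ⁅⁅⁅x, y⁆, z⁆, t⁆ = 1) (N : ℕ) (hN : ∀ x : G, x ^ N = 1)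
    (w w' : List α)
    (hp : ∀ u : List α, u.length ≤ 3 →
      List.count u (List.sublists w) % N = List.count u (List.sublists w') % N)
    (φ : α → G) (d : α) :
    (φ d ^ w.count d * (w.map (Function.update φ d 1)).prod)⁻¹ * (w.map φ).prod =
      (φ d ^ w'.count d * (w'.map (Function.update φ d 1)).prod)⁻¹ * (w'.map φ).prod := by
  let _ : CommGroup (Gam2 G) := gam2CommGroup hc
  let L : G → (Gam2 G) →* (Gam2 G) := fun y =>
    MonoidHom.mk' (fun c => ⟨lam y c.1, lam_mem y c.1⟩)
      (fun a b => Subtype.ext (lam_mul hc y a.2 b.1))
  have hLL : ∀ (i j : G) (b : Gam2 G), L i (L j b) = 1 := fun i j b =>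
    Subtype.ext (lam_of_central i _ (fun t => lam_central hc j b.2 t))
  let hS : List α → Gam2 G := fun v => ⟨peelH φ d v, peelH_mem φ d v⟩
  let mS : List α → Gam2 G := fun v => ⟨peelM φ d v, lam_mem _ _⟩
  have hv : Van 4 hS :=
    van_four L hLL hS mS d φ (φ d) (Function.update φ d 1)
      (fun x => ⟨lam (φ d) (Function.update φ d 1 x), lam_mem _ _⟩)
      (fun x hx v => Subtype.ext (peelH_snoc_ne φ d x hx v))
      (fun v => Subtype.ext (peelH_snoc_self φ d v))
      (fun x v => Subtype.ext (peelM_snoc φ d x v))
  have hNB : ∀ b : Gam2 G, b ^ N = 1 := fun b => Subtype.ext (hN b.1)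
  have key := van_profile 4 N hNB hS hv w w' (fun u hu => hp u (by omega))
  exact congrArg Subtype.val key

end Collect

end Vale.Agent.Lib.P329
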