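import Vale.Agent.Lib.P329.Perm
import Vale.Agent.Lib.P329.Blocks2

/-!
# P329: auxiliary facts on scattered subword counts

The number of occurrences of `u` as a scattered subword of `w` is `List.count u (List.sublists w)`.
This file contains: detection is stable under reversal of words; the subword count is invariant
under simultaneous reversal; the recursion of the subword count for appending a letter; the
subword count of a power of a letter is a binomial coefficient of the letter count; and these
counts are determined modulo any `n` by finitely many tests of star height at most one.
-/

namespace Vale.Agent.Lib.P329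

open Language

section Rev

variable {α : Type}

/-- Detection is stable under reversal of the word. -/
theorem Detects.reverse {β : Type} {f : List α → β} (h : Detects f) :
    Detects (fun w => f w.reverse) := by
  obtain ⟨T, hT, hf⟩ := h
  refine ⟨T.map revExp, ?_, ?_⟩
  · intro t ht
    obtain ⟨s, hs, rfl⟩ := List.mem_map.1 ht
    rw [sh_revExp]
    exact hT s hs
  · intro w w' hw
    apply hf
    intro t ht
    have := hw (revExp t) (List.mem_map.2 ⟨t, ht, rfl⟩)
    rw [mem_revExp, mem_revExp] at this
    exact this

end Rev

section Count

variable {α : Type} [DecidableEq α]

/-- The subword count is invariant under reversing both words. -/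
theorem count_sublists_reverse (u w : List α) :
    List.count u.reverse (List.sublists w.reverse) = List.count u (List.sublists w) := by
  rw [List.sublists_reverse, List.count_map_of_injective _ _ List.reverse_injective]
  exact (List.sublists_perm_sublists' w).symm.count_eq u

/-- Appending a letter: the subwords of `w ++ [x]` ending with the last letter `x` correspond
to the subwords of `w`. -/
theorem count_sublists_snoc (u w : List α) (x y : α) :
    List.count (u ++ [y]) (List.sublists (w ++ [x])) =
      List.count (u ++ [y]) (List.sublists w) +
        (if x = y then List.count u (List.sublists w) else 0) := by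
  rw [List.sublists_concat, List.count_append]
  congr 1
  by_cases hxy : x = y
  · subst hxy
    rw [if_pos rfl]
    exact List.count_map_of_injective _ _ (List.append_left_injective [x]) u
  · rw [if_neg hxy]
    apply List.count_eq_zero_of_not_mem
    intro hmem
    obtain ⟨s, -, hs⟩ := List.mem_map.1 hmem
    have := List.append_inj' hs (by simp)
    simp only [List.cons.injEq, and_true] at this
    exact hxy this.2

/-- The empty word occurs exactly once as a subword. -/
theorem count_sublists_nil (w : List α) : List.count ([] : List α) (List.sublists w) = 1 := by
  induction w using List.reverseRecOn with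
  | nil => simp
  | append_singleton w x ih =>
    rw [List.sublists_concat, List.count_append, ih]
    have : List.count ([] : List α) (List.map (fun s => s ++ [x]) (List.sublists w)) = 0 := by
      apply List.count_eq_zero_of_not_mem
      intro hmem
      obtain ⟨s, -, hs⟩ := List.mem_map.1 hmem
      simp at hs
    rw [this]

/-- The subword count of a power of a letter is a binomial coefficient. -/
theorem count_sublists_replicate (a : α) (k : ℕ) (w : List α) :
    List.count (List.replicate k a) (List.sublists w) = (w.count a).choose k := by
  induction w using List.reverseRecOn generalizing k with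
  | nil =>
    cases k with
    | zero => simp
    | succ k => simp [List.replicate_succ]
  | append_singleton w x ih =>
    cases k with
    | zero => simpa using count_sublists_nil (w ++ [x])
    | succ k =>
      rw [List.replicate_succ', count_sublists_snoc, ← List.replicate_succ', ih, ih,
        List.count_append]
      by_cases hxa : x = a
      · subst hxa
        simp [Nat.choose_succ_succ, add_comm]
      · simp [hxa]

/-- The subword count of a one-letter word is the letter count. -/
theorem count_sublists_singleton (a : α) (w : List α) :
    List.count [a] (List.sublists w) = w.count a := by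
  have := count_sublists_replicate a 1 w
  simpa using this

end Count

section Choose

/-- Binomial coefficients `c.choose j`, `j ≤ k`, are periodic modulo `n` in `c` with every
period `N` all of whose binomial coefficients `N.choose i`, `1 ≤ i ≤ k`, are divisible by `n`. -/
theorem choose_add_mod (n k N : ℕ) (hN : ∀ i, 1 ≤ i → i ≤ k → n ∣ N.choose i) :
    ∀ j, j ≤ k → ∀ c, (c + N).choose j % n = c.choose j % n := by
  intro j
  induction j with
  | zero => intro _ c; simp
  | succ j ihj =>
    intro hj c
    induction c with
    | zero =>
      rw [Nat.zero_add, Nat.choose_zero_succ, Nat.zero_mod]
      exact Nat.mod_eq_zero_of_dvd (hN (j + 1) (by omega) hj)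
    | succ c ihc =>
      have e : c + 1 + N = (c + N) + 1 := by omega
      rw [e, Nat.choose_succ_succ, Nat.choose_succ_succ, Nat.add_mod, ihj (by omega) c, ihc,
        ← Nat.add_mod]

theorem dvd_choose_factorial_mul (n k i : ℕ) (hi : 1 ≤ i) (hik : i ≤ k) :
    n ∣ (k.factorial * n).choose i := by
  rcases Nat.eq_zero_or_pos n with hn | hn
  · subst hn
    rw [Nat.mul_zero]
    obtain ⟨i', rfl⟩ : ∃ i', i = i' + 1 := ⟨i - 1, by omega⟩
    rw [Nat.choose_zero_succ]
  · have hNpos : 0 < k.factorial * n := Nat.mul_pos (Nat.factorial_pos k) hn
    obtain ⟨N', hN'⟩ : ∃ N', k.factorial * n = N' + 1 := ⟨k.factorial * n - 1, by omega⟩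
    obtain ⟨i', rfl⟩ : ∃ i', i = i' + 1 := ⟨i - 1, by omega⟩
    obtain ⟨q, hq⟩ : (i' + 1) ∣ k.factorial := Nat.dvd_factorial (by omega) hik
    have h := Nat.add_one_mul_choose_eq N' i'
    rw [hN']
    have h2 : (N' + 1).choose (i' + 1) * (i' + 1) = (q * n * N'.choose i') * (i' + 1) := by
      rw [← h, ← hN', hq]
      ring
    have h3 := Nat.eq_of_mul_eq_mul_right (by omega : 0 < i' + 1) h2
    rw [h3]
    exact ⟨q * N'.choose i', by ring⟩

/-- `c.choose k` modulo `n` depends only on `c` modulo `k! * n`. -/
theorem choose_mod_factorial_mul (n k c : ℕ) :
    c.choose k % n = (c % (k.factorial * n)).choose k % n := by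
  have key : ∀ t r, (r + t * (k.factorial * n)).choose k % n = r.choose k % n := by
    intro t
    induction t with
    | zero => intro r; simp
    | succ t ih =>
      intro r
      have e : r + (t + 1) * (k.factorial * n) = (r + t * (k.factorial * n)) + k.factorial * n := by
        ring
      rw [e, choose_add_mod n k (k.factorial * n)
        (fun i hi hik => dvd_choose_factorial_mul n k i hi hik) k le_rfl, ih]
  have := key (c / (k.factorial * n)) (c % (k.factorial * n))
  rw [Nat.mod_add_div' c (k.factorial * n)] at this
  exact this

end Choose

section Det

variable {α : Type} [Fintype α] [DecidableEq α]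

/-- The subword count of a power of a letter is determined modulo `n` by finitely many tests of
star height at most one. -/
theorem detects_replicate (a : α) (k n : ℕ) (hn : 0 < n) :
    Detects (fun w : List α => List.count (List.replicate k a) (List.sublists w) % n) := by
  have h := detects_letter_count a (k.factorial * n) (Nat.mul_pos (Nat.factorial_pos k) hn)
  refine (h.comp (fun r => r.choose k % n)).congr ?_
  intro w
  show (w.count a % (k.factorial * n)).choose k % n = _
  rw [count_sublists_replicate, ← choose_mod_factorial_mul]

end Det

end Vale.Agent.Lib.P329
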