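import Vale.Agent.Lib.P329.Affine
import Vale.Agent.Lib.P329.Class3
import Vale.Agent.Lib.P329.Peel
import Vale.Agent.Lib.P329.ProfileLang
import Vale.Agent.Lib.P329.SubwordAux

/-!
# P329: the one-letter step for groups with the class-three law, by the affine recursion

For a map `φ` from the alphabet to a group `G`, a letter `d` and a word `w`, let `Q` be the
product along `w` with `d` sent to `1`, let `P` be the product along `w`, and let `n` be the
number of occurrences of `d`. The correction term `h = (φ d ^ n * Q)⁻¹ * P` and the element
`m = lam (φ d) Q` form the state of an affine unipotent recursion on pairs of elements of a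
commutative group (`Affine.lean`). Hence both depend only on the numbers, modulo the exponent,
of occurrences of the scattered subwords of length at most three. With the letter induction of
`Peel.lean` this gives the theorem for all finite groups with the class-three law.
-/

namespace Vale.Agent.Lib.P329

open scoped commutatorElement

section Abstract

variable {α G V : Type} [DecidableEq α] [Group G] [CommGroup V]

/-- The multiplicative part of the recursion at the letter `x`. -/
def pN (nu : G → V → V) (φ : α → G) (d : α) (x : α) (s : V × V) : V × V :=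
  if x = d then (nu (φ d) s.1 * s.2, 1) else (nu (φ x) s.1, nu (φ x) s.2)

/-- The constant part of the recursion at the letter `x`. -/
def pt (kap : G → G → V) (φ : α → G) (d : α) (x : α) : V × V :=
  if x = d then 1 else (1, kap (φ x) (φ d))

/-- The state after reading a word. -/
def pS (nu : G → V → V) (kap : G → G → V) (φ : α → G) (d : α) (w : List α) : V × V :=
  w.foldl (fun s x => s * pN nu φ d x s * pt kap φ d x) 1

omit [Group G] in
theorem pS_nil (nu : G → V → V) (kap : G → G → V) (φ : α → G) (d : α) :
    pS nu kap φ d [] = 1 := rfl

omit [Group G] in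
theorem pS_snoc (nu : G → V → V) (kap : G → G → V) (φ : α → G) (d : α) (w : List α) (x : α) :
    pS nu kap φ d (w ++ [x]) =
      pS nu kap φ d w * pN nu φ d x (pS nu kap φ d w) * pt kap φ d x := by
  unfold pS
  simp only [List.foldl_append, List.foldl_cons, List.foldl_nil]

theorem peel_abstract [Fintype α] (ι : V →* G) (hι : Function.Injective ι)
    (nu : G → V → V) (kap : G → G → V)
    (hnu : ∀ y m, ι (nu y m) = lam y (ι m))
    (hcent : ∀ y m (z : G), ι (nu y m) * z = z * ι (nu y m))
    (hkap : ∀ y β, ι (kap y β) = lam β y)
    (e : ℕ) (heV : ∀ v : V, v ^ e = 1)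
    (φ : α → G) (d : α) (w w' : List α)
    (hp : ∀ u : List α, u.length ≤ 3 → sc u w % e = sc u w' % e) :
    (φ d ^ w.count d * (w.map (Function.update φ d 1)).prod)⁻¹ * (w.map φ).prod =
      (φ d ^ w'.count d * (w'.map (Function.update φ d 1)).prod)⁻¹ * (w'.map φ).prod := by
  have hnu1 : ∀ y, nu y 1 = 1 := by
    intro y
    apply hι
    rw [hnu, map_one, lam_one_right]
  have hnumul : ∀ y m m', nu y (m * m') = nu y m * nu y m' := by
    intro y m m'
    apply hι
    rw [hnu, map_mul, map_mul, hnu, hnu]
    apply lam_mul_of_central
    intro z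
    rw [← hnu]
    exact hcent y m z
  have hnunu : ∀ y y' m, nu y (nu y' m) = 1 := by
    intro y y' m
    apply hι
    rw [hnu, map_one]
    exact lam_of_central y _ (fun z => hcent y' m z)
  have hN1 : ∀ a, pN nu φ d a (1 : V × V) = 1 := by
    intro a
    by_cases h : a = d <;> simp [pN, h, hnu1]
  have hNm : ∀ a (u v : V × V), pN nu φ d a (u * v) = pN nu φ d a u * pN nu φ d a v := by
    intro a u v
    by_cases h : a = d
    · simp only [pN, h, if_true, Prod.fst_mul, Prod.snd_mul, hnumul, Prod.mk_mul_mk, mul_one]
      rw [mul_mul_mul_comm]
    · simp only [pN, h, if_false, Prod.fst_mul, Prod.snd_mul, hnumul, Prod.mk_mul_mk]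
  have hN3 : ∀ a b c x, pN nu φ d c (pN nu φ d b (pN nu φ d a (pt kap φ d x))) = 1 := by
    intro a b c x
    obtain ⟨k, hk⟩ : ∃ k, pt kap φ d x = (1, k) := by
      by_cases h : x = d
      · exact ⟨1, by rw [pt, if_pos h]; rfl⟩
      · exact ⟨kap (φ x) (φ d), by simp [pt, h]⟩
    rw [hk]
    by_cases h1 : a = d <;> by_cases h2 : b = d <;> by_cases h3 : c = d <;>
      simp [pN, h1, h2, h3, hnunu, hnu1]
  have heVV : ∀ v : V × V, v ^ e = 1 := by
    intro v
    ext
    · simp [heV]
    · simp [heV]
  have hS : pS nu kap φ d w = pS nu kap φ d w' :=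
    affine_det (pN nu φ d) hN1 hNm (pt kap φ d) hN3 e heVV w w' hp
  have key : ∀ l : List α,
      ι (pS nu kap φ d l).2 = lam (φ d) ((l.map (Function.update φ d 1)).prod) ∧
      ι (pS nu kap φ d l).1 =
        (φ d ^ l.count d * (l.map (Function.update φ d 1)).prod)⁻¹ * (l.map φ).prod := by
    intro l
    induction l using List.reverseRecOn with
    | nil => simp [pS_nil, lam_one_right]
    | append_singleton l x ihl =>
      obtain ⟨i1, i2⟩ := ihl
      rw [pS_snoc]
      simp only [List.map_append, List.prod_append, List.map_singleton, List.prod_singleton,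
        List.count_append, List.count_singleton]
      by_cases hx : x = d
      · rw [hx]
        have e1 : pN nu φ d d (pS nu kap φ d l) =
            (nu (φ d) (pS nu kap φ d l).1 * (pS nu kap φ d l).2, 1) := by
          simp [pN]
        have e2 : pt kap φ d d = (1 : V × V) := by
          simp [pt]
        rw [e1, e2]
        constructor
        · simp only [Prod.snd_mul, mul_one, Function.update_self]
          exact i1
        · have e3 : (pS nu kap φ d l * (nu (φ d) (pS nu kap φ d l).1 * (pS nu kap φ d l).2, 1)
              * 1).1 = (pS nu kap φ d l).2 *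
                ((pS nu kap φ d l).1 * nu (φ d) (pS nu kap φ d l).1) := by
            simp only [Prod.fst_mul, mul_one]
            ac_rfl
          rw [e3, map_mul, map_mul, hnu, i1, i2]
          simp only [Function.update_self, mul_one, beq_self_eq_true, if_true]
          unfold lam
          group
      · have e1 : pN nu φ d x (pS nu kap φ d l) =
            (nu (φ x) (pS nu kap φ d l).1, nu (φ x) (pS nu kap φ d l).2) := by
          simp [pN, hx]
        have e2 : pt kap φ d x = (1, kap (φ x) (φ d)) := by
          simp [pt, hx]
        rw [e1, e2]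
        have hx' : Function.update φ d 1 x = φ x := Function.update_of_ne hx _ _
        constructor
        · simp only [Prod.snd_mul, map_mul, hnu, hkap, i1, hx']
          unfold lam
          group
        · have hxd : (x == d) = false := by simpa using hx
          simp only [Prod.fst_mul, mul_one, map_mul, hnu, i2, hx', hxd]
          unfold lam
          simp only [Bool.false_eq_true, if_false, add_zero]
          group
  rw [← (key w).2, ← (key w').2, hS]

end Abstract

section ClassThree

variable {α G : Type} [Fintype α] [DecidableEq α] [Group G]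

theorem peel_class3 (hc : ∀ x y z t : G, ⁅⁅⁅x, y⁆, z⁆, t⁆ = 1) (e : ℕ)
    (he : ∀ x : G, x ^ e = 1) (φ : α → G) (d : α) (w w' : List α)
    (hp : ∀ u : List α, u.length ≤ 3 → sc u w % e = sc u w' % e) :
    (φ d ^ w.count d * (w.map (Function.update φ d 1)).prod)⁻¹ * (w.map φ).prod =
      (φ d ^ w'.count d * (w'.map (Function.update φ d 1)).prod)⁻¹ * (w'.map φ).prod := by
  let _ : CommGroup ↥(Gam2 G) :=
    { (inferInstance : Group ↥(Gam2 G)) with
      mul_comm := fun a b => Subtype.ext (gam2_comm hc a a.2 b b.2) }
  exact peel_abstract (Gam2 G).subtype (Gam2 G).subtype_injective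
    (fun y m => ⟨lam y m, lam_mem y m⟩) (fun y β => ⟨lam β y, lam_mem β y⟩)
    (fun y m => rfl) (fun y m z => lam_central hc y m.2 z) (fun y β => rfl)
    e (fun v => Subtype.ext (by simpa using he (v : G))) φ d w w' hp

/-- Every language recognized by a finite group satisfying the class-three commutator law has
star height at most one. -/
theorem class_three_language_affine [Finite G] (hc : ∀ x y z t : G, ⁅⁅⁅x, y⁆, z⁆, t⁆ = 1)
    (φ : α → G) (P : Set G) :
    ∃ e : GExp α, e.sh ≤ 1 ∧ ∀ w : List α, w ∈ e.lang ↔ (w.map φ).prod ∈ P := by
  apply language_of_profile_determined (Nat.card G) Nat.card_pos (fun w => (w.map φ).prod)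
  intro w w' hp
  apply prod_eq_of_peel (Nat.card G) (fun x => pow_card_eq_one') w w'
  · intro d
    have h := hp [d] (by simp)
    rwa [count_sublists_singleton, count_sublists_singleton] at h
  · intro ψ d
    exact peel_class3 hc (Nat.card G) (fun x => pow_card_eq_one') ψ d w w' hp

end ClassThree

end Vale.Agent.Lib.P329
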