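import Vale.Agent.Lib.P329.Views

/-!
# P329: counter-free automata recognize star-free languages

A complete deterministic automaton over a finite alphabet is counter-free if no word permutes a
set of states cyclically in a nontrivial way: whenever reading `u` a positive number of times
from `q` leads back to `q`, reading `u` once from `q` leads back to `q`. For such an automaton
the set of words leading from one state to another is star-free. The proof is by induction on
the number of states and the number of letters: either every letter acts as the identity, or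
some letter `b` is not injective, and then a word is cut at the occurrences of `b`; the pieces
between them are handled by the automaton without the letter `b`, and the sequence of pieces by
an automaton on the image of `b`, which has fewer states.
-/

namespace Vale.Agent.Lib.P329

open Language

/-! ### Star-free sets of words -/

section StarFree

variable {α : Type}

/-- A set of words is star-free if it is denoted by an expression of star height zero. -/
def SF (L : Set (List α)) : Prop := ∃ e : GExp α, e.sh = 0 ∧ ∀ w, w ∈ e.lang ↔ w ∈ L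

theorem SF.congr {L L' : Set (List α)} (h : SF L) (hLL : ∀ w, w ∈ L ↔ w ∈ L') : SF L' := by
  obtain ⟨e, he, hw⟩ := h
  exact ⟨e, he, fun w => (hw w).trans (hLL w)⟩

theorem sf_empty : SF (∅ : Set (List α)) :=
  ⟨.zero, rfl, fun w =>
    ⟨fun h => absurd h (notMem_zero w), fun h => absurd h (Set.notMem_empty w)⟩⟩

theorem sf_univ : SF (Set.univ : Set (List α)) :=
  ⟨top, rfl, fun w => ⟨fun _ => Set.mem_univ w, fun _ => mem_top' w⟩⟩

theorem sf_nil : SF {w : List α | w = []} :=
  ⟨.one, rfl, fun w => mem_one w⟩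

theorem sf_single (a : α) : SF {w : List α | w = [a]} :=
  ⟨.letter a, rfl, fun w => mem_letter a w⟩

theorem SF.union {L1 L2 : Set (List α)} (h1 : SF L1) (h2 : SF L2) : SF (L1 ∪ L2) := by
  obtain ⟨e1, he1, hw1⟩ := h1
  obtain ⟨e2, he2, hw2⟩ := h2
  refine ⟨.plus e1 e2, by simp [GExp.sh, he1, he2], fun w => ?_⟩
  rw [mem_plus, hw1, hw2]
  rfl

theorem SF.compl {L : Set (List α)} (h : SF L) : SF Lᶜ := by
  obtain ⟨e, he, hw⟩ := h
  refine ⟨.neg e, by simp [GExp.sh, he], fun w => ?_⟩
  rw [mem_neg, hw]
  rfl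

theorem SF.inter {L1 L2 : Set (List α)} (h1 : SF L1) (h2 : SF L2) : SF (L1 ∩ L2) := by
  have h := (h1.compl.union h2.compl).compl
  refine h.congr (fun w => ?_)
  simp

theorem SF.concat {L1 L2 : Set (List α)} (h1 : SF L1) (h2 : SF L2) :
    SF {w | ∃ u v, w = u ++ v ∧ u ∈ L1 ∧ v ∈ L2} := by
  obtain ⟨e1, he1, hw1⟩ := h1
  obtain ⟨e2, he2, hw2⟩ := h2
  refine ⟨.comp e1 e2, by simp [GExp.sh, he1, he2], fun w => ?_⟩
  rw [mem_comp]
  constructor
  · rintro ⟨u, v, rfl, hu, hv⟩
    exact ⟨u, v, rfl, (hw1 u).1 hu, (hw2 v).1 hv⟩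
  · rintro ⟨u, v, rfl, hu, hv⟩
    exact ⟨u, v, rfl, (hw1 u).2 hu, (hw2 v).2 hv⟩

theorem sf_iUnion {ι : Type} [Fintype ι] (L : ι → Set (List α)) (h : ∀ i, SF (L i)) :
    SF {w | ∃ i, w ∈ L i} := by
  choose E hE hw using h
  refine ⟨lsum ((Finset.univ : Finset ι).toList.map E), ?_, fun w => ?_⟩
  · have h0 := sh_lsum_le ((Finset.univ : Finset ι).toList.map E) 0 (by
      intro e he
      obtain ⟨i, -, rfl⟩ := List.mem_map.1 he
      exact le_of_eq (hE i))
    omega
  · rw [mem_lsum]
    constructor
    · rintro ⟨e, he, hwe⟩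
      obtain ⟨i, -, rfl⟩ := List.mem_map.1 he
      exact ⟨i, (hw i w).1 hwe⟩
    · rintro ⟨i, hi⟩
      exact ⟨E i, List.mem_map.2 ⟨i, Finset.mem_toList.2 (Finset.mem_univ i), rfl⟩,
        (hw i w).2 hi⟩

theorem sf_saturated [DecidableEq α] {ι : Type} [Fintype ι] (t : ι → Set (List α))
    (ht : ∀ i, SF (t i)) (L : Set (List α))
    (hL : ∀ w w', (∀ i, (w ∈ t i ↔ w' ∈ t i)) → (w ∈ L ↔ w' ∈ L)) : SF L := by
  choose E hE hw using ht
  obtain ⟨e, he, hwe⟩ := saturated_list 0 ((Finset.univ : Finset ι).toList.map E) (by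
      intro s hs
      obtain ⟨i, -, rfl⟩ := List.mem_map.1 hs
      exact le_of_eq (hE i)) L (by
      intro w w' hww
      apply hL
      intro i
      have h1 := hww (E i) (List.mem_map.2 ⟨i, Finset.mem_toList.2 (Finset.mem_univ i), rfl⟩)
      rw [hw i w, hw i w'] at h1
      exact h1)
  exact ⟨e, by omega, hwe⟩

theorem sf_allIn [Fintype α] (S : α → Prop) : SF {w : List α | ∀ c ∈ w, S c} := by
  classical
  exact ⟨allIn S, sh_allIn S, fun w => mem_allIn S w⟩

end StarFree

/-! ### Repeated words and counter-free automata -/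

section Repeat

variable {α Q : Type}

/-- The word `u` repeated `n` times. -/
def rep (n : ℕ) (u : List α) : List α := (List.replicate n u).flatten

theorem rep_zero (u : List α) : rep 0 u = [] := rfl

theorem rep_succ (n : ℕ) (u : List α) : rep (n + 1) u = u ++ rep n u := by
  simp [rep, List.replicate_succ]

theorem run_rep (δ : Q → α → Q) (q : Q) (u : List α) (n : ℕ) :
    run δ q (rep n u) = (fun s => run δ s u)^[n] q := by
  induction n generalizing q with
  | zero => rfl
  | succ n ih => rw [rep_succ, run_append, ih, Function.iterate_succ_apply]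

theorem rep_map {β : Type} (f : α → β) (n : ℕ) (u : List α) :
    rep n (u.map f) = (rep n u).map f := by
  induction n with
  | zero => rfl
  | succ n ih => rw [rep_succ, rep_succ, ih, List.map_append]

theorem run_map {β : Type} (δ : Q → α → Q) (f : β → α) (q : Q) (u : List β) :
    run (fun s c => δ s (f c)) q u = run δ q (u.map f) := by
  induction u generalizing q with
  | nil => rfl
  | cons c u ih =>
    rw [List.map_cons, run_cons, run_cons]
    exact ih _

/-- A complete deterministic automaton is counter-free if, whenever reading a word `u` a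
positive number of times from a state `q` leads back to `q`, reading `u` once from `q` leads
back to `q`. -/
def CF (δ : Q → α → Q) : Prop :=
  ∀ (q : Q) (u : List α) (n : ℕ), 0 < n → run δ q (rep n u) = q → run δ q u = q

theorem cf_map {β : Type} (δ : Q → α → Q) (f : β → α) (h : CF δ) :
    CF (fun s c => δ s (f c)) := by
  intro q u n hn hrun
  rw [run_map] at hrun ⊢
  rw [← rep_map] at hrun
  exact h q _ n hn hrun

end Repeat

/-! ### Words over the alphabet without one letter -/

section Lift

variable {α : Type}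

theorem exists_map_val (b : α) (w : List α) (h : ∀ c ∈ w, c ≠ b) :
    ∃ u : List {a : α // a ≠ b}, u.map Subtype.val = w := by
  induction w with
  | nil => exact ⟨[], rfl⟩
  | cons a w ih =>
    obtain ⟨u, hu⟩ := ih (fun c hc => h c (List.mem_cons_of_mem _ hc))
    exact ⟨⟨a, h a List.mem_cons_self⟩ :: u, by simp [hu]⟩

theorem sf_lift [Fintype α] (b : α) (e : GExp {a : α // a ≠ b}) (he : e.sh = 0) :
    SF {w : List α | ∃ u ∈ e.lang, w = u.map Subtype.val} := by
  induction e with
  | zero =>
    exact sf_empty.congr (fun w => ⟨fun h => absurd h (Set.notMem_empty w),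
      fun ⟨u, hu, _⟩ => absurd hu (notMem_zero u)⟩)
  | one =>
    refine sf_nil.congr (fun w => ⟨fun h => ⟨[], (mem_one _).2 rfl, h⟩, ?_⟩)
    rintro ⟨u, hu, hw⟩
    rw [(mem_one u).1 hu] at hw
    exact hw
  | letter a =>
    refine (sf_single a.1).congr (fun w => ⟨fun h => ⟨[a], (mem_letter a _).2 rfl, h⟩, ?_⟩)
    rintro ⟨u, hu, hw⟩
    rw [(mem_letter a u).1 hu] at hw
    exact hw
  | plus e1 e2 ih1 ih2 =>
    have h1 : e1.sh = 0 := by simp only [GExp.sh] at he; omega
    have h2 : e2.sh = 0 := by simp only [GExp.sh] at he; omega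
    refine ((ih1 h1).union (ih2 h2)).congr (fun w => ?_)
    constructor
    · rintro (⟨u, hu, rfl⟩ | ⟨u, hu, rfl⟩)
      · exact ⟨u, (mem_plus _ _ _).2 (Or.inl hu), rfl⟩
      · exact ⟨u, (mem_plus _ _ _).2 (Or.inr hu), rfl⟩
    · rintro ⟨u, hu, rfl⟩
      rcases (mem_plus _ _ _).1 hu with h | h
      · exact Or.inl ⟨u, h, rfl⟩
      · exact Or.inr ⟨u, h, rfl⟩
  | comp e1 e2 ih1 ih2 =>
    have h1 : e1.sh = 0 := by simp only [GExp.sh] at he; omega
    have h2 : e2.sh = 0 := by simp only [GExp.sh] at he; omega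
    refine ((ih1 h1).concat (ih2 h2)).congr (fun w => ?_)
    constructor
    · rintro ⟨x, y, rfl, ⟨u1, hu1, rfl⟩, ⟨u2, hu2, rfl⟩⟩
      exact ⟨u1 ++ u2, (mem_comp _ _ _).2 ⟨u1, u2, rfl, hu1, hu2⟩, by simp⟩
    · rintro ⟨u, hu, rfl⟩
      obtain ⟨u1, u2, rfl, hu1, hu2⟩ := (mem_comp _ _ _).1 hu
      exact ⟨u1.map Subtype.val, u2.map Subtype.val, by simp, ⟨u1, hu1, rfl⟩, ⟨u2, hu2, rfl⟩⟩
  | neg e ih =>
    have h1 : e.sh = 0 := by simpa only [GExp.sh] using he
    refine ((sf_allIn (fun c => c ≠ b)).inter (ih h1).compl).congr (fun w => ?_)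
    constructor
    · rintro ⟨hall, hnot⟩
      obtain ⟨u, rfl⟩ := exists_map_val b w hall
      refine ⟨u, ?_, rfl⟩
      rw [mem_neg]
      intro hu
      exact hnot ⟨u, hu, rfl⟩
    · rintro ⟨u, hu, rfl⟩
      refine ⟨?_, ?_⟩
      · intro c hc
        obtain ⟨a, -, rfl⟩ := List.mem_map.1 hc
        exact a.2
      · rintro ⟨u', hu', heq⟩
        have huu : u = u' := List.map_injective_iff.2 Subtype.val_injective heq
        subst huu
        exact (mem_neg _ _).1 hu hu'
  | star e _ =>
    simp only [GExp.sh] at he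
    omega

end Lift

end Vale.Agent.Lib.P329
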