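import Vale.Agent.Lib.P329.CounterFree

/-!
# P329: the induction step for counter-free automata

Let `b` be a letter. A word is cut at its occurrences of `b`. The pieces free of `b` are read
by the automaton without the letter `b`; a piece followed by `b` induces a map on the image of
`b`, and these maps form the alphabet of an automaton on the image of `b`.
-/

namespace Vale.Agent.Lib.P329

open Language

section Step

variable {α Q : Type} (δ : Q → α → Q) (b : α)

/-- The states in the image of the letter `b`. -/
abbrev Img : Type := {q : Q // ∃ q0, δ q0 b = q}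

/-- The map induced on the image of `b` by reading `v` and then `b`. -/
def trb (v : List α) (s : Img δ b) : Img δ b := ⟨δ (run δ s.1 v) b, ⟨_, rfl⟩⟩

/-- The new alphabet: the maps induced on the image of `b` by the words `v b` with `v` free
of `b`. -/
abbrev Gam : Type :=
  {γ : Img δ b → Img δ b // ∃ v : List α, (∀ c ∈ v, c ≠ b) ∧ γ = trb δ b v}

/-- The automaton on the image of `b` over the new alphabet. -/
def dGam (s : Img δ b) (γ : Gam δ b) : Img δ b := γ.1 s

/-- `Rep l w` says that `w` is a product `v₁ b v₂ b ... vₖ b` with every `vᵢ` free of `b` and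
`vᵢ b` inducing the `i`-th letter of `l`. -/
def Rep : List (Gam δ b) → List α → Prop
  | [], w => w = []
  | γ :: l, w => ∃ v w', w = v ++ b :: w' ∧ (∀ c ∈ v, c ≠ b) ∧ trb δ b v = γ.1 ∧ Rep l w'

theorem rep_append_of (l1 l2 : List (Gam δ b)) (w1 w2 : List α) (h1 : Rep δ b l1 w1)
    (h2 : Rep δ b l2 w2) : Rep δ b (l1 ++ l2) (w1 ++ w2) := by
  induction l1 generalizing w1 with
  | nil =>
    have hw : w1 = [] := h1
    subst hw
    simpa using h2
  | cons γ l ih =>
    obtain ⟨v, w', rfl, hv, hγ, hrest⟩ := h1
    exact ⟨v, w' ++ w2, by simp, hv, hγ, ih w' hrest⟩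

theorem rep_split (l1 l2 : List (Gam δ b)) (w : List α) (h : Rep δ b (l1 ++ l2) w) :
    ∃ w1 w2, w = w1 ++ w2 ∧ Rep δ b l1 w1 ∧ Rep δ b l2 w2 := by
  induction l1 generalizing w with
  | nil => exact ⟨[], w, rfl, rfl, h⟩
  | cons γ l ih =>
    obtain ⟨v, w', rfl, hv, hγ, hrest⟩ := h
    obtain ⟨w1, w2, rfl, h1, h2⟩ := ih w' hrest
    exact ⟨v ++ b :: w1, w2, by simp, ⟨v, w1, rfl, hv, hγ, h1⟩, h2⟩

omit δ in
theorem first_b_unique (v v' x x' : List α) (hv : ∀ c ∈ v, c ≠ b) (hv' : ∀ c ∈ v', c ≠ b)
    (h : v ++ b :: x = v' ++ b :: x') : v = v' ∧ x = x' := by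
  induction v generalizing v' with
  | nil =>
    cases v' with
    | nil => simpa using h
    | cons a v' =>
      simp only [List.nil_append, List.cons_append, List.cons.injEq] at h
      exact absurd h.1.symm (hv' a List.mem_cons_self)
  | cons a v ih =>
    cases v' with
    | nil =>
      simp only [List.nil_append, List.cons_append, List.cons.injEq] at h
      exact absurd h.1 (hv a List.mem_cons_self)
    | cons a' v' =>
      simp only [List.cons_append, List.cons.injEq] at h
      obtain ⟨h1, h2⟩ := ih v' (fun c hc => hv c (List.mem_cons_of_mem _ hc))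
        (fun c hc => hv' c (List.mem_cons_of_mem _ hc)) h.2
      exact ⟨by rw [h.1, h1], h2⟩

theorem rep_unique (l l' : List (Gam δ b)) (w : List α) (h : Rep δ b l w)
    (h' : Rep δ b l' w) : l = l' := by
  induction l generalizing l' w with
  | nil =>
    have hw : w = [] := h
    subst hw
    cases l' with
    | nil => rfl
    | cons γ l' =>
      obtain ⟨v, w', hw, -⟩ := h'
      simp at hw
  | cons γ l ih =>
    obtain ⟨v, w1, rfl, hv, hγ, hrest⟩ := h
    cases l' with
    | nil =>
      have hw : v ++ b :: w1 = [] := h'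
      simp at hw
    | cons γ' l' =>
      obtain ⟨v', w1', heq, hv', hγ', hrest'⟩ := h'
      obtain ⟨h1, h2⟩ := first_b_unique b v v' w1 w1' hv hv' heq
      subst h1
      subst h2
      have hγγ : γ = γ' := Subtype.ext (hγ.symm.trans hγ')
      rw [hγγ, ih l' w1 hrest hrest']

theorem rep_dom (l : List (Gam δ b)) (w : List α) (h : Rep δ b l w) :
    w = [] ∨ ∃ u, w = u ++ [b] := by
  induction l generalizing w with
  | nil => exact Or.inl h
  | cons γ l ih =>
    obtain ⟨v, w', rfl, -, -, hrest⟩ := h
    right
    rcases ih w' hrest with rfl | ⟨u, rfl⟩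
    · exact ⟨v, rfl⟩
    · exact ⟨v ++ b :: u, by simp⟩

theorem rep_exists [DecidableEq α] : ∀ (n : ℕ) (w : List α), w.length ≤ n →
    (w = [] ∨ ∃ u, w = u ++ [b]) → ∃ l, Rep δ b l w := by
  intro n
  induction n with
  | zero =>
    intro w hw _
    have hnil : w = [] := List.length_eq_zero_iff.1 (by omega)
    subst hnil
    exact ⟨[], rfl⟩
  | succ n ih =>
    intro w hw hdom
    rcases hdom with rfl | ⟨u, rfl⟩
    · exact ⟨[], rfl⟩
    · have hb : b ∈ u ++ [b] := by simp
      obtain ⟨v, w', hvw, hv⟩ := split_first b (u ++ [b]) hb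
      have hw' : w' = [] ∨ ∃ u', w' = u' ++ [b] := by
        rcases List.eq_nil_or_concat w' with rfl | ⟨u', c, hc⟩
        · left; rfl
        · right
          rw [List.concat_eq_append] at hc
          subst hc
          have h1 : u ++ [b] = (v ++ b :: u') ++ [c] := by rw [hvw]; simp
          have h2 := (List.append_inj' h1 rfl).2
          simp only [List.cons.injEq, and_true] at h2
          subst h2
          exact ⟨u', rfl⟩
      have hlen : w'.length ≤ n := by
        have h3 := congrArg List.length hvw
        simp only [List.length_append, List.length_cons, List.length_nil] at h3 hw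
        omega
      obtain ⟨l, hl⟩ := ih w' hlen hw'
      have hv' : ∀ c ∈ v, c ≠ b := fun c hc h => hv (h ▸ hc)
      exact ⟨⟨trb δ b v, ⟨v, hv', rfl⟩⟩ :: l, v, w', hvw, hv', rfl, hl⟩

theorem rep_run (l : List (Gam δ b)) (w : List α) (s : Img δ b) (h : Rep δ b l w) :
    (run (dGam δ b) s l).1 = run δ s.1 w := by
  induction l generalizing w s with
  | nil =>
    have hw : w = [] := h
    subst hw
    rfl
  | cons γ l ih =>
    obtain ⟨v, w', rfl, -, hγ, hrest⟩ := h
    rw [run_cons, ih w' _ hrest, run_append, run_cons]
    congr 1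
    show (γ.1 s).1 = δ (run δ s.1 v) b
    rw [← hγ]
    rfl

/-- A word over the old alphabet representing a word over the new alphabet. -/
noncomputable def expand (l : List (Gam δ b)) : List α :=
  (l.map (fun γ => Classical.choose γ.2 ++ [b])).flatten

theorem expand_append (l1 l2 : List (Gam δ b)) :
    expand δ b (l1 ++ l2) = expand δ b l1 ++ expand δ b l2 := by
  simp [expand]

theorem rep_expand (l : List (Gam δ b)) : Rep δ b l (expand δ b l) := by
  induction l with
  | nil => rfl
  | cons γ l ih =>
    exact ⟨Classical.choose γ.2, expand δ b l, by simp [expand],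
      (Classical.choose_spec γ.2).1, (Classical.choose_spec γ.2).2.symm, ih⟩

theorem expand_rep (n : ℕ) (l : List (Gam δ b)) :
    expand δ b (rep n l) = rep n (expand δ b l) := by
  induction n with
  | zero => rfl
  | succ n ih => rw [rep_succ, rep_succ, expand_append, ih]

theorem cf_gam (h : CF δ) : CF (dGam δ b) := by
  intro s l n hn hrun
  have h1 := rep_run δ b (rep n l) (expand δ b (rep n l)) s (rep_expand δ b _)
  rw [hrun, expand_rep] at h1
  have h2 := h s.1 (expand δ b l) n hn h1.symm
  apply Subtype.ext
  rw [rep_run δ b l (expand δ b l) s (rep_expand δ b l)]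
  exact h2

end Step

end Vale.Agent.Lib.P329
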