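import Vale.Agent.Lib.P329.CounterFree2

/-!
# P329: counter-free automata recognize star-free languages (main induction)
-/

namespace Vale.Agent.Lib.P329

open Language

section Step

variable {α Q : Type} (δ : Q → α → Q) (b : α) [Fintype α] [DecidableEq α] [Fintype Q]
  [DecidableEq Q]

/-- A set of words free of `b` whose membership depends only on the map induced on the states
is star-free, provided the automaton without the letter `b` recognizes star-free sets. -/
theorem sf_of_B (hB : ∀ p q : Q, SF {w : List α | (∀ c ∈ w, c ≠ b) ∧ run δ p w = q})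
    (L : Set (List α)) (hL1 : ∀ w ∈ L, ∀ c ∈ w, c ≠ b)
    (hL2 : ∀ w w', (∀ c ∈ w, c ≠ b) → (∀ c ∈ w', c ≠ b) →
      (∀ p, run δ p w = run δ p w') → (w ∈ L ↔ w' ∈ L)) : SF L := by
  refine sf_saturated (ι := Option (Q × Q))
    (fun i => match i with
      | none => {w : List α | ∀ c ∈ w, c ≠ b}
      | some pq => {w : List α | (∀ c ∈ w, c ≠ b) ∧ run δ pq.1 w = pq.2}) ?_ L ?_
  · intro i
    cases i with
    | none => exact sf_allIn (fun c => c ≠ b)
    | some pq => exact hB pq.1 pq.2
  · intro w w' hww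
    have h0 := hww none
    by_cases hw : ∀ c ∈ w, c ≠ b
    · have hw' : ∀ c ∈ w', c ≠ b := h0.1 hw
      apply hL2 w w' hw hw'
      intro p
      have h1 := (hww (some (p, run δ p w))).1 ⟨hw, rfl⟩
      exact h1.2.symm
    · have hw' : ¬ ∀ c ∈ w', c ≠ b := fun h => hw (h0.2 h)
      exact ⟨fun h => absurd (hL1 w h) hw, fun h => absurd (hL1 w' h) hw'⟩

omit [Fintype Q] [DecidableEq Q] [Fintype α] [DecidableEq α] in
theorem sf_dom [Fintype α] : SF {w : List α | w = [] ∨ ∃ u, w = u ++ [b]} := by
  refine (sf_nil.union (sf_univ.concat (sf_single b))).congr (fun w => ?_)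
  constructor
  · rintro (h | ⟨u, x, rfl, -, hx⟩)
    · exact Or.inl h
    · have hx' : x = [b] := hx
      subst hx'
      exact Or.inr ⟨u, rfl⟩
  · rintro (h | ⟨u, rfl⟩)
    · exact Or.inl h
    · exact Or.inr ⟨u, [b], rfl, Set.mem_univ u, rfl⟩

/-- Substitution: a star-free set of words over the new alphabet gives a star-free set of
words over the old alphabet. -/
theorem sf_subst (hB : ∀ p q : Q, SF {w : List α | (∀ c ∈ w, c ≠ b) ∧ run δ p w = q})
    (e : GExp (Gam δ b)) (he : e.sh = 0) :
    SF {w : List α | ∃ l ∈ e.lang, Rep δ b l w} := by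
  induction e with
  | zero =>
    exact sf_empty.congr (fun w => ⟨fun h => absurd h (Set.notMem_empty w),
      fun ⟨l, hl, _⟩ => absurd hl (notMem_zero l)⟩)
  | one =>
    refine sf_nil.congr (fun w => ⟨fun h => ⟨[], (mem_one _).2 rfl, h⟩, ?_⟩)
    rintro ⟨l, hl, hw⟩
    rw [(mem_one l).1 hl] at hw
    exact hw
  | letter γ =>
    have hK : SF {v : List α | (∀ c ∈ v, c ≠ b) ∧ trb δ b v = γ.1} := by
      apply sf_of_B δ b hB
      · intro w hw
        exact hw.1
      · intro w w' hw hw' hrun
        have htr : trb δ b w = trb δ b w' := by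
          funext s
          apply Subtype.ext
          show δ (run δ s.1 w) b = δ (run δ s.1 w') b
          rw [hrun]
        constructor
        · rintro ⟨-, h⟩
          exact ⟨hw', htr ▸ h⟩
        · rintro ⟨-, h⟩
          exact ⟨hw, htr.symm ▸ h⟩
    refine (hK.concat (sf_single b)).congr (fun w => ?_)
    constructor
    · rintro ⟨v, x, rfl, ⟨hv, hγ⟩, hx⟩
      have hx' : x = [b] := hx
      subst hx'
      exact ⟨[γ], (mem_letter γ _).2 rfl, v, [], rfl, hv, hγ, rfl⟩
    · rintro ⟨l, hl, hw⟩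
      rw [(mem_letter γ l).1 hl] at hw
      obtain ⟨v, w', rfl, hv, hγ, hrest⟩ := hw
      have hnil : w' = [] := hrest
      subst hnil
      exact ⟨v, [b], rfl, ⟨hv, hγ⟩, rfl⟩
  | plus e1 e2 ih1 ih2 =>
    have h1 : e1.sh = 0 := by simp only [GExp.sh] at he; omega
    have h2 : e2.sh = 0 := by simp only [GExp.sh] at he; omega
    refine ((ih1 h1).union (ih2 h2)).congr (fun w => ?_)
    constructor
    · rintro (⟨l, hl, hw⟩ | ⟨l, hl, hw⟩)
      · exact ⟨l, (mem_plus _ _ _).2 (Or.inl hl), hw⟩
      · exact ⟨l, (mem_plus _ _ _).2 (Or.inr hl), hw⟩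
    · rintro ⟨l, hl, hw⟩
      rcases (mem_plus _ _ _).1 hl with h | h
      · exact Or.inl ⟨l, h, hw⟩
      · exact Or.inr ⟨l, h, hw⟩
  | comp e1 e2 ih1 ih2 =>
    have h1 : e1.sh = 0 := by simp only [GExp.sh] at he; omega
    have h2 : e2.sh = 0 := by simp only [GExp.sh] at he; omega
    refine ((ih1 h1).concat (ih2 h2)).congr (fun w => ?_)
    constructor
    · rintro ⟨x, y, rfl, ⟨l1, hl1, hx⟩, ⟨l2, hl2, hy⟩⟩
      exact ⟨l1 ++ l2, (mem_comp _ _ _).2 ⟨l1, l2, rfl, hl1, hl2⟩,
        rep_append_of δ b l1 l2 x y hx hy⟩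
    · rintro ⟨l, hl, hw⟩
      obtain ⟨l1, l2, rfl, hl1, hl2⟩ := (mem_comp _ _ _).1 hl
      obtain ⟨w1, w2, rfl, hw1, hw2⟩ := rep_split δ b l1 l2 w hw
      exact ⟨w1, w2, rfl, ⟨l1, hl1, hw1⟩, ⟨l2, hl2, hw2⟩⟩
  | neg e ih =>
    have h1 : e.sh = 0 := by simpa only [GExp.sh] using he
    refine ((sf_dom b).inter (ih h1).compl).congr (fun w => ?_)
    constructor
    · rintro ⟨hd, hnot⟩
      obtain ⟨l, hl⟩ := rep_exists δ b w.length w le_rfl hd
      refine ⟨l, ?_, hl⟩
      rw [mem_neg]
      intro hle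
      exact hnot ⟨l, hle, hl⟩
    · rintro ⟨l, hl, hw⟩
      refine ⟨rep_dom δ b l w hw, ?_⟩
      rintro ⟨l', hl', hw'⟩
      have hll := rep_unique δ b l l' w hw hw'
      subst hll
      exact (mem_neg _ _).1 hl hl'
  | star e _ =>
    simp only [GExp.sh] at he
    omega

omit δ [Fintype α] [Fintype Q] [DecidableEq Q] in
theorem split_last (w : List α) :
    ∃ m t, w = m ++ t ∧ (m = [] ∨ ∃ u, m = u ++ [b]) ∧ ∀ c ∈ t, c ≠ b := by
  induction w using List.reverseRecOn with
  | nil => exact ⟨[], [], rfl, Or.inl rfl, by simp⟩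
  | append_singleton w a ih =>
    by_cases ha : a = b
    · subst ha
      exact ⟨w ++ [a], [], by simp, Or.inr ⟨w, rfl⟩, by simp⟩
    · obtain ⟨m, t, rfl, hm, ht⟩ := ih
      refine ⟨m, t ++ [a], by simp, hm, ?_⟩
      intro c hc
      rcases List.mem_append.1 hc with hc | hc
      · exact ht c hc
      · rw [List.mem_singleton.1 hc]
        exact ha

/-- The induction step: star-freeness for the automaton without `b` and for the automaton on
the image of `b` gives star-freeness for the automaton itself. -/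
theorem sf_step (hB : ∀ p q : Q, SF {w : List α | (∀ c ∈ w, c ≠ b) ∧ run δ p w = q})
    (hG : ∀ s t : Img δ b, SF {l : List (Gam δ b) | run (dGam δ b) s l = t}) (p q : Q) :
    SF {w : List α | run δ p w = q} := by
  classical
  have hPre : ∀ s : Img δ b, SF {w : List α | ∃ v, w = v ++ [b] ∧ (∀ c ∈ v, c ≠ b) ∧
      δ (run δ p v) b = s.1} := by
    intro s
    have hK : SF {v : List α | (∀ c ∈ v, c ≠ b) ∧ δ (run δ p v) b = s.1} := by
      apply sf_of_B δ b hB
      · intro w hw
        exact hw.1
      · intro w w' hw hw' hrun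
        constructor
        · rintro ⟨-, h⟩
          exact ⟨hw', by rw [← hrun p]; exact h⟩
        · rintro ⟨-, h⟩
          exact ⟨hw, by rw [hrun p]; exact h⟩
    refine (hK.concat (sf_single b)).congr (fun w => ?_)
    constructor
    · rintro ⟨v, x, rfl, ⟨hv, hs⟩, hx⟩
      have hx' : x = [b] := hx
      subst hx'
      exact ⟨v, rfl, hv, hs⟩
    · rintro ⟨v, rfl, hv, hs⟩
      exact ⟨v, [b], rfl, ⟨hv, hs⟩, rfl⟩
  have hMid : ∀ s t : Img δ b,
      SF {w : List α | ∃ l, run (dGam δ b) s l = t ∧ Rep δ b l w} := by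
    intro s t
    obtain ⟨e, he, hw⟩ := hG s t
    refine (sf_subst δ b hB e he).congr (fun w => ?_)
    constructor
    · rintro ⟨l, hl, hr⟩
      exact ⟨l, (hw l).1 hl, hr⟩
    · rintro ⟨l, hl, hr⟩
      exact ⟨l, (hw l).2 hl, hr⟩
  have hpiece : ∀ st : Img δ b × Img δ b, SF {w : List α | ∃ x y z, w = x ++ (y ++ z) ∧
      (∃ v, x = v ++ [b] ∧ (∀ c ∈ v, c ≠ b) ∧ δ (run δ p v) b = st.1.1) ∧
      (∃ l, run (dGam δ b) st.1 l = st.2 ∧ Rep δ b l y) ∧
      ((∀ c ∈ z, c ≠ b) ∧ run δ st.2.1 z = q)} := by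
    intro st
    refine ((hPre st.1).concat ((hMid st.1 st.2).concat (hB st.2.1 q))).congr (fun w => ?_)
    constructor
    · rintro ⟨x, yz, rfl, hx, y, z, rfl, hy, hz⟩
      exact ⟨x, y, z, rfl, hx, hy, hz⟩
    · rintro ⟨x, y, z, rfl, hx, hy, hz⟩
      exact ⟨x, y ++ z, rfl, hx, y, z, rfl, hy, hz⟩
  refine ((hB p q).union (sf_iUnion _ hpiece)).congr (fun w => ?_)
  constructor
  · rintro (⟨-, h⟩ | ⟨st, x, y, z, rfl, ⟨v, rfl, hv, hs⟩, ⟨l, hl, hr⟩, ⟨hz, hq⟩⟩)
    · exact h
    · show run δ p (v ++ [b] ++ (y ++ z)) = q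
      rw [run_append, run_append, run_append, run_cons, run_nil, hs,
        ← rep_run δ b l y st.1 hr, hl]
      exact hq
  · intro hw
    by_cases hb : b ∈ w
    · obtain ⟨v, rest, rfl, hv⟩ := split_first b w hb
      obtain ⟨m, t, rfl, hm, ht⟩ := split_last b rest
      obtain ⟨l, hl⟩ := rep_exists δ b m.length m le_rfl hm
      right
      have hw' : run δ p (v ++ b :: (m ++ t)) = q := hw
      rw [run_append, run_cons, run_append] at hw'
      refine ⟨(⟨δ (run δ p v) b, ⟨_, rfl⟩⟩, run (dGam δ b) ⟨δ (run δ p v) b, ⟨_, rfl⟩⟩ l),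
        v ++ [b], m, t, by simp, ⟨v, rfl, fun c hc h => hv (h ▸ hc), rfl⟩, ⟨l, rfl, hl⟩, ht, ?_⟩
      rw [rep_run δ b l m _ hl]
      exact hw'
    · left
      exact ⟨fun c hc h => hb (h ▸ hc), hw⟩

end Step

/-- Every counter-free automaton with finitely many states over a finite alphabet recognizes
only star-free sets: the set of words leading from `p` to `q` is star-free. -/
theorem sf_of_cf : ∀ (n m : ℕ) (Q α : Type) [Fintype Q] [DecidableEq Q] [Fintype α]
    [DecidableEq α] (δ : Q → α → Q), Fintype.card Q ≤ n → Fintype.card α ≤ m → CF δ →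
    ∀ p q, SF {w : List α | run δ p w = q} := by
  intro n
  induction n using Nat.strong_induction_on with
  | _ n ihn =>
  intro m
  induction m using Nat.strong_induction_on with
  | _ m ihm =>
  intro Q α _ _ _ _ δ hQ hα hcf p q
  by_cases hinj : ∀ a, Function.Injective (fun s => δ s a)
  · have hid : ∀ a s, δ s a = s := by
      intro a s
      have hbij : Function.Bijective (fun s => δ s a) :=
        Finite.injective_iff_bijective.1 (hinj a)
      have hpos : 0 < orderOf (Equiv.ofBijective _ hbij) := orderOf_pos _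
      have h1 : ((Equiv.ofBijective _ hbij) ^ orderOf (Equiv.ofBijective _ hbij)) s = s := by
        rw [pow_orderOf_eq_one]
        rfl
      have h2 : run δ s (rep (orderOf (Equiv.ofBijective _ hbij)) [a]) = s := by
        rw [run_rep]
        have hfun : (fun s => run δ s [a]) = ⇑(Equiv.ofBijective _ hbij) := rfl
        rw [hfun, Equiv.Perm.iterate_eq_pow]
        exact h1
      exact hcf s [a] _ hpos h2
    have hrun : ∀ (w : List α) (s : Q), run δ s w = s := by
      intro w
      induction w with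
      | nil => intro s; rfl
      | cons a w ih => intro s; rw [run_cons, hid, ih]
    by_cases hpq : p = q
    · exact sf_univ.congr (fun w => ⟨fun _ => by
        show run δ p w = q
        rw [hrun, hpq], fun _ => Set.mem_univ w⟩)
    · exact sf_empty.congr (fun w => ⟨fun h => absurd h (Set.notMem_empty w), fun h => by
        have h' : run δ p w = q := h
        rw [hrun] at h'
        exact absurd h' hpq⟩)
  · push_neg at hinj
    obtain ⟨b, hb⟩ := hinj
    classical
    have hB : ∀ p q : Q, SF {w : List α | (∀ c ∈ w, c ≠ b) ∧ run δ p w = q} := by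
      intro p q
      have hcard : Fintype.card {a : α // a ≠ b} < m := by
        have hlt : Fintype.card {a : α // a ≠ b} < Fintype.card α :=
          Fintype.card_subtype_lt (x := b) (by simp)
        omega
      obtain ⟨e, he, hw⟩ := ihm _ hcard Q {a : α // a ≠ b} (fun s c => δ s c.1) hQ le_rfl
        (cf_map δ Subtype.val hcf) p q
      refine (sf_lift b e he).congr (fun w => ?_)
      constructor
      · rintro ⟨u, hu, rfl⟩
        refine ⟨?_, ?_⟩
        · intro c hc
          obtain ⟨a, -, rfl⟩ := List.mem_map.1 hc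
          exact a.2
        · have h1 : run (fun s (c : {a : α // a ≠ b}) => δ s c.1) p u = q := (hw u).1 hu
          rw [run_map] at h1
          exact h1
      · rintro ⟨hall, hrun⟩
        obtain ⟨u, rfl⟩ := exists_map_val b w hall
        refine ⟨u, (hw u).2 ?_, rfl⟩
        show run (fun s (c : {a : α // a ≠ b}) => δ s c.1) p u = q
        rw [run_map]
        exact hrun
    have hG : ∀ s t : Img δ b, SF {l : List (Gam δ b) | run (dGam δ b) s l = t} := by
      have hcard : Fintype.card (Img δ b) < n := by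
        have hns : ¬ Function.Surjective (fun s => δ s b) :=
          fun hs => hb (Finite.injective_iff_surjective.2 hs)
        rw [Function.Surjective] at hns
        push_neg at hns
        obtain ⟨x, hx⟩ := hns
        have hlt : Fintype.card (Img δ b) < Fintype.card Q :=
          Fintype.card_subtype_lt (x := x) (by
            rintro ⟨q0, hq0⟩
            exact hx q0 hq0)
        omega
      exact ihn _ hcard (Fintype.card (Gam δ b)) (Img δ b) (Gam δ b) (dGam δ b) le_rfl le_rfl
        (cf_gam δ b hcf)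
    exact sf_step δ b hB hG p q

end Vale.Agent.Lib.P329
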