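import Vale.Agent.Lib.P329.CounterFree3

/-!
# P329: automata that are counter-free away from one state

If an automaton is counter-free as long as a state `o` is avoided, then the first returns to `o`
form a star-free set, and every language accepted by the automaton has generalized star height
at most one. The same holds for an automaton that counts, modulo `M`, the marked transitions of
an automaton whose marked transitions all lead to one state and whose unmarked transitions form
a counter-free automaton. A finite list of maps closed under the letters certifies that an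
automaton is counter-free.
-/

namespace Vale.Agent.Lib.P329

open Language

section Away

variable {α Q : Type} [DecidableEq Q]

/-- The automaton in which the state `o` leads to a sink. -/
def dOpt (δ : Q → α → Q) (o : Q) : Option Q → α → Option Q
  | none, _ => none
  | some s, a => if s = o then none else some (δ s a)

theorem run_dOpt_none (δ : Q → α → Q) (o : Q) (w : List α) :
    run (dOpt δ o) none w = none := by
  induction w with
  | nil => rfl
  | cons a w ih =>
    rw [run_cons]
    exact ih

theorem run_dOpt_o (δ : Q → α → Q) (o : Q) (w : List α) (x : Q)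
    (h : run (dOpt δ o) (some o) w = some x) : w = [] ∧ x = o := by
  cases w with
  | nil => exact ⟨rfl, (Option.some.inj h).symm⟩
  | cons a w =>
    rw [run_cons] at h
    have hstep : dOpt δ o (some o) a = none := by simp [dOpt]
    rw [hstep, run_dOpt_none] at h
    exact absurd h (by simp)

theorem run_dOpt_iff (δ : Q → α → Q) (o : Q) (w : List α) (q q' : Q) (hq : q ≠ o) :
    (run (dOpt δ o) (some q) w = some q' ∧ q' ≠ o) ↔ (avoids δ o q w ∧ run δ q w = q') := by
  induction w generalizing q with
  | nil =>
    simp only [run_nil, avoids, Option.some.injEq]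
    constructor
    · rintro ⟨rfl, h⟩
      exact ⟨h, rfl⟩
    · rintro ⟨h, rfl⟩
      exact ⟨rfl, h⟩
  | cons a w ih =>
    have hstep : dOpt δ o (some q) a = some (δ q a) := by simp [dOpt, hq]
    rw [run_cons, hstep, run_cons]
    simp only [avoids]
    by_cases hqa : δ q a = o
    · constructor
      · rintro ⟨h, hne⟩
        rw [hqa] at h
        exact absurd (run_dOpt_o δ o w q' h).2 hne
      · rintro ⟨⟨-, hav⟩, -⟩
        exact absurd hqa (avoids_ne δ o _ w hav)
    · rw [ih (δ q a) hqa]
      constructor
      · rintro ⟨hav, hr⟩
        exact ⟨⟨hq, hav⟩, hr⟩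
      · rintro ⟨⟨-, hav⟩, hr⟩
        exact ⟨hav, hr⟩

theorem run_dOpt_hit (δ : Q → α → Q) (o : Q) (w : List α) (q : Q) (hq : q ≠ o) :
    run (dOpt δ o) (some q) w = some o ↔ Hit δ o q w := by
  constructor
  · intro h
    rcases List.eq_nil_or_concat w with rfl | ⟨u, c, hc⟩
    · exact absurd (Option.some.inj h) hq
    · rw [List.concat_eq_append] at hc
      subst hc
      rw [run_append, run_cons, run_nil] at h
      cases hx : run (dOpt δ o) (some q) u with
      | none =>
        rw [hx] at h
        simp [dOpt] at h
      | some r =>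
        rw [hx] at h
        by_cases hr : r = o
        · rw [hr] at h
          simp [dOpt] at h
        · have h' : δ r c = o := by simpa [dOpt, hr] using h
          have hav := (run_dOpt_iff δ o u q r hq).1 ⟨hx, hr⟩
          exact ⟨u, c, rfl, hav.1, by rw [hav.2]; exact h'⟩
  · rintro ⟨u, c, rfl, hav, hc⟩
    have h1 := (run_dOpt_iff δ o u q (run δ q u) hq).2 ⟨hav, rfl⟩
    rw [run_append, h1.1, run_cons, run_nil]
    simp [dOpt, h1.2, hc]

/-- Counter-free away from `o`: whenever reading `u` a positive number of times from `q` leads
back to `q` without meeting `o`, reading `u` once from `q` leads back to `q`. -/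
def CFA (δ : Q → α → Q) (o : Q) : Prop :=
  ∀ (q : Q) (u : List α) (n : ℕ), 0 < n → avoids δ o q (rep n u) → run δ q (rep n u) = q →
    run δ q u = q

theorem cf_dOpt (δ : Q → α → Q) (o : Q) (h : CFA δ o) : CF (dOpt δ o) := by
  intro x u n hn hrun
  cases x with
  | none => exact run_dOpt_none δ o u
  | some s =>
    obtain ⟨k, rfl⟩ : ∃ k, n = k + 1 := ⟨n - 1, by omega⟩
    by_cases hs : s = o
    · rw [hs] at hrun ⊢
      have h1 := (run_dOpt_o δ o (rep (k + 1) u) o hrun).1
      rw [rep_succ] at h1
      have hu : u = [] := (List.append_eq_nil_iff.1 h1).1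
      rw [hu]
      rfl
    · have h1 := (run_dOpt_iff δ o (rep (k + 1) u) s s hs).1 ⟨hrun, hs⟩
      have h2 := h s u (k + 1) hn h1.1 h1.2
      have h3 : avoids δ o s u := by
        have h4 := h1.1
        rw [rep_succ, avoids_append] at h4
        exact h4.1
      exact ((run_dOpt_iff δ o u s s hs).2 ⟨h3, h2⟩).1

/-- If an automaton is counter-free away from `o`, the runs that avoid `o` and the first
returns to `o` are star-free. -/
theorem good_of_cfa [Fintype α] [DecidableEq α] [Fintype Q] (δ : Q → α → Q) (o : Q)
    (h : CFA δ o) : ∀ q, q ≠ o → Good δ o q := by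
  intro q hq
  have hsf := sf_of_cf (Fintype.card (Option Q)) (Fintype.card α) (Option Q) α (dOpt δ o)
    le_rfl le_rfl (cf_dOpt δ o h)
  constructor
  · intro q'
    by_cases hq' : q' = o
    · refine ⟨.zero, rfl, fun w => ⟨fun hw => absurd hw (notMem_zero w), ?_⟩⟩
      rintro ⟨hav, hr⟩
      exact absurd (hr.trans hq') (avoids_run_ne δ o q w hav)
    · obtain ⟨e, he, hw⟩ := hsf (some q) (some q')
      refine ⟨e, he, fun w => ?_⟩
      rw [hw]
      constructor
      · intro h1
        exact (run_dOpt_iff δ o w q q' hq).1 ⟨h1, hq'⟩
      · intro h1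
        exact ((run_dOpt_iff δ o w q q' hq).2 h1).1
  · obtain ⟨e, he, hw⟩ := hsf (some q) (some o)
    refine ⟨e, he, fun w => ?_⟩
    rw [hw]
    exact run_dOpt_hit δ o w q hq

end Away

/-! ### Counting marked transitions -/

section Count

variable {α Q : Type} (δ : Q → α → Q) (cnt : Q → α → Bool)

/-- The number of marked transitions along the run of `w` from `s`. -/
def cntN : Q → List α → ℕ
  | _, [] => 0
  | s, a :: w => (if cnt s a then 1 else 0) + cntN (δ s a) w

theorem cntN_snoc (s : Q) (w : List α) (a : α) :
    cntN δ cnt s (w ++ [a]) = cntN δ cnt s w + (if cnt (run δ s w) a then 1 else 0) := by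
  induction w generalizing s with
  | nil =>
    show (if cnt s a then 1 else 0) + 0 = 0 + (if cnt s a then 1 else 0)
    rw [add_zero, zero_add]
  | cons c w ih =>
    show (if cnt s c then 1 else 0) + cntN δ cnt (δ s c) (w ++ [a]) =
      (if cnt s c then 1 else 0) + cntN δ cnt (δ s c) w +
        (if cnt (run δ (δ s c) w) a then 1 else 0)
    rw [ih, add_assoc]

/-- The automaton that also counts the marked transitions modulo `M`. -/
def dCnt (M : ℕ) (hM : 0 < M) (x : Q × Fin M) (a : α) : Q × Fin M :=
  (δ x.1 a, if cnt x.1 a then ⟨(x.2.val + 1) % M, Nat.mod_lt _ hM⟩ else x.2)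

theorem run_dCnt (M : ℕ) (hM : 0 < M) (s : Q) (c : Fin M) (w : List α) :
    run (dCnt δ cnt M hM) (s, c) w =
      (run δ s w, ⟨(c.val + cntN δ cnt s w) % M, Nat.mod_lt _ hM⟩) := by
  induction w generalizing s c with
  | nil =>
    simp only [run_nil, cntN, add_zero]
    congr 1
    apply Fin.ext
    exact (Nat.mod_eq_of_lt c.2).symm
  | cons a w ih =>
    rw [run_cons]
    by_cases h : cnt s a
    · have hstep : dCnt δ cnt M hM (s, c) a = (δ s a, ⟨(c.val + 1) % M, Nat.mod_lt _ hM⟩) := by
        simp [dCnt, h]
      rw [hstep, ih, run_cons]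
      congr 1
      apply Fin.ext
      show ((c.val + 1) % M + cntN δ cnt (δ s a) w) % M = (c.val + cntN δ cnt s (a :: w)) % M
      rw [Nat.mod_add_mod]
      simp only [cntN, h, if_true]
      congr 1
      omega
    · have hstep : dCnt δ cnt M hM (s, c) a = (δ s a, c) := by
        simp [dCnt, h]
      rw [hstep, ih, run_cons]
      congr 1
      apply Fin.ext
      show (c.val + cntN δ cnt (δ s a) w) % M = (c.val + cntN δ cnt s (a :: w)) % M
      simp only [cntN, h]
      congr 1
      simp

/-- The automaton in which the marked transitions lead to a sink. -/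
def dUnc : Option Q → α → Option Q
  | none, _ => none
  | some s, a => if cnt s a then none else some (δ s a)

theorem run_dUnc_none (w : List α) : run (dUnc δ cnt) none w = none := by
  induction w with
  | nil => rfl
  | cons a w ih =>
    rw [run_cons]
    exact ih

theorem run_dUnc_of_zero (s : Q) (w : List α) (h : cntN δ cnt s w = 0) :
    run (dUnc δ cnt) (some s) w = some (run δ s w) := by
  induction w generalizing s with
  | nil => rfl
  | cons a w ih =>
    simp only [cntN] at h
    have hc : cnt s a = false := by
      cases hca : cnt s a with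
      | false => rfl
      | true =>
        rw [hca] at h
        simp at h
    have h' : cntN δ cnt (δ s a) w = 0 := by
      rw [hc] at h
      simpa using h
    have hstep : dUnc δ cnt (some s) a = some (δ s a) := by simp [dUnc, hc]
    rw [run_cons, run_cons, hstep]
    exact ih _ h'

theorem run_dUnc_some (s t : Q) (w : List α) (h : run (dUnc δ cnt) (some s) w = some t) :
    cntN δ cnt s w = 0 ∧ run δ s w = t := by
  induction w generalizing s with
  | nil => exact ⟨rfl, Option.some.inj h⟩
  | cons a w ih =>
    rw [run_cons] at h
    cases hc : cnt s a with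
    | true =>
      have hstep : dUnc δ cnt (some s) a = none := by simp [dUnc, hc]
      rw [hstep, run_dUnc_none] at h
      exact absurd h (by simp)
    | false =>
      have hstep : dUnc δ cnt (some s) a = some (δ s a) := by simp [dUnc, hc]
      rw [hstep] at h
      obtain ⟨h1, h2⟩ := ih _ h
      refine ⟨?_, by rw [run_cons]; exact h2⟩
      simp [cntN, hc, h1]

theorem avoids_dCnt_lt (M : ℕ) (hM : 0 < M) (hh : Q)
    (hcnt : ∀ s a, cnt s a = true → δ s a = hh) (s : Q) (c : Fin M) (w : List α)
    (h : avoids (dCnt δ cnt M hM) (hh, ⟨0, hM⟩) (s, c) w) :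
    c.val + cntN δ cnt s w < M := by
  induction w generalizing s c with
  | nil =>
    simp only [cntN, add_zero]
    exact c.2
  | cons a w ih =>
    obtain ⟨-, hav⟩ := h
    cases hc : cnt s a with
    | true =>
      have hstep : dCnt δ cnt M hM (s, c) a = (hh, ⟨(c.val + 1) % M, Nat.mod_lt _ hM⟩) := by
        simp [dCnt, hc, hcnt s a hc]
      rw [hstep] at hav
      have hne := avoids_ne _ _ _ w hav
      have hlt : c.val + 1 < M := by
        by_contra hge
        have hcM : c.val + 1 = M := by
          have := c.2
          omega
        apply hne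
        congr 1
        apply Fin.ext
        show (c.val + 1) % M = 0
        rw [hcM, Nat.mod_self]
      have h3 := ih hh ⟨(c.val + 1) % M, Nat.mod_lt _ hM⟩ hav
      have h4 : (c.val + 1) % M = c.val + 1 := Nat.mod_eq_of_lt hlt
      simp only [h4] at h3
      simp only [cntN, hc, if_true]
      rw [hcnt s a hc]
      omega
    | false =>
      have hstep : dCnt δ cnt M hM (s, c) a = (δ s a, c) := by
        simp [dCnt, hc]
      rw [hstep] at hav
      have h3 := ih (δ s a) c hav
      simp only [cntN, hc]
      simpa using h3

/-- The counting automaton is counter-free away from its base state. -/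
theorem cfa_dCnt [DecidableEq Q] (M : ℕ) (hM : 0 < M) (hh : Q)
    (hcnt : ∀ s a, cnt s a = true → δ s a = hh) (hcf : CF (dUnc δ cnt)) :
    CFA (dCnt δ cnt M hM) (hh, ⟨0, hM⟩) := by
  rintro ⟨s, c⟩ u n hn hav hrun
  have hlt := avoids_dCnt_lt δ cnt M hM hh hcnt s c (rep n u) hav
  rw [run_dCnt] at hrun
  have h1 : run δ s (rep n u) = s := congrArg Prod.fst hrun
  have h2 : (c.val + cntN δ cnt s (rep n u)) % M = c.val :=
    congrArg (fun x : Q × Fin M => x.2.val) hrun
  rw [Nat.mod_eq_of_lt hlt] at h2
  have h0 : cntN δ cnt s (rep n u) = 0 := by omega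
  have h3 := run_dUnc_of_zero δ cnt s (rep n u) h0
  rw [h1] at h3
  have h4 := hcf (some s) u n hn h3
  obtain ⟨h5, h6⟩ := run_dUnc_some δ cnt s s u h4
  rw [run_dCnt, h5, h6]
  congr 1
  apply Fin.ext
  show (c.val + 0) % M = c.val
  rw [add_zero, Nat.mod_eq_of_lt c.2]

/-- The state reached and the number of marked transitions modulo `M` are determined by
finitely many tests of star height at most one. -/
theorem detects_cnt [Fintype α] [DecidableEq α] [Fintype Q] [DecidableEq Q] (M : ℕ)
    (hM : 0 < M) (hh : Q) (hcnt : ∀ s a, cnt s a = true → δ s a = hh)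
    (hcf : CF (dUnc δ cnt)) (s : Q) :
    Detects (fun w : List α => (run δ s w, cntN δ cnt s w % M)) := by
  have h := detects_run (dCnt δ cnt M hM) (hh, ⟨0, hM⟩)
    (good_of_cfa _ _ (cfa_dCnt δ cnt M hM hh hcnt hcf)) (s, ⟨0, hM⟩)
  refine (h.comp (fun x => (x.1, x.2.val))).congr ?_
  intro w
  rw [run_dCnt]
  show (run δ s w, (0 + cntN δ cnt s w) % M) = (run δ s w, cntN δ cnt s w % M)
  rw [zero_add]

end Count

/-! ### Certificates for counter-free automata -/

section Cert

/-- A finite list `S` of maps (given by their lists of values along an enumeration `E` of the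
states) that contains the identity, is closed under the letters, and all of whose members `t`
satisfy `t ^ (n + 1) = t ^ n` for `n` the number of states, certifies that the automaton is
counter-free. -/
theorem cf_of_cert {X C : Type} [DecidableEq X] (δ : X → C → X) (E : List X)
    (hE : ∀ x, x ∈ E) (CL : List C) (hCL : ∀ c, c ∈ CL) (S : List (List X)) (hid : E ∈ S)
    (hcl : ∀ t ∈ S, ∀ c ∈ CL, t.map (fun y => δ y c) ∈ S)
    (hap : ∀ t ∈ S, ∀ x ∈ E, (fun y => t.getD (E.idxOf y) y)^[E.length + 1] x =
      (fun y => t.getD (E.idxOf y) y)^[E.length] x) : CF δ := by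
  have h1 : ∀ u : List C, E.map (fun x => run δ x u) ∈ S := by
    intro u
    induction u using List.reverseRecOn with
    | nil => simpa using hid
    | append_singleton u a ih =>
      have h := hcl _ ih a (hCL a)
      rw [List.map_map] at h
      have hfun : ((fun y => δ y a) ∘ fun x => run δ x u) = fun x => run δ x (u ++ [a]) := by
        funext x
        simp [run_append]
      rw [hfun] at h
      exact h
  have h2 : ∀ (u : List C) (y : X),
      (E.map (fun x => run δ x u)).getD (E.idxOf y) y = run δ y u := by
    intro u y
    have hlt : E.idxOf y < E.length := List.idxOf_lt_length_iff.2 (hE y)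
    have hlt' : E.idxOf y < (E.map (fun x => run δ x u)).length := by
      rw [List.length_map]
      exact hlt
    rw [List.getD_eq_getElem _ _ hlt', List.getElem_map, List.getElem_idxOf hlt]
  have h3 : ∀ (u : List C) (x : X),
      (fun y => run δ y u)^[E.length + 1] x = (fun y => run δ y u)^[E.length] x := by
    intro u x
    have h := hap _ (h1 u) x (hE x)
    have hfun : (fun y => (E.map (fun x => run δ x u)).getD (E.idxOf y) y) =
        fun y => run δ y u := funext (h2 u)
    rw [hfun] at h
    exact h
  intro q u n hn hrun
  rw [run_rep] at hrun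
  have h4 : ∀ j, (fun y => run δ y u)^[n * j] q = q := by
    intro j
    induction j with
    | zero => rfl
    | succ j ih => rw [Nat.mul_succ, Function.iterate_add_apply, hrun, ih]
  have h5 : ∀ K, E.length ≤ K → ∀ x,
      (fun y => run δ y u)^[K + 1] x = (fun y => run δ y u)^[K] x := by
    intro K hK x
    obtain ⟨d, rfl⟩ := Nat.exists_eq_add_of_le hK
    have e1 : (fun y => run δ y u)^[E.length + d + 1] x =
        (fun y => run δ y u)^[E.length + 1] ((fun y => run δ y u)^[d] x) := by
      rw [← Function.iterate_add_apply]
      congr 1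
      omega
    have e2 : (fun y => run δ y u)^[E.length + d] x =
        (fun y => run δ y u)^[E.length] ((fun y => run δ y u)^[d] x) := by
      rw [← Function.iterate_add_apply]
    rw [e1, e2]
    exact h3 u _
  have h6 := h5 (n * E.length) (Nat.le_mul_of_pos_left _ hn) q
  rw [Function.iterate_succ_apply', h4] at h6
  exact h6

end Cert

end Vale.Agent.Lib.P329
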