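import Vale.Agent.Lib.P329.CounterFree4

/-!
# P329: automata that are counter-free away from one state (statement in plain terms)
-/

namespace Vale.Agent.Lib.P329

open Language

theorem avoids_iff_forall {α Q : Type} (δ : Q → α → Q) (o q : Q) (w : List α) :
    avoids δ o q w ↔ ∀ w₁ w₂ : List α, w = w₁ ++ w₂ → w₁.foldl δ q ≠ o := by
  induction w generalizing q with
  | nil =>
    constructor
    · intro h w₁ w₂ hw
      have h1 : w₁ = [] := (List.append_eq_nil_iff.1 hw.symm).1
      rw [h1]
      exact h
    · intro h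
      exact h [] [] rfl
  | cons a w ih =>
    constructor
    · rintro ⟨hq, hav⟩ w₁ w₂ hw
      cases w₁ with
      | nil => exact hq
      | cons c w₁' =>
        simp only [List.cons_append, List.cons.injEq] at hw
        obtain ⟨rfl, hw'⟩ := hw
        exact (ih (δ q a)).1 hav w₁' w₂ hw'
    · intro h
      refine ⟨h [] (a :: w) rfl, (ih (δ q a)).2 ?_⟩
      intro w₁ w₂ hw
      exact h (a :: w₁) w₂ (by rw [hw]; rfl)

/-- If a complete deterministic automaton is counter-free away from the state `o`, then every
language it accepts has generalized star height at most one. -/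
theorem cfa_reset_automaton (α Q : Type) [Fintype α] [DecidableEq α] [Fintype Q]
    [DecidableEq Q] (δ : Q → α → Q) (o : Q)
    (h : ∀ (q : Q) (u : List α) (n : ℕ), 0 < n →
      (∀ w₁ w₂ : List α, (List.replicate n u).flatten = w₁ ++ w₂ → w₁.foldl δ q ≠ o) →
      ((List.replicate n u).flatten).foldl δ q = q → u.foldl δ q = q)
    (p : Q) (F : Set Q) :
    ∃ e : GExp α, e.sh ≤ 1 ∧ ∀ w : List α, w ∈ e.lang ↔ w.foldl δ p ∈ F := by
  have hcfa : CFA δ o := by
    intro q u n hn hav hrun
    exact h q u n hn ((avoids_iff_forall δ o q _).1 hav) hrun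
  have hgood := good_of_cfa δ o hcfa
  choose E hE using fun q' => reach δ o hgood p q'
  refine saturated_list 1 (Finset.univ.toList.map E) ?_ {w | w.foldl δ p ∈ F} ?_
  · intro t ht
    obtain ⟨q', -, rfl⟩ := List.mem_map.1 ht
    exact (hE q').1
  · intro w w' hww
    have key : run δ p w = run δ p w' := by
      have ht : E (run δ p w) ∈ Finset.univ.toList.map E :=
        List.mem_map.2 ⟨_, Finset.mem_toList.2 (Finset.mem_univ _), rfl⟩
      have h1 := (hww _ ht).1 (((hE (run δ p w)).2 w).2 rfl)
      exact (((hE (run δ p w)).2 w').1 h1).symm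
    show run δ p w ∈ F ↔ run δ p w' ∈ F
    rw [key]

end Vale.Agent.Lib.P329
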