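import Mathlib

/-!
# P329 (generalized star height): definitions

Generalized regular expressions over an alphabet `α` (constants `0`, `1`, letters, union,
concatenation, complement and Kleene star), the language they denote, their star height, and
the phase counting function used in the hand-in.
-/

namespace Vale.Agent.Lib.P329

/-- Generalized regular expressions over the alphabet `α`: the constants `0` and `1`, the
letters, union `P + Q`, concatenation `P Q`, complement `¬ P` and Kleene star `P*`. -/
inductive GExp (α : Type) : Type
  | zero : GExp α
  | one : GExp α
  | letter : α → GExp α
  | plus : GExp α → GExp α → GExp α
  | comp : GExp α → GExp α → GExp α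
  | neg : GExp α → GExp α
  | star : GExp α → GExp α

variable {α : Type}

/-- The language denoted by a generalized regular expression: `0` denotes the empty language,
`1` the language consisting of the empty word, a letter `a` the language consisting of the one
letter word `a`; `plus` is union, `comp` is concatenation, `neg` is the complement in the set
of all words over `α`, and `star` is the Kleene star. -/
def GExp.lang : GExp α → Language α
  | .zero => 0
  | .one => 1
  | .letter a => {[a]}
  | .plus P Q => P.lang + Q.lang
  | .comp P Q => P.lang * Q.lang
  | .neg P => (P.lang)ᶜ
  | .star P => KStar.kstar P.lang

/-- The star height of a generalized regular expression: `0` for the constants and the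
letters, the maximum for union and concatenation, unchanged by complement, and one more for a
Kleene star. -/
def GExp.sh : GExp α → ℕ
  | .zero => 0
  | .one => 0
  | .letter _ => 0
  | .plus P Q => max P.sh Q.sh
  | .comp P Q => max P.sh Q.sh
  | .neg P => P.sh
  | .star P => P.sh + 1

/-- `phaseCount x z p l w` is the number of positions `i` of the word `w` that carry the
letter `z` and such that the number of occurrences of the letter `x` strictly before position
`i` is congruent to `l` modulo `p`. -/
def phaseCount [DecidableEq α] (x z : α) (p l : ℕ) (w : List α) : ℕ :=
  (List.range w.length).countP
    (fun i => decide (w[i]? = some z ∧ (w.take i).count x % p = l % p))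

end Vale.Agent.Lib.P329
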