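import Vale.Agent.Lib.P329.Proofs

/-!
# P329: languages recognized through an abelian normal subgroup and one more letter

If a map `φ` from a finite alphabet to a finite group sends every letter except one into an
abelian normal subgroup, then every language recognized by `φ` has generalized star height at
most one.
-/

namespace Vale.Agent.Lib.P329

open Language

variable {α : Type} [DecidableEq α]

/-! ### Languages saturated by finitely many tests -/

theorem saturated_list (h : ℕ) (T : List (GExp α)) (hT : ∀ t ∈ T, t.sh ≤ h)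
    (L : Set (List α))
    (hL : ∀ w w', (∀ t ∈ T, (w ∈ t.lang ↔ w' ∈ t.lang)) → (w ∈ L ↔ w' ∈ L)) :
    ∃ e : GExp α, e.sh ≤ h ∧ ∀ w, w ∈ e.lang ↔ w ∈ L := by
  induction T generalizing L with
  | nil =>
    by_cases hne : ∃ w, w ∈ L
    · obtain ⟨w0, hw0⟩ := hne
      refine ⟨top, by simp [top, GExp.sh], fun w => ?_⟩
      have h1 := hL w w0 (by simp)
      exact ⟨fun _ => h1.2 hw0, fun _ => mem_top w⟩
    · refine ⟨.zero, by simp [GExp.sh], fun w => ?_⟩
      exact ⟨fun hw => absurd hw (Language.notMem_zero w), fun hw => absurd ⟨w, hw⟩ hne⟩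
  | cons t T ih =>
    have hT' : ∀ s ∈ T, s.sh ≤ h := fun s hs => hT s (List.mem_cons_of_mem _ hs)
    obtain ⟨e1, he1, h1⟩ := ih hT'
      {w | ∃ w', w' ∈ t.lang ∧ (∀ s ∈ T, (w ∈ s.lang ↔ w' ∈ s.lang)) ∧ w' ∈ L}
      (by
        intro w w' hww
        constructor
        · rintro ⟨v, hv, hvs, hvL⟩
          exact ⟨v, hv, fun s hs => (hww s hs).symm.trans (hvs s hs), hvL⟩
        · rintro ⟨v, hv, hvs, hvL⟩
          exact ⟨v, hv, fun s hs => (hww s hs).trans (hvs s hs), hvL⟩)
    obtain ⟨e2, he2, h2⟩ := ih hT'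
      {w | ∃ w', w' ∉ t.lang ∧ (∀ s ∈ T, (w ∈ s.lang ↔ w' ∈ s.lang)) ∧ w' ∈ L}
      (by
        intro w w' hww
        constructor
        · rintro ⟨v, hv, hvs, hvL⟩
          exact ⟨v, hv, fun s hs => (hww s hs).symm.trans (hvs s hs), hvL⟩
        · rintro ⟨v, hv, hvs, hvL⟩
          exact ⟨v, hv, fun s hs => (hww s hs).trans (hvs s hs), hvL⟩)
    refine ⟨.plus (inter t e1) (inter (.neg t) e2), ?_, fun w => ?_⟩
    · have := hT t List.mem_cons_self
      simp only [inter, GExp.sh]
      omega
    · have hplus : w ∈ (GExp.plus (inter t e1) (inter (.neg t) e2)).lang ↔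
          w ∈ (inter t e1).lang ∨ w ∈ (inter (.neg t) e2).lang := Language.mem_add _ _ _
      have hneg : w ∈ (GExp.neg t).lang ↔ w ∉ t.lang := mem_compl_lang _ _
      rw [hplus, mem_inter, mem_inter, h1, h2, hneg]
      constructor
      · rintro (⟨hw, v, hv, hvs, hvL⟩ | ⟨hw, v, hv, hvs, hvL⟩)
        · refine (hL w v ?_).2 hvL
          intro s hs
          rcases List.mem_cons.1 hs with rfl | hs
          · exact ⟨fun _ => hv, fun _ => hw⟩
          · exact hvs s hs
        · refine (hL w v ?_).2 hvL
          intro s hs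
          rcases List.mem_cons.1 hs with rfl | hs
          · exact ⟨fun h' => absurd h' hw, fun h' => absurd h' hv⟩
          · exact hvs s hs
      · intro hw
        by_cases hwt : w ∈ t.lang
        · exact Or.inl ⟨hwt, w, hwt, fun _ _ => Iff.rfl, hw⟩
        · exact Or.inr ⟨hwt, w, hwt, fun _ _ => Iff.rfl, hw⟩

/-! ### The image of a word -/

theorem pc_snoc (x z : α) (p c : ℕ) (w : List α) (a : α) :
    pc x z p c (w ++ [a]) = pc x z p c w + (if a = z ∧ p ∣ c + w.count x then 1 else 0) := by
  rw [pc_append]; simp [pc]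

section GroupPart

variable {G : Type} [Group G] {A : Type} [CommGroup A]

theorem image_formula [Fintype α] (φ : α → G) (x : α) (ι : A →* G) (p : ℕ) (hp : 0 < p)
    (hc : φ x ^ p = 1) (γ : α → ℕ → A)
    (hγ : ∀ b, b ≠ x → ∀ l, l < p → ι (γ b l) = φ x ^ l * φ b * (φ x ^ l)⁻¹)
    (w : List α) :
    (w.map φ).prod =
      ι (∏ b ∈ Finset.univ.erase x, ∏ l ∈ Finset.range p, γ b l ^ pc x b p (p - l) w)
        * φ x ^ w.count x := by
  induction w using List.reverseRecOn with
  | nil => simp [pc]
  | append_singleton w a ih =>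
    rw [List.map_append, List.prod_append, ih]
    simp only [List.map_cons, List.map_nil, List.prod_cons, List.prod_nil, mul_one]
    by_cases hax : a = x
    · subst hax
      have h1 : ∀ b ∈ Finset.univ.erase a, ∀ l ∈ Finset.range p,
          γ b l ^ pc a b p (p - l) (w ++ [a]) = γ b l ^ pc a b p (p - l) w := by
        intro b hb l _
        have hba : a ≠ b := fun h => (Finset.ne_of_mem_erase hb) h.symm
        rw [pc_snoc]; simp [hba]
      rw [Finset.prod_congr rfl (fun b hb => Finset.prod_congr rfl (h1 b hb))]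
      rw [List.count_append, List.count_singleton_self, pow_succ, mul_assoc]
    · have hcount : (w ++ [a]).count x = w.count x := by
        simp [List.count_append, hax]
      rw [hcount]
      have hkp : w.count x % p < p := Nat.mod_lt _ hp
      have h1 : ∀ b ∈ Finset.univ.erase x, ∀ l ∈ Finset.range p,
          γ b l ^ pc x b p (p - l) (w ++ [a]) =
            γ b l ^ pc x b p (p - l) w * (if b = a ∧ l = w.count x % p then γ b l else 1) := by
        intro b hb l hl
        have hl' : l < p := Finset.mem_range.1 hl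
        rw [pc_snoc, pow_add]
        congr 1
        have hiff : (a = b ∧ p ∣ p - l + w.count x) ↔ (b = a ∧ l = w.count x % p) := by
          have h3 := phase_iff p l (w.count x) hp
          rw [Nat.mod_eq_of_lt hl'] at h3
          rw [← h3]
          constructor
          · rintro ⟨h4, h5⟩; exact ⟨h4.symm, h5.symm⟩
          · rintro ⟨h4, h5⟩; exact ⟨h4.symm, h5.symm⟩
        by_cases h : b = a ∧ l = w.count x % p
        · rw [if_pos h, if_pos (hiff.2 h), pow_one]
        · rw [if_neg h, if_neg (fun h' => h (hiff.1 h')), pow_zero]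
      rw [Finset.prod_congr rfl (fun b hb => Finset.prod_congr rfl (h1 b hb))]
      simp only [Finset.prod_mul_distrib]
      have h2 : (∏ b ∈ Finset.univ.erase x, ∏ l ∈ Finset.range p,
          (if b = a ∧ l = w.count x % p then γ b l else 1)) = γ a (w.count x % p) := by
        rw [Finset.prod_eq_single a]
        · rw [Finset.prod_eq_single (w.count x % p)]
          · simp
          · intro l _ hl; simp [hl]
          · intro h; exact absurd (Finset.mem_range.2 hkp) h
        · intro b _ hb; simp [hb]
        · intro h; exact absurd (Finset.mem_erase.2 ⟨hax, Finset.mem_univ a⟩) h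
      rw [h2, map_mul, hγ a hax (w.count x % p) hkp]
      have h3 : φ x ^ (w.count x % p) = φ x ^ w.count x := (pow_eq_pow_mod (w.count x) hc).symm
      rw [h3]
      group

theorem image_congr [Fintype α] (φ : α → G) (x : α) (ι : A →* G) (p : ℕ) (hp : 0 < p)
    (hc : φ x ^ p = 1) (m : ℕ) (hm : ∀ a : A, a ^ m = 1) (γ : α → ℕ → A)
    (hγ : ∀ b, b ≠ x → ∀ l, l < p → ι (γ b l) = φ x ^ l * φ b * (φ x ^ l)⁻¹)
    (w w' : List α) (h1 : w.count x % p = w'.count x % p)
    (h2 : ∀ b, b ≠ x → ∀ l, l < p → pc x b p (p - l) w % m = pc x b p (p - l) w' % m) :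
    (w.map φ).prod = (w'.map φ).prod := by
  rw [image_formula φ x ι p hp hc γ hγ w, image_formula φ x ι p hp hc γ hγ w']
  rw [pow_eq_pow_mod (w.count x) hc, pow_eq_pow_mod (w'.count x) hc, h1]
  congr 2
  apply Finset.prod_congr rfl
  intro b hb
  apply Finset.prod_congr rfl
  intro l hl
  rw [pow_eq_pow_mod (pc x b p (p - l) w) (hm (γ b l)),
    pow_eq_pow_mod (pc x b p (p - l) w') (hm (γ b l)),
    h2 b (Finset.ne_of_mem_erase hb) l (Finset.mem_range.1 hl)]

end GroupPart

/-! ### The main statement -/

theorem recognized_all_but_one (α : Type) [Fintype α] [DecidableEq α] (G : Type) [Group G]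
    [Finite G] (N : Subgroup G) [hn : N.Normal] (hN : ∀ a ∈ N, ∀ b ∈ N, a * b = b * a)
    (φ : α → G) (x : α) (hφ : ∀ a, a ≠ x → φ a ∈ N) (P : Set G) :
    ∃ e : GExp α, e.sh ≤ 1 ∧ ∀ w : List α, w ∈ e.lang ↔ (w.map φ).prod ∈ P := by
  classical
  have hp : 0 < orderOf (φ x) := orderOf_pos (φ x)
  have hc : φ x ^ orderOf (φ x) = 1 := pow_orderOf_eq_one (φ x)
  have hm : 0 < Nat.card G := Nat.card_pos
  let _ : CommGroup N := { (inferInstance : Group N) with
    mul_comm := fun a b => Subtype.ext (hN a a.2 b b.2) }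
  let ι : N →* G := { toFun := fun a => a.1, map_one' := rfl, map_mul' := fun _ _ => rfl }
  let γ : α → ℕ → N := fun b l =>
    if hb : b = x then 1 else ⟨φ x ^ l * φ b * (φ x ^ l)⁻¹, hn.conj_mem _ (hφ b hb) _⟩
  have hγ : ∀ b, b ≠ x → ∀ l, l < orderOf (φ x) →
      ι (γ b l) = φ x ^ l * φ b * (φ x ^ l)⁻¹ := by
    intro b hb l _
    simp [γ, hb, ι]
  have hmA : ∀ a : N, a ^ Nat.card G = 1 := fun a => Subtype.ext (by simp)
  let T : List (GExp α) := (List.range (orderOf (φ x))).map (fun j => xexp x (orderOf (φ x)) 1 j) ++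
    (Finset.univ : Finset α).toList.flatMap (fun b => (List.range (orderOf (φ x))).flatMap
      (fun l => (List.range (Nat.card G)).map (fun r => phaseExp x b (orderOf (φ x)) l (Nat.card G) r)))
  have hT : ∀ t ∈ T, t.sh ≤ 1 := by
    intro t ht
    rcases List.mem_append.1 ht with ht | ht
    · obtain ⟨j, -, rfl⟩ := List.mem_map.1 ht
      exact sh_xexp x _ 1 j
    · obtain ⟨b, -, hb⟩ := List.mem_flatMap.1 ht
      obtain ⟨l, -, hl⟩ := List.mem_flatMap.1 hb
      obtain ⟨r, -, rfl⟩ := List.mem_map.1 hl
      exact sh_phaseExp x b _ l _ r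
  refine saturated_list 1 T hT {w | (w.map φ).prod ∈ P} ?_
  intro w w' hww
  have key : (w.map φ).prod = (w'.map φ).prod := by
    apply image_congr φ x ι (orderOf (φ x)) hp hc (Nat.card G) hmA γ hγ
    · have hj : w.count x % (orderOf (φ x) * 1) < orderOf (φ x) * 1 :=
        Nat.mod_lt _ (by omega)
      have ht : xexp x (orderOf (φ x)) 1 (w.count x % (orderOf (φ x) * 1)) ∈ T :=
        List.mem_append_left _ (List.mem_map.2 ⟨_, List.mem_range.2 (by simpa using hj), rfl⟩)
      have h1 := (hww _ ht).1 ((mem_xexp x _ 1 _ hj w).2 rfl)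
      have h2 := (mem_xexp x _ 1 _ hj w').1 h1
      simpa using h2.symm
    · intro b hb l hl
      have hr : pc x b (orderOf (φ x)) (orderOf (φ x) - l) w % Nat.card G < Nat.card G :=
        Nat.mod_lt _ hm
      have ht : phaseExp x b (orderOf (φ x)) l (Nat.card G)
          (pc x b (orderOf (φ x)) (orderOf (φ x) - l) w % Nat.card G) ∈ T :=
        List.mem_append_right _ (List.mem_flatMap.2 ⟨b, Finset.mem_toList.2 (Finset.mem_univ b),
          List.mem_flatMap.2 ⟨l, List.mem_range.2 hl,
            List.mem_map.2 ⟨_, List.mem_range.2 hr, rfl⟩⟩⟩)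
      have hlp : l % orderOf (φ x) = l := Nat.mod_eq_of_lt hl
      have e1 : ∀ v, phaseCount x b (orderOf (φ x)) l v =
          pc x b (orderOf (φ x)) (orderOf (φ x) - l) v := by
        intro v; rw [phaseCount_eq_pc x b _ l hp, hlp]
      have h1 := (hww _ ht).1
        ((mem_phaseExp x b (Ne.symm hb) _ l hp _ hm _ w).2 (by rw [e1, Nat.mod_mod]))
      have h2 := (mem_phaseExp x b (Ne.symm hb) _ l hp _ hm _ w').1 h1
      rw [e1, Nat.mod_mod] at h2
      exact h2.symm
  show (w.map φ).prod ∈ P ↔ (w'.map φ).prod ∈ P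
  rw [key]

/-! ### Inverse images under letter to letter maps -/

/-- The union of the one letter words over the letters of a list. -/
def letterSum : List α → GExp α
  | [] => .zero
  | a :: s => .plus (.letter a) (letterSum s)

omit [DecidableEq α] in
theorem mem_letterSum (s : List α) (w : List α) :
    w ∈ (letterSum s).lang ↔ ∃ a ∈ s, w = [a] := by
  induction s with
  | nil =>
    simp only [letterSum, GExp.lang, List.not_mem_nil, false_and, exists_false, iff_false]
    exact Language.notMem_zero w
  | cons a s ih =>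
    have hplus : w ∈ (GExp.plus (.letter a) (letterSum s)).lang ↔
        w ∈ (GExp.letter a).lang ∨ w ∈ (letterSum s).lang := Language.mem_add _ _ _
    have hlet : w ∈ (GExp.letter a).lang ↔ w = [a] := Iff.rfl
    rw [letterSum, hplus, ih, hlet]
    simp

omit [DecidableEq α] in
theorem sh_letterSum (s : List α) : (letterSum s).sh = 0 := by
  induction s with
  | nil => rfl
  | cons a s ih => simp [letterSum, GExp.sh, ih]

/-- The inverse image of an expression under a letter to letter map `f`: every letter `b` is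
replaced by the union of the letters that `f` sends to `b`. -/
noncomputable def comapExp {β : Type} [DecidableEq β] [Fintype α] (f : α → β) : GExp β → GExp α
  | .zero => .zero
  | .one => .one
  | .letter b => letterSum ((Finset.univ.filter (fun a => f a = b)).toList)
  | .plus P Q => .plus (comapExp f P) (comapExp f Q)
  | .comp P Q => .comp (comapExp f P) (comapExp f Q)
  | .neg P => .neg (comapExp f P)
  | .star P => .star (comapExp f P)

omit [DecidableEq α] in
theorem sh_comapExp {β : Type} [DecidableEq β] [Fintype α] (f : α → β) (e : GExp β) :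
    (comapExp f e).sh = e.sh := by
  induction e with
  | zero => rfl
  | one => rfl
  | letter b => simp [comapExp, GExp.sh, sh_letterSum]
  | plus P Q ihP ihQ => simp [comapExp, GExp.sh, ihP, ihQ]
  | comp P Q ihP ihQ => simp [comapExp, GExp.sh, ihP, ihQ]
  | neg P ih => simp [comapExp, GExp.sh, ih]
  | star P ih => simp [comapExp, GExp.sh, ih]

omit [DecidableEq α] in
theorem flatten_map_lift {β : Type} (f : α → β) (S' : List (List β)) (w : List α)
    (h : w.map f = S'.flatten) : ∃ S : List (List α), w = S.flatten ∧ S.map (List.map f) = S' := by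
  induction S' generalizing w with
  | nil =>
    refine ⟨[], ?_, rfl⟩
    simpa using h
  | cons y S' ih =>
    rw [List.flatten_cons] at h
    obtain ⟨u, v, rfl, hu, hv⟩ := List.map_eq_append_iff.1 h
    obtain ⟨S, rfl, hS⟩ := ih v hv
    exact ⟨u :: S, by simp, by simp [hu, hS]⟩

omit [DecidableEq α] in
theorem mem_comapExp {β : Type} [DecidableEq β] [Fintype α] (f : α → β) (e : GExp β)
    (w : List α) : w ∈ (comapExp f e).lang ↔ w.map f ∈ e.lang := by
  induction e generalizing w with
  | zero =>
    exact ⟨fun h => absurd h (Language.notMem_zero w), fun h => absurd h (Language.notMem_zero _)⟩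
  | one =>
    have h1 : w ∈ (GExp.one : GExp α).lang ↔ w = [] := Language.mem_one w
    have h2 : w.map f ∈ (GExp.one : GExp β).lang ↔ w.map f = [] := Language.mem_one _
    rw [comapExp, h1, h2, List.map_eq_nil_iff]
  | letter b =>
    have h2 : w.map f ∈ (GExp.letter b).lang ↔ w.map f = [b] := Iff.rfl
    rw [comapExp, mem_letterSum, h2]
    constructor
    · rintro ⟨a, ha, rfl⟩
      have : f a = b := by simpa using ha
      simp [this]
    · intro h
      obtain ⟨a, rfl, ha⟩ := List.map_eq_singleton_iff.1 h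
      exact ⟨a, by simpa using ha, rfl⟩
  | plus P Q ihP ihQ =>
    have h1 : w ∈ (GExp.plus (comapExp f P) (comapExp f Q)).lang ↔
        w ∈ (comapExp f P).lang ∨ w ∈ (comapExp f Q).lang := Language.mem_add _ _ _
    have h2 : w.map f ∈ (GExp.plus P Q).lang ↔ w.map f ∈ P.lang ∨ w.map f ∈ Q.lang :=
      Language.mem_add _ _ _
    rw [comapExp, h1, h2, ihP, ihQ]
  | comp P Q ihP ihQ =>
    have h1 : w ∈ (GExp.comp (comapExp f P) (comapExp f Q)).lang ↔
        ∃ u ∈ (comapExp f P).lang, ∃ v ∈ (comapExp f Q).lang, u ++ v = w := Language.mem_mul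
    have h2 : w.map f ∈ (GExp.comp P Q).lang ↔
        ∃ u ∈ P.lang, ∃ v ∈ Q.lang, u ++ v = w.map f := Language.mem_mul
    rw [comapExp, h1, h2]
    constructor
    · rintro ⟨u, hu, v, hv, rfl⟩
      exact ⟨u.map f, (ihP u).1 hu, v.map f, (ihQ v).1 hv, by simp⟩
    · rintro ⟨u', hu', v', hv', h⟩
      obtain ⟨u, v, rfl, hu, hv⟩ := List.map_eq_append_iff.1 h.symm
      subst hu hv
      exact ⟨u, (ihP u).2 hu', v, (ihQ v).2 hv', rfl⟩
  | neg P ih =>
    have h1 : w ∈ (GExp.neg (comapExp f P)).lang ↔ w ∉ (comapExp f P).lang := Iff.rfl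
    have h2 : w.map f ∈ (GExp.neg P).lang ↔ w.map f ∉ P.lang := Iff.rfl
    rw [comapExp, h1, h2, ih]
  | star P ih =>
    have h1 : w ∈ (GExp.star (comapExp f P)).lang ↔
        ∃ S : List (List α), w = S.flatten ∧ ∀ y ∈ S, y ∈ (comapExp f P).lang :=
      Language.mem_kstar
    have h2 : w.map f ∈ (GExp.star P).lang ↔
        ∃ S' : List (List β), w.map f = S'.flatten ∧ ∀ y ∈ S', y ∈ P.lang :=
      Language.mem_kstar
    rw [comapExp, h1, h2]
    constructor
    · rintro ⟨S, rfl, hS⟩
      refine ⟨S.map (List.map f), by simp [List.map_flatten], ?_⟩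
      intro y hy
      obtain ⟨y0, hy0, rfl⟩ := List.mem_map.1 hy
      exact (ih y0).1 (hS y0 hy0)
    · rintro ⟨S', h, hS'⟩
      obtain ⟨S, rfl, rfl⟩ := flatten_map_lift f S' w h
      refine ⟨S, rfl, ?_⟩
      intro y hy
      exact (ih y).2 (hS' _ (List.mem_map.2 ⟨y, hy, rfl⟩))

/-! ### The main statement, several letters with the same image outside the subgroup -/

theorem recognized_subgroup_and_element (α : Type) [Fintype α] [DecidableEq α] (G : Type)
    [Group G] [Finite G] (N : Subgroup G) [hn : N.Normal]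
    (hN : ∀ a ∈ N, ∀ b ∈ N, a * b = b * a)
    (φ : α → G) (c : G) (hφ : ∀ a, φ a ∈ N ∨ φ a = c) (P : Set G) :
    ∃ e : GExp α, e.sh ≤ 1 ∧ ∀ w : List α, w ∈ e.lang ↔ (w.map φ).prod ∈ P := by
  classical
  let f : α → Option α := fun a => if φ a = c then none else some a
  let ψ : Option α → G := fun o =>
    match o with
    | none => c
    | some a => if φ a = c then 1 else φ a
  have hψ : ∀ o : Option α, o ≠ none → ψ o ∈ N := by
    intro o ho
    match o with
    | none => exact absurd rfl ho
    | some a =>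
      show (if φ a = c then 1 else φ a) ∈ N
      by_cases h : φ a = c
      · rw [if_pos h]; exact N.one_mem
      · rw [if_neg h]
        rcases hφ a with h' | h'
        · exact h'
        · exact absurd h' h
  have hcomp : ∀ a, ψ (f a) = φ a := by
    intro a
    by_cases h : φ a = c
    · simp [f, ψ, h]
    · simp [f, ψ, h]
  obtain ⟨e', he', hlang⟩ := recognized_all_but_one (Option α) G N hN ψ none hψ P
  refine ⟨comapExp f e', by rw [sh_comapExp]; exact he', fun w => ?_⟩
  rw [mem_comapExp, hlang, List.map_map]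
  have : (ψ ∘ f) = φ := funext hcomp
  rw [this]

end Vale.Agent.Lib.P329
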