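import Vale.Agent.Lib.P329.Three

/-!
# P329: groups with a normal subgroup of exponent two and index three

If `N` is a normal subgroup of index three of a group `G` and every element of `N` squares to
one, then `G` contains an element `c` with `c ^ 3 = 1` outside `N`, and `G` is the union of
`N`, `N c` and `N c ^ 2`. So the statement of the file `Three` applies to every map from a finite
alphabet to `G`.
-/

namespace Vale.Agent.Lib.P329

open Language

theorem recognized_index_three (α : Type) [Fintype α] [DecidableEq α] (G : Type) [Group G]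
    (N : Subgroup G) [hn : N.Normal] (hN : ∀ x ∈ N, x * x = 1) (hidx : N.index = 3)
    (φ : α → G) (P : Set G) :
    ∃ e : GExp α, e.sh ≤ 1 ∧ ∀ w : List α, w ∈ e.lang ↔ (w.map φ).prod ∈ P := by
  have hne : N ≠ ⊤ := by
    intro h
    rw [h] at hidx
    simp at hidx
  obtain ⟨g, hg⟩ : ∃ g, g ∉ N := by
    by_contra hcon
    push_neg at hcon
    exact hne (eq_top_iff.2 fun x _ => hcon x)
  have hg3 : g ^ 3 ∈ N := by
    have h := N.pow_index_mem g
    rwa [hidx] at h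
  have hg6 : g ^ 6 = 1 := by
    have h := hN _ hg3
    rw [← pow_add] at h
    exact h
  have hc : (g ^ 4) ^ 3 = 1 := by
    calc (g ^ 4) ^ 3 = (g ^ 6) ^ 2 := by rw [← pow_mul, ← pow_mul]
      _ = 1 := by rw [hg6, one_pow]
  have hcN : g ^ 4 ∉ N := by
    intro h
    have h2 : g = (g ^ 3)⁻¹ * g ^ 4 := by
      rw [eq_inv_mul_iff_mul_eq, ← pow_succ]
    rw [h2] at hg
    exact hg (N.mul_mem (N.inv_mem hg3) h)
  refine recognized_two_by_three α G N hN (g ^ 4) hc φ ?_ P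
  intro a
  have hcard : Nat.card (G ⧸ N) = 3 := hidx
  have hp3 : Fact (Nat.Prime 3) := ⟨Nat.prime_three⟩
  have hq : ((g ^ 4 : G) : G ⧸ N) ≠ 1 := by
    intro h
    exact hcN ((QuotientGroup.eq_one_iff _).1 h)
  have htop := zpowers_eq_top_of_prime_card hcard hq
  have hmem : (((φ a)⁻¹ : G) : G ⧸ N) ∈ Subgroup.zpowers ((g ^ 4 : G) : G ⧸ N) := by
    rw [htop]
    exact Subgroup.mem_top _
  obtain ⟨k, hk⟩ := Subgroup.mem_zpowers_iff.1 hmem
  have hc' : (g ^ 4) ^ (3 : ℤ) = 1 := by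
    rw [← hc]
    exact zpow_natCast (g ^ 4) 3
  have hk3 : (g ^ 4) ^ k = (g ^ 4) ^ (k % 3) := zpow_eq_zpow_emod k hc'
  have hnn : 0 ≤ k % 3 := Int.emod_nonneg k (by norm_num)
  refine ⟨(k % 3).toNat, ?_⟩
  have hnat : (g ^ 4) ^ (k % 3).toNat = (g ^ 4) ^ k := by
    rw [hk3, ← zpow_natCast, Int.toNat_of_nonneg hnn]
  rw [hnat]
  have hk' : (((g ^ 4) ^ k : G) : G ⧸ N) = (((φ a)⁻¹ : G) : G ⧸ N) := by
    rw [QuotientGroup.mk_zpow]
    exact hk
  have h5 := QuotientGroup.eq.1 hk'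
  have h7 : ((g ^ 4) ^ k)⁻¹ * (φ a)⁻¹ ∈ N := h5
  have h8 : φ a * (g ^ 4) ^ k = (((g ^ 4) ^ k)⁻¹ * (φ a)⁻¹)⁻¹ := by
    group
  rw [h8]
  exact N.inv_mem h7

end Vale.Agent.Lib.P329
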