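import Vale.Agent.Lib.P329.Class3

/-!
# P329: commutator calculus in a group with commutative commutator subgroup

For `y c : G` recall `lam y c = c⁻¹ * y⁻¹ * c * y`. If any two elements of the commutator
subgroup `commutator G` commute, then `lam y` is multiplicative on `commutator G` and the maps
`lam y`, `lam z` commute there. Moreover `lam y` maps the `n`-th term of the lower central
series into the next one, and in a nilpotent group of class at most four the fourth term is
trivial.
-/

namespace Vale.Agent.Lib.P329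

open scoped commutatorElement

variable {G : Type} [Group G]

theorem lam_mem_commutator (y c : G) : lam y c ∈ commutator G := by
  rw [lam_eq_commutator]
  exact Subgroup.commutator_mem_commutator (Subgroup.mem_top _) (Subgroup.mem_top _)

theorem conj_mem_commutator (y : G) {c : G} (hc : c ∈ commutator G) :
    y⁻¹ * c * y ∈ commutator G := by
  have h : y⁻¹ * c * y = c * lam y c := by
    unfold lam
    group
  rw [h]
  exact mul_mem hc (lam_mem_commutator y c)

theorem lam_mul_met (hmet : ∀ a ∈ commutator G, ∀ b ∈ commutator G, a * b = b * a) (y : G)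
    {c c' : G} (_hc : c ∈ commutator G) (hc' : c' ∈ commutator G) :
    lam y (c * c') = lam y c * lam y c' := by
  have e1 : lam y (c * c') = c'⁻¹ * lam y c * (y⁻¹ * c' * y) := by
    unfold lam
    group
  rw [e1, hmet _ (inv_mem hc') _ (lam_mem_commutator y c)]
  unfold lam
  group

theorem lam_comm_met (hmet : ∀ a ∈ commutator G, ∀ b ∈ commutator G, a * b = b * a) (y z : G)
    {c : G} (hc : c ∈ commutator G) : lam y (lam z c) = lam z (lam y c) := by
  -- notation: cy = y⁻¹ c y, cz = z⁻¹ c z, k = y⁻¹ z⁻¹ y z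
  have hcy : y⁻¹ * c * y ∈ commutator G := conj_mem_commutator y hc
  have hcz : z⁻¹ * c * z ∈ commutator G := conj_mem_commutator z hc
  have hczy : y⁻¹ * (z⁻¹ * c * z) * y ∈ commutator G := conj_mem_commutator y hcz
  have hk : y⁻¹ * z⁻¹ * y * z ∈ commutator G := by
    have h : y⁻¹ * z⁻¹ * y * z = ⁅y⁻¹, z⁻¹⁆ := by
      rw [commutatorElement_def, inv_inv, inv_inv]
    rw [h]
    exact Subgroup.commutator_mem_commutator (Subgroup.mem_top _) (Subgroup.mem_top _)
  -- conjugating by `y z` and by `z y` agree on the commutator subgroup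
  have hconj : z⁻¹ * (y⁻¹ * c * y) * z = y⁻¹ * (z⁻¹ * c * z) * y := by
    have h1 : z⁻¹ * (y⁻¹ * c * y) * z =
        (y⁻¹ * z⁻¹ * y * z)⁻¹ * (y⁻¹ * (z⁻¹ * c * z) * y) * (y⁻¹ * z⁻¹ * y * z) := by
      group
    rw [h1, mul_assoc, hmet _ hczy _ hk, ← mul_assoc, inv_mul_cancel, one_mul]
  have e1 : lam y (lam z c) =
      (z⁻¹ * c * z)⁻¹ * c * ((y⁻¹ * c * y)⁻¹ * (y⁻¹ * (z⁻¹ * c * z) * y)) := by
    unfold lam
    group
  have e2 : lam z (lam y c) =
      (y⁻¹ * c * y)⁻¹ * c * ((z⁻¹ * c * z)⁻¹ * (z⁻¹ * (y⁻¹ * c * y) * z)) := by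
    unfold lam
    group
  rw [e1, e2, hconj]
  -- now a commutative computation with A = cz⁻¹, B = c, C = cy⁻¹, D = czy
  have hA := inv_mem hcz
  have hC := inv_mem hcy
  generalize (z⁻¹ * c * z)⁻¹ = A at hA ⊢
  generalize (y⁻¹ * c * y)⁻¹ = C at hC ⊢
  generalize y⁻¹ * (z⁻¹ * c * z) * y = D at hczy ⊢
  calc A * c * (C * D) = A * (c * C) * D := by group
    _ = A * (C * c) * D := by rw [hmet c hc C hC]
    _ = (A * C) * c * D := by group
    _ = (C * A) * c * D := by rw [hmet A hA C hC]
    _ = C * (A * c) * D := by group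
    _ = C * (c * A) * D := by rw [hmet A hA c hc]
    _ = C * c * (A * D) := by group

theorem mem_lcs_one_of_mem_commutator {c : G} (hc : c ∈ commutator G) :
    c ∈ Subgroup.lowerCentralSeries (⊤ : Subgroup G) 1 := by
  rw [Subgroup.top_lowerCentralSeries_one]
  exact hc

theorem lam_mem_lcs (y : G) (n : ℕ) {c : G}
    (hc : c ∈ Subgroup.lowerCentralSeries (⊤ : Subgroup G) n) :
    lam y c ∈ Subgroup.lowerCentralSeries (⊤ : Subgroup G) (n + 1) := by
  rw [lam_eq_commutator]
  exact Subgroup.commutator_mem_commutator (inv_mem hc) (Subgroup.mem_top _)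

theorem eq_one_of_mem_lcs_four [Group.IsNilpotent G] (h : Group.nilpotencyClass G ≤ 4) {c : G}
    (hc : c ∈ Subgroup.lowerCentralSeries (⊤ : Subgroup G) 4) : c = 1 := by
  have h4 : Subgroup.lowerCentralSeries (⊤ : Subgroup G) 4 = ⊥ :=
    Subgroup.lowerCentralSeries_eq_bot_iff_nilpotencyClass_le.mpr h
  rw [h4] at hc
  exact Subgroup.mem_bot.mp hc

theorem lcs_succ_le (n : ℕ) : Subgroup.lowerCentralSeries (⊤ : Subgroup G) (n + 1) ≤
    Subgroup.lowerCentralSeries (⊤ : Subgroup G) n :=
  Subgroup.lowerCentralSeries_antitone (⊤ : Subgroup G) (Nat.le_succ n)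

end Vale.Agent.Lib.P329
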