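import Vale.Agent.Lib.P329.Sub4

/-!
# P329: pivot sums at a neutral letter, degree three

Pivot sums, over the occurrences of a letter `x`, of the product of three earlier letter counts
(three distinct letters other than `x`), and of `binom(A, 2) * B` for two distinct letters
other than `x`, are determined modulo `N` by finitely many tests of star height at most one.
The second one needs a counter with weights `+1` and `-1`; it is stated here relative to the
detection of the phase counts of that counter.
-/

namespace Vale.Agent.Lib.P329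

section NeutralPivot

variable {α : Type} [Fintype α] [DecidableEq α]

omit [Fintype α] in
theorem countP_three (a b c : α) (hab : a ≠ b) (hac : a ≠ c) (hbc : b ≠ c) (l : List α) :
    l.countP (fun x => x == a || x == b || x == c) = l.count a + l.count b + l.count c := by
  induction l with
  | nil => rfl
  | cons x l ih =>
    rw [List.countP_cons, List.count_cons, List.count_cons, List.count_cons, ih]
    by_cases hxa : x = a
    · have hxb : x ≠ b := fun h => hab (hxa.symm.trans h)
      have hxc : x ≠ c := fun h => hac (hxa.symm.trans h)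
      simp [hxa, hab, hac]
      omega
    · by_cases hxb : x = b
      · have hxc : x ≠ c := fun h => hbc (hxb.symm.trans h)
        have hba : ¬ b = a := fun h => hab h.symm
        simp [hxb, hba, hbc]
        omega
      · by_cases hxc : x = c
        · have hca : ¬ c = a := fun h => hac h.symm
          have hcb : ¬ c = b := fun h => hbc h.symm
          simp [hxc, hca, hcb]
          omega
        · simp [hxa, hxb, hxc]

theorem detects_psum_count3 (M : ℕ) [NeZero M] (a b c x : α) (hxa : x ≠ a) (hxb : x ≠ b)
    (hxc : x ≠ c) (hab : a ≠ b) (hac : a ≠ c) (hbc : b ≠ c) (F : ℕ → ℕ) (N : ℕ) (hN : 0 < N)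
    (hF : ∀ k, F k % N = F (k % M) % N) :
    Detects (fun w : List α =>
      psum x (fun pre => F (pre.count a + pre.count b + pre.count c)) w % N) := by
  have h := detects_psum M (fun y => y == a || y == b || y == c) x (by simp [hxa, hxb, hxc])
    F N hN hF
  refine h.congr ?_
  intro w
  have e : (fun pre : List α => F (pre.countP (fun y => y == a || y == b || y == c))) =
      (fun pre => F (pre.count a + pre.count b + pre.count c)) := by
    funext pre
    rw [countP_three a b c hab hac hbc]
  show psum x (fun pre : List α => F (pre.countP (fun y => y == a || y == b || y == c))) w % N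
    = _
  rw [e]

/-- The pivot sum of the product of three distinct earlier letter counts. -/
theorem detects_psum_mul3_aux (N : ℕ) (hN : 0 < N) (a b c x : α) (hab : a ≠ b) (hac : a ≠ c)
    (hbc : b ≠ c) (hxa : x ≠ a) (hxb : x ≠ b) (hxc : x ≠ c) :
    Detects (fun w : List α =>
      psum x (fun pre => pre.count a * pre.count b * pre.count c) w % N) := by
  have h6N : 0 < 6 * N := by omega
  have : NeZero (6 * N) := ⟨by omega⟩
  have hcube : ∀ k : ℕ, (k ^ 3) % (6 * N) = ((k % (6 * N)) ^ 3) % (6 * N) :=
    fun k => Nat.pow_mod k 3 (6 * N)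
  have h1 := detects_psum_count (6 * N) a x hxa (fun k => k ^ 3) (6 * N) h6N hcube
  have h2 := detects_psum_count (6 * N) b x hxb (fun k => k ^ 3) (6 * N) h6N hcube
  have h3 := detects_psum_count (6 * N) c x hxc (fun k => k ^ 3) (6 * N) h6N hcube
  have h4 := detects_psum_count2 (6 * N) a b x hxa hxb hab (fun k => k ^ 3) (6 * N) h6N hcube
  have h5 := detects_psum_count2 (6 * N) a c x hxa hxc hac (fun k => k ^ 3) (6 * N) h6N hcube
  have h6 := detects_psum_count2 (6 * N) b c x hxb hxc hbc (fun k => k ^ 3) (6 * N) h6N hcube
  have h7 := detects_psum_count3 (6 * N) a b c x hxa hxb hxc hab hac hbc (fun k => k ^ 3)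
    (6 * N) h6N hcube
  refine ((((((h1.prod h2).prod h3).prod h4).prod h5).prod h6).prod h7).of_eq _ ?_
  intro w w' h
  have e1 : psum x (fun pre => pre.count a ^ 3) w % (6 * N) =
      psum x (fun pre => pre.count a ^ 3) w' % (6 * N) :=
    congrArg (fun t => t.1.1.1.1.1.1) h
  have e2 : psum x (fun pre => pre.count b ^ 3) w % (6 * N) =
      psum x (fun pre => pre.count b ^ 3) w' % (6 * N) :=
    congrArg (fun t => t.1.1.1.1.1.2) h
  have e3 : psum x (fun pre => pre.count c ^ 3) w % (6 * N) =
      psum x (fun pre => pre.count c ^ 3) w' % (6 * N) :=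
    congrArg (fun t => t.1.1.1.1.2) h
  have e4 : psum x (fun pre => (pre.count a + pre.count b) ^ 3) w % (6 * N) =
      psum x (fun pre => (pre.count a + pre.count b) ^ 3) w' % (6 * N) :=
    congrArg (fun t => t.1.1.1.2) h
  have e5 : psum x (fun pre => (pre.count a + pre.count c) ^ 3) w % (6 * N) =
      psum x (fun pre => (pre.count a + pre.count c) ^ 3) w' % (6 * N) :=
    congrArg (fun t => t.1.1.2) h
  have e6 : psum x (fun pre => (pre.count b + pre.count c) ^ 3) w % (6 * N) =
      psum x (fun pre => (pre.count b + pre.count c) ^ 3) w' % (6 * N) :=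
    congrArg (fun t => t.1.2) h
  have e7 : psum x (fun pre => (pre.count a + pre.count b + pre.count c) ^ 3) w % (6 * N) =
      psum x (fun pre => (pre.count a + pre.count b + pre.count c) ^ 3) w' % (6 * N) :=
    congrArg Prod.snd h
  have key : ∀ v : List α,
      psum x (fun pre => (pre.count a + pre.count b + pre.count c) ^ 3) v +
        psum x (fun pre => pre.count a ^ 3) v + psum x (fun pre => pre.count b ^ 3) v +
        psum x (fun pre => pre.count c ^ 3) v =
      6 * psum x (fun pre => pre.count a * pre.count b * pre.count c) v +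
        psum x (fun pre => (pre.count a + pre.count b) ^ 3) v +
        psum x (fun pre => (pre.count a + pre.count c) ^ 3) v +
        psum x (fun pre => (pre.count b + pre.count c) ^ 3) v := by
    intro v
    have e : psum x (fun pre => (pre.count a + pre.count b + pre.count c) ^ 3 +
          pre.count a ^ 3 + pre.count b ^ 3 + pre.count c ^ 3) v =
        psum x (fun pre => 6 * (pre.count a * pre.count b * pre.count c) +
          (pre.count a + pre.count b) ^ 3 + (pre.count a + pre.count c) ^ 3 +
          (pre.count b + pre.count c) ^ 3) v := by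
      congr 1
      funext pre
      ring
    simpa only [psum_add, psum_mul] using e
  have c1 := (ZMod.natCast_eq_natCast_iff' _ _ (6 * N)).2 e1
  have c2 := (ZMod.natCast_eq_natCast_iff' _ _ (6 * N)).2 e2
  have c3 := (ZMod.natCast_eq_natCast_iff' _ _ (6 * N)).2 e3
  have c4 := (ZMod.natCast_eq_natCast_iff' _ _ (6 * N)).2 e4
  have c5 := (ZMod.natCast_eq_natCast_iff' _ _ (6 * N)).2 e5
  have c6 := (ZMod.natCast_eq_natCast_iff' _ _ (6 * N)).2 e6
  have c7 := (ZMod.natCast_eq_natCast_iff' _ _ (6 * N)).2 e7
  have kw := congrArg (Nat.cast : ℕ → ZMod (6 * N)) (key w)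
  have kw' := congrArg (Nat.cast : ℕ → ZMod (6 * N)) (key w')
  push_cast at kw kw'
  have fin : ((6 * psum x (fun pre => pre.count a * pre.count b * pre.count c) w : ℕ) :
      ZMod (6 * N)) =
      ((6 * psum x (fun pre => pre.count a * pre.count b * pre.count c) w' : ℕ) :
        ZMod (6 * N)) := by
    push_cast
    linear_combination kw' - kw + c7 + c1 + c2 + c3 - c4 - c5 - c6
  have fin2 : 6 * psum x (fun pre => pre.count a * pre.count b * pre.count c) w ≡
      6 * psum x (fun pre => pre.count a * pre.count b * pre.count c) w' [MOD 6 * N] :=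
    (ZMod.natCast_eq_natCast_iff _ _ (6 * N)).1 fin
  exact Nat.ModEq.mul_left_cancel' (by norm_num) fin2

end NeutralPivot

section SignedPivot

variable {α : Type} [Fintype α] [DecidableEq α]

omit [Fintype α] in
/-- Pivot sums of a function of the phase of a counter are determined modulo `N` as soon as
the phase counts of the counter at the pivot letter are. -/
theorem detects_psum_phase (M : ℕ) [NeZero M] (ω : α → ZMod M) (b : α) (G : ZMod M → ℕ)
    (N : ℕ) (hC : ∀ c : ZMod M, Detects (fun w : List α => tcz ω b c w % N)) :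
    Detects (fun w : List α => psum b (fun pre => G (wz ω pre)) w % N) := by
  have h := Detects.pi (fun (c : ZMod M) (w : List α) => tcz ω b c w % N) hC
  refine h.of_eq _ ?_
  intro w w' hww
  have hc : ∀ c, tcz ω b c w % N = tcz ω b c w' % N := fun c => congrFun hww c
  show psum b (fun pre => G (wz ω pre)) w % N = psum b (fun pre => G (wz ω pre)) w' % N
  rw [psum_phase, psum_phase]
  have s1 := Finset.sum_nat_mod Finset.univ N (fun c : ZMod M => G c * tcz ω b (-c) w)
  have s2 := Finset.sum_nat_mod Finset.univ N (fun c : ZMod M => G c * tcz ω b (-c) w')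
  rw [s1, s2]
  congr 1
  apply Finset.sum_congr rfl
  intro c _
  have e1 := Nat.mul_mod (G c) (tcz ω b (-c) w) N
  have e2 := Nat.mul_mod (G c) (tcz ω b (-c) w') N
  show G c * tcz ω b (-c) w % N = G c * tcz ω b (-c) w' % N
  rw [e1, e2, hc (-c)]

/-- The weights `+1` on the letter `a`, `-1` on the letter `b` and zero elsewhere. -/
def pmw (M : ℕ) (a b : α) (y : α) : ZMod M := if y = a then 1 else if y = b then -1 else 0

omit [Fintype α] in
theorem pmw_cases (M : ℕ) (a b y : α) : pmw M a b y = 0 ∨ pmw M a b y = 1 ∨ pmw M a b y = -1 := by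
  unfold pmw
  by_cases h1 : y = a
  · rw [if_pos h1]
    exact Or.inr (Or.inl rfl)
  · rw [if_neg h1]
    by_cases h2 : y = b
    · rw [if_pos h2]
      exact Or.inr (Or.inr rfl)
    · rw [if_neg h2]
      exact Or.inl rfl

omit [Fintype α] in
theorem pmw_neutral (M : ℕ) (a b x : α) (hxa : x ≠ a) (hxb : x ≠ b) : pmw M a b x = 0 := by
  unfold pmw
  rw [if_neg hxa, if_neg hxb]

omit [Fintype α] in
theorem wz_pmw (M : ℕ) (a b : α) (hab : a ≠ b) (w : List α) :
    wz (pmw M a b) w = ((w.count a : ℕ) : ZMod M) - ((w.count b : ℕ) : ZMod M) := by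
  induction w with
  | nil => simp [wz_nil]
  | cons y w ih =>
    rw [wz_cons, ih, List.count_cons, List.count_cons]
    unfold pmw
    by_cases h1 : y = a
    · have h2 : ¬ y = b := fun h => hab (h1.symm.trans h)
      rw [if_pos h1]
      simp [h1, hab]
      ring
    · rw [if_neg h1]
      by_cases h2 : y = b
      · have hba : ¬ b = a := fun h => hab h.symm
        rw [if_pos h2]
        simp [h2, hba]
        ring
      · rw [if_neg h2]
        simp [h1, h2]

/-- The pivot sum of `binom(A, 2) * B` for two distinct earlier letter counts, relative to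
the detection of the phase counts of the counter with weights `+1` and `-1`. -/
theorem detects_psum_choose_two_mul_of (N : ℕ) (hN : 0 < N) (a b x : α) (hab : a ≠ b)
    (hxa : x ≠ a) (hxb : x ≠ b)
    (hC : ∀ c : ZMod (12 * N),
      Detects (fun w : List α => tcz (pmw (12 * N) a b) x c w % (12 * N))) :
    Detects (fun w : List α =>
      psum x (fun pre => (pre.count a).choose 2 * pre.count b) w % N) := by
  have hM : 0 < 12 * N := by omega
  have : NeZero (12 * N) := ⟨by omega⟩
  have hcube : ∀ k : ℕ, (k ^ 3) % (12 * N) = ((k % (12 * N)) ^ 3) % (12 * N) :=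
    fun k => Nat.pow_mod k 3 (12 * N)
  have hsq : ∀ k : ℕ, (k ^ 2) % (12 * N) = ((k % (12 * N)) ^ 2) % (12 * N) :=
    fun k => Nat.pow_mod k 2 (12 * N)
  have h1 := detects_psum_count2 (12 * N) a b x hxa hxb hab (fun k => k ^ 3) (12 * N) hM hcube
  have h2 := detects_psum_count (12 * N) a x hxa (fun k => k ^ 2) (12 * N) hM hsq
  have h3 := detects_psum_count (12 * N) b x hxb (fun k => k ^ 2) (12 * N) hM hsq
  have h4 := detects_psum_count2 (12 * N) a b x hxa hxb hab (fun k => k ^ 2) (12 * N) hM hsq
  have h5 := detects_psum_count (12 * N) b x hxb (fun k => k ^ 3) (12 * N) hM hcube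
  have h6 := detects_psum_phase (12 * N) (pmw (12 * N) a b) x (fun c => c.val ^ 3) (12 * N) hC
  refine (((((h1.prod h2).prod h3).prod h4).prod h5).prod h6).of_eq _ ?_
  intro w w' h
  have e1 : psum x (fun pre => (pre.count a + pre.count b) ^ 3) w % (12 * N) =
      psum x (fun pre => (pre.count a + pre.count b) ^ 3) w' % (12 * N) :=
    congrArg (fun t => t.1.1.1.1.1) h
  have e2 : psum x (fun pre => pre.count a ^ 2) w % (12 * N) =
      psum x (fun pre => pre.count a ^ 2) w' % (12 * N) :=
    congrArg (fun t => t.1.1.1.1.2) h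
  have e3 : psum x (fun pre => pre.count b ^ 2) w % (12 * N) =
      psum x (fun pre => pre.count b ^ 2) w' % (12 * N) :=
    congrArg (fun t => t.1.1.1.2) h
  have e4 : psum x (fun pre => (pre.count a + pre.count b) ^ 2) w % (12 * N) =
      psum x (fun pre => (pre.count a + pre.count b) ^ 2) w' % (12 * N) :=
    congrArg (fun t => t.1.1.2) h
  have e5 : psum x (fun pre => pre.count b ^ 3) w % (12 * N) =
      psum x (fun pre => pre.count b ^ 3) w' % (12 * N) :=
    congrArg (fun t => t.1.2) h
  have e6 : psum x (fun pre => (wz (pmw (12 * N) a b) pre).val ^ 3) w % (12 * N) =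
      psum x (fun pre => (wz (pmw (12 * N) a b) pre).val ^ 3) w' % (12 * N) :=
    congrArg Prod.snd h
  have point : ∀ pre : List α,
      (12 * ((pre.count a).choose 2 * pre.count b) + (wz (pmw (12 * N) a b) pre).val ^ 3 +
        2 * pre.count b ^ 3 + 3 * (pre.count a + pre.count b) ^ 2) % (12 * N) =
      ((pre.count a + pre.count b) ^ 3 + 3 * pre.count a ^ 2 + 3 * pre.count b ^ 2) %
        (12 * N) := by
    intro pre
    apply (ZMod.natCast_eq_natCast_iff' _ _ (12 * N)).1
    have hch : (2 * (((pre.count a).choose 2 : ℕ) : ZMod (12 * N)) +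
        ((pre.count a : ℕ) : ZMod (12 * N))) =
        ((pre.count a : ℕ) : ZMod (12 * N)) * ((pre.count a : ℕ) : ZMod (12 * N)) := by
      have := congrArg (Nat.cast : ℕ → ZMod (12 * N)) (two_choose_two (pre.count a))
      push_cast at this
      exact this
    have hG : (((wz (pmw (12 * N) a b) pre).val : ℕ) : ZMod (12 * N)) =
        ((pre.count a : ℕ) : ZMod (12 * N)) - ((pre.count b : ℕ) : ZMod (12 * N)) := by
      rw [ZMod.natCast_zmod_val, wz_pmw (12 * N) a b hab]
    push_cast
    rw [hG]
    linear_combination 6 * ((pre.count b : ℕ) : ZMod (12 * N)) * hch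
  have key : ∀ v : List α,
      (12 * psum x (fun pre => (pre.count a).choose 2 * pre.count b) v +
        psum x (fun pre => (wz (pmw (12 * N) a b) pre).val ^ 3) v +
        2 * psum x (fun pre => pre.count b ^ 3) v +
        3 * psum x (fun pre => (pre.count a + pre.count b) ^ 2) v) % (12 * N) =
      (psum x (fun pre => (pre.count a + pre.count b) ^ 3) v +
        3 * psum x (fun pre => pre.count a ^ 2) v +
        3 * psum x (fun pre => pre.count b ^ 2) v) % (12 * N) := by
    intro v
    have e := psum_mod x _ _ (12 * N) point v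
    simpa only [psum_add, psum_mul] using e
  have c1 := (ZMod.natCast_eq_natCast_iff' _ _ (12 * N)).2 e1
  have c2 := (ZMod.natCast_eq_natCast_iff' _ _ (12 * N)).2 e2
  have c3 := (ZMod.natCast_eq_natCast_iff' _ _ (12 * N)).2 e3
  have c4 := (ZMod.natCast_eq_natCast_iff' _ _ (12 * N)).2 e4
  have c5 := (ZMod.natCast_eq_natCast_iff' _ _ (12 * N)).2 e5
  have c6 := (ZMod.natCast_eq_natCast_iff' _ _ (12 * N)).2 e6
  have kw := (ZMod.natCast_eq_natCast_iff' _ _ (12 * N)).2 (key w)
  have kw' := (ZMod.natCast_eq_natCast_iff' _ _ (12 * N)).2 (key w')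
  push_cast at kw kw'
  have fin : ((12 * psum x (fun pre => (pre.count a).choose 2 * pre.count b) w : ℕ) :
      ZMod (12 * N)) =
      ((12 * psum x (fun pre => (pre.count a).choose 2 * pre.count b) w' : ℕ) :
        ZMod (12 * N)) := by
    push_cast
    linear_combination kw - kw' - c6 - 2 * c5 - 3 * c4 + c1 + 3 * c2 + 3 * c3
  have fin2 : 12 * psum x (fun pre => (pre.count a).choose 2 * pre.count b) w ≡
      12 * psum x (fun pre => (pre.count a).choose 2 * pre.count b) w' [MOD 12 * N] :=
    (ZMod.natCast_eq_natCast_iff _ _ (12 * N)).1 fin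
  exact Nat.ModEq.mul_left_cancel' (by norm_num) fin2

end SignedPivot

end Vale.Agent.Lib.P329
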