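import Vale.Agent.Lib.P329.PairRuns

/-!
# P329: automata with two-element components away from one state

Star-free expressions for the runs inside a two-element component without a swapping letter,
and the resulting extension of the reset automaton theorem: away from the state `o`, the
states may be ranked up to two-element classes `{q, m q}` that no letter exchanges.
-/

namespace Vale.Agent.Lib.P329

open Language

section PairExpr

variable {α : Type} [Fintype α] {Q : Type} [DecidableEq Q]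

/-- The one letter words over the letters satisfying `S`. -/
noncomputable def lettersE (S : α → Prop) [DecidablePred S] : GExp α :=
  asum (fun a => if S a then .letter a else .zero)

theorem mem_lettersE (S : α → Prop) [DecidablePred S] (w : List α) :
    w ∈ (lettersE S).lang ↔ ∃ a, S a ∧ w = [a] := by
  rw [lettersE, mem_asum]
  constructor
  · rintro ⟨a, ha⟩
    split_ifs at ha with h
    · exact ⟨a, h, (mem_letter a w).1 ha⟩
    · exact absurd ha (notMem_zero w)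
  · rintro ⟨a, h, rfl⟩
    refine ⟨a, ?_⟩
    rw [if_pos h]
    exact (mem_letter a _).2 rfl

theorem sh_lettersE (S : α → Prop) [DecidablePred S] : (lettersE S).sh = 0 := by
  have h1 : (lettersE S).sh ≤ 0 := by
    apply sh_asum_le
    intro a
    split_ifs <;> simp [GExp.sh]
  omega

/-- The words `w` with `trk q w = s`. -/
noncomputable def trkE (δ : Q → α → Q) (q1 q2 q s : Q) : GExp α :=
  .plus (if q = s then allIn (fixes δ q1 q2) else .zero)
    (.comp top (.comp (lettersE (fun b => ¬ fixes δ q1 q2 b ∧ res δ q1 q2 b = s))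
      (allIn (fixes δ q1 q2))))

theorem mem_trkE (δ : Q → α → Q) (q1 q2 q s : Q) (w : List α) :
    w ∈ (trkE δ q1 q2 q s).lang ↔ trk δ q1 q2 q w = s := by
  rw [trk_iff, trkE, mem_plus]
  constructor
  · rintro (h | h)
    · split_ifs at h with hqs
      · exact Or.inl ⟨(mem_allIn _ w).1 h, hqs⟩
      · exact absurd h (notMem_zero w)
    · rw [mem_comp] at h
      obtain ⟨u, v, rfl, -, hv⟩ := h
      rw [mem_comp] at hv
      obtain ⟨x, t, rfl, hx, ht⟩ := hv
      rw [mem_lettersE] at hx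
      obtain ⟨b, hb, rfl⟩ := hx
      exact Or.inr ⟨u, b, t, rfl, hb, (mem_allIn _ t).1 ht⟩
  · rintro (⟨h1, h2⟩ | ⟨u, b, t, rfl, hb, ht⟩)
    · left
      rw [if_pos h2]
      exact (mem_allIn _ w).2 h1
    · right
      rw [mem_comp]
      refine ⟨u, b :: t, rfl, mem_top' u, ?_⟩
      rw [mem_comp]
      exact ⟨[b], t, rfl, (mem_lettersE _ _).2 ⟨b, hb, rfl⟩, (mem_allIn _ t).2 ht⟩

theorem sh_trkE (δ : Q → α → Q) (q1 q2 q s : Q) : (trkE δ q1 q2 q s).sh = 0 := by
  have h2 : (if q = s then allIn (fixes δ q1 q2) else (GExp.zero : GExp α)).sh = 0 := by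
    split_ifs
    · exact sh_allIn _
    · rfl
  simp only [trkE, GExp.sh, sh_allIn, sh_lettersE, h2, top]
  omega

/-- The words along which the predicted run from `q` leaves `{q1, q2}`. -/
noncomputable def badE (δ : Q → α → Q) (q1 q2 q : Q) : GExp α :=
  .plus
    (.comp (trkE δ q1 q2 q q1) (.comp (lettersE (fun a => δ q1 a ≠ q1 ∧ δ q1 a ≠ q2)) top))
    (.comp (trkE δ q1 q2 q q2) (.comp (lettersE (fun a => δ q2 a ≠ q1 ∧ δ q2 a ≠ q2)) top))

theorem mem_badE (δ : Q → α → Q) (q1 q2 q : Q) (hq : q = q1 ∨ q = q2) (w : List α) :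
    w ∈ (badE δ q1 q2 q).lang ↔ ∃ u a v, w = u ++ a :: v ∧
      ¬ (δ (trk δ q1 q2 q u) a = q1 ∨ δ (trk δ q1 q2 q u) a = q2) := by
  rw [badE, mem_plus, mem_comp, mem_comp]
  constructor
  · rintro (⟨u, v, rfl, hu, hv⟩ | ⟨u, v, rfl, hu, hv⟩)
    · rw [mem_trkE] at hu
      rw [mem_comp] at hv
      obtain ⟨x, t, rfl, hx, -⟩ := hv
      rw [mem_lettersE] at hx
      obtain ⟨a, ha, rfl⟩ := hx
      refine ⟨u, a, t, rfl, ?_⟩
      rw [hu]
      exact not_or.2 ha
    · rw [mem_trkE] at hu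
      rw [mem_comp] at hv
      obtain ⟨x, t, rfl, hx, -⟩ := hv
      rw [mem_lettersE] at hx
      obtain ⟨a, ha, rfl⟩ := hx
      refine ⟨u, a, t, rfl, ?_⟩
      rw [hu]
      exact not_or.2 ha
  · rintro ⟨u, a, v, rfl, h⟩
    have h' := not_or.1 h
    rcases trk_mem δ q1 q2 q hq u with h1 | h1
    · left
      refine ⟨u, a :: v, rfl, (mem_trkE δ q1 q2 q q1 u).2 h1, ?_⟩
      rw [mem_comp]
      refine ⟨[a], v, rfl, (mem_lettersE _ _).2 ⟨a, ?_, rfl⟩, mem_top' v⟩
      rw [h1] at h'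
      exact h'
    · right
      refine ⟨u, a :: v, rfl, (mem_trkE δ q1 q2 q q2 u).2 h1, ?_⟩
      rw [mem_comp]
      refine ⟨[a], v, rfl, (mem_lettersE _ _).2 ⟨a, ?_, rfl⟩, mem_top' v⟩
      rw [h1] at h'
      exact h'

theorem sh_badE (δ : Q → α → Q) (q1 q2 q : Q) : (badE δ q1 q2 q).sh = 0 := by
  simp only [badE, GExp.sh, sh_trkE, sh_lettersE, top]
  omega

/-- The runs from `q` that stay inside `{q1, q2}` and end in `s`. -/
noncomputable def insE (δ : Q → α → Q) (q1 q2 q s : Q) : GExp α :=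
  inter (.neg (badE δ q1 q2 q)) (trkE δ q1 q2 q s)

variable [DecidableEq α]

theorem mem_insE (δ : Q → α → Q) (q1 q2 : Q) (h12 : q1 ≠ q2)
    (hns : ∀ a, ¬ (δ q1 a = q2 ∧ δ q2 a = q1)) (q : Q) (hq : q = q1 ∨ q = q2) (s : Q)
    (w : List α) :
    w ∈ (insE δ q1 q2 q s).lang ↔ inside δ q1 q2 q w ∧ run δ q w = s := by
  rw [insE, mem_inter, mem_neg, mem_badE δ q1 q2 q hq, mem_trkE,
    inside_iff δ q1 q2 h12 hns q hq]
  constructor
  · rintro ⟨h1, h2⟩
    have h3 : ∀ u a v, w = u ++ a :: v →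
        (δ (trk δ q1 q2 q u) a = q1 ∨ δ (trk δ q1 q2 q u) a = q2) := by
      intro u a v hw
      by_contra hcon
      exact h1 ⟨u, a, v, hw, hcon⟩
    refine ⟨h3, ?_⟩
    rw [run_eq_trk δ q1 q2 h12 hns q w ((inside_iff δ q1 q2 h12 hns q hq w).2 h3)]
    exact h2
  · rintro ⟨h1, h2⟩
    refine ⟨?_, ?_⟩
    · rintro ⟨u, a, v, hw, hcon⟩
      exact hcon (h1 u a v hw)
    · rw [← run_eq_trk δ q1 q2 h12 hns q w ((inside_iff δ q1 q2 h12 hns q hq w).2 h1)]
      exact h2

theorem sh_insE (δ : Q → α → Q) (q1 q2 q s : Q) : (insE δ q1 q2 q s).sh = 0 := by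
  simp only [insE, inter, GExp.sh, sh_trkE, sh_badE]
  omega

/-- Runs inside `{q1, q2}` ending in `s`, then a letter leaving `{q1, q2}` without reaching
`o`, then a word of `f a`. -/
noncomputable def exitE (δ : Q → α → Q) (o q1 q2 q s : Q) (f : α → GExp α) : GExp α :=
  asum (fun a => if δ s a ≠ q1 ∧ δ s a ≠ q2 ∧ δ s a ≠ o
    then .comp (insE δ q1 q2 q s) (.comp (.letter a) (f a)) else .zero)

theorem mem_exitE (δ : Q → α → Q) (o q1 q2 : Q) (h12 : q1 ≠ q2)
    (hns : ∀ a, ¬ (δ q1 a = q2 ∧ δ q2 a = q1)) (q : Q) (hq : q = q1 ∨ q = q2) (s : Q)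
    (f : α → GExp α) (w : List α) :
    w ∈ (exitE δ o q1 q2 q s f).lang ↔ ∃ u a v, w = u ++ a :: v ∧
      (inside δ q1 q2 q u ∧ run δ q u = s) ∧
      (δ s a ≠ q1 ∧ δ s a ≠ q2 ∧ δ s a ≠ o) ∧ v ∈ (f a).lang := by
  rw [exitE, mem_asum]
  constructor
  · rintro ⟨a, ha⟩
    split_ifs at ha with hc
    · rw [mem_comp] at ha
      obtain ⟨u, v, rfl, hu, hv⟩ := ha
      rw [mem_letter_comp] at hv
      obtain ⟨v', rfl, hv'⟩ := hv
      exact ⟨u, a, v', rfl, (mem_insE δ q1 q2 h12 hns q hq s u).1 hu, hc, hv'⟩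
    · exact absurd ha (notMem_zero w)
  · rintro ⟨u, a, v, rfl, hu, hc, hv⟩
    refine ⟨a, ?_⟩
    rw [if_pos hc, mem_comp]
    refine ⟨u, a :: v, rfl, (mem_insE δ q1 q2 h12 hns q hq s u).2 hu, ?_⟩
    rw [mem_letter_comp]
    exact ⟨v, rfl, hv⟩

theorem sh_exitE (δ : Q → α → Q) (o q1 q2 q s : Q) (f : α → GExp α)
    (hf : ∀ a, (δ s a ≠ q1 ∧ δ s a ≠ q2 ∧ δ s a ≠ o) → (f a).sh = 0) :
    (exitE δ o q1 q2 q s f).sh = 0 := by
  have h1 : (exitE δ o q1 q2 q s f).sh ≤ 0 := by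
    apply sh_asum_le
    intro a
    split_ifs with hc
    · simp [GExp.sh, sh_insE, hf a hc]
    · simp [GExp.sh]
  omega

/-- Runs inside `{q1, q2}` ending in `s`, then a letter leading to `o`. -/
noncomputable def hitE (δ : Q → α → Q) (o q1 q2 q s : Q) : GExp α :=
  .comp (insE δ q1 q2 q s) (lettersE (fun a => δ s a = o))

theorem mem_hitE (δ : Q → α → Q) (o q1 q2 : Q) (h12 : q1 ≠ q2)
    (hns : ∀ a, ¬ (δ q1 a = q2 ∧ δ q2 a = q1)) (q : Q) (hq : q = q1 ∨ q = q2) (s : Q)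
    (w : List α) :
    w ∈ (hitE δ o q1 q2 q s).lang ↔ ∃ u a, w = u ++ [a] ∧
      (inside δ q1 q2 q u ∧ run δ q u = s) ∧ δ s a = o := by
  rw [hitE, mem_comp]
  constructor
  · rintro ⟨u, v, rfl, hu, hv⟩
    rw [mem_lettersE] at hv
    obtain ⟨a, ha, rfl⟩ := hv
    exact ⟨u, a, rfl, (mem_insE δ q1 q2 h12 hns q hq s u).1 hu, ha⟩
  · rintro ⟨u, a, rfl, hu, ha⟩
    exact ⟨u, [a], rfl, (mem_insE δ q1 q2 h12 hns q hq s u).2 hu,
      (mem_lettersE _ _).2 ⟨a, ha, rfl⟩⟩

theorem sh_hitE (δ : Q → α → Q) (o q1 q2 q s : Q) : (hitE δ o q1 q2 q s).sh = 0 := by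
  simp only [hitE, GExp.sh, sh_insE, sh_lettersE]
  omega

theorem good_pair (δ : Q → α → Q) (o q1 q2 : Q) (hq1 : q1 ≠ o) (hq2 : q2 ≠ o) (h12 : q1 ≠ q2)
    (hns : ∀ a, ¬ (δ q1 a = q2 ∧ δ q2 a = q1))
    (hup : ∀ s, s = q1 ∨ s = q2 → ∀ a, δ s a ≠ q1 → δ s a ≠ q2 → δ s a ≠ o →
      Good δ o (δ s a))
    (q : Q) (hq : q = q1 ∨ q = q2) : Good δ o q := by
  have hso : ∀ s, s = q1 ∨ s = q2 → s ≠ o := by
    rintro s (rfl | rfl)
    · exact hq1
    · exact hq2
  constructor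
  · intro q'
    have hex : ∀ s a, ∃ e : GExp α,
        ((s = q1 ∨ s = q2) ∧ δ s a ≠ q1 ∧ δ s a ≠ q2 ∧ δ s a ≠ o) →
        (e.sh = 0 ∧ ∀ w, w ∈ e.lang ↔ (avoids δ o (δ s a) w ∧ run δ (δ s a) w = q')) := by
      intro s a
      by_cases h1 : (s = q1 ∨ s = q2) ∧ δ s a ≠ q1 ∧ δ s a ≠ q2 ∧ δ s a ≠ o
      · obtain ⟨e, he⟩ := (hup s h1.1 a h1.2.1 h1.2.2.1 h1.2.2.2).1 q'
        exact ⟨e, fun _ => he⟩
      · exact ⟨.zero, fun h2 => absurd h2 h1⟩
    choose f hf using hex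
    refine ⟨.plus (if q' = q1 ∨ q' = q2 then insE δ q1 q2 q q' else .zero)
      (.plus (exitE δ o q1 q2 q q1 (f q1)) (exitE δ o q1 q2 q q2 (f q2))), ?_, ?_⟩
    · have h1 : (if q' = q1 ∨ q' = q2 then insE δ q1 q2 q q' else (GExp.zero : GExp α)).sh
          = 0 := by
        split_ifs
        · exact sh_insE δ q1 q2 q q'
        · rfl
      have h2 := sh_exitE δ o q1 q2 q q1 (f q1) (fun a hc => (hf q1 a ⟨Or.inl rfl, hc⟩).1)
      have h3 := sh_exitE δ o q1 q2 q q2 (f q2) (fun a hc => (hf q2 a ⟨Or.inr rfl, hc⟩).1)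
      simp only [GExp.sh, h1, h2, h3]
      omega
    · intro w
      have key1 : ∀ s, (s = q1 ∨ s = q2) → w ∈ (exitE δ o q1 q2 q s (f s)).lang →
          avoids δ o q w ∧ run δ q w = q' := by
        intro s hs hw
        rw [mem_exitE δ o q1 q2 h12 hns q hq] at hw
        obtain ⟨u, a, v, rfl, hu, hc, hv⟩ := hw
        have h3 := ((hf s a ⟨hs, hc⟩).2 v).1 hv
        refine ⟨?_, ?_⟩
        · rw [avoids_append]
          refine ⟨inside_avoids δ o q1 q2 q hq1 hq2 u hu.1, ?_⟩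
          rw [hu.2]
          exact ⟨hso s hs, h3.1⟩
        · rw [run_append, hu.2, run_cons]
          exact h3.2
      rw [mem_plus, mem_plus]
      constructor
      · rintro (h | h | h)
        · split_ifs at h with hq'
          · rw [mem_insE δ q1 q2 h12 hns q hq] at h
            exact ⟨inside_avoids δ o q1 q2 q hq1 hq2 w h.1, h.2⟩
          · exact absurd h (notMem_zero w)
        · exact key1 q1 (Or.inl rfl) h
        · exact key1 q2 (Or.inr rfl) h
      · rintro ⟨hav, hrun⟩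
        rcases inside_or_exit δ q1 q2 q hq w with hin | ⟨u, a, v, rfl, hu, ha1, ha2⟩
        · left
          have h1 := inside_run δ q1 q2 q w hin
          rw [hrun] at h1
          rw [if_pos h1]
          exact (mem_insE δ q1 q2 h12 hns q hq q' w).2 ⟨hin, hrun⟩
        · right
          have hs := inside_run δ q1 q2 q u hu
          have h1 := (avoids_append δ o q u (a :: v)).1 hav
          have hao : δ (run δ q u) a ≠ o := avoids_ne δ o _ v h1.2.2
          rw [run_append, run_cons] at hrun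
          have key2 : ∀ s, (s = q1 ∨ s = q2) → run δ q u = s →
              u ++ a :: v ∈ (exitE δ o q1 q2 q s (f s)).lang := by
            intro s hs' hrs
            rw [mem_exitE δ o q1 q2 h12 hns q hq]
            rw [hrs] at ha1 ha2 hao hrun h1
            exact ⟨u, a, v, rfl, ⟨hu, hrs⟩, ⟨ha1, ha2, hao⟩,
              ((hf s a ⟨hs', ha1, ha2, hao⟩).2 v).2 ⟨h1.2.2, hrun⟩⟩
          rcases hs with hs | hs
          · exact Or.inl (key2 q1 (Or.inl rfl) hs)
          · exact Or.inr (key2 q2 (Or.inr rfl) hs)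
  · have hex : ∀ s a, ∃ e : GExp α,
        ((s = q1 ∨ s = q2) ∧ δ s a ≠ q1 ∧ δ s a ≠ q2 ∧ δ s a ≠ o) →
        (e.sh = 0 ∧ ∀ w, w ∈ e.lang ↔ Hit δ o (δ s a) w) := by
      intro s a
      by_cases h1 : (s = q1 ∨ s = q2) ∧ δ s a ≠ q1 ∧ δ s a ≠ q2 ∧ δ s a ≠ o
      · obtain ⟨e, he⟩ := (hup s h1.1 a h1.2.1 h1.2.2.1 h1.2.2.2).2
        exact ⟨e, fun _ => he⟩
      · exact ⟨.zero, fun h2 => absurd h2 h1⟩
    choose g hg using hex
    refine ⟨.plus (.plus (hitE δ o q1 q2 q q1) (hitE δ o q1 q2 q q2))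
      (.plus (exitE δ o q1 q2 q q1 (g q1)) (exitE δ o q1 q2 q q2 (g q2))), ?_, ?_⟩
    · have h2 := sh_exitE δ o q1 q2 q q1 (g q1) (fun a hc => (hg q1 a ⟨Or.inl rfl, hc⟩).1)
      have h3 := sh_exitE δ o q1 q2 q q2 (g q2) (fun a hc => (hg q2 a ⟨Or.inr rfl, hc⟩).1)
      simp only [GExp.sh, sh_hitE, h2, h3]
      omega
    · intro w
      have keyh : ∀ s, (s = q1 ∨ s = q2) → w ∈ (hitE δ o q1 q2 q s).lang → Hit δ o q w := by
        intro s hs hw
        rw [mem_hitE δ o q1 q2 h12 hns q hq] at hw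
        obtain ⟨u, a, rfl, hu, ha⟩ := hw
        refine ⟨u, a, rfl, inside_avoids δ o q1 q2 q hq1 hq2 u hu.1, ?_⟩
        rw [hu.2]
        exact ha
      have key1 : ∀ s, (s = q1 ∨ s = q2) → w ∈ (exitE δ o q1 q2 q s (g s)).lang →
          Hit δ o q w := by
        intro s hs hw
        rw [mem_exitE δ o q1 q2 h12 hns q hq] at hw
        obtain ⟨u, a, v, rfl, hu, hc, hv⟩ := hw
        obtain ⟨v0, b, rfl, hv0, hb⟩ := ((hg s a ⟨hs, hc⟩).2 v).1 hv
        refine ⟨u ++ a :: v0, b, by simp, ?_, ?_⟩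
        · rw [avoids_append]
          refine ⟨inside_avoids δ o q1 q2 q hq1 hq2 u hu.1, ?_⟩
          rw [hu.2]
          exact ⟨hso s hs, hv0⟩
        · rw [run_append, hu.2, run_cons]
          exact hb
      rw [mem_plus, mem_plus, mem_plus]
      constructor
      · rintro ((h | h) | h | h)
        · exact keyh q1 (Or.inl rfl) h
        · exact keyh q2 (Or.inr rfl) h
        · exact key1 q1 (Or.inl rfl) h
        · exact key1 q2 (Or.inr rfl) h
      · rintro ⟨u0, b, rfl, hav, hb⟩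
        rcases inside_or_exit δ q1 q2 q hq u0 with hin | ⟨u, a, v, rfl, hu, ha1, ha2⟩
        · left
          have key3 : ∀ s, run δ q u0 = s →
              u0 ++ [b] ∈ (hitE δ o q1 q2 q s).lang := by
            intro s hrs
            rw [mem_hitE δ o q1 q2 h12 hns q hq]
            rw [hrs] at hb
            exact ⟨u0, b, rfl, ⟨hin, hrs⟩, hb⟩
          rcases inside_run δ q1 q2 q u0 hin with hs | hs
          · exact Or.inl (key3 q1 hs)
          · exact Or.inr (key3 q2 hs)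
        · right
          have hs := inside_run δ q1 q2 q u hu
          have h1 := (avoids_append δ o q u (a :: v)).1 hav
          have hao : δ (run δ q u) a ≠ o := avoids_ne δ o _ v h1.2.2
          rw [run_append, run_cons] at hb
          have key2 : ∀ s, (s = q1 ∨ s = q2) → run δ q u = s →
              (u ++ a :: v) ++ [b] ∈ (exitE δ o q1 q2 q s (g s)).lang := by
            intro s hs' hrs
            rw [mem_exitE δ o q1 q2 h12 hns q hq]
            rw [hrs] at ha1 ha2 hao hb h1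
            refine ⟨u, a, v ++ [b], by simp, ⟨hu, hrs⟩, ⟨ha1, ha2, hao⟩, ?_⟩
            exact ((hg s a ⟨hs', ha1, ha2, hao⟩).2 _).2 ⟨v, b, rfl, h1.2.2, hb⟩
          rcases hs with hs | hs
          · exact Or.inl (key2 q1 (Or.inl rfl) hs)
          · exact Or.inr (key2 q2 (Or.inr rfl) hs)

theorem good_of_higher (δ : Q → α → Q) (o : Q) (r : Q → ℕ) (m : Q → Q)
    (hm1 : ∀ q, q ≠ o → m q ≠ o) (hm2 : ∀ q, q ≠ o → m (m q) = q)
    (hm3 : ∀ q, q ≠ o → r (m q) = r q)
    (h : ∀ q a, q ≠ o → δ q a = q ∨ δ q a = o ∨ δ q a = m q ∨ r q < r (δ q a))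
    (hns : ∀ q a, q ≠ o → m q ≠ q → ¬ (δ q a = m q ∧ δ (m q) a = q))
    (q : Q) (hq : q ≠ o) (H : ∀ q', q' ≠ o → r q < r q' → Good δ o q') : Good δ o q := by
  by_cases hmq : m q = q
  · apply good_step δ o q hq
    intro a h1 h2
    rcases h q a hq with h3 | h3 | h3 | h3
    · exact absurd h3 h1
    · exact absurd h3 h2
    · rw [hmq] at h3; exact absurd h3 h1
    · exact H _ h2 h3
  · refine good_pair δ o q (m q) hq (hm1 q hq) (fun e => hmq e.symm)
      (fun a => hns q a hq hmq) ?_ q (Or.inl rfl)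
    intro s hs a h1 h2 h3
    rcases hs with hs | hs
    · rw [hs] at h1 h2 h3 ⊢
      rcases h q a hq with h4 | h4 | h4 | h4
      · exact absurd h4 h1
      · exact absurd h4 h3
      · exact absurd h4 h2
      · exact H _ h3 h4
    · rw [hs] at h1 h2 h3 ⊢
      rcases h (m q) a (hm1 q hq) with h4 | h4 | h4 | h4
      · exact absurd h4 h2
      · exact absurd h4 h3
      · rw [hm2 q hq] at h4; exact absurd h4 h1
      · rw [hm3 q hq] at h4; exact H _ h3 h4

theorem good_of_pair_rank (δ : Q → α → Q) (o : Q) (r : Q → ℕ) (m : Q → Q)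
    (hm1 : ∀ q, q ≠ o → m q ≠ o) (hm2 : ∀ q, q ≠ o → m (m q) = q)
    (hm3 : ∀ q, q ≠ o → r (m q) = r q)
    (h : ∀ q a, q ≠ o → δ q a = q ∨ δ q a = o ∨ δ q a = m q ∨ r q < r (δ q a))
    (hns : ∀ q a, q ≠ o → m q ≠ q → ¬ (δ q a = m q ∧ δ (m q) a = q))
    (M : ℕ) (hM : ∀ q, r q ≤ M) : ∀ n q, q ≠ o → M ≤ r q + n → Good δ o q := by
  intro n
  induction n with
  | zero =>
    intro q hq hMq
    apply good_of_higher δ o r m hm1 hm2 hm3 h hns q hq
    intro q' _ hlt
    have := hM q'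
    omega
  | succ n ih =>
    intro q hq hMq
    apply good_of_higher δ o r m hm1 hm2 hm3 h hns q hq
    intro q' hq' hlt
    exact ih q' hq' (by omega)

end PairExpr

/-- Every state other than `o` is good when, away from `o`, the automaton is ranked up to
two-element classes `{q, m q}` that no letter exchanges. -/
theorem pair_good {α Q : Type} [Fintype α] [DecidableEq α] [Fintype Q] [DecidableEq Q]
    (δ : Q → α → Q) (o : Q) (r : Q → ℕ) (m : Q → Q)
    (hm1 : ∀ q, q ≠ o → m q ≠ o) (hm2 : ∀ q, q ≠ o → m (m q) = q)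
    (hm3 : ∀ q, q ≠ o → r (m q) = r q)
    (h : ∀ q a, q ≠ o → δ q a = q ∨ δ q a = o ∨ δ q a = m q ∨ r q < r (δ q a))
    (hns : ∀ q a, q ≠ o → m q ≠ q → ¬ (δ q a = m q ∧ δ (m q) a = q)) :
    ∀ q, q ≠ o → Good δ o q := by
  have hM : ∀ q, r q ≤ Finset.univ.sup r := fun q => Finset.le_sup (Finset.mem_univ q)
  intro q hq
  exact good_of_pair_rank δ o r m hm1 hm2 hm3 h hns (Finset.univ.sup r) hM
    (Finset.univ.sup r) q hq (by omega)

/-- Main statement for automata with two-element classes: all accepted languages have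
generalized star height at most one. -/
theorem pair_reset_automaton (α Q : Type) [Fintype α] [DecidableEq α] [Fintype Q]
    [DecidableEq Q] (δ : Q → α → Q) (o : Q) (r : Q → ℕ) (m : Q → Q)
    (hm1 : ∀ q, q ≠ o → m q ≠ o) (hm2 : ∀ q, q ≠ o → m (m q) = q)
    (hm3 : ∀ q, q ≠ o → r (m q) = r q)
    (h : ∀ q a, q ≠ o → δ q a = q ∨ δ q a = o ∨ δ q a = m q ∨ r q < r (δ q a))
    (hns : ∀ q a, q ≠ o → m q ≠ q → ¬ (δ q a = m q ∧ δ (m q) a = q)) (p : Q) (F : Set Q) :
    ∃ e : GExp α, e.sh ≤ 1 ∧ ∀ w : List α, w ∈ e.lang ↔ w.foldl δ p ∈ F := by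
  have hgood := pair_good δ o r m hm1 hm2 hm3 h hns
  choose E hE using fun q' => reach δ o hgood p q'
  refine saturated_list 1 (Finset.univ.toList.map E) ?_ {w | w.foldl δ p ∈ F} ?_
  · intro t ht
    obtain ⟨q', -, rfl⟩ := List.mem_map.1 ht
    exact (hE q').1
  · intro w w' hww
    have key : run δ p w = run δ p w' := by
      have ht : E (run δ p w) ∈ Finset.univ.toList.map E :=
        List.mem_map.2 ⟨_, Finset.mem_toList.2 (Finset.mem_univ _), rfl⟩
      have h1 := (hww _ ht).1 (((hE (run δ p w)).2 w).2 rfl)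
      exact (((hE (run δ p w)).2 w').1 h1).symm
    show run δ p w ∈ F ↔ run δ p w' ∈ F
    rw [key]

end Vale.Agent.Lib.P329
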