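import Vale.Agent.Lib.P329.Reset

/-!
# P329: runs inside a two-element component without a swapping letter

Let `q1`, `q2` be two states of a deterministic automaton such that no letter exchanges them.
The runs that stay inside `{q1, q2}` are described by star-free expressions: the current state
is determined by the last letter that does not fix both states.
-/

namespace Vale.Agent.Lib.P329

open Language

section PairRuns

variable {α : Type} {Q : Type}

/-- All the states met when reading `w` from `q`, both ends included, are `q1` or `q2`. -/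
def inside (δ : Q → α → Q) (q1 q2 : Q) : Q → List α → Prop
  | q, [] => q = q1 ∨ q = q2
  | q, a :: w => (q = q1 ∨ q = q2) ∧ inside δ q1 q2 (δ q a) w

theorem inside_start (δ : Q → α → Q) (q1 q2 q : Q) (w : List α) (h : inside δ q1 q2 q w) :
    q = q1 ∨ q = q2 := by
  cases w with
  | nil => exact h
  | cons a w => exact h.1

theorem inside_append (δ : Q → α → Q) (q1 q2 q : Q) (u v : List α) :
    inside δ q1 q2 q (u ++ v) ↔ inside δ q1 q2 q u ∧ inside δ q1 q2 (run δ q u) v := by
  induction u generalizing q with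
  | nil =>
    simp only [List.nil_append, run_nil, inside]
    exact ⟨fun h => ⟨inside_start δ q1 q2 q v h, h⟩, fun h => h.2⟩
  | cons a u ih =>
    simp only [List.cons_append, inside, run_cons, ih, and_assoc]

theorem inside_run (δ : Q → α → Q) (q1 q2 q : Q) (w : List α) (h : inside δ q1 q2 q w) :
    run δ q w = q1 ∨ run δ q w = q2 := by
  induction w generalizing q with
  | nil => exact h
  | cons a w ih => exact ih (δ q a) h.2

theorem inside_avoids (δ : Q → α → Q) (o q1 q2 q : Q) (h1 : q1 ≠ o) (h2 : q2 ≠ o)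
    (w : List α) (h : inside δ q1 q2 q w) : avoids δ o q w := by
  induction w generalizing q with
  | nil =>
    rcases h with rfl | rfl
    · exact h1
    · exact h2
  | cons a w ih =>
    refine ⟨?_, ih (δ q a) h.2⟩
    rcases h.1 with rfl | rfl
    · exact h1
    · exact h2

/-- Either the run stays inside, or there is a first exit. -/
theorem inside_or_exit (δ : Q → α → Q) (q1 q2 q : Q) (hq : q = q1 ∨ q = q2) (w : List α) :
    inside δ q1 q2 q w ∨ ∃ u a v, w = u ++ a :: v ∧ inside δ q1 q2 q u ∧
      δ (run δ q u) a ≠ q1 ∧ δ (run δ q u) a ≠ q2 := by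
  induction w generalizing q with
  | nil => left; exact hq
  | cons c w ih =>
    by_cases hc : δ q c = q1 ∨ δ q c = q2
    · rcases ih (δ q c) hc with h | ⟨u, a, v, rfl, hu, ha⟩
      · left; exact ⟨hq, h⟩
      · right; exact ⟨c :: u, a, v, rfl, ⟨hq, hu⟩, ha⟩
    · right
      have hc' := not_or.1 hc
      exact ⟨[], c, w, rfl, hq, hc'.1, hc'.2⟩

variable [DecidableEq Q]

/-- The letter `a` fixes both `q1` and `q2`. -/
def fixes (δ : Q → α → Q) (q1 q2 : Q) (a : α) : Prop := δ q1 a = q1 ∧ δ q2 a = q2

instance (δ : Q → α → Q) (q1 q2 : Q) : DecidablePred (fixes δ q1 q2) := fun a => by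
  unfold fixes; infer_instance

/-- The state of `{q1, q2}` that a letter not fixing both leads to, whenever it stays inside. -/
def res (δ : Q → α → Q) (q1 q2 : Q) (a : α) : Q :=
  if δ q1 a = q1 ∨ δ q2 a = q1 then q1 else q2

theorem res_mem (δ : Q → α → Q) (q1 q2 : Q) (a : α) :
    res δ q1 q2 a = q1 ∨ res δ q1 q2 a = q2 := by
  unfold res; split_ifs <;> simp

/-- The state predicted from the last letter that does not fix both states. -/
def trk (δ : Q → α → Q) (q1 q2 q : Q) (w : List α) : Q :=
  w.foldl (fun s a => if fixes δ q1 q2 a then s else res δ q1 q2 a) q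

theorem trk_snoc (δ : Q → α → Q) (q1 q2 q : Q) (w : List α) (a : α) :
    trk δ q1 q2 q (w ++ [a]) =
      if fixes δ q1 q2 a then trk δ q1 q2 q w else res δ q1 q2 a := by
  simp [trk, List.foldl_append]

theorem trk_mem (δ : Q → α → Q) (q1 q2 q : Q) (hq : q = q1 ∨ q = q2) (w : List α) :
    trk δ q1 q2 q w = q1 ∨ trk δ q1 q2 q w = q2 := by
  induction w using List.reverseRecOn with
  | nil => exact hq
  | append_singleton w a ih =>
    rw [trk_snoc]
    split_ifs
    · exact ih
    · exact res_mem δ q1 q2 a

theorem step_eq (δ : Q → α → Q) (q1 q2 : Q) (h12 : q1 ≠ q2)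
    (hns : ∀ a, ¬ (δ q1 a = q2 ∧ δ q2 a = q1)) (s : Q) (hs : s = q1 ∨ s = q2) (a : α)
    (ha : δ s a = q1 ∨ δ s a = q2) :
    δ s a = if fixes δ q1 q2 a then s else res δ q1 q2 a := by
  by_cases hf : fixes δ q1 q2 a
  · rw [if_pos hf]
    rcases hs with rfl | rfl
    · exact hf.1
    · exact hf.2
  · rw [if_neg hf]
    unfold res
    rcases hs with rfl | rfl
    · rcases ha with ha | ha
      · rw [if_pos (Or.inl ha)]; exact ha
      · have h1 : ¬ (δ s a = s ∨ δ q2 a = s) := by
          rintro (h | h)
          · exact h12 (h.symm.trans ha)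
          · exact hns a ⟨ha, h⟩
        rw [if_neg h1]; exact ha
    · rcases ha with ha | ha
      · rw [if_pos (Or.inr ha)]; exact ha
      · have h1 : ¬ (δ q1 a = q1 ∨ δ s a = q1) := by
          rintro (h | h)
          · exact hf ⟨h, ha⟩
          · exact h12 (h.symm.trans ha)
        rw [if_neg h1]; exact ha

omit [DecidableEq Q] in
theorem inside_snoc (δ : Q → α → Q) (q1 q2 q : Q) (w : List α) (a : α) :
    inside δ q1 q2 q (w ++ [a]) ↔ inside δ q1 q2 q w ∧
      (δ (run δ q w) a = q1 ∨ δ (run δ q w) a = q2) := by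
  rw [inside_append]
  constructor
  · rintro ⟨h1, h2⟩
    exact ⟨h1, h2.2⟩
  · rintro ⟨h1, h2⟩
    exact ⟨h1, inside_run δ q1 q2 q w h1, h2⟩

theorem run_eq_trk (δ : Q → α → Q) (q1 q2 : Q) (h12 : q1 ≠ q2)
    (hns : ∀ a, ¬ (δ q1 a = q2 ∧ δ q2 a = q1)) (q : Q) (w : List α)
    (h : inside δ q1 q2 q w) : run δ q w = trk δ q1 q2 q w := by
  induction w using List.reverseRecOn with
  | nil => rfl
  | append_singleton w a ih =>
    rw [inside_snoc] at h
    rw [run_append, trk_snoc, ← ih h.1]
    exact step_eq δ q1 q2 h12 hns _ (inside_run δ q1 q2 q w h.1) a h.2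

theorem snoc_decomp {w u v : List α} {a b : α} (h : w ++ [a] = u ++ b :: v) :
    (v = [] ∧ u = w ∧ b = a) ∨ ∃ v', v = v' ++ [a] ∧ w = u ++ b :: v' := by
  rcases List.eq_nil_or_concat v with rfl | ⟨v', c, hv⟩
  · left
    have h1 := List.append_inj' h (by simp)
    refine ⟨rfl, h1.1.symm, ?_⟩
    have h2 := h1.2
    simp only [List.cons.injEq, and_true] at h2
    exact h2.symm
  · right
    rw [List.concat_eq_append] at hv
    subst hv
    have h0 : w ++ [a] = (u ++ b :: v') ++ [c] := by
      rw [h]; simp
    have h1 := List.append_inj' h0 (by simp)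
    have h2 := h1.2
    simp only [List.cons.injEq, and_true] at h2
    subst h2
    exact ⟨v', rfl, h1.1⟩

theorem inside_iff (δ : Q → α → Q) (q1 q2 : Q) (h12 : q1 ≠ q2)
    (hns : ∀ a, ¬ (δ q1 a = q2 ∧ δ q2 a = q1)) (q : Q) (hq : q = q1 ∨ q = q2) (w : List α) :
    inside δ q1 q2 q w ↔ ∀ u a v, w = u ++ a :: v →
      (δ (trk δ q1 q2 q u) a = q1 ∨ δ (trk δ q1 q2 q u) a = q2) := by
  induction w using List.reverseRecOn with
  | nil =>
    constructor
    · intro _ u a v h
      simp at h
    · intro _
      exact hq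
  | append_singleton w c ih =>
    rw [inside_snoc]
    constructor
    · rintro ⟨h1, h2⟩ u a v h
      rcases snoc_decomp h with ⟨-, rfl, rfl⟩ | ⟨v', -, rfl⟩
      · rw [← run_eq_trk δ q1 q2 h12 hns q u h1]
        exact h2
      · exact (ih.1 h1) u a v' rfl
    · intro h
      have h1 : inside δ q1 q2 q w := by
        apply ih.2
        intro u a v hw
        exact h u a (v ++ [c]) (by rw [hw]; simp)
      refine ⟨h1, ?_⟩
      rw [run_eq_trk δ q1 q2 h12 hns q w h1]
      exact h w c [] rfl

theorem trk_iff (δ : Q → α → Q) (q1 q2 q s : Q) (w : List α) :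
    trk δ q1 q2 q w = s ↔ ((∀ c ∈ w, fixes δ q1 q2 c) ∧ q = s) ∨
      ∃ u b t, w = u ++ b :: t ∧ (¬ fixes δ q1 q2 b ∧ res δ q1 q2 b = s) ∧
        ∀ c ∈ t, fixes δ q1 q2 c := by
  induction w using List.reverseRecOn with
  | nil =>
    constructor
    · intro h
      left
      exact ⟨by simp, h⟩
    · rintro (⟨-, h⟩ | ⟨u, b, t, h, -⟩)
      · exact h
      · simp at h
  | append_singleton w a ih =>
    rw [trk_snoc]
    by_cases hf : fixes δ q1 q2 a
    · rw [if_pos hf, ih]
      constructor
      · rintro (⟨h1, h2⟩ | ⟨u, b, t, rfl, hb, ht⟩)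
        · left
          refine ⟨?_, h2⟩
          intro c hc
          rcases List.mem_append.1 hc with hc | hc
          · exact h1 c hc
          · rw [List.mem_singleton] at hc
            rw [hc]; exact hf
        · right
          refine ⟨u, b, t ++ [a], by simp, hb, ?_⟩
          intro c hc
          rcases List.mem_append.1 hc with hc | hc
          · exact ht c hc
          · rw [List.mem_singleton] at hc
            rw [hc]; exact hf
      · rintro (⟨h1, h2⟩ | ⟨u, b, t, h, hb, ht⟩)
        · left
          exact ⟨fun c hc => h1 c (List.mem_append_left _ hc), h2⟩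
        · right
          rcases snoc_decomp h with ⟨-, -, rfl⟩ | ⟨t', rfl, rfl⟩
          · exact absurd hf hb.1
          · exact ⟨u, b, t', rfl, hb, fun c hc => ht c (List.mem_append_left _ hc)⟩
    · rw [if_neg hf]
      constructor
      · intro h
        right
        exact ⟨w, a, [], rfl, ⟨hf, h⟩, by simp⟩
      · rintro (⟨h1, -⟩ | ⟨u, b, t, h, hb, ht⟩)
        · exact absurd (h1 a (by simp)) hf
        · rcases snoc_decomp h with ⟨-, -, rfl⟩ | ⟨t', rfl, -⟩
          · exact hb.2
          · exact absurd (ht a (by simp)) hf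

end PairRuns

end Vale.Agent.Lib.P329
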