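import Vale.Agent.Lib.P329.Collect
import Vale.Agent.Lib.P329.Peel
import Vale.Agent.Lib.P329.AffSym
import Vale.Agent.Lib.P329.Met4

/-!
# P329: peeling one letter in a metabelian group of nilpotency class at most four

Let `G` be a nilpotent group of class at most four whose commutator subgroup is commutative.
For a map `φ` from the letters to `G` and a letter `d`, the pair
`(peelM φ d w, peelH φ d w)` of elements of the commutator subgroup evolves, when a letter is
appended to `w`, by an affine rule `s ↦ s * N x s * t x` with commuting multiplicative maps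
`N x`, and every fourfold composite of the `N x` kills `t y`. By `affine_sym_det` the pair is
determined by the numbers, modulo an exponent of the group, of the scattered subwords with a
given first letter and a given multiset of at most three further letters.
-/

namespace Vale.Agent.Lib.P329

section Peel4

variable {α : Type} [DecidableEq α] {G : Type} [Group G]

/-- The commutator subgroup, when commutative, as a commutative group. -/
@[reducible] def commutatorCommGroup
    (hmet : ∀ a ∈ commutator G, ∀ b ∈ commutator G, a * b = b * a) :
    CommGroup (commutator G) :=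
  { (commutator G).toGroup with
    mul_comm := fun a b => Subtype.ext (hmet a.1 a.2 b.1 b.2) }

theorem gam2_le_commutator : Gam2 G ≤ commutator G := by
  refine (Subgroup.closure_le _).2 ?_
  rintro _ ⟨a, b, rfl⟩
  exact Subgroup.commutator_mem_commutator (Subgroup.mem_top a) (Subgroup.mem_top b)

theorem peelH_mem_commutator (φ : α → G) (d : α) (w : List α) :
    peelH φ d w ∈ commutator G :=
  gam2_le_commutator (peelH_mem φ d w)

/-- The correction term of peeling one letter depends only on the numbers, modulo an exponent
`e` of the group, of the scattered subwords with a given first letter and a given multiset of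
at most three further letters. -/
theorem peel4_step [Group.IsNilpotent G] (hcl : Group.nilpotencyClass G ≤ 4)
    (hmet : ∀ a ∈ commutator G, ∀ b ∈ commutator G, a * b = b * a) (e : ℕ)
    (he : ∀ g : G, g ^ e = 1) (w w' : List α)
    (hp : ∀ (x : α) (m : Multiset α), m.card ≤ 3 →
      symCount (some x, m) w % e = symCount (some x, m) w' % e)
    (φ : α → G) (d : α) : peelH φ d w = peelH φ d w' := by
  let _ : CommGroup (commutator G) := commutatorCommGroup hmet
  let Lm : G → commutator G → commutator G := fun y c => ⟨lam y c.1, lam_mem_commutator _ _⟩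
  have Lm_one : ∀ y, Lm y 1 = 1 := fun y => Subtype.ext (lam_one_right _)
  have Lm_mul : ∀ y c c', Lm y (c * c') = Lm y c * Lm y c' := fun y c c' =>
    Subtype.ext (lam_mul_met hmet y c.2 c'.2)
  have Lm_comm : ∀ y z c, Lm y (Lm z c) = Lm z (Lm y c) := fun y z c =>
    Subtype.ext (lam_comm_met hmet y z c.2)
  let N : α → (commutator G) × (commutator G) → (commutator G) × (commutator G) := fun x s =>
    (Lm (Function.update φ d 1 x) s.1, Lm (φ x) s.2 * (if x = d then s.1 else 1))
  let t : α → (commutator G) × (commutator G) := fun x =>
    (⟨lam (φ d) (Function.update φ d 1 x), lam_mem_commutator _ _⟩, 1)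
  have hN1 : ∀ a, N a 1 = 1 := by
    intro a
    refine Prod.ext (Lm_one _) ?_
    show Lm (φ a) 1 * (if a = d then (1 : commutator G) else 1) = 1
    rw [ite_self, mul_one, Lm_one]
  have hNm : ∀ a u v, N a (u * v) = N a u * N a v := by
    intro a u v
    refine Prod.ext (Lm_mul _ _ _) ?_
    show Lm (φ a) (u.2 * v.2) * (if a = d then u.1 * v.1 else 1) =
      (Lm (φ a) u.2 * (if a = d then u.1 else 1)) * (Lm (φ a) v.2 * (if a = d then v.1 else 1))
    rw [Lm_mul]
    by_cases h : a = d
    · rw [if_pos h, if_pos h, if_pos h, mul_mul_mul_comm]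
    · rw [if_neg h, if_neg h, if_neg h, mul_one, mul_one, mul_one]
  have hNc : ∀ a b v, N a (N b v) = N b (N a v) := by
    intro a b v
    refine Prod.ext (Lm_comm _ _ _) ?_
    show Lm (φ a) (Lm (φ b) v.2 * (if b = d then v.1 else 1)) *
        (if a = d then Lm (Function.update φ d 1 b) v.1 else 1) =
      Lm (φ b) (Lm (φ a) v.2 * (if a = d then v.1 else 1)) *
        (if b = d then Lm (Function.update φ d 1 a) v.1 else 1)
    by_cases ha : a = d
    · by_cases hb : b = d
      · rw [ha, hb]
      · rw [if_pos ha, if_neg hb, if_pos ha, if_neg hb, mul_one, mul_one,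
          Function.update_of_ne hb, Lm_mul, Lm_comm]
    · by_cases hb : b = d
      · rw [if_neg ha, if_pos hb, if_neg ha, if_pos hb, mul_one, mul_one,
          Function.update_of_ne ha, Lm_mul, Lm_comm]
      · rw [if_neg ha, if_neg hb, if_neg ha, if_neg hb, mul_one, mul_one, mul_one, mul_one,
          Lm_comm]
  have hQt : ∀ x, ((t x).1.1 ∈ Subgroup.lowerCentralSeries (⊤ : Subgroup G) (0 + 1) ∧
      (t x).2.1 ∈ Subgroup.lowerCentralSeries (⊤ : Subgroup G) 0) := fun x =>
    ⟨mem_lcs_one_of_mem_commutator (lam_mem_commutator _ _), one_mem _⟩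
  have hQN : ∀ (k : ℕ) (a : α) (s : (commutator G) × (commutator G)),
      (s.1.1 ∈ Subgroup.lowerCentralSeries (⊤ : Subgroup G) (k + 1) ∧
        s.2.1 ∈ Subgroup.lowerCentralSeries (⊤ : Subgroup G) k) →
      ((N a s).1.1 ∈ Subgroup.lowerCentralSeries (⊤ : Subgroup G) (k + 1 + 1) ∧
        (N a s).2.1 ∈ Subgroup.lowerCentralSeries (⊤ : Subgroup G) (k + 1)) := by
    intro k a s hs
    refine ⟨lam_mem_lcs _ _ hs.1, ?_⟩
    show lam (φ a) s.2.1 * (if a = d then s.1 else 1 : commutator G).1 ∈
      Subgroup.lowerCentralSeries (⊤ : Subgroup G) (k + 1)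
    refine mul_mem (lam_mem_lcs _ _ hs.2) ?_
    by_cases h : a = d
    · rw [if_pos h]
      exact hs.1
    · rw [if_neg h]
      exact one_mem _
  have hN4 : ∀ a b c d' x, N d' (N c (N b (N a (t x)))) = 1 := by
    intro a b c d' x
    have h4 := hQN 3 d' _ (hQN 2 c _ (hQN 1 b _ (hQN 0 a _ (hQt x))))
    exact Prod.ext (Subtype.ext (eq_one_of_mem_lcs_four hcl (lcs_succ_le 4 h4.1)))
      (Subtype.ext (eq_one_of_mem_lcs_four hcl h4.2))
  have heV : ∀ v : (commutator G) × (commutator G), v ^ e = 1 := fun v =>
    Prod.ext (Subtype.ext (he _)) (Subtype.ext (he _))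
  have hfold : ∀ v : List α, v.foldl (fun s x => s * N x s * t x) 1 =
      ((⟨peelM φ d v, lam_mem_commutator _ _⟩ : commutator G),
        (⟨peelH φ d v, peelH_mem_commutator φ d v⟩ : commutator G)) := by
    intro v
    induction v using List.reverseRecOn with
    | nil =>
      refine Prod.ext (Subtype.ext ?_) (Subtype.ext ?_)
      · show (1 : G) = peelM φ d []
        simp [peelM, lam]
      · show (1 : G) = peelH φ d []
        simp [peelH]
    | append_singleton v x ih =>
      rw [List.foldl_append, ih]
      refine Prod.ext (Subtype.ext ?_) (Subtype.ext ?_)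
      · exact (peelM_snoc φ d x v).symm
      · by_cases hx : x = d
        · subst hx
          show peelH φ x v * (lam (φ x) (peelH φ x v) * (if x = x then
            (⟨peelM φ x v, lam_mem_commutator _ _⟩ : commutator G) else 1).1) * 1 =
              peelH φ x (v ++ [x])
          rw [if_pos rfl, peelH_snoc_self, mul_one]
          have hc := hmet _ (lam_mem_commutator (φ x) (peelH φ x v)) _
            (lam_mem_commutator (φ x) (List.map (Function.update φ x 1) v).prod)
          have hc2 := hmet _ (peelH_mem_commutator φ x v) _
            (lam_mem_commutator (φ x) (List.map (Function.update φ x 1) v).prod)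
          show peelH φ x v * (lam (φ x) (peelH φ x v) * peelM φ x v) =
            peelM φ x v * peelH φ x v * lam (φ x) (peelH φ x v)
          unfold peelM
          rw [hc, ← mul_assoc, hc2]
        · show peelH φ d v * (lam (φ x) (peelH φ d v) * (if x = d then
            (⟨peelM φ d v, lam_mem_commutator _ _⟩ : commutator G) else 1).1) * 1 =
              peelH φ d (v ++ [x])
          rw [if_neg hx, peelH_snoc_ne φ d x hx, mul_one]
          show peelH φ d v * (lam (φ x) (peelH φ d v) * 1) =
            peelH φ d v * lam (φ x) (peelH φ d v)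
          rw [mul_one]
  have key := affine_sym_det N hN1 hNm hNc t hN4 e heV w w' hp
  rw [hfold w, hfold w'] at key
  exact congrArg (fun s => s.2.1) key

/-- In a nilpotent group of class at most four with commutative commutator subgroup, all of
whose elements satisfy `g ^ e = 1`, the product along a word is determined by the numbers
modulo `e` of the scattered subwords with a given first letter and a given multiset of at most
three further letters. -/
theorem prod_eq_of_symCount [Finite α] [Group.IsNilpotent G]
    (hcl : Group.nilpotencyClass G ≤ 4)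
    (hmet : ∀ a ∈ commutator G, ∀ b ∈ commutator G, a * b = b * a) (e : ℕ)
    (he : ∀ g : G, g ^ e = 1) (w w' : List α)
    (hp : ∀ (x : α) (m : Multiset α), m.card ≤ 3 →
      symCount (some x, m) w % e = symCount (some x, m) w' % e)
    (φ : α → G) : (w.map φ).prod = (w'.map φ).prod := by
  refine prod_eq_of_peel e he w w' ?_ (fun ψ d => peel4_step hcl hmet e he w w' hp ψ d) φ
  intro d
  have h := hp d 0 (by simp)
  rwa [symCount_single, symCount_single] at h

end Peel4

end Vale.Agent.Lib.P329
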