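import Vale.Agent.Lib.P329.Reset

/-!
# P329: permutation groups with generators that are ordered away from one point

Reversal of generalized regular expressions, the statement of `Reset` for maps into a finite
symmetric group, and the instance of the symmetric group with its two standard generators.
-/

namespace Vale.Agent.Lib.P329

open Language

section Rev

variable {α : Type}

/-- The expression denoting the reversed language. -/
def revExp : GExp α → GExp α
  | .zero => .zero
  | .one => .one
  | .letter a => .letter a
  | .plus P R => .plus (revExp P) (revExp R)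
  | .comp P R => .comp (revExp R) (revExp P)
  | .neg P => .neg (revExp P)
  | .star P => .star (revExp P)

theorem sh_revExp (e : GExp α) : (revExp e).sh = e.sh := by
  induction e with
  | zero => rfl
  | one => rfl
  | letter a => rfl
  | plus P R ihP ihR => simp [revExp, GExp.sh, ihP, ihR]
  | comp P R ihP ihR => simp [revExp, GExp.sh, ihP, ihR, max_comm]
  | neg P ih => simp [revExp, GExp.sh, ih]
  | star P ih => simp [revExp, GExp.sh, ih]

theorem mem_revExp (e : GExp α) (w : List α) :
    w ∈ (revExp e).lang ↔ w.reverse ∈ e.lang := by
  induction e generalizing w with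
  | zero => exact ⟨fun h => absurd h (notMem_zero w), fun h => absurd h (notMem_zero _)⟩
  | one => rw [revExp, mem_one, mem_one, List.reverse_eq_nil_iff]
  | letter a =>
    rw [revExp, mem_letter, mem_letter]
    constructor
    · rintro rfl; rfl
    · intro h
      have := congrArg List.reverse h
      simpa using this
  | plus P R ihP ihR => rw [revExp, mem_plus, mem_plus, ihP, ihR]
  | comp P R ihP ihR =>
    rw [revExp, mem_comp, mem_comp]
    constructor
    · rintro ⟨u, v, rfl, hu, hv⟩
      exact ⟨v.reverse, u.reverse, by simp, (ihP v).1 hv, (ihR u).1 hu⟩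
    · rintro ⟨u, v, h, hu, hv⟩
      refine ⟨v.reverse, u.reverse, ?_, (ihR _).2 (by simpa using hv),
        (ihP _).2 (by simpa using hu)⟩
      have := congrArg List.reverse h
      simpa using this
  | neg P ih => rw [revExp, mem_neg, mem_neg, ih]
  | star P ih =>
    rw [revExp, mem_star, mem_star]
    constructor
    · rintro ⟨S, rfl, hS⟩
      refine ⟨(S.map List.reverse).reverse, List.reverse_flatten, ?_⟩
      intro y hy
      rw [List.mem_reverse] at hy
      obtain ⟨y0, hy0, rfl⟩ := List.mem_map.1 hy
      exact (ih y0).1 (hS y0 hy0)
    · rintro ⟨S, h, hS⟩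
      refine ⟨(S.map List.reverse).reverse, ?_, ?_⟩
      · have := congrArg List.reverse h
        rw [List.reverse_reverse, List.reverse_flatten] at this
        exact this
      · intro y hy
        rw [List.mem_reverse] at hy
        obtain ⟨y0, hy0, rfl⟩ := List.mem_map.1 hy
        exact (ih _).2 (by simpa using hS y0 hy0)

end Rev

theorem prod_apply_eq_run {α Q : Type} (φ : α → Equiv.Perm Q) (w : List α) (q : Q) :
    (w.map φ).prod q = run (fun s a => φ a s) q w.reverse := by
  induction w with
  | nil => simp
  | cons a w ih =>
    rw [List.map_cons, List.prod_cons, Equiv.Perm.mul_apply, ih, List.reverse_cons, run_append]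
    rfl

/-- Statement for permutations: if every letter acts on a finite set by a permutation that
sends every point `q ≠ o` to `q`, to `o`, or to a point of larger rank, then every language
recognized by the induced morphism into the symmetric group has generalized star height at
most one. -/
theorem perm_rank (α Q : Type) [Fintype α] [DecidableEq α] [Fintype Q] [DecidableEq Q]
    (φ : α → Equiv.Perm Q) (o : Q) (r : Q → ℕ)
    (h : ∀ a q, q ≠ o → φ a q = q ∨ φ a q = o ∨ r q < r (φ a q))
    (P : Set (Equiv.Perm Q)) :
    ∃ e : GExp α, e.sh ≤ 1 ∧ ∀ w : List α, w ∈ e.lang ↔ (w.map φ).prod ∈ P := by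
  have hex : ∀ pq : Q × Q, ∃ e : GExp α, e.sh ≤ 1 ∧
      ∀ w : List α, w ∈ e.lang ↔ w.foldl (fun s a => φ a s) pq.1 ∈ ({pq.2} : Set Q) :=
    fun pq => reset_automaton α Q (fun s a => φ a s) o r (fun q a hq => h a q hq) pq.1 {pq.2}
  choose E hE using hex
  refine saturated_list 1 (Finset.univ.toList.map (fun pq => revExp (E pq))) ?_
    {w | (w.map φ).prod ∈ P} ?_
  · intro t ht
    obtain ⟨pq, -, rfl⟩ := List.mem_map.1 ht
    rw [sh_revExp]
    exact (hE pq).1
  · intro w w' hww
    have key : (w.map φ).prod = (w'.map φ).prod := by
      ext q
      obtain ⟨x, hx⟩ : ∃ x, x = (w.map φ).prod q := ⟨_, rfl⟩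
      have ht : revExp (E (q, x)) ∈
          Finset.univ.toList.map (fun pq => revExp (E pq)) :=
        List.mem_map.2 ⟨_, Finset.mem_toList.2 (Finset.mem_univ _), rfl⟩
      have hmem : ∀ v : List α, v ∈ (revExp (E (q, x))).lang ↔ (v.map φ).prod q = x := by
        intro v
        rw [mem_revExp, (hE _).2, prod_apply_eq_run]
        exact Iff.rfl
      have h1 := (hww _ ht).1 ((hmem w).2 hx.symm)
      rw [← hx]
      exact ((hmem w').1 h1).symm
    show (w.map φ).prod ∈ P ↔ (w'.map φ).prod ∈ P
    rw [key]

/-- The symmetric group on `n + 2` points with its two standard generators, the transposition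
of `0` and `1` and the cycle `i ↦ i + 1`. -/
theorem symmetric_standard (n : ℕ) :
    Subgroup.closure ({Equiv.swap (0 : Fin (n + 2)) 1, finRotate (n + 2)} :
      Set (Equiv.Perm (Fin (n + 2)))) = ⊤ ∧
    ∀ P : Set (Equiv.Perm (Fin (n + 2))), ∃ e : GExp Bool, e.sh ≤ 1 ∧ ∀ w : List Bool,
      w ∈ e.lang ↔
        (w.map (fun c => if c then Equiv.swap (0 : Fin (n + 2)) 1
          else finRotate (n + 2))).prod ∈ P := by
  constructor
  · have h := Equiv.Perm.closure_cycle_adjacent_swap (isCycle_finRotate (n := n))
      support_finRotate (0 : Fin (n + 2))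
    rw [finRotate_apply_zero] at h
    rw [Set.pair_comm]
    exact h
  · intro P
    apply perm_rank Bool (Fin (n + 2)) _ 0 (fun q => q.val)
    intro a q hq
    cases a with
    | true =>
      by_cases h1 : q = 1
      · right; left
        subst h1
        simp
      · left
        simp only [if_true]
        exact Equiv.swap_apply_of_ne_of_ne hq h1
    | false =>
      by_cases h1 : q = Fin.last (n + 1)
      · right; left
        subst h1
        simp
      · right; right
        have h2 : ((finRotate (n + 2) q : Fin (n + 2)) : ℕ) = (q : ℕ) + 1 :=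
          coe_finRotate_of_ne_last h1
        simp only [Bool.false_eq_true, if_false]
        omega

end Vale.Agent.Lib.P329
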