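import Vale.Agent.Lib.P329.Sub1

/-!
# P329: pivot sums

`psum b F w` is the sum, over the occurrences of the letter `b` in `w`, of `F` applied to the
part of `w` before the occurrence. If `F` depends only on the number, modulo `M`, of earlier
letters from a set not containing `b`, the pivot sum is determined modulo `N` by finitely many
tests of star height at most one.
-/

namespace Vale.Agent.Lib.P329

section Pivot

variable {α : Type} [DecidableEq α]

/-- The pivot sum with an initial segment already read. -/
def psumAux (b : α) (F : List α → ℕ) : List α → List α → ℕ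
  | _, [] => 0
  | pre, x :: w => (if x = b then F pre else 0) + psumAux b F (pre ++ [x]) w

/-- The sum over the occurrences of `b` in `w` of `F` of the earlier part of `w`. -/
def psum (b : α) (F : List α → ℕ) (w : List α) : ℕ := psumAux b F [] w

theorem psumAux_snoc (b : α) (F : List α → ℕ) (w : List α) (x : α) : ∀ pre : List α,
    psumAux b F pre (w ++ [x]) = psumAux b F pre w + (if x = b then F (pre ++ w) else 0) := by
  induction w with
  | nil =>
    intro pre
    simp [psumAux]
  | cons y w ih =>
    intro pre
    show (if y = b then F pre else 0) + psumAux b F (pre ++ [y]) (w ++ [x]) =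
      (if y = b then F pre else 0) + psumAux b F (pre ++ [y]) w +
        (if x = b then F (pre ++ y :: w) else 0)
    rw [ih (pre ++ [y])]
    have e : pre ++ [y] ++ w = pre ++ y :: w := by simp
    rw [e, add_assoc]

theorem psum_nil (b : α) (F : List α → ℕ) : psum b F [] = 0 := rfl

theorem psum_snoc (b : α) (F : List α → ℕ) (w : List α) (x : α) :
    psum b F (w ++ [x]) = psum b F w + (if x = b then F w else 0) := by
  unfold psum
  rw [psumAux_snoc]
  simp

theorem psum_mod (b : α) (F F' : List α → ℕ) (N : ℕ) (h : ∀ pre, F pre % N = F' pre % N)
    (w : List α) : psum b F w % N = psum b F' w % N := by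
  induction w using List.reverseRecOn with
  | nil => rfl
  | append_singleton w x ih =>
    rw [psum_snoc, psum_snoc, Nat.add_mod, ih, Nat.add_mod (psum b F' w)]
    by_cases hx : x = b
    · rw [if_pos hx, if_pos hx, h w]
    · rw [if_neg hx, if_neg hx]

theorem psum_add (b : α) (F F' : List α → ℕ) (w : List α) :
    psum b (fun pre => F pre + F' pre) w = psum b F w + psum b F' w := by
  induction w using List.reverseRecOn with
  | nil => rfl
  | append_singleton w x ih =>
    rw [psum_snoc, psum_snoc, psum_snoc, ih]
    by_cases hx : x = b
    · simp only [if_pos hx]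
      omega
    · simp only [if_neg hx]
      omega

theorem psum_mul (b : α) (k : ℕ) (F : List α → ℕ) (w : List α) :
    psum b (fun pre => k * F pre) w = k * psum b F w := by
  induction w using List.reverseRecOn with
  | nil => rfl
  | append_singleton w x ih =>
    rw [psum_snoc, psum_snoc, ih, mul_add]
    by_cases hx : x = b
    · simp only [if_pos hx]
    · simp only [if_neg hx, mul_zero]

/-- The pivot sum of a function of the phase, in terms of the phase counts. -/
theorem psum_phase {M : ℕ} [NeZero M] (ω : α → ZMod M) (b : α) (G : ZMod M → ℕ)
    (w : List α) :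
    psum b (fun pre => G (wz ω pre)) w = ∑ c : ZMod M, G c * tcz ω b (-c) w := by
  induction w using List.reverseRecOn with
  | nil => simp [psum_nil, tcz]
  | append_singleton w x ih =>
    rw [psum_snoc, ih]
    simp only [tcz_snoc, mul_add, Finset.sum_add_distrib]
    congr 1
    by_cases hx : x = b
    · rw [if_pos hx]
      have e : ∀ c : ZMod M, G c * (if x = b ∧ -c + wz ω w = 0 then 1 else 0) =
          if c = wz ω w then G c else 0 := by
        intro c
        by_cases hc : c = wz ω w
        · rw [if_pos hc, if_pos ⟨hx, by rw [hc]; ring⟩, mul_one]
        · rw [if_neg hc, if_neg, mul_zero]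
          rintro ⟨-, h⟩
          apply hc
          have : wz ω w = c := by
            have h2 : wz ω w = c + (-c + wz ω w) := by ring
            rw [h2, h, add_zero]
          exact this.symm
      rw [Finset.sum_congr rfl (fun c _ => e c)]
      simp
    · rw [if_neg hx]
      symm
      apply Finset.sum_eq_zero
      intro c _
      rw [if_neg (fun h => hx h.1), mul_zero]

end Pivot

section PivotDet

variable {α : Type} [Fintype α] [DecidableEq α]

/-- The weights zero and one of a set of letters. -/
def wset (M : ℕ) (s : α → Bool) (a : α) : ZMod M := if s a = true then 1 else 0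

omit [Fintype α] [DecidableEq α] in
theorem wset_cases (M : ℕ) (s : α → Bool) (a : α) : wset M s a = 0 ∨ wset M s a = 1 := by
  unfold wset
  by_cases h : s a = true
  · right
    rw [if_pos h]
  · left
    rw [if_neg h]

omit [Fintype α] [DecidableEq α] in
theorem wz_wset (M : ℕ) (s : α → Bool) (w : List α) :
    wz (wset M s) w = ((w.countP s : ℕ) : ZMod M) := by
  induction w with
  | nil => simp [wz_nil]
  | cons a w ih =>
    rw [wz_cons, ih]
    unfold wset
    by_cases h : s a = true
    · rw [if_pos h, List.countP_cons_of_pos h]
      push_cast
      ring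
    · rw [if_neg h, List.countP_cons_of_neg h, zero_add]

/-- Pivot sums of a function of the number of earlier letters from a set that does not
contain the pivot letter are determined modulo `N`. -/
theorem detects_psum (M : ℕ) [NeZero M] (s : α → Bool) (b : α) (hb : s b = false)
    (F : ℕ → ℕ) (N : ℕ) (hN : 0 < N) (hF : ∀ k, F k % N = F (k % M) % N) :
    Detects (fun w : List α => psum b (fun pre => F (pre.countP s)) w % N) := by
  have hb0 : wset M s b = 0 := by
    unfold wset
    rw [if_neg (by rw [hb]; exact Bool.false_ne_true)]
  have h := Detects.pi (fun (c : ZMod M) (w : List α) => tcz (wset M s) b c w % N)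
    (fun c => detects_tcz01 (wset M s) (wset_cases M s) b hb0 c N hN)
  refine h.of_eq _ ?_
  intro w w' hww
  have hc : ∀ c, tcz (wset M s) b c w % N = tcz (wset M s) b c w' % N :=
    fun c => congrFun hww c
  have key : ∀ v : List α, psum b (fun pre => F (pre.countP s)) v % N =
      (∑ c : ZMod M, F c.val * tcz (wset M s) b (-c) v) % N := by
    intro v
    rw [← psum_phase (wset M s) b (fun c => F c.val) v]
    apply psum_mod
    intro pre
    rw [wz_wset, ZMod.val_natCast]
    exact hF _
  show psum b (fun pre => F (pre.countP s)) w % N = psum b (fun pre => F (pre.countP s)) w' % N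
  have s1 := Finset.sum_nat_mod Finset.univ N
    (fun c : ZMod M => F c.val * tcz (wset M s) b (-c) w)
  have s2 := Finset.sum_nat_mod Finset.univ N
    (fun c : ZMod M => F c.val * tcz (wset M s) b (-c) w')
  rw [key w, key w', s1, s2]
  congr 1
  apply Finset.sum_congr rfl
  intro c _
  have e1 := Nat.mul_mod (F c.val) (tcz (wset M s) b (-c) w) N
  have e2 := Nat.mul_mod (F c.val) (tcz (wset M s) b (-c) w') N
  show F c.val * tcz (wset M s) b (-c) w % N = F c.val * tcz (wset M s) b (-c) w' % N
  rw [e1, e2, hc (-c)]

end PivotDet

end Vale.Agent.Lib.P329
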