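import Vale.Agent.Lib.P329.Pm1
import Vale.Agent.Lib.P329.Sub2

/-!
# P329: pivot sums of a function of a signed counter

If every letter has weight `0`, `1` or `-1` in `ZMod M` and the pivot letter `b` has weight
zero, the pivot sum of any function of the weight of the earlier part of the word is
determined modulo `N` by finitely many tests of star height at most one. In particular this
holds for functions of the difference, modulo `M`, of the numbers of earlier occurrences of two
letters different from the pivot letter.
-/

namespace Vale.Agent.Lib.P329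

section SignedPivot

variable {α : Type} [Fintype α] [DecidableEq α]

/-- Pivot sums of a function of a counter with steps `0`, `1`, `-1` are determined modulo
`N`. -/
theorem detects_psum_pm (M : ℕ) [NeZero M] (ω : α → ZMod M)
    (hω : ∀ a, ω a = 0 ∨ ω a = 1 ∨ ω a = -1) (b : α) (hb : ω b = 0) (G : ZMod M → ℕ) (N : ℕ)
    (hN : 0 < N) : Detects (fun w : List α => psum b (fun pre => G (wz ω pre)) w % N) := by
  have h := Detects.pi (fun (c : ZMod M) (w : List α) => tcz ω b c w % N)
    (fun c => detects_tcz_pm ω hω b hb c N hN)
  refine h.of_eq _ ?_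
  intro w w' hww
  have hc : ∀ c, tcz ω b c w % N = tcz ω b c w' % N := fun c => congrFun hww c
  show psum b (fun pre => G (wz ω pre)) w % N = psum b (fun pre => G (wz ω pre)) w' % N
  have s1 := Finset.sum_nat_mod Finset.univ N (fun c : ZMod M => G c * tcz ω b (-c) w)
  have s2 := Finset.sum_nat_mod Finset.univ N (fun c : ZMod M => G c * tcz ω b (-c) w')
  rw [psum_phase ω b G w, psum_phase ω b G w', s1, s2]
  congr 1
  apply Finset.sum_congr rfl
  intro c _
  have e1 := Nat.mul_mod (G c) (tcz ω b (-c) w) N
  have e2 := Nat.mul_mod (G c) (tcz ω b (-c) w') N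
  show G c * tcz ω b (-c) w % N = G c * tcz ω b (-c) w' % N
  rw [e1, e2, hc (-c)]

/-- The weights `1` on the letter `a`, `-1` on the letter `b` and `0` elsewhere. -/
def wpm (M : ℕ) (a b : α) (y : α) : ZMod M := if y = a then 1 else if y = b then -1 else 0

omit [Fintype α] in
theorem wpm_cases (M : ℕ) (a b : α) (y : α) :
    wpm M a b y = 0 ∨ wpm M a b y = 1 ∨ wpm M a b y = -1 := by
  unfold wpm
  by_cases h1 : y = a
  · right
    left
    rw [if_pos h1]
  · by_cases h2 : y = b
    · right
      right
      rw [if_neg h1, if_pos h2]
    · left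
      rw [if_neg h1, if_neg h2]

omit [Fintype α] in
theorem wpm_other (M : ℕ) (a b x : α) (hxa : x ≠ a) (hxb : x ≠ b) : wpm M a b x = 0 := by
  unfold wpm
  rw [if_neg hxa, if_neg hxb]

omit [Fintype α] in
/-- The weight of a word is the difference of the numbers of occurrences of the two
letters. -/
theorem wz_wpm (M : ℕ) (a b : α) (hab : a ≠ b) (w : List α) :
    wz (wpm M a b) w = ((w.count a : ℕ) : ZMod M) - ((w.count b : ℕ) : ZMod M) := by
  induction w with
  | nil => simp [wz_nil]
  | cons y w ih =>
    rw [wz_cons, ih, List.count_cons, List.count_cons]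
    unfold wpm
    by_cases h1 : y = a
    · have h2 : ¬ y = b := fun h => hab (h1.symm.trans h)
      simp [h1, hab]
      ring
    · by_cases h2 : y = b
      · have h3 : ¬ b = a := fun h => hab h.symm
        simp [h2, h3]
        ring
      · simp [h1, h2]

/-- Pivot sums of a function of the difference modulo `M` of the numbers of earlier
occurrences of two letters different from the pivot letter are determined modulo `N`. -/
theorem detects_psum_diff (M : ℕ) [NeZero M] (a b x : α) (hab : a ≠ b) (hxa : x ≠ a)
    (hxb : x ≠ b) (G : ZMod M → ℕ) (N : ℕ) (hN : 0 < N) :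
    Detects (fun w : List α => psum x
      (fun pre => G (((pre.count a : ℕ) : ZMod M) - ((pre.count b : ℕ) : ZMod M))) w % N) := by
  have h := detects_psum_pm M (wpm M a b) (wpm_cases M a b) x (wpm_other M a b x hxa hxb) G N hN
  refine h.congr ?_
  intro w
  have e : (fun pre : List α => G (wz (wpm M a b) pre)) =
      (fun pre => G (((pre.count a : ℕ) : ZMod M) - ((pre.count b : ℕ) : ZMod M))) := by
    funext pre
    rw [wz_wpm M a b hab]
  show psum x (fun pre : List α => G (wz (wpm M a b) pre)) w % N = _
  rw [e]

end SignedPivot

end Vale.Agent.Lib.P329
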