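import Vale.Agent.Lib.P329.CounterFree4

/-!
# P329: block automata over the phases modulo a prime

Letters carry a weight in `ZMod p`; the phase of a state moves by the weight of the letter
read. This file proves a general criterion for the automaton of the unmarked transitions to be
counter-free, and applies it to three automata: the phase automaton with marked returns to
phase zero, and two automata that mark some of the first return blocks to phase zero.
-/

namespace Vale.Agent.Lib.P329

section Words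

variable {α : Type} {p : ℕ}

/-- The weight of a word. -/
def wz (ω : α → ZMod p) (w : List α) : ZMod p := (w.map ω).sum

theorem wz_nil (ω : α → ZMod p) : wz ω [] = 0 := rfl

theorem wz_cons (ω : α → ZMod p) (a : α) (w : List α) : wz ω (a :: w) = ω a + wz ω w := by
  simp [wz]

theorem wz_append (ω : α → ZMod p) (u v : List α) : wz ω (u ++ v) = wz ω u + wz ω v := by
  simp [wz]

theorem wz_rep (ω : α → ZMod p) (n : ℕ) (u : List α) : wz ω (rep n u) = n * wz ω u := by
  induction n with
  | zero => simp [rep_zero, wz_nil]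
  | succ n ih =>
    rw [rep_succ, wz_append, ih]
    push_cast
    ring

theorem wz_zero_of (ω : α → ZMod p) (w : List α) (h : ∀ a ∈ w, ω a = 0) : wz ω w = 0 := by
  induction w with
  | nil => rfl
  | cons a w ih =>
    rw [wz_cons, h a (List.mem_cons_self), ih (fun c hc => h c (List.mem_cons_of_mem _ hc)),
      add_zero]

theorem exists_nonzero_letter (ω : α → ZMod p) (w : List α) (h : wz ω w ≠ 0) :
    ∃ a ∈ w, ω a ≠ 0 := by
  by_contra hcon
  push_neg at hcon
  exact h (wz_zero_of ω w hcon)

theorem rep_comm (n : ℕ) (u : List α) : u ++ rep n u = rep n u ++ u := by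
  induction n with
  | zero => simp [rep_zero]
  | succ n ih => rw [rep_succ, List.append_assoc, ← ih]

theorem rep_succ' (n : ℕ) (u : List α) : rep (n + 1) u = rep n u ++ u := by
  rw [rep_succ, rep_comm]

theorem rep_rot (n : ℕ) (u₁ u₂ : List α) :
    u₁ ++ rep n (u₂ ++ u₁) = rep n (u₁ ++ u₂) ++ u₁ := by
  induction n with
  | zero => simp [rep_zero]
  | succ n ih =>
    rw [rep_succ, rep_succ]
    simp only [List.append_assoc]
    rw [ih]

theorem mem_rep (n : ℕ) (u : List α) (a : α) (h : a ∈ rep n u) : a ∈ u := by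
  induction n with
  | zero => simp [rep_zero] at h
  | succ n ih =>
    rw [rep_succ] at h
    rcases List.mem_append.1 h with h | h
    · exact h
    · exact ih h

end Words

section Periodic

variable {α Q : Type} {p : ℕ} (δ : Q → α → Q) (cnt : Q → α → Bool)

theorem cntN_append (s : Q) (u v : List α) :
    cntN δ cnt s (u ++ v) = cntN δ cnt s u + cntN δ cnt (run δ s u) v := by
  induction u generalizing s with
  | nil => simp [cntN]
  | cons a u ih =>
    show (if cnt s a then 1 else 0) + cntN δ cnt (δ s a) (u ++ v) =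
      (if cnt s a then 1 else 0) + cntN δ cnt (δ s a) u + cntN δ cnt (run δ (δ s a) u) v
    rw [ih, add_assoc]

/-- Reading `u` a number `n` of times from `s` leads back to `s` without a marked
transition. -/
def Per (s : Q) (u : List α) (n : ℕ) : Prop :=
  run δ s (rep n u) = s ∧ cntN δ cnt s (rep n u) = 0

variable {δ cnt}

theorem Per.rot {s : Q} {u₁ u₂ : List α} {n : ℕ} (h : Per δ cnt s (u₁ ++ u₂) n) :
    Per δ cnt (run δ s u₁) (u₂ ++ u₁) n := by
  obtain ⟨h1, h2⟩ := h
  have e := rep_rot n u₁ u₂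
  constructor
  · rw [← run_append, e, run_append, h1]
  · have h3 : cntN δ cnt s (u₁ ++ rep n (u₂ ++ u₁)) =
        cntN δ cnt s (rep n (u₁ ++ u₂) ++ u₁) := by rw [e]
    rw [cntN_append, cntN_append, h1, h2] at h3
    omega

theorem Per.step {s : Q} {u : List α} {n : ℕ} (h : Per δ cnt s u n) :
    Per δ cnt (run δ s u) u n := by
  have h' : Per δ cnt s (u ++ []) n := by simpa using h
  simpa using h'.rot

theorem Per.shift {s : Q} {u : List α} {n : ℕ} (h : Per δ cnt s u n) (j : ℕ) :
    Per δ cnt (run δ s (rep j u)) u n := by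
  induction j generalizing s with
  | zero => exact h
  | succ j ih =>
    rw [rep_succ, run_append]
    exact ih h.step

theorem Per.first {s : Q} {x : α} {v : List α} {m : ℕ} (h : Per δ cnt s (x :: v) (m + 1)) :
    cnt s x = false ∧ run δ (δ s x) (v ++ rep m (x :: v)) = s ∧
      cntN δ cnt (δ s x) (v ++ rep m (x :: v)) = 0 := by
  obtain ⟨h1, h2⟩ := h
  rw [rep_succ] at h1 h2
  simp only [List.cons_append, run_cons] at h1
  simp only [List.cons_append, cntN] at h2
  cases hc : cnt s x with
  | true =>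
    rw [hc] at h2
    simp at h2
  | false =>
    rw [hc] at h2
    exact ⟨rfl, h1, by simpa using h2⟩

theorem phase_run (π : Q → ZMod p) (ω : α → ZMod p) (hE : ∀ q a, π (δ q a) = π q + ω a)
    (q : Q) (w : List α) : π (run δ q w) = π q + wz ω w := by
  induction w generalizing q with
  | nil => simp [wz_nil]
  | cons a w ih => rw [run_cons, ih, hE, wz_cons, add_assoc]

theorem Per.rotate [Fact p.Prime] (π : Q → ZMod p) (ω : α → ZMod p)
    (hE : ∀ q a, π (δ q a) = π q + ω a) {s : Q} {u : List α} {n : ℕ} (h : Per δ cnt s u n)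
    (hw : wz ω u ≠ 0) (u₁ : List α) (x : α) (u₂ : List α) (hu : u = u₁ ++ x :: u₂)
    (c : ZMod p) : ∃ s', π s' = c ∧ Per δ cnt s' (x :: (u₂ ++ u₁)) n := by
  have hj := h.shift ((c - π s - wz ω u₁) / wz ω u).val
  rw [hu] at hj
  have hr := hj.rot
  refine ⟨_, ?_, hr⟩
  rw [phase_run π ω hE, phase_run π ω hE, wz_rep, ← hu, ZMod.natCast_zmod_val,
    div_mul_cancel₀ _ hw]
  ring

end Periodic

/-! ### The criterion -/

section Criterion

variable {α Q : Type} {p : ℕ} (δ : Q → α → Q)

theorem home_of_phase_zero (π : Q → ZMod p) (ω : α → ZMod p) (h0 : Q)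
    (hA0 : ∀ q a, ω a = 0 → δ q a = q)
    (hA1 : ∀ q a, ω a ≠ 0 → π (δ q a) = 0 → δ q a = h0) (w : List α) (q : Q)
    (hw : ∃ a ∈ w, ω a ≠ 0) (hz : π (run δ q w) = 0) : run δ q w = h0 := by
  induction w using List.reverseRecOn with
  | nil =>
    obtain ⟨a, ha, -⟩ := hw
    simp at ha
  | append_singleton w a ih =>
    rw [run_append, run_cons, run_nil] at hz ⊢
    by_cases ha : ω a = 0
    · rw [hA0 _ a ha] at hz ⊢
      obtain ⟨c, hc, hc0⟩ := hw
      rcases List.mem_append.1 hc with hc | hc
      · exact ih ⟨c, hc, hc0⟩ hz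
      · rw [List.mem_singleton.1 hc] at hc0
        exact absurd ha hc0
    · exact hA1 _ a ha hz

theorem rho_mono (π : Q → ZMod p) (ω : α → ZMod p) (ρ : Q → ℕ)
    (hE : ∀ q a, π (δ q a) = π q + ω a)
    (hM : ∀ q a, π q ≠ 0 → π (δ q a) ≠ 0 → ρ q ≤ ρ (δ q a)) (w : List α) (q : Q)
    (hw : ∀ w₁ w₂ : List α, w = w₁ ++ w₂ → π q + wz ω w₁ ≠ 0) : ρ q ≤ ρ (run δ q w) := by
  induction w generalizing q with
  | nil => exact le_rfl
  | cons a w ih =>
    have h1 : π q ≠ 0 := by
      have := hw [] (a :: w) rfl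
      rwa [wz_nil, add_zero] at this
    have h2 : π (δ q a) ≠ 0 := by
      have := hw [a] w rfl
      rwa [wz_cons, wz_nil, add_zero, ← hE] at this
    refine le_trans (hM q a h1 h2) (ih (δ q a) ?_)
    intro w₁ w₂ hw12
    have := hw (a :: w₁) w₂ (by rw [hw12]; rfl)
    rwa [wz_cons, ← add_assoc, ← hE] at this

/-- A word of weight zero that permutes a state along a cycle fixes it. -/
theorem per_zero (π : Q → ZMod p) (ω : α → ZMod p) (ρ : Q → ℕ) (h0 : Q)
    (hE : ∀ q a, π (δ q a) = π q + ω a)
    (hA0 : ∀ q a, ω a = 0 → δ q a = q)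
    (hA1 : ∀ q a, ω a ≠ 0 → π (δ q a) = 0 → δ q a = h0)
    (hM : ∀ q a, π q ≠ 0 → π (δ q a) ≠ 0 → ρ q ≤ ρ (δ q a))
    (hI : ∀ q q', π q = π q' → ρ q = ρ q' → q = q')
    (s : Q) (u : List α) (n : ℕ) (hn : 0 < n) (hw : wz ω u = 0)
    (hrun : run δ s (rep n u) = s) : run δ s u = s := by
  have hph : ∀ j, π (run δ s (rep j u)) = π s := by
    intro j
    rw [phase_run π ω hE, wz_rep, hw, mul_zero, add_zero]
  have hit : ∀ j, run δ s (rep (j + 1) u) = run δ (run δ s (rep j u)) u := by
    intro j
    rw [rep_succ', run_append]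
  obtain ⟨m, rfl⟩ : ∃ m, n = m + 1 := ⟨n - 1, by omega⟩
  have h1 : run δ s (rep 1 u) = run δ s u := by
    rw [hit 0]
    rfl
  by_cases hcase : ∃ u₁ u₂ : List α, u = u₁ ++ u₂ ∧ (∃ a ∈ u₁, ω a ≠ 0) ∧ π s + wz ω u₁ = 0
  · obtain ⟨u₁, u₂, hu, hnz, hzero⟩ := hcase
    have key : ∀ t, π t = π s → run δ t u = run δ h0 u₂ := by
      intro t ht
      rw [hu, run_append]
      congr 1
      apply home_of_phase_zero δ π ω h0 hA0 hA1 u₁ t hnz
      rw [phase_run π ω hE, ht]
      exact hzero
    have e1 : run δ s u = run δ h0 u₂ := key s rfl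
    have e2 : run δ s (rep (m + 1) u) = run δ h0 u₂ := by
      rw [hit m]
      exact key _ (hph m)
    rw [e1, ← e2]
    exact hrun
  · push_neg at hcase
    by_cases hall : ∀ a ∈ u, ω a = 0
    · exact run_stay δ s u (fun c hc => hA0 s c (hall c hc))
    · push_neg at hall
      have hs0 : π s ≠ 0 := by
        have := hcase u [] (by simp) hall
        rwa [hw, add_zero] at this
      have hmono : ∀ t, π t = π s → ρ t ≤ ρ (run δ t u) := by
        intro t ht
        apply rho_mono δ π ω ρ hE hM u t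
        intro w₁ w₂ hw12
        rw [ht]
        by_cases hex : ∃ a ∈ w₁, ω a ≠ 0
        · exact hcase w₁ w₂ hw12 hex
        · push_neg at hex
          rw [wz_zero_of ω w₁ hex, add_zero]
          exact hs0
      have hchain : ∀ j, ρ (run δ s (rep 1 u)) ≤ ρ (run δ s (rep (j + 1) u)) := by
        intro j
        induction j with
        | zero => exact le_rfl
        | succ j ih =>
          refine le_trans ih ?_
          rw [hit (j + 1)]
          exact hmono _ (hph (j + 1))
      have hle1 : ρ s ≤ ρ (run δ s u) := hmono s rfl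
      have hle2 : ρ (run δ s u) ≤ ρ s := by
        have := hchain m
        rwa [h1, hrun] at this
      have hphu : π (run δ s u) = π s := by
        rw [← h1]
        exact hph 1
      exact hI _ _ hphu (le_antisymm hle2 hle1)

/-- The criterion: the automaton of the unmarked transitions is counter-free. -/
theorem cf_of_phase (cnt : Q → α → Bool) (π : Q → ZMod p) (ω : α → ZMod p) (ρ : Q → ℕ)
    (h0 : Q) (hE : ∀ q a, π (δ q a) = π q + ω a)
    (hA0 : ∀ q a, ω a = 0 → δ q a = q)
    (hA1 : ∀ q a, ω a ≠ 0 → π (δ q a) = 0 → δ q a = h0)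
    (hM : ∀ q a, π q ≠ 0 → π (δ q a) ≠ 0 → ρ q ≤ ρ (δ q a))
    (hI : ∀ q q', π q = π q' → ρ q = ρ q' → q = q')
    (hH : ∀ (s : Q) (u : List α) (m : ℕ), wz ω u ≠ 0 → Per δ cnt s u (m + 1) → False) :
    CF (dUnc δ cnt) := by
  intro x u n hn hrun
  cases x with
  | none => exact run_dUnc_none δ cnt u
  | some s =>
    obtain ⟨h1, h2⟩ := run_dUnc_some δ cnt s s (rep n u) hrun
    obtain ⟨m, rfl⟩ : ∃ m, n = m + 1 := ⟨n - 1, by omega⟩
    by_cases hw : wz ω u = 0
    · have h3 := per_zero δ π ω ρ h0 hE hA0 hA1 hM hI s u (m + 1) hn hw h2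
      have h4 : cntN δ cnt s u = 0 := by
        rw [rep_succ, cntN_append] at h1
        omega
      have h5 := run_dUnc_of_zero δ cnt s u h4
      rw [h3] at h5
      exact h5
    · exact (hH s u m hw ⟨h2, h1⟩).elim

end Criterion

end Vale.Agent.Lib.P329
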