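import Vale.Agent.Lib.P329.Prime1

/-!
# P329: the three block automata over the phases modulo a prime

* `DRp`, `CRp`: the phase automaton; the marked transitions are the returns to phase zero by a
  letter of nonzero weight and, optionally, the counted letter read at phase zero (for a
  counted letter of weight zero);
* `DV1p`, `CV1p`: a block is a first return to phase zero; the marked blocks are those that do
  not start with the counted letter, and the blocks all of whose letters of nonzero weight are
  the counted letter;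
* `DV2p`, `CV2p`: the marked blocks are those that do not end with the counted letter, and the
  blocks all of whose letters of nonzero weight are the counted letter.

In each case the automaton of the unmarked transitions is counter-free.
-/

namespace Vale.Agent.Lib.P329

section Automata

variable {α : Type} [DecidableEq α] {p : ℕ}

/-! ### The phase automaton -/

/-- The phase automaton. -/
def DRp (ω : α → ZMod p) (s : ZMod p) (a : α) : ZMod p := s + ω a

/-- The marked transitions of the phase automaton. -/
def CRp (ω : α → ZMod p) (b : α) (wb : Bool) (s : ZMod p) (a : α) : Bool :=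
  if ω a = 0 then (wb && decide (a = b) && decide (s = 0)) else decide (s + ω a = 0)

omit [DecidableEq α] in
theorem run_DRp (ω : α → ZMod p) (c : ZMod p) (w : List α) :
    run (DRp ω) c w = c + wz ω w := by
  induction w generalizing c with
  | nil => simp [wz_nil]
  | cons a w ih => rw [run_cons, ih, wz_cons, DRp, add_assoc]

theorem CRp_home (ω : α → ZMod p) (b : α) (wb : Bool) (s : ZMod p) (a : α)
    (h : CRp ω b wb s a = true) : DRp ω s a = 0 := by
  unfold CRp at h
  unfold DRp
  by_cases ha : ω a = 0
  · rw [if_pos ha] at h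
    simp only [Bool.and_eq_true, decide_eq_true_eq] at h
    rw [ha, add_zero]
    exact h.2
  · rw [if_neg ha] at h
    simpa using h

theorem CRp_step (ω : α → ZMod p) (b : α) (s : ZMod p) (a : α) (hab : a = b → ω a = 0) :
    (if CRp ω b true s a = true then 1 else 0) =
      (if CRp ω b false s a = true then 1 else 0) + (if a = b ∧ s = 0 then 1 else 0) := by
  unfold CRp
  by_cases ha : ω a = 0
  · simp only [if_pos ha, Bool.true_and, Bool.false_and, Bool.and_eq_true, decide_eq_true_eq]
    simp
  · have hne : a ≠ b := fun h => ha (hab h)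
    simp only [if_neg ha]
    rw [if_neg (fun h : a = b ∧ s = 0 => hne h.1), add_zero]

theorem cf_Rp [Fact p.Prime] (ω : α → ZMod p) (b : α) (wb : Bool) :
    CF (dUnc (DRp ω) (CRp ω b wb)) := by
  apply cf_of_phase (DRp ω) (CRp ω b wb) (fun s => s) ω (fun _ => 0) 0
  · intro q a
    rfl
  · intro q a ha
    show q + ω a = q
    rw [ha, add_zero]
  · intro q a _ h
    exact h
  · intro q a _ _
    exact le_rfl
  · intro q q' h _
    exact h
  · intro s u m hw hper
    obtain ⟨x, hx, hx0⟩ := exists_nonzero_letter ω u hw
    obtain ⟨u₁, u₂, hu⟩ := List.append_of_mem hx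
    obtain ⟨s', hs', hper'⟩ := hper.rotate (fun s => s) ω (fun _ _ => rfl) hw u₁ x u₂ hu (-ω x)
    obtain ⟨hc, -, -⟩ := hper'.first
    have hs'' : s' = -ω x := hs'
    have : CRp ω b wb s' x = true := by
      unfold CRp
      rw [if_neg hx0, hs'']
      simp
    rw [hc] at this
    exact Bool.false_ne_true this

/-! ### Blocks by their first letter -/

/-- The block automaton with a flag: `0` if the current block does not start with the counted
letter, `1` if its letters of nonzero weight so far are all the counted letter, `2` if it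
starts with the counted letter and has met another letter of nonzero weight. -/
def DV1p (ω : α → ZMod p) (b : α) (s : ZMod p × Fin 3) (a : α) : ZMod p × Fin 3 :=
  if ω a = 0 then s
  else if s.1 = 0 then (ω a, if a = b then 1 else 0)
  else if s.1 + ω a = 0 then (0, 0)
  else (s.1 + ω a, if s.2 = 1 then (if a = b then 1 else 2) else s.2)

/-- The marked transitions: the ends of the blocks that do not start with the counted letter
and of the blocks all of whose letters of nonzero weight are the counted letter. -/
def CV1p (ω : α → ZMod p) (b : α) (s : ZMod p × Fin 3) (a : α) : Bool :=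
  decide (ω a ≠ 0 ∧ s.1 ≠ 0 ∧ s.1 + ω a = 0 ∧ (s.2 = 0 ∨ (s.2 = 1 ∧ a = b)))

theorem DV1p_fst (ω : α → ZMod p) (b : α) (s : ZMod p × Fin 3) (a : α) :
    (DV1p ω b s a).1 = s.1 + ω a := by
  unfold DV1p
  by_cases h1 : ω a = 0
  · rw [if_pos h1, h1, add_zero]
  · rw [if_neg h1]
    by_cases h2 : s.1 = 0
    · rw [if_pos h2, h2, zero_add]
    · rw [if_neg h2]
      by_cases h3 : s.1 + ω a = 0
      · rw [if_pos h3, h3]
      · rw [if_neg h3]

theorem DV1p_zero (ω : α → ZMod p) (b : α) (s : ZMod p × Fin 3) (a : α) (h : ω a = 0) :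
    DV1p ω b s a = s := by
  unfold DV1p
  rw [if_pos h]

theorem DV1p_home (ω : α → ZMod p) (b : α) (s : ZMod p × Fin 3) (a : α) (h : ω a ≠ 0)
    (hz : (DV1p ω b s a).1 = 0) : DV1p ω b s a = (0, 0) := by
  rw [DV1p_fst] at hz
  unfold DV1p
  rw [if_neg h]
  by_cases h2 : s.1 = 0
  · rw [h2, zero_add] at hz
    exact absurd hz h
  · rw [if_neg h2, if_pos hz]

theorem DV1p_leave (ω : α → ZMod p) (b : α) (s : ZMod p × Fin 3) (a : α) (h : ω a ≠ 0)
    (hs : s.1 = 0) : DV1p ω b s a = (ω a, if a = b then 1 else 0) := by
  unfold DV1p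
  rw [if_neg h, if_pos hs]

theorem DV1p_inner (ω : α → ZMod p) (b : α) (s : ZMod p × Fin 3) (a : α) (h : ω a ≠ 0)
    (hs : s.1 ≠ 0) (hz : s.1 + ω a ≠ 0) :
    DV1p ω b s a = (s.1 + ω a, if s.2 = 1 then (if a = b then 1 else 2) else s.2) := by
  unfold DV1p
  rw [if_neg h, if_neg hs, if_neg hz]

theorem CV1p_home (ω : α → ZMod p) (b : α) (s : ZMod p × Fin 3) (a : α)
    (h : CV1p ω b s a = true) : DV1p ω b s a = (0, 0) := by
  unfold CV1p at h
  rw [decide_eq_true_eq] at h
  obtain ⟨h1, h2, h3, -⟩ := h
  apply DV1p_home ω b s a h1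
  rw [DV1p_fst]
  exact h3

theorem V1p_trap0 (ω : α → ZMod p) (b : α) (r : List α) (q : ZMod p × Fin 3)
    (hq1 : q.1 ≠ 0) (hq2 : q.2 = 0) (hc : cntN (DV1p ω b) (CV1p ω b) q r = 0) :
    (run (DV1p ω b) q r).1 ≠ 0 := by
  induction r generalizing q with
  | nil => exact hq1
  | cons a r ih =>
    simp only [cntN] at hc
    have hca : CV1p ω b q a = false := by
      cases h : CV1p ω b q a with
      | false => rfl
      | true =>
        rw [h] at hc
        simp at hc
    have hc' : cntN (DV1p ω b) (CV1p ω b) (DV1p ω b q a) r = 0 := by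
      rw [hca] at hc
      simpa using hc
    rw [run_cons]
    by_cases ha : ω a = 0
    · rw [DV1p_zero ω b q a ha] at hc' ⊢
      exact ih q hq1 hq2 hc'
    · have hz : q.1 + ω a ≠ 0 := by
        intro hz
        have : CV1p ω b q a = true := by
          unfold CV1p
          rw [decide_eq_true_eq]
          exact ⟨ha, hq1, hz, Or.inl hq2⟩
        rw [hca] at this
        exact Bool.false_ne_true this
      have hst := DV1p_inner ω b q a ha hq1 hz
      apply ih _ _ _ hc'
      · rw [hst]
        exact hz
      · rw [hst]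
        show (if q.2 = 1 then (if a = b then 1 else 2) else q.2) = 0
        rw [if_neg (by rw [hq2]; decide)]
        exact hq2

theorem V1p_trap1 (ω : α → ZMod p) (b : α) (hb : ω b = 1) (r : List α)
    (hr : ∀ a ∈ r, ω a ≠ 0 → a = b) (q : ZMod p × Fin 3)
    (hq1 : q.1 ≠ 0) (hq2 : q.2 = 1) (hc : cntN (DV1p ω b) (CV1p ω b) q r = 0) :
    (run (DV1p ω b) q r).1 ≠ 0 := by
  induction r generalizing q with
  | nil => exact hq1
  | cons a r ih =>
    simp only [cntN] at hc
    have hca : CV1p ω b q a = false := by
      cases h : CV1p ω b q a with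
      | false => rfl
      | true =>
        rw [h] at hc
        simp at hc
    have hc' : cntN (DV1p ω b) (CV1p ω b) (DV1p ω b q a) r = 0 := by
      rw [hca] at hc
      simpa using hc
    have hr' : ∀ c ∈ r, ω c ≠ 0 → c = b := fun c hc => hr c (List.mem_cons_of_mem _ hc)
    rw [run_cons]
    by_cases ha : ω a = 0
    · rw [DV1p_zero ω b q a ha] at hc' ⊢
      exact ih hr' q hq1 hq2 hc'
    · have hab : a = b := hr a (List.mem_cons_self) ha
      have hz : q.1 + ω a ≠ 0 := by
        intro hz
        have : CV1p ω b q a = true := by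
          unfold CV1p
          rw [decide_eq_true_eq]
          exact ⟨ha, hq1, hz, Or.inr ⟨hq2, hab⟩⟩
        rw [hca] at this
        exact Bool.false_ne_true this
      have hst := DV1p_inner ω b q a ha hq1 hz
      apply ih hr' _ _ _ hc'
      · rw [hst]
        exact hz
      · rw [hst]
        show (if q.2 = 1 then (if a = b then 1 else 2) else q.2) = 1
        rw [if_pos hq2, if_pos hab]

theorem cf_V1p [Fact p.Prime] (ω : α → ZMod p) (b : α) (hb : ω b = 1) :
    CF (dUnc (DV1p ω b) (CV1p ω b)) := by
  have hE : ∀ (q : ZMod p × Fin 3) (a : α), (DV1p ω b q a).1 = q.1 + ω a := DV1p_fst ω b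
  apply cf_of_phase (DV1p ω b) (CV1p ω b) (fun s => s.1) ω (fun s => s.2.val) (0, 0)
  · exact hE
  · exact fun q a ha => DV1p_zero ω b q a ha
  · exact fun q a ha hz => DV1p_home ω b q a ha hz
  · intro q a hq hz
    by_cases ha : ω a = 0
    · rw [DV1p_zero ω b q a ha]
    · have hz' : q.1 + ω a ≠ 0 := by
        rw [← hE]
        exact hz
      rw [DV1p_inner ω b q a ha hq hz']
      show q.2.val ≤ (if q.2 = 1 then (if a = b then (1 : Fin 3) else 2) else q.2).val
      by_cases h1 : q.2 = 1
      · rw [if_pos h1, h1]
        by_cases h2 : a = b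
        · rw [if_pos h2]
        · rw [if_neg h2]
          decide
      · rw [if_neg h1]
  · intro q q' h1 h2
    exact Prod.ext h1 (Fin.ext h2)
  · intro s u m hw hper
    have hone : (1 : ZMod p) ≠ 0 := one_ne_zero
    -- every letter of nonzero weight is the counted letter
    have hall : ∀ x ∈ u, ω x ≠ 0 → x = b := by
      intro x hx hx0
      obtain ⟨u₁, u₂, hu⟩ := List.append_of_mem hx
      obtain ⟨s', hs', hper'⟩ := hper.rotate (fun s => s.1) ω hE hw u₁ x u₂ hu 0
      obtain ⟨-, hrun, hcnt⟩ := hper'.first
      by_contra hxb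
      have hst := DV1p_leave ω b s' x hx0 hs'
      rw [if_neg hxb] at hst
      have := V1p_trap0 ω b _ (DV1p ω b s' x) (by rw [hst]; exact hx0) (by rw [hst]) hcnt
      rw [hrun] at this
      exact this hs'
    obtain ⟨x, hx, hx0⟩ := exists_nonzero_letter ω u hw
    have hxb := hall x hx hx0
    obtain ⟨u₁, u₂, hu⟩ := List.append_of_mem hx
    obtain ⟨s', hs', hper'⟩ := hper.rotate (fun s => s.1) ω hE hw u₁ x u₂ hu 0
    obtain ⟨-, hrun, hcnt⟩ := hper'.first
    have hst := DV1p_leave ω b s' x hx0 hs'
    rw [if_pos hxb] at hst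
    have hletters : ∀ a ∈ (u₂ ++ u₁) ++ rep m (x :: (u₂ ++ u₁)), ω a ≠ 0 → a = b := by
      intro a ha ha0
      have hmem : a ∈ u := by
        rw [hu]
        rcases List.mem_append.1 ha with h | h
        · rcases List.mem_append.1 h with h | h
          · exact List.mem_append_right _ (List.mem_cons_of_mem _ h)
          · exact List.mem_append_left _ h
        · have h' := mem_rep m _ a h
          rcases List.mem_cons.1 h' with h'' | h''
          · rw [h'']
            exact List.mem_append_right _ (List.mem_cons_self)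
          · rcases List.mem_append.1 h'' with h3 | h3
            · exact List.mem_append_right _ (List.mem_cons_of_mem _ h3)
            · exact List.mem_append_left _ h3
      exact hall a hmem ha0
    have := V1p_trap1 ω b hb _ hletters (DV1p ω b s' x) (by rw [hst]; exact hx0)
      (by rw [hst]) hcnt
    rw [hrun] at this
    exact this hs'

/-! ### Blocks by their last letter -/

/-- The block automaton with a flag saying whether the letters of nonzero weight of the
current block so far are all the counted letter. -/
def DV2p (ω : α → ZMod p) (b : α) (s : ZMod p × Bool) (a : α) : ZMod p × Bool :=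
  if ω a = 0 then s
  else if s.1 = 0 then (ω a, decide (a = b))
  else if s.1 + ω a = 0 then (0, false)
  else (s.1 + ω a, s.2 && decide (a = b))

/-- The marked transitions: the ends of the blocks that do not end with the counted letter
and of the blocks all of whose letters of nonzero weight are the counted letter. -/
def CV2p (ω : α → ZMod p) (b : α) (s : ZMod p × Bool) (a : α) : Bool :=
  decide (ω a ≠ 0 ∧ s.1 ≠ 0 ∧ s.1 + ω a = 0 ∧ (a ≠ b ∨ s.2 = true))

theorem DV2p_fst (ω : α → ZMod p) (b : α) (s : ZMod p × Bool) (a : α) :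
    (DV2p ω b s a).1 = s.1 + ω a := by
  unfold DV2p
  by_cases h1 : ω a = 0
  · rw [if_pos h1, h1, add_zero]
  · rw [if_neg h1]
    by_cases h2 : s.1 = 0
    · rw [if_pos h2, h2, zero_add]
    · rw [if_neg h2]
      by_cases h3 : s.1 + ω a = 0
      · rw [if_pos h3, h3]
      · rw [if_neg h3]

theorem DV2p_zero (ω : α → ZMod p) (b : α) (s : ZMod p × Bool) (a : α) (h : ω a = 0) :
    DV2p ω b s a = s := by
  unfold DV2p
  rw [if_pos h]

theorem DV2p_home (ω : α → ZMod p) (b : α) (s : ZMod p × Bool) (a : α) (h : ω a ≠ 0)
    (hz : (DV2p ω b s a).1 = 0) : DV2p ω b s a = (0, false) := by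
  rw [DV2p_fst] at hz
  unfold DV2p
  rw [if_neg h]
  by_cases h2 : s.1 = 0
  · rw [h2, zero_add] at hz
    exact absurd hz h
  · rw [if_neg h2, if_pos hz]

theorem DV2p_leave (ω : α → ZMod p) (b : α) (s : ZMod p × Bool) (a : α) (h : ω a ≠ 0)
    (hs : s.1 = 0) : DV2p ω b s a = (ω a, decide (a = b)) := by
  unfold DV2p
  rw [if_neg h, if_pos hs]

theorem DV2p_inner (ω : α → ZMod p) (b : α) (s : ZMod p × Bool) (a : α) (h : ω a ≠ 0)
    (hs : s.1 ≠ 0) (hz : s.1 + ω a ≠ 0) :
    DV2p ω b s a = (s.1 + ω a, s.2 && decide (a = b)) := by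
  unfold DV2p
  rw [if_neg h, if_neg hs, if_neg hz]

theorem CV2p_home (ω : α → ZMod p) (b : α) (s : ZMod p × Bool) (a : α)
    (h : CV2p ω b s a = true) : DV2p ω b s a = (0, false) := by
  unfold CV2p at h
  rw [decide_eq_true_eq] at h
  obtain ⟨h1, h2, h3, -⟩ := h
  apply DV2p_home ω b s a h1
  rw [DV2p_fst]
  exact h3

theorem V2p_trap (ω : α → ZMod p) (b : α) (r : List α)
    (hr : ∀ a ∈ r, ω a ≠ 0 → a = b) (q : ZMod p × Bool)
    (hq1 : q.1 ≠ 0) (hq2 : q.2 = true) (hc : cntN (DV2p ω b) (CV2p ω b) q r = 0) :
    (run (DV2p ω b) q r).1 ≠ 0 := by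
  induction r generalizing q with
  | nil => exact hq1
  | cons a r ih =>
    simp only [cntN] at hc
    have hca : CV2p ω b q a = false := by
      cases h : CV2p ω b q a with
      | false => rfl
      | true =>
        rw [h] at hc
        simp at hc
    have hc' : cntN (DV2p ω b) (CV2p ω b) (DV2p ω b q a) r = 0 := by
      rw [hca] at hc
      simpa using hc
    have hr' : ∀ c ∈ r, ω c ≠ 0 → c = b := fun c hc => hr c (List.mem_cons_of_mem _ hc)
    rw [run_cons]
    by_cases ha : ω a = 0
    · rw [DV2p_zero ω b q a ha] at hc' ⊢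
      exact ih hr' q hq1 hq2 hc'
    · have hab : a = b := hr a (List.mem_cons_self) ha
      have hz : q.1 + ω a ≠ 0 := by
        intro hz
        have : CV2p ω b q a = true := by
          unfold CV2p
          rw [decide_eq_true_eq]
          exact ⟨ha, hq1, hz, Or.inr hq2⟩
        rw [hca] at this
        exact Bool.false_ne_true this
      have hst := DV2p_inner ω b q a ha hq1 hz
      apply ih hr' _ _ _ hc'
      · rw [hst]
        exact hz
      · rw [hst]
        show (q.2 && decide (a = b)) = true
        rw [hq2, hab]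
        simp

theorem cf_V2p [Fact p.Prime] (ω : α → ZMod p) (b : α) (hb : ω b = 1) :
    CF (dUnc (DV2p ω b) (CV2p ω b)) := by
  have hE : ∀ (q : ZMod p × Bool) (a : α), (DV2p ω b q a).1 = q.1 + ω a := DV2p_fst ω b
  apply cf_of_phase (DV2p ω b) (CV2p ω b) (fun s => s.1) ω
    (fun s => if s.2 = true then 0 else 1) (0, false)
  · exact hE
  · exact fun q a ha => DV2p_zero ω b q a ha
  · exact fun q a ha hz => DV2p_home ω b q a ha hz
  · intro q a hq hz
    by_cases ha : ω a = 0
    · rw [DV2p_zero ω b q a ha]
    · have hz' : q.1 + ω a ≠ 0 := by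
        rw [← hE]
        exact hz
      rw [DV2p_inner ω b q a ha hq hz']
      show (if q.2 = true then 0 else 1) ≤ (if (q.2 && decide (a = b)) = true then 0 else 1)
      cases q.2 <;> simp
  · intro q q' h1 h2
    apply Prod.ext h1
    revert h2
    cases q.2 <;> cases q'.2 <;> simp
  · intro s u m hw hper
    have hall : ∀ x ∈ u, ω x ≠ 0 → x = b := by
      intro x hx hx0
      obtain ⟨u₁, u₂, hu⟩ := List.append_of_mem hx
      obtain ⟨s', hs', hper'⟩ := hper.rotate (fun s => s.1) ω hE hw u₁ x u₂ hu (-ω x)
      obtain ⟨hc, -, -⟩ := hper'.first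
      by_contra hxb
      have hs'' : s'.1 = -ω x := hs'
      have : CV2p ω b s' x = true := by
        unfold CV2p
        rw [decide_eq_true_eq]
        refine ⟨hx0, ?_, ?_, Or.inl hxb⟩
        · rw [hs'']
          exact neg_ne_zero.2 hx0
        · rw [hs'']
          exact neg_add_cancel _
      rw [hc] at this
      exact Bool.false_ne_true this
    obtain ⟨x, hx, hx0⟩ := exists_nonzero_letter ω u hw
    have hxb := hall x hx hx0
    obtain ⟨u₁, u₂, hu⟩ := List.append_of_mem hx
    obtain ⟨s', hs', hper'⟩ := hper.rotate (fun s => s.1) ω hE hw u₁ x u₂ hu 0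
    obtain ⟨-, hrun, hcnt⟩ := hper'.first
    have hst := DV2p_leave ω b s' x hx0 hs'
    have hletters : ∀ a ∈ (u₂ ++ u₁) ++ rep m (x :: (u₂ ++ u₁)), ω a ≠ 0 → a = b := by
      intro a ha ha0
      have hmem : a ∈ u := by
        rw [hu]
        rcases List.mem_append.1 ha with h | h
        · rcases List.mem_append.1 h with h | h
          · exact List.mem_append_right _ (List.mem_cons_of_mem _ h)
          · exact List.mem_append_left _ h
        · have h' := mem_rep m _ a h
          rcases List.mem_cons.1 h' with h'' | h''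
          · rw [h'']
            exact List.mem_append_right _ (List.mem_cons_self)
          · rcases List.mem_append.1 h'' with h3 | h3
            · exact List.mem_append_right _ (List.mem_cons_of_mem _ h3)
            · exact List.mem_append_left _ h3
      exact hall a hmem ha0
    have := V2p_trap ω b _ hletters (DV2p ω b s' x) (by rw [hst]; exact hx0)
      (by rw [hst, hxb]; simp) hcnt
    rw [hrun] at this
    exact this hs'

end Automata

end Vale.Agent.Lib.P329
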