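import Vale.Agent.Lib.P329.Prime2
import Vale.Agent.Lib.P329.Blocks2

/-!
# P329: phase counts modulo a prime number of phases

For weights `ω` in `ZMod p` on the letters, a letter `b`, an offset `c` and a modulus `M`, the
number `tcz ω b c w` of occurrences of `b` in `w` read at phase `- c` is determined modulo `M`
by finitely many tests of star height at most one.
-/

namespace Vale.Agent.Lib.P329

open Language

section Sem

variable {α : Type} [DecidableEq α] {p : ℕ}

/-- `tcz ω b c w` counts the occurrences of `b` in `w` for which `c` plus the total weight of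
the earlier letters is zero. -/
def tcz (ω : α → ZMod p) (b : α) : ZMod p → List α → ℕ
  | _, [] => 0
  | c, a :: w => (if a = b ∧ c = 0 then 1 else 0) + tcz ω b (c + ω a) w

theorem tcz_append (ω : α → ZMod p) (b : α) (u v : List α) (c : ZMod p) :
    tcz ω b c (u ++ v) = tcz ω b c u + tcz ω b (c + wz ω u) v := by
  induction u generalizing c with
  | nil => simp [tcz, wz_nil]
  | cons a u ih =>
    have e : c + wz ω (a :: u) = c + ω a + wz ω u := by rw [wz_cons, add_assoc]
    show (if a = b ∧ c = 0 then 1 else 0) + tcz ω b (c + ω a) (u ++ v) =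
      (if a = b ∧ c = 0 then 1 else 0) + tcz ω b (c + ω a) u + tcz ω b (c + wz ω (a :: u)) v
    rw [ih, e]
    exact (add_assoc _ _ _).symm

theorem tcz_snoc (ω : α → ZMod p) (b : α) (c : ZMod p) (w : List α) (a : α) :
    tcz ω b c (w ++ [a]) = tcz ω b c w + (if a = b ∧ c + wz ω w = 0 then 1 else 0) := by
  rw [tcz_append]
  simp [tcz]

theorem tcz_total [NeZero p] (ω : α → ZMod p) (b : α) (w : List α) :
    ∑ c : ZMod p, tcz ω b c w = w.count b := by
  induction w with
  | nil => simp [tcz]
  | cons a w ih =>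
    simp only [tcz]
    have hsh := Equiv.sum_comp (Equiv.addRight (ω a)) (fun c => tcz ω b c w)
    simp only [Equiv.coe_addRight] at hsh
    rw [Finset.sum_add_distrib, hsh, ih]
    by_cases hab : a = b
    · subst hab
      rw [List.count_cons_self]
      simp
      omega
    · rw [List.count_cons_of_ne (fun hh => hab hh)]
      simp [hab]

theorem tcz_scale [Fact p.Prime] (ω : α → ZMod p) (b : α) (r : ZMod p) (hr : r ≠ 0)
    (c : ZMod p) (w : List α) :
    tcz ω b c w = tcz (fun a => r * ω a) b (r * c) w := by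
  induction w generalizing c with
  | nil => rfl
  | cons a w ih =>
    simp only [tcz]
    rw [ih (c + ω a), mul_add]
    congr 1
    by_cases h : a = b ∧ c = 0
    · rw [if_pos h, if_pos ⟨h.1, by rw [h.2, mul_zero]⟩]
    · rw [if_neg h, if_neg]
      rintro ⟨h1, h2⟩
      rcases mul_eq_zero.1 h2 with h3 | h3
      · exact hr h3
      · exact h ⟨h1, h3⟩

theorem cnt_Rp (ω : α → ZMod p) (b : α) (hb : ω b = 0) (c : ZMod p) (w : List α) :
    cntN (DRp ω) (CRp ω b true) c w = cntN (DRp ω) (CRp ω b false) c w + tcz ω b c w := by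
  induction w using List.reverseRecOn with
  | nil => simp [cntN, tcz]
  | append_singleton w a ih =>
    rw [cntN_snoc, cntN_snoc, tcz_snoc, ih, run_DRp]
    have hstep := CRp_step ω b (c + wz ω w) a (fun h => by rw [h]; exact hb)
    omega

/-- Whether the current block starts with the counted letter. -/
def flp (s : ZMod p × Fin 3) : ℕ := if s.2 = 0 then 0 else 1

theorem CV1p_iff (ω : α → ZMod p) (b : α) (s : ZMod p × Fin 3) (a : α) :
    CV1p ω b s a = true ↔
      (ω a ≠ 0 ∧ s.1 ≠ 0 ∧ s.1 + ω a = 0 ∧ (s.2 = 0 ∨ (s.2 = 1 ∧ a = b))) := by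
  unfold CV1p
  exact decide_eq_true_iff

theorem CV2p_iff (ω : α → ZMod p) (b : α) (s : ZMod p × Bool) (a : α) :
    CV2p ω b s a = true ↔ (ω a ≠ 0 ∧ s.1 ≠ 0 ∧ s.1 + ω a = 0 ∧ (a ≠ b ∨ s.2 = true)) := by
  unfold CV2p
  exact decide_eq_true_iff

theorem fin3_cases (x : Fin 3) : x = 0 ∨ x = 1 ∨ x = 2 := by
  rcases x with ⟨v, hv⟩
  interval_cases v
  · left; rfl
  · right; left; rfl
  · right; right; rfl

theorem Vp_step (ω : α → ZMod p) (b : α) (hone : (1 : ZMod p) ≠ 0) (s1 : ZMod p × Fin 3)
    (s2 : ZMod p × Bool) (a : α) (h1 : a = b → ω a = 1) (h2 : s2.1 = s1.1)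
    (h3 : s2.2 = true ↔ s1.2 = 1) (h4 : s1.1 = 0 → s1.2 = 0) :
    (DV2p ω b s2 a).1 = (DV1p ω b s1 a).1 ∧
    ((DV2p ω b s2 a).2 = true ↔ (DV1p ω b s1 a).2 = 1) ∧
    ((DV1p ω b s1 a).1 = 0 → (DV1p ω b s1 a).2 = 0) ∧
    (if CV2p ω b s2 a = true then 1 else 0) + flp (DV1p ω b s1 a) +
        (if a = b ∧ s1.1 + 1 = 0 then 1 else 0) =
      (if CV1p ω b s1 a = true then 1 else 0) + (if a = b ∧ s1.1 = 0 then 1 else 0) +
        flp s1 := by
  have hfst : (DV2p ω b s2 a).1 = (DV1p ω b s1 a).1 := by
    rw [DV2p_fst, DV1p_fst, h2]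
  refine ⟨hfst, ?_⟩
  by_cases ha : ω a = 0
  · -- a letter of weight zero
    have hab : a ≠ b := by
      intro h
      rw [h1 h] at ha
      exact hone ha
    have c1 : ¬ (CV1p ω b s1 a = true) := fun h => ((CV1p_iff ω b s1 a).1 h).1 ha
    have c2 : ¬ (CV2p ω b s2 a = true) := fun h => ((CV2p_iff ω b s2 a).1 h).1 ha
    rw [DV1p_zero ω b s1 a ha, DV2p_zero ω b s2 a ha, if_neg c1, if_neg c2,
      if_neg (fun h : a = b ∧ s1.1 + 1 = 0 => hab h.1),
      if_neg (fun h : a = b ∧ s1.1 = 0 => hab h.1)]
    exact ⟨h3, h4, by omega⟩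
  · by_cases hs : s1.1 = 0
    · -- leaving phase zero
      have hs2 : s2.1 = 0 := by rw [h2, hs]
      have c1 : ¬ (CV1p ω b s1 a = true) := fun h => ((CV1p_iff ω b s1 a).1 h).2.1 hs
      have c2 : ¬ (CV2p ω b s2 a = true) := fun h => ((CV2p_iff ω b s2 a).1 h).2.1 hs2
      have hfl : flp s1 = 0 := by
        unfold flp
        rw [if_pos (h4 hs)]
      rw [DV1p_leave ω b s1 a ha hs, DV2p_leave ω b s2 a ha hs2, if_neg c1, if_neg c2, hfl]
      have hne : ¬ (a = b ∧ s1.1 + 1 = 0) := by
        rintro ⟨-, h⟩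
        rw [hs, zero_add] at h
        exact hone h
      rw [if_neg hne]
      by_cases hab : a = b
      · refine ⟨?_, fun h => absurd h ha, ?_⟩
        · simp [hab]
        · rw [if_pos (show a = b ∧ s1.1 = 0 from ⟨hab, hs⟩)]
          simp [flp, hab]
      · refine ⟨?_, fun h => absurd h ha, ?_⟩
        · simp [hab]
        · rw [if_neg (fun h : a = b ∧ s1.1 = 0 => hab h.1)]
          simp [flp, hab]
    · have hs2 : s2.1 ≠ 0 := by rw [h2]; exact hs
      have hne0 : ¬ (a = b ∧ s1.1 = 0) := fun h => hs h.2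
      rw [if_neg hne0]
      by_cases hz : s1.1 + ω a = 0
      · -- coming back to phase zero
        have hz2 : s2.1 + ω a = 0 := by rw [h2]; exact hz
        have d1 : DV1p ω b s1 a = (0, 0) :=
          DV1p_home ω b s1 a ha (by rw [DV1p_fst]; exact hz)
        have d2 : DV2p ω b s2 a = (0, false) :=
          DV2p_home ω b s2 a ha (by rw [DV2p_fst]; exact hz2)
        rw [d1, d2]
        refine ⟨by simp, fun _ => rfl, ?_⟩
        have hfl0 : flp ((0 : ZMod p), (0 : Fin 3)) = 0 := by simp [flp]
        rw [hfl0]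
        by_cases hab : a = b
        · have hz1 : s1.1 + 1 = 0 := by rw [← h1 hab]; exact hz
          rw [if_pos (show a = b ∧ s1.1 + 1 = 0 from ⟨hab, hz1⟩)]
          rcases fin3_cases s1.2 with h | h | h
          · have f2 : ¬ (s2.2 = true) := fun hh => by
              have := h3.1 hh
              rw [h] at this
              exact absurd this (by decide)
            have c1 : CV1p ω b s1 a = true := (CV1p_iff ω b s1 a).2 ⟨ha, hs, hz, Or.inl h⟩
            have c2 : ¬ (CV2p ω b s2 a = true) := by
              intro hh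
              rcases ((CV2p_iff ω b s2 a).1 hh).2.2.2 with h5 | h5
              · exact h5 hab
              · exact f2 h5
            rw [if_pos c1, if_neg c2]
            simp [flp, h]
          · have f2 : s2.2 = true := h3.2 h
            have c1 : CV1p ω b s1 a = true :=
              (CV1p_iff ω b s1 a).2 ⟨ha, hs, hz, Or.inr ⟨h, hab⟩⟩
            have c2 : CV2p ω b s2 a = true := (CV2p_iff ω b s2 a).2 ⟨ha, hs2, hz2, Or.inr f2⟩
            rw [if_pos c1, if_pos c2]
            simp [flp, h]
          · have f2 : ¬ (s2.2 = true) := fun hh => by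
              have := h3.1 hh
              rw [h] at this
              exact absurd this (by decide)
            have c1 : ¬ (CV1p ω b s1 a = true) := by
              intro hh
              rcases ((CV1p_iff ω b s1 a).1 hh).2.2.2 with h5 | h5
              · rw [h] at h5
                exact absurd h5 (by decide)
              · rw [h] at h5
                exact absurd h5.1 (by decide)
            have c2 : ¬ (CV2p ω b s2 a = true) := by
              intro hh
              rcases ((CV2p_iff ω b s2 a).1 hh).2.2.2 with h5 | h5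
              · exact h5 hab
              · exact f2 h5
            rw [if_neg c1, if_neg c2]
            simp [flp, h]
        · rw [if_neg (fun h : a = b ∧ s1.1 + 1 = 0 => hab h.1)]
          have c2 : CV2p ω b s2 a = true := (CV2p_iff ω b s2 a).2 ⟨ha, hs2, hz2, Or.inl hab⟩
          rw [if_pos c2]
          by_cases h : s1.2 = 0
          · have c1 : CV1p ω b s1 a = true := (CV1p_iff ω b s1 a).2 ⟨ha, hs, hz, Or.inl h⟩
            rw [if_pos c1]
            simp [flp, h]
          · have c1 : ¬ (CV1p ω b s1 a = true) := by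
              intro hh
              rcases ((CV1p_iff ω b s1 a).1 hh).2.2.2 with h5 | h5
              · exact h h5
              · exact hab h5.2
            rw [if_neg c1]
            simp [flp, h]
      · -- moving between nonzero phases
        have hz2 : s2.1 + ω a ≠ 0 := by rw [h2]; exact hz
        have c1 : ¬ (CV1p ω b s1 a = true) := fun h => hz ((CV1p_iff ω b s1 a).1 h).2.2.1
        have c2 : ¬ (CV2p ω b s2 a = true) := fun h => hz2 ((CV2p_iff ω b s2 a).1 h).2.2.1
        have hne1 : ¬ (a = b ∧ s1.1 + 1 = 0) := by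
          rintro ⟨hab, h⟩
          rw [← h1 hab] at h
          exact hz h
        rw [DV1p_inner ω b s1 a ha hs hz, DV2p_inner ω b s2 a ha hs2 hz2, if_neg c1, if_neg c2,
          if_neg hne1]
        refine ⟨?_, fun h => absurd h hz, ?_⟩
        · show (s2.2 && decide (a = b)) = true ↔
            (if s1.2 = 1 then (if a = b then (1 : Fin 3) else 2) else s1.2) = 1
          by_cases h : s1.2 = 1
          · rw [if_pos h, h3.2 h]
            by_cases hab : a = b
            · simp [hab]
            · simp [hab]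
          · rw [if_neg h]
            have f2 : s2.2 = false := by
              cases hf : s2.2 with
              | false => rfl
              | true => exact absurd (h3.1 hf) h
            rw [f2]
            simp [h]
        · show 0 + flp (s1.1 + ω a,
              if s1.2 = 1 then (if a = b then (1 : Fin 3) else 2) else s1.2) + 0 = 0 + 0 + flp s1
          rcases fin3_cases s1.2 with h | h | h
          · simp [flp, h]
          · by_cases hab : a = b
            · simp [flp, h, hab]
            · simp [flp, h, hab]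
          · simp [flp, h]

theorem inv_Vp (ω : α → ZMod p) (b : α) (hone : (1 : ZMod p) ≠ 0) (hb : ω b = 1) (c : ZMod p)
    (w : List α) :
    (run (DV1p ω b) (c, 0) w).1 = c + wz ω w ∧
    (run (DV2p ω b) (c, false) w).1 = (run (DV1p ω b) (c, 0) w).1 ∧
    ((run (DV2p ω b) (c, false) w).2 = true ↔ (run (DV1p ω b) (c, 0) w).2 = 1) ∧
    ((run (DV1p ω b) (c, 0) w).1 = 0 → (run (DV1p ω b) (c, 0) w).2 = 0) ∧
    cntN (DV2p ω b) (CV2p ω b) (c, false) w + flp (run (DV1p ω b) (c, 0) w) +
        tcz ω b (c + 1) w =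
      cntN (DV1p ω b) (CV1p ω b) (c, 0) w + tcz ω b c w := by
  induction w using List.reverseRecOn with
  | nil =>
    refine ⟨by simp [wz_nil], rfl, by simp, fun _ => rfl, by simp [cntN, tcz, flp]⟩
  | append_singleton w a ih =>
    obtain ⟨i1, i2, i3, i4, i5⟩ := ih
    have hcl : a = b → ω a = 1 := fun h => by rw [h]; exact hb
    obtain ⟨g2, g3, g4, g5⟩ := Vp_step ω b hone _ _ a hcl i2 i3 i4
    have r1 : run (DV1p ω b) (c, 0) (w ++ [a]) = DV1p ω b (run (DV1p ω b) (c, 0) w) a := by
      rw [run_append]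
      rfl
    have r2 : run (DV2p ω b) (c, false) (w ++ [a]) =
        DV2p ω b (run (DV2p ω b) (c, false) w) a := by
      rw [run_append]
      rfl
    rw [r1, r2]
    refine ⟨?_, g2, g3, g4, ?_⟩
    · rw [DV1p_fst, i1, wz_append, wz_cons, wz_nil, add_zero, add_assoc]
    · rw [cntN_snoc, cntN_snoc, tcz_snoc, tcz_snoc]
      rw [i1] at g5
      have e : c + 1 + wz ω w = c + wz ω w + 1 := by ring
      rw [e]
      omega

end Sem

/-! ### Detection -/

section Det

variable {α : Type} [Fintype α] [DecidableEq α] {p : ℕ} [Fact p.Prime]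

theorem detects_tcz0 (ω : α → ZMod p) (b : α) (hb : ω b = 0) (c : ZMod p) (M : ℕ)
    (hM : 0 < M) : Detects (fun w : List α => tcz ω b c w % M) := by
  have h1 := detects_cnt (DRp ω) (CRp ω b true) M hM 0 (fun s a h => CRp_home ω b true s a h)
    (cf_Rp ω b true) c
  have h2 := detects_cnt (DRp ω) (CRp ω b false) M hM 0
    (fun s a h => CRp_home ω b false s a h) (cf_Rp ω b false) c
  refine (h1.prod h2).of_eq _ ?_
  intro w w' h
  have e1 : cntN (DRp ω) (CRp ω b true) c w % M = cntN (DRp ω) (CRp ω b true) c w' % M :=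
    congrArg (fun x => x.1.2) h
  have e2 : cntN (DRp ω) (CRp ω b false) c w % M = cntN (DRp ω) (CRp ω b false) c w' % M :=
    congrArg (fun x => x.2.2) h
  rw [cnt_Rp ω b hb c w, cnt_Rp ω b hb c w'] at e1
  exact Nat.ModEq.add_left_cancel e2 e1

theorem detects_tcz1 (ω : α → ZMod p) (b : α) (hb : ω b = 1) (c : ZMod p) (M : ℕ)
    (hM : 0 < M) : Detects (fun w : List α => tcz ω b c w % M) := by
  have hp : p.Prime := Fact.out
  have hp0 : 0 < p := hp.pos
  have hpM : 0 < p * M := Nat.mul_pos hp0 hM
  have hone : (1 : ZMod p) ≠ 0 := one_ne_zero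
  have v1 := fun c' : ZMod p => detects_cnt (DV1p ω b) (CV1p ω b) (p * M) hpM (0, 0)
    (fun s a h => CV1p_home ω b s a h) (cf_V1p ω b hb) (c', 0)
  have v2 := fun c' : ZMod p => detects_cnt (DV2p ω b) (CV2p ω b) (p * M) hpM (0, false)
    (fun s a h => CV2p_home ω b s a h) (cf_V2p ω b hb) (c', false)
  have v5 := detects_letter_count b (p * M) hpM
  have hall := ((Detects.pi _ v1).prod (Detects.pi _ v2)).prod v5
  refine hall.of_eq _ ?_
  intro w w' h
  have a1 : ∀ c' : ZMod p, run (DV1p ω b) (c', 0) w = run (DV1p ω b) (c', 0) w' :=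
    fun c' => congrArg (fun x => (x.1.1 c').1) h
  have a2 : ∀ c' : ZMod p, cntN (DV1p ω b) (CV1p ω b) (c', 0) w % (p * M) =
      cntN (DV1p ω b) (CV1p ω b) (c', 0) w' % (p * M) :=
    fun c' => congrArg (fun x => (x.1.1 c').2) h
  have a3 : ∀ c' : ZMod p, cntN (DV2p ω b) (CV2p ω b) (c', false) w % (p * M) =
      cntN (DV2p ω b) (CV2p ω b) (c', false) w' % (p * M) :=
    fun c' => congrArg (fun x => (x.1.2 c').2) h
  have s5 : w.count b % (p * M) = w'.count b % (p * M) := congrArg (fun x => x.2) h
  -- work in the integers modulo `p * M`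
  have cast : ∀ x y : ℕ, x % (p * M) = y % (p * M) → ((x : ℕ) : ZMod (p * M)) = (y : ℕ) :=
    fun x y hxy => (ZMod.natCast_eq_natCast_iff' x y (p * M)).2 hxy
  let E : ZMod p → ZMod (p * M) := fun c' =>
    ((tcz ω b c' w : ℕ) : ZMod (p * M)) - ((tcz ω b c' w' : ℕ) : ZMod (p * M))
  have hE1 : ∀ c' : ZMod p, E (c' + 1) = E c' := by
    intro c'
    obtain ⟨-, -, -, -, i1⟩ := inv_Vp ω b hone hb c' w
    obtain ⟨-, -, -, -, i1'⟩ := inv_Vp ω b hone hb c' w'
    rw [a1 c'] at i1
    have j1 := congrArg (Nat.cast : ℕ → ZMod (p * M)) i1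
    have j1' := congrArg (Nat.cast : ℕ → ZMod (p * M)) i1'
    push_cast at j1 j1'
    rw [cast _ _ (a2 c'), cast _ _ (a3 c')] at j1
    show ((tcz ω b (c' + 1) w : ℕ) : ZMod (p * M)) - ((tcz ω b (c' + 1) w' : ℕ) : ZMod (p * M))
      = ((tcz ω b c' w : ℕ) : ZMod (p * M)) - ((tcz ω b c' w' : ℕ) : ZMod (p * M))
    linear_combination j1 - j1'
  have hE2 : ∀ (j : ℕ) (c' : ZMod p), E (c' + j) = E c' := by
    intro j
    induction j with
    | zero =>
      intro c'
      simp
    | succ j ih =>
      intro c'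
      have : c' + ((j + 1 : ℕ) : ZMod p) = (c' + j) + 1 := by
        push_cast
        ring
      rw [this, hE1, ih]
  have hE3 : ∀ c' : ZMod p, E c' = E c := by
    intro c'
    have h := hE2 (c' - c).val c
    rw [ZMod.natCast_zmod_val] at h
    rw [← h]
    congr 1
    ring
  have hsum : ∑ c' : ZMod p, E c' = 0 := by
    show ∑ c' : ZMod p, (((tcz ω b c' w : ℕ) : ZMod (p * M)) -
      ((tcz ω b c' w' : ℕ) : ZMod (p * M))) = 0
    rw [Finset.sum_sub_distrib, ← Nat.cast_sum, ← Nat.cast_sum, tcz_total, tcz_total,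
      cast _ _ s5, sub_self]
  rw [Finset.sum_congr rfl (fun c' _ => hE3 c'), Finset.sum_const, Finset.card_univ,
    ZMod.card, nsmul_eq_mul] at hsum
  have hfin : ((p * tcz ω b c w : ℕ) : ZMod (p * M)) = ((p * tcz ω b c w' : ℕ) : ZMod (p * M)) := by
    push_cast
    have : (p : ZMod (p * M)) * E c = 0 := hsum
    show (p : ZMod (p * M)) * ((tcz ω b c w : ℕ) : ZMod (p * M)) =
      (p : ZMod (p * M)) * ((tcz ω b c w' : ℕ) : ZMod (p * M))
    linear_combination this
  have hmod : p * tcz ω b c w ≡ p * tcz ω b c w' [MOD p * M] :=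
    (ZMod.natCast_eq_natCast_iff _ _ _).1 hfin
  exact Nat.ModEq.mul_left_cancel' (Nat.pos_iff_ne_zero.1 hp0) hmod

/-- Every phase count is determined modulo `M` by finitely many tests of star height at most
one. -/
theorem detects_tcz (ω : α → ZMod p) (b : α) (c : ZMod p) (M : ℕ) (hM : 0 < M) :
    Detects (fun w : List α => tcz ω b c w % M) := by
  by_cases hb : ω b = 0
  · exact detects_tcz0 ω b hb c M hM
  · have hr : (ω b)⁻¹ ≠ 0 := inv_ne_zero hb
    have hb' : (fun a => (ω b)⁻¹ * ω a) b = 1 := inv_mul_cancel₀ hb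
    refine (detects_tcz1 (fun a => (ω b)⁻¹ * ω a) b hb' ((ω b)⁻¹ * c) M hM).congr ?_
    intro w
    rw [← tcz_scale ω b _ hr]

theorem wz_count (ω : α → ZMod p) (w : List α) :
    wz ω w = ∑ a, ω a * (w.count a : ZMod p) := by
  induction w with
  | nil => simp [wz_nil]
  | cons c w ih =>
    rw [wz_cons, ih]
    simp only [List.count_cons, Nat.cast_add, mul_add, Finset.sum_add_distrib]
    simp
    exact add_comm _ _

theorem detects_wz (ω : α → ZMod p) : Detects (fun w : List α => wz ω w) := by
  have hp : p.Prime := Fact.out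
  have h := Detects.pi (fun (a : α) (w : List α) => w.count a % p)
    (fun a => detects_letter_count a p hp.pos)
  refine h.of_eq _ ?_
  intro w w' hww
  have hc : ∀ a, w.count a % p = w'.count a % p := fun a => congrFun hww a
  rw [wz_count, wz_count]
  apply Finset.sum_congr rfl
  intro a _
  congr 1
  exact (ZMod.natCast_eq_natCast_iff' _ _ _).2 (hc a)

end Det

end Vale.Agent.Lib.P329
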