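import Vale.Agent.Lib.P329.Prime3

/-!
# P329: finite groups that are abelian by elementary abelian

Let `G` be a finite group with an abelian normal subgroup `N` such that `G / N` is an
elementary abelian `p`-group for a prime `p`. Then every language recognized by a map from a
finite alphabet to `G` has generalized star height at most one.

The image of a word is determined by the coset of `N` it lies in and, for each letter `b` and
each coset `r`, by the number of occurrences of `b` read when the product of the earlier
letters lies in `r`, modulo the order of `G`. For an additive function `l` from `G` to `ZMod p`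
that vanishes on `N`, the number of occurrences of `b` read when `l` of the earlier product
has a given value is a phase count for the weights `l ∘ φ`. Summing these numbers over all
such `l` gives back the count for one coset, up to a factor and the number of all occurrences.
-/

namespace Vale.Agent.Lib.P329

open Language

section Functionals

variable {G : Type} [Group G]

/-- The additive functions from `G` to `ZMod p` that vanish on `N`. -/
structure Lam (N : Subgroup G) (p : ℕ) where
  f : G → ZMod p
  add : ∀ x y, f (x * y) = f x + f y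
  ker : ∀ n ∈ N, f n = 0

theorem Lam.ext' {N : Subgroup G} {p : ℕ} (l l' : Lam N p) (h : l.f = l'.f) : l = l' := by
  obtain ⟨f, a, k⟩ := l
  obtain ⟨f', a', k'⟩ := l'
  simp only at h
  subst h
  rfl

theorem lam_finite [Finite G] (N : Subgroup G) (p : ℕ) [NeZero p] : Finite (Lam N p) :=
  Finite.of_injective (fun l : Lam N p => l.f) (fun l l' h => Lam.ext' l l' h)

noncomputable instance lamFintype [Finite G] (N : Subgroup G) (p : ℕ) [NeZero p] :
    Fintype (Lam N p) :=
  @Fintype.ofFinite _ (lam_finite N p)

/-- The zero function. -/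
def lamZero (N : Subgroup G) (p : ℕ) : Lam N p :=
  ⟨fun _ => 0, fun _ _ => (add_zero 0).symm, fun _ _ => rfl⟩

/-- Adding a multiple of `l₀`. -/
def lamShift {N : Subgroup G} {p : ℕ} (l₀ : Lam N p) (t : ZMod p) (l : Lam N p) : Lam N p :=
  ⟨fun x => l.f x + t * l₀.f x,
    fun x y => by
      show l.f (x * y) + t * l₀.f (x * y) = l.f x + t * l₀.f x + (l.f y + t * l₀.f y)
      rw [l.add, l₀.add]
      ring,
    fun n hn => by
      show l.f n + t * l₀.f n = 0
      rw [l.ker n hn, l₀.ker n hn]
      ring⟩

theorem lam_one {N : Subgroup G} {p : ℕ} (l : Lam N p) : l.f 1 = 0 := by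
  have h := l.add 1 1
  rw [mul_one] at h
  linear_combination -h

theorem lam_inv {N : Subgroup G} {p : ℕ} (l : Lam N p) (x : G) : l.f x⁻¹ = -l.f x := by
  have h := l.add x x⁻¹
  rw [mul_inv_cancel, lam_one] at h
  linear_combination -h

theorem wz_lam {α : Type} {N : Subgroup G} {p : ℕ} (l : Lam N p) (φ : α → G) (w : List α) :
    wz (fun a => l.f (φ a)) w = l.f ((w.map φ).prod) := by
  induction w with
  | nil => simp [wz_nil, lam_one]
  | cons a w ih => rw [wz_cons, ih, List.map_cons, List.prod_cons, l.add]

theorem lam_fiber [Finite G] (N : Subgroup G) (p : ℕ) [Fact p.Prime] (z : G) (l₀ : Lam N p)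
    (h0 : l₀.f z ≠ 0) :
    p * (Finset.univ.filter (fun l : Lam N p => l.f z = 0)).card = Fintype.card (Lam N p) := by
  have hfib : ∀ c : ZMod p, (Finset.univ.filter (fun l : Lam N p => l.f z = c)).card =
      (Finset.univ.filter (fun l : Lam N p => l.f z = 0)).card := by
    intro c
    symm
    refine Finset.card_bij' (fun l _ => lamShift l₀ (c / l₀.f z) l)
      (fun l _ => lamShift l₀ (-(c / l₀.f z)) l) ?_ ?_ ?_ ?_
    · intro l hl
      rw [Finset.mem_filter] at hl ⊢
      refine ⟨Finset.mem_univ _, ?_⟩
      show l.f z + c / l₀.f z * l₀.f z = c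
      rw [hl.2, zero_add, div_mul_cancel₀ _ h0]
    · intro l hl
      rw [Finset.mem_filter] at hl ⊢
      refine ⟨Finset.mem_univ _, ?_⟩
      show l.f z + -(c / l₀.f z) * l₀.f z = 0
      rw [hl.2, neg_mul, div_mul_cancel₀ _ h0, add_neg_cancel]
    · intro l _
      apply Lam.ext'
      funext x
      show l.f x + c / l₀.f z * l₀.f x + -(c / l₀.f z) * l₀.f x = l.f x
      ring
    · intro l _
      apply Lam.ext'
      funext x
      show l.f x + -(c / l₀.f z) * l₀.f x + c / l₀.f z * l₀.f x = l.f x
      ring
  have hsum := Finset.card_eq_sum_card_fiberwise (f := fun l : Lam N p => l.f z)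
    (s := Finset.univ) (t := Finset.univ) (fun l _ => Finset.mem_coe.2 (Finset.mem_univ _))
  rw [Finset.sum_congr rfl (fun c _ => hfib c), Finset.sum_const, Finset.card_univ,
    Finset.card_univ, ZMod.card, smul_eq_mul] at hsum
  exact hsum.symm

theorem radon_point [Finite G] (N : Subgroup G) [N.Normal] (p : ℕ) [Fact p.Prime]
    (hsep : ∀ z : G, z ∉ N → ∃ l : Lam N p, l.f z ≠ 0) (x₀ P₀ : G)
    [Decidable ((P₀ : G ⧸ N) = (x₀ : G ⧸ N))] :
    p * (Finset.univ.filter (fun l : Lam N p => l.f P₀ = l.f x₀)).card =
      (p - 1) * Fintype.card (Lam N p) * (if (P₀ : G ⧸ N) = (x₀ : G ⧸ N) then 1 else 0) +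
        Fintype.card (Lam N p) := by
  have hp : p.Prime := Fact.out
  have hrel : ∀ l : Lam N p, l.f x₀ = l.f P₀ + l.f (P₀⁻¹ * x₀) := by
    intro l
    rw [← l.add, mul_inv_cancel_left]
  by_cases h : (P₀ : G ⧸ N) = (x₀ : G ⧸ N)
  · have hmem : P₀⁻¹ * x₀ ∈ N := QuotientGroup.eq.1 h
    have hall : Finset.univ.filter (fun l : Lam N p => l.f P₀ = l.f x₀) = Finset.univ := by
      apply Finset.filter_true_of_mem
      intro l _
      rw [hrel l, l.ker _ hmem, add_zero]
    rw [hall, Finset.card_univ, if_pos h, mul_one]
    obtain ⟨q, rfl⟩ : ∃ q, p = q + 1 := ⟨p - 1, by have := hp.pos; omega⟩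
    rw [Nat.add_sub_cancel]
    ring
  · have hz : P₀⁻¹ * x₀ ∉ N := fun hm => h (QuotientGroup.eq.2 hm)
    obtain ⟨l₀, hl₀⟩ := hsep _ hz
    have hfil : Finset.univ.filter (fun l : Lam N p => l.f P₀ = l.f x₀) =
        Finset.univ.filter (fun l : Lam N p => l.f (P₀⁻¹ * x₀) = 0) := by
      apply Finset.filter_congr
      intro l _
      rw [hrel l]
      constructor
      · intro h1
        linear_combination -h1
      · intro h1
        rw [h1, add_zero]
    rw [hfil, lam_fiber N p _ l₀ hl₀, if_neg h, mul_zero, zero_add]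

end Functionals

section Counting

variable {α : Type} [DecidableEq α] {G : Type} [Group G]

/-- The number of occurrences of `b` in `w` read when the product of the earlier letters,
started from `P`, passes the test `t`. -/
def pcnt (φ : α → G) (b : α) (t : G → Bool) : G → List α → ℕ
  | _, [] => 0
  | P, a :: w => (if a = b ∧ t P = true then 1 else 0) + pcnt φ b t (P * φ a) w

theorem pcnt_append (φ : α → G) (b : α) (t : G → Bool) (P : G) (u v : List α) :
    pcnt φ b t P (u ++ v) = pcnt φ b t P u + pcnt φ b t (P * (u.map φ).prod) v := by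
  induction u generalizing P with
  | nil => simp [pcnt]
  | cons a u ih =>
    show (if a = b ∧ t P = true then 1 else 0) + pcnt φ b t (P * φ a) (u ++ v) =
      (if a = b ∧ t P = true then 1 else 0) + pcnt φ b t (P * φ a) u +
        pcnt φ b t (P * ((a :: u).map φ).prod) v
    rw [ih, List.map_cons, List.prod_cons, mul_assoc, add_assoc]

theorem pcnt_snoc (φ : α → G) (b : α) (t : G → Bool) (P : G) (w : List α) (a : α) :
    pcnt φ b t P (w ++ [a]) =
      pcnt φ b t P w + (if a = b ∧ t (P * (w.map φ).prod) = true then 1 else 0) := by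
  rw [pcnt_append]
  simp [pcnt]

theorem pcnt_lam {N : Subgroup G} {p : ℕ} (l : Lam N p) (φ : α → G) (b : α) (x₀ P₀ : G)
    (w : List α) :
    pcnt φ b (fun P => decide (l.f P = l.f x₀)) P₀ w =
      tcz (fun a => l.f (φ a)) b (l.f P₀ - l.f x₀) w := by
  induction w generalizing P₀ with
  | nil => rfl
  | cons a w ih =>
    simp only [pcnt, tcz]
    rw [ih, l.add]
    have e : l.f P₀ + l.f (φ a) - l.f x₀ = l.f P₀ - l.f x₀ + l.f (φ a) := by ring
    rw [e]
    congr 1
    simp only [decide_eq_true_eq, sub_eq_zero]

theorem radon_word [Finite G] (N : Subgroup G) [N.Normal] [DecidableEq (G ⧸ N)] (p : ℕ)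
    [Fact p.Prime] (hsep : ∀ z : G, z ∉ N → ∃ l : Lam N p, l.f z ≠ 0) (φ : α → G) (b : α)
    (x₀ P₀ : G) (w : List α) :
    p * ∑ l : Lam N p, pcnt φ b (fun P => decide (l.f P = l.f x₀)) P₀ w =
      (p - 1) * Fintype.card (Lam N p) *
          pcnt φ b (fun P => decide ((P : G ⧸ N) = (x₀ : G ⧸ N))) P₀ w +
        Fintype.card (Lam N p) * w.count b := by
  induction w generalizing P₀ with
  | nil => simp [pcnt]
  | cons a w ih =>
    simp only [pcnt]
    rw [Finset.sum_add_distrib, mul_add, ih (P₀ * φ a)]
    by_cases hab : a = b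
    · subst hab
      have hpt := radon_point N p hsep x₀ P₀
      have hs : (∑ l : Lam N p, if a = a ∧ decide (l.f P₀ = l.f x₀) = true then 1 else 0) =
          (Finset.univ.filter (fun l : Lam N p => l.f P₀ = l.f x₀)).card := by
        rw [Finset.card_filter]
        apply Finset.sum_congr rfl
        intro l _
        simp
      rw [hs, hpt, List.count_cons_self]
      by_cases hq : (P₀ : G ⧸ N) = (x₀ : G ⧸ N)
      · simp only [hq, if_true, decide_true, and_self]
        ring
      · simp only [hq, if_false, decide_false, and_false, Bool.false_eq_true]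
        ring
    · have hs : (∑ l : Lam N p, if a = b ∧ decide (l.f P₀ = l.f x₀) = true then 1 else 0) =
          0 := by
        apply Finset.sum_eq_zero
        intro l _
        rw [if_neg (fun h => hab h.1)]
      rw [hs, List.count_cons_of_ne (fun hh => hab hh), if_neg (fun h => hab h.1)]
      ring

theorem image_formula_quot [Fintype α] (N : Subgroup G) [N.Normal] [Fintype (G ⧸ N)]
    [DecidableEq (G ⧸ N)] {A : Type} [CommGroup A] (ι : A →* G) (φ : α → G)
    (γ : α → G ⧸ N → A)
    (hγ : ∀ b r, ι (γ b r) = r.out * φ b * ((r * (φ b : G ⧸ N)).out)⁻¹) (w : List α) :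
    (1 : G ⧸ N).out * (w.map φ).prod =
      ι (∏ b : α, ∏ r : G ⧸ N, γ b r ^ pcnt φ b (fun P => decide ((P : G ⧸ N) = r)) 1 w) *
        (((w.map φ).prod : G) : G ⧸ N).out := by
  induction w using List.reverseRecOn with
  | nil => simp [pcnt]
  | append_singleton w a ih =>
    rw [List.map_append, List.prod_append]
    simp only [List.map_cons, List.map_nil, List.prod_cons, List.prod_nil, mul_one]
    have h1 : ∀ b ∈ (Finset.univ : Finset α), ∀ r ∈ (Finset.univ : Finset (G ⧸ N)),
        γ b r ^ pcnt φ b (fun P => decide ((P : G ⧸ N) = r)) 1 (w ++ [a]) =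
          γ b r ^ pcnt φ b (fun P => decide ((P : G ⧸ N) = r)) 1 w *
            (if b = a ∧ r = (((w.map φ).prod : G) : G ⧸ N) then γ b r else 1) := by
      intro b _ r _
      rw [pcnt_snoc, pow_add]
      congr 1
      by_cases h : b = a ∧ r = (((w.map φ).prod : G) : G ⧸ N)
      · rw [if_pos h, if_pos, pow_one]
        refine ⟨h.1.symm, ?_⟩
        rw [one_mul, decide_eq_true_eq]
        exact h.2.symm
      · rw [if_neg h, if_neg, pow_zero]
        rintro ⟨h4, h5⟩
        rw [one_mul, decide_eq_true_eq] at h5
        exact h ⟨h4.symm, h5.symm⟩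
    rw [Finset.prod_congr rfl (fun b hb => Finset.prod_congr rfl (h1 b hb))]
    simp only [Finset.prod_mul_distrib]
    have h2 : (∏ b : α, ∏ r : G ⧸ N,
        (if b = a ∧ r = (((w.map φ).prod : G) : G ⧸ N) then γ b r else 1)) =
          γ a (((w.map φ).prod : G) : G ⧸ N) := by
      rw [Finset.prod_eq_single a]
      · rw [Finset.prod_eq_single (((w.map φ).prod : G) : G ⧸ N)]
        · simp
        · intro r _ hr
          simp [hr]
        · intro h
          exact absurd (Finset.mem_univ _) h
      · intro b _ hb
        simp [hb]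
      · intro h
        exact absurd (Finset.mem_univ a) h
    have e : (1 : G ⧸ N).out * ((w.map φ).prod * φ a) =
        ((1 : G ⧸ N).out * (w.map φ).prod) * φ a := (mul_assoc _ _ _).symm
    rw [h2, map_mul, hγ, e, ih, QuotientGroup.mk_mul]
    group

end Counting

end Vale.Agent.Lib.P329
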