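import Vale.Agent.Lib.P329.Prime4

/-!
# P329: finite groups that are abelian by elementary abelian (main theorems)
-/

namespace Vale.Agent.Lib.P329

open Language

theorem modEq_sum {ι : Type} (s : Finset ι) (f g : ι → ℕ) (n : ℕ)
    (h : ∀ i ∈ s, f i % n = g i % n) : (∑ i ∈ s, f i) % n = (∑ i ∈ s, g i) % n := by
  rw [Finset.sum_nat_mod s n f, Finset.sum_nat_mod s n g, Finset.sum_congr rfl h]

/-- If the additive functions to `ZMod p` that vanish on the abelian normal subgroup `N`
separate the cosets of `N`, every language recognized by `G` has generalized star height at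
most one. -/
theorem recognized_of_sep (α : Type) [Fintype α] [DecidableEq α] (G : Type) [Group G]
    [Finite G] (N : Subgroup G) [hn : N.Normal] (hN : ∀ x ∈ N, ∀ y ∈ N, x * y = y * x)
    (p : ℕ) [Fact p.Prime] (hsep : ∀ z : G, z ∉ N → ∃ l : Lam N p, l.f z ≠ 0)
    (φ : α → G) (P : Set G) :
    ∃ e : GExp α, e.sh ≤ 1 ∧ ∀ w : List α, w ∈ e.lang ↔ (w.map φ).prod ∈ P := by
  classical
  haveI : Fintype (G ⧸ N) := Fintype.ofFinite _
  let _ : CommGroup N := { (inferInstance : Group N) with
    mul_comm := fun a b => Subtype.ext (hN a a.2 b b.2) }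
  let ι : N →* G := { toFun := fun a => a.1, map_one' := rfl, map_mul' := fun _ _ => rfl }
  have hmem : ∀ (b : α) (r : G ⧸ N), r.out * φ b * ((r * (φ b : G ⧸ N)).out)⁻¹ ∈ N := by
    intro b r
    apply (QuotientGroup.eq_one_iff _).1
    rw [QuotientGroup.mk_mul, QuotientGroup.mk_mul, QuotientGroup.mk_inv,
      QuotientGroup.out_eq', QuotientGroup.out_eq']
    exact mul_inv_cancel _
  let γ : α → G ⧸ N → N := fun b r => ⟨_, hmem b r⟩
  have hγ : ∀ b r, ι (γ b r) = r.out * φ b * ((r * (φ b : G ⧸ N)).out)⁻¹ := fun _ _ => rfl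
  have hp : p.Prime := Fact.out
  have hKpos : 0 < Fintype.card (Lam N p) := Fintype.card_pos_iff.2 ⟨lamZero N p⟩
  have hL : 0 < (p - 1) * Fintype.card (Lam N p) :=
    Nat.mul_pos (by have := hp.two_le; omega) hKpos
  have hM : 0 < Nat.card G := Nat.card_pos
  have hLM : 0 < (p - 1) * Fintype.card (Lam N p) * Nat.card G := Nat.mul_pos hL hM
  have hdet : Detects (fun w : List α =>
      ((fun l : Lam N p => wz (fun a => l.f (φ a)) w,
        fun (l : Lam N p) (b : α) (c : ZMod p) =>
          tcz (fun a => l.f (φ a)) b c w % ((p - 1) * Fintype.card (Lam N p) * Nat.card G)),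
        fun b : α => w.count b % ((p - 1) * Fintype.card (Lam N p) * Nat.card G))) := by
    refine ((Detects.pi _ (fun l => detects_wz _)).prod
      (Detects.pi _ (fun l => Detects.pi _ (fun b => Detects.pi _
        (fun c => detects_tcz _ b c _ hLM))))).prod
      (Detects.pi _ (fun b => detects_letter_count b _ hLM))
  refine hdet.expr {w | (w.map φ).prod ∈ P} ?_
  intro w w' hww
  have d1 : ∀ l : Lam N p, wz (fun a => l.f (φ a)) w = wz (fun a => l.f (φ a)) w' :=
    fun l => congrFun (congrArg (fun x => x.1.1) hww) l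
  have d2 : ∀ (l : Lam N p) (b : α) (c : ZMod p),
      tcz (fun a => l.f (φ a)) b c w % ((p - 1) * Fintype.card (Lam N p) * Nat.card G) =
        tcz (fun a => l.f (φ a)) b c w' % ((p - 1) * Fintype.card (Lam N p) * Nat.card G) :=
    fun l b c => congrFun (congrFun (congrFun (congrArg (fun x => x.1.2) hww) l) b) c
  have d3 : ∀ b : α, w.count b % ((p - 1) * Fintype.card (Lam N p) * Nat.card G) =
      w'.count b % ((p - 1) * Fintype.card (Lam N p) * Nat.card G) :=
    fun b => congrFun (congrArg (fun x => x.2) hww) b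
  -- the two images lie in the same coset
  have hcoset : (((w.map φ).prod : G) : G ⧸ N) = (((w'.map φ).prod : G) : G ⧸ N) := by
    by_contra hne
    have hz : ((w.map φ).prod)⁻¹ * (w'.map φ).prod ∉ N := fun h => hne (QuotientGroup.eq.2 h)
    obtain ⟨l, hl⟩ := hsep _ hz
    apply hl
    rw [l.add, lam_inv, ← wz_lam l φ w, ← wz_lam l φ w', d1 l]
    exact neg_add_cancel _
  -- the counts by cosets agree modulo the order of the group
  have hcnt : ∀ (b : α) (r : G ⧸ N),
      pcnt φ b (fun P => decide ((P : G ⧸ N) = r)) 1 w % Nat.card G =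
        pcnt φ b (fun P => decide ((P : G ⧸ N) = r)) 1 w' % Nat.card G := by
    intro b r
    have e1 := radon_word N p hsep φ b r.out 1 w
    have e2 := radon_word N p hsep φ b r.out 1 w'
    simp only [pcnt_lam, QuotientGroup.out_eq'] at e1 e2
    have hS : (∑ l : Lam N p, tcz (fun a => l.f (φ a)) b (l.f 1 - l.f r.out) w) ≡
        (∑ l : Lam N p, tcz (fun a => l.f (φ a)) b (l.f 1 - l.f r.out) w')
          [MOD (p - 1) * Fintype.card (Lam N p) * Nat.card G] :=
      modEq_sum _ _ _ _ (fun l _ => d2 l b _)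
    have hA := hS.mul_left p
    rw [e1, e2] at hA
    have hB : Fintype.card (Lam N p) * w.count b ≡ Fintype.card (Lam N p) * w'.count b
        [MOD (p - 1) * Fintype.card (Lam N p) * Nat.card G] := Nat.ModEq.mul_left _ (d3 b)
    have hC := Nat.ModEq.add_right_cancel hB hA
    exact Nat.ModEq.mul_left_cancel' hL.ne' hC
  have hexp : ∀ x : N, x ^ Nat.card G = 1 := by
    intro x
    apply Subtype.ext
    rw [Subgroup.coe_pow]
    exact pow_card_eq_one'
  have f1 := image_formula_quot N ι φ γ hγ w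
  have f2 := image_formula_quot N ι φ γ hγ w'
  have key : (w.map φ).prod = (w'.map φ).prod := by
    apply mul_left_cancel (a := (1 : G ⧸ N).out)
    rw [f1, f2, hcoset]
    congr 2
    apply Finset.prod_congr rfl
    intro b _
    apply Finset.prod_congr rfl
    intro r _
    rw [pow_eq_pow_mod (pcnt φ b (fun P => decide ((P : G ⧸ N) = r)) 1 w) (hexp (γ b r)),
      pow_eq_pow_mod (pcnt φ b (fun P => decide ((P : G ⧸ N) = r)) 1 w') (hexp (γ b r)),
      hcnt b r]
  show (w.map φ).prod ∈ P ↔ (w'.map φ).prod ∈ P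
  rw [key]

theorem zmod_functional_exists {V : Type} [AddCommGroup V] (p : ℕ) [Fact p.Prime]
    (hexp : ∀ v : V, p • v = 0) (v : V) (hv : v ≠ 0) : ∃ f : V →+ ZMod p, f v ≠ 0 := by
  let inst : Module (ZMod p) V := AddCommGroup.zmodModule hexp
  have h2 : @Module.Free (ZMod p) V _ _ inst := Module.Free.of_divisionRing (ZMod p) V
  have h3 : @Module.Projective (ZMod p) _ V _ inst := @Module.Projective.of_free _ _ _ _ inst h2
  obtain ⟨f, hf⟩ := @Module.Projective.exists_dual_ne_zero V _ (ZMod p) _ inst h3 v hv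
  exact ⟨f.toAddMonoidHom, hf⟩

theorem zmod_functional_mul {Q : Type} [CommGroup Q] (p : ℕ) [Fact p.Prime]
    (hexp : ∀ q : Q, q ^ p = 1) (q : Q) (hq : q ≠ 1) :
    ∃ f : Q → ZMod p, (∀ a b, f (a * b) = f a + f b) ∧ f 1 = 0 ∧ f q ≠ 0 := by
  have hexp' : ∀ v : Additive Q, p • v = 0 := by
    intro v
    apply Additive.toMul.injective
    rw [toMul_nsmul, toMul_zero]
    exact hexp _
  have hv : Additive.ofMul q ≠ 0 := fun h => hq h
  obtain ⟨f, hf⟩ := zmod_functional_exists p hexp' (Additive.ofMul q) hv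
  refine ⟨fun a => f (Additive.ofMul a), fun a b => ?_, ?_, hf⟩
  · show f (Additive.ofMul (a * b)) = f (Additive.ofMul a) + f (Additive.ofMul b)
    rw [ofMul_mul, map_add]
  · show f (Additive.ofMul 1) = 0
    rw [ofMul_one, map_zero]

/-- If `G / N` is abelian of exponent `p`, the additive functions to `ZMod p` that vanish on
`N` separate the cosets of `N`. -/
theorem sep_of_elementary {G : Type} [Group G] (N : Subgroup G) [N.Normal] (p : ℕ)
    [Fact p.Prime] (hc : ∀ x y : G, x * y * x⁻¹ * y⁻¹ ∈ N) (hpow : ∀ x : G, x ^ p ∈ N) :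
    ∀ z : G, z ∉ N → ∃ l : Lam N p, l.f z ≠ 0 := by
  intro z hz
  let instQ : CommGroup (G ⧸ N) :=
    { (inferInstance : Group (G ⧸ N)) with
      mul_comm := by
        intro a b
        obtain ⟨x, rfl⟩ := QuotientGroup.mk_surjective a
        obtain ⟨y, rfl⟩ := QuotientGroup.mk_surjective b
        rw [← QuotientGroup.mk_mul, ← QuotientGroup.mk_mul, QuotientGroup.eq]
        have h := hc y⁻¹ x⁻¹
        have e : (x * y)⁻¹ * (y * x) = y⁻¹ * x⁻¹ * y⁻¹⁻¹ * x⁻¹⁻¹ := by group
        rw [e]
        exact h }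
  have hexp : ∀ q : G ⧸ N, q ^ p = 1 := by
    intro q
    obtain ⟨x, rfl⟩ := QuotientGroup.mk_surjective q
    rw [← QuotientGroup.mk_pow]
    exact (QuotientGroup.eq_one_iff _).2 (hpow x)
  have hzq : ((z : G) : G ⧸ N) ≠ 1 := fun h => hz ((QuotientGroup.eq_one_iff z).1 h)
  obtain ⟨f, hadd, hone, hf⟩ := @zmod_functional_mul (G ⧸ N) instQ p _ hexp (z : G ⧸ N) hzq
  refine ⟨⟨fun x => f ((x : G) : G ⧸ N), ?_, ?_⟩, hf⟩
  · intro x y
    exact hadd (x : G ⧸ N) (y : G ⧸ N)
  · intro n hn
    have h1 : ((n : G) : G ⧸ N) = 1 := (QuotientGroup.eq_one_iff n).2 hn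
    show f ((n : G) : G ⧸ N) = 0
    rw [h1]
    exact hone

/-- Every language recognized by a finite group with an abelian normal subgroup whose quotient
is abelian of prime exponent has generalized star height at most one. -/
theorem recognized_elementary (α : Type) [Fintype α] [DecidableEq α] (G : Type) [Group G]
    [Finite G] (N : Subgroup G) [N.Normal] (p : ℕ) (hp : p.Prime)
    (hN : ∀ x ∈ N, ∀ y ∈ N, x * y = y * x) (hc : ∀ x y : G, x * y * x⁻¹ * y⁻¹ ∈ N)
    (hpow : ∀ x : G, x ^ p ∈ N) (φ : α → G) (P : Set G) :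
    ∃ e : GExp α, e.sh ≤ 1 ∧ ∀ w : List α, w ∈ e.lang ↔ (w.map φ).prod ∈ P := by
  have : Fact p.Prime := ⟨hp⟩
  exact recognized_of_sep α G N hN p (sep_of_elementary N p hc hpow) φ P

/-- Every language recognized by a finite group with an abelian normal subgroup of prime
index has generalized star height at most one. -/
theorem recognized_prime_index (α : Type) [Fintype α] [DecidableEq α] (G : Type) [Group G]
    [Finite G] (N : Subgroup G) [N.Normal] (hN : ∀ x ∈ N, ∀ y ∈ N, x * y = y * x)
    (hidx : N.index.Prime) (φ : α → G) (P : Set G) :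
    ∃ e : GExp α, e.sh ≤ 1 ∧ ∀ w : List α, w ∈ e.lang ↔ (w.map φ).prod ∈ P := by
  apply recognized_elementary α G N N.index hidx hN ?_ (fun x => N.pow_index_mem x) φ P
  intro x y
  have : Fact N.index.Prime := ⟨hidx⟩
  have hcyc : IsCyclic (G ⧸ N) := isCyclic_of_prime_card (p := N.index) rfl
  have hmc : ∀ a b : G ⧸ N, a * b = b * a :=
    fun a b => (IsCyclic.commGroup (α := G ⧸ N)).mul_comm a b
  apply (QuotientGroup.eq_one_iff _).1
  rw [QuotientGroup.mk_mul, QuotientGroup.mk_mul, QuotientGroup.mk_mul, QuotientGroup.mk_inv,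
    QuotientGroup.mk_inv, hmc (x : G ⧸ N) (y : G ⧸ N)]
  group

end Vale.Agent.Lib.P329
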