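import Vale.Agent.Lib.P329.Defs

/-!
# P329: phase counting languages have generalized star height at most one (proofs)
-/

namespace Vale.Agent.Lib.P329

open Language

variable {α : Type} [DecidableEq α]

/-- Recursive phase counter: `pc x z p c w` counts the occurrences of `z` in `w` for which
`c` plus the number of earlier occurrences of `x` is divisible by `p`. -/
def pc (x z : α) (p : ℕ) : ℕ → List α → ℕ
  | _, [] => 0
  | c, a :: w => (if a = z ∧ p ∣ c then 1 else 0) + pc x z p (if a = x then c + 1 else c) w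

theorem countP_range_eq_pc (x z : α) (p : ℕ) (w : List α) (c : ℕ) :
    (List.range w.length).countP
      (fun i => decide (w[i]? = some z ∧ p ∣ c + (w.take i).count x)) = pc x z p c w := by
  induction w generalizing c with
  | nil => simp [pc]
  | cons a w ih =>
    rw [List.length_cons, List.range_succ_eq_map, List.countP_cons, List.countP_map]
    rw [pc]
    have h1 : (List.range w.length).countP
        ((fun i => decide ((a :: w)[i]? = some z ∧ p ∣ c + ((a :: w).take i).count x)) ∘ Nat.succ)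
        = pc x z p (if a = x then c + 1 else c) w := by
      rw [← ih]
      congr 1
      funext i
      simp only [Function.comp, Nat.succ_eq_add_one, List.getElem?_cons_succ, List.take_succ_cons,
        List.count_cons]
      by_cases hax : a = x
      · simp [hax, Nat.add_comm, Nat.add_left_comm]
      · simp [hax]
    rw [h1]
    simp [add_comm]

theorem pc_append (x z : α) (p : ℕ) (u v : List α) (c : ℕ) :
    pc x z p c (u ++ v) = pc x z p c u + pc x z p (c + u.count x) v := by
  induction u generalizing c with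
  | nil => simp [pc]
  | cons a u ih =>
    simp only [List.cons_append, pc, ih, List.count_cons]
    by_cases hax : a = x
    · simp [hax, Nat.add_assoc, Nat.add_comm 1]
    · simp [hax, Nat.add_assoc]

theorem pc_eq_zero_of_notMem (x z : α) (p : ℕ) (u : List α) (c : ℕ) (hz : z ∉ u) :
    pc x z p c u = 0 := by
  induction u generalizing c with
  | nil => simp [pc]
  | cons a u ih =>
    simp only [List.mem_cons, not_or] at hz
    have haz : a ≠ z := fun h => hz.1 h.symm
    simp [pc, haz, ih _ hz.2]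

theorem pc_eq_zero_mid (x z : α) (p : ℕ) (u : List α) (c : ℕ) (h0 : 0 < c % p)
    (h1 : c % p + u.count x < p) : pc x z p c u = 0 := by
  induction u generalizing c with
  | nil => simp [pc]
  | cons a u ih =>
    have hnd : ¬ p ∣ c := fun hd => by
      rw [Nat.mod_eq_zero_of_dvd hd] at h0; exact lt_irrefl 0 h0
    rw [List.count_cons] at h1
    by_cases hax : a = x
    · subst hax
      have h2 : (c + 1) % p = c % p + 1 := by
        have : c % p + 1 < p := by simp at h1; omega
        have h1p : 1 % p = 1 := Nat.mod_eq_of_lt (by omega)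
        rw [Nat.add_mod, h1p, Nat.mod_eq_of_lt this]
      have := ih (c + 1) (by omega) (by simp at h1; omega)
      simp [pc, hnd, this]
    · have := ih c h0 (by simp [hax] at h1; omega)
      simp [pc, hnd, hax, this]

theorem pc_congr_mod (x z : α) (p : ℕ) (u : List α) (c c' : ℕ) (h : c % p = c' % p) :
    pc x z p c u = pc x z p c' u := by
  induction u generalizing c c' with
  | nil => simp [pc]
  | cons a u ih =>
    have hd : p ∣ c ↔ p ∣ c' := by
      rw [Nat.dvd_iff_mod_eq_zero, Nat.dvd_iff_mod_eq_zero, h]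
    have h' : (c + 1) % p = (c' + 1) % p := by rw [Nat.add_mod, h, ← Nat.add_mod]
    by_cases hax : a = x
    · simp [pc, hax, hd, ih _ _ h']
    · simp [pc, hax, hd, ih _ _ h]


/-! ### Expressions and their languages -/

theorem mem_compl_lang (L : Language α) (w : List α) : w ∈ Lᶜ ↔ w ∉ L := Iff.rfl

/-- The expression `¬ 0`, denoting the set of all words. -/
def top : GExp α := .neg .zero

theorem mem_top (w : List α) : w ∈ (top : GExp α).lang :=
  (mem_compl_lang _ _).2 (Language.notMem_zero w)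

theorem split_first (x : α) (w : List α) (h : x ∈ w) : ∃ u v, w = u ++ x :: v ∧ x ∉ u := by
  induction w with
  | nil => simp at h
  | cons a w ih =>
    by_cases hax : a = x
    · exact ⟨[], w, by simp [hax], by simp⟩
    · have hw : x ∈ w := by
        rcases List.mem_cons.1 h with h | h
        · exact absurd h.symm hax
        · exact h
      obtain ⟨u, v, huv, hu⟩ := ih hw
      refine ⟨a :: u, v, by simp [huv], ?_⟩
      simp only [List.mem_cons, not_or]
      exact ⟨fun h => hax h.symm, hu⟩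

/-- Words with at least `n` occurrences of `x`. -/
def atLeast (x : α) : ℕ → GExp α
  | 0 => top
  | n + 1 => .comp top (.comp (.letter x) (atLeast x n))

theorem mem_atLeast (x : α) (n : ℕ) (w : List α) :
    w ∈ (atLeast x n).lang ↔ n ≤ w.count x := by
  induction n generalizing w with
  | zero => simp [atLeast, mem_top]
  | succ n ih =>
    simp only [atLeast, GExp.lang]
    constructor
    · intro h
      obtain ⟨u, -, v, hv, rfl⟩ := Language.mem_mul.1 h
      obtain ⟨s, hs, v', hv', rfl⟩ := Language.mem_mul.1 hv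
      have hs' : s = [x] := hs
      subst hs'
      have := (ih v').1 hv'
      simp only [List.count_append, List.count_singleton_self]
      omega
    · intro h
      have hx : x ∈ w := List.count_pos_iff.1 (by omega)
      obtain ⟨u, v, rfl, hu⟩ := split_first x w hx
      refine Language.mem_mul.2 ⟨u, mem_top u, x :: v, ?_, rfl⟩
      refine Language.mem_mul.2 ⟨[x], rfl, v, (ih v).2 ?_, rfl⟩
      have : (u ++ x :: v).count x = v.count x + 1 := by
        simp [List.count_append, List.count_eq_zero_of_not_mem hu]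
      omega

/-- Words with fewer than `n` occurrences of `x`. -/
def few (x : α) (n : ℕ) : GExp α := .neg (atLeast x n)

theorem mem_few (x : α) (n : ℕ) (w : List α) : w ∈ (few x n).lang ↔ w.count x < n := by
  show w ∈ ((atLeast x n).lang)ᶜ ↔ _
  rw [mem_compl_lang, mem_atLeast]; omega

/-- Words without the letter `x`. -/
def noX (x : α) : GExp α := few x 1

theorem mem_noX (x : α) (w : List α) : w ∈ (noX x).lang ↔ x ∉ w := by
  rw [noX, mem_few, Nat.lt_one_iff, List.count_eq_zero]

/-- Words without the letters `x` and `z`. -/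
def noXZ (x z : α) : GExp α := .neg (.plus (atLeast x 1) (atLeast z 1))

theorem mem_noXZ (x z : α) (w : List α) : w ∈ (noXZ x z).lang ↔ x ∉ w ∧ z ∉ w := by
  show w ∈ ((atLeast x 1).lang + (atLeast z 1).lang)ᶜ ↔ _
  rw [mem_compl_lang, Language.mem_add, mem_atLeast, mem_atLeast, not_or,
    List.one_le_count_iff, List.one_le_count_iff]

/-- Iterated concatenation. -/
def gpow (e : GExp α) : ℕ → GExp α
  | 0 => .one
  | n + 1 => .comp (gpow e n) e

theorem lang_gpow (e : GExp α) (n : ℕ) : (gpow e n).lang = e.lang ^ n := by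
  induction n with
  | zero => simp [gpow, GExp.lang]
  | succ n ih => simp [gpow, GExp.lang, ih, pow_succ]

/-- A word without `x` followed by the letter `x`. -/
def bx (x : α) : GExp α := .comp (noX x) (.letter x)

theorem mem_bx (x : α) (w : List α) : w ∈ (bx x).lang ↔ ∃ b, x ∉ b ∧ w = b ++ [x] := by
  simp only [bx, GExp.lang]
  constructor
  · intro h
    obtain ⟨b, hb, s, hs, rfl⟩ := Language.mem_mul.1 h
    have hs' : s = [x] := hs
    exact ⟨b, (mem_noX x b).1 hb, by rw [hs']⟩
  · rintro ⟨b, hb, rfl⟩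
    exact Language.mem_mul.2 ⟨b, (mem_noX x b).2 hb, [x], rfl, rfl⟩

theorem count_of_mem_bx_pow (x : α) (n : ℕ) (a : List α) (h : a ∈ (bx x).lang ^ n) :
    a.count x = n := by
  induction n generalizing a with
  | zero =>
    rw [pow_zero] at h
    have : a = [] := (Language.mem_one a).1 h
    simp [this]
  | succ n ih =>
    rw [pow_succ] at h
    obtain ⟨a1, h1, k, hk, rfl⟩ := Language.mem_mul.1 h
    obtain ⟨b, hb, rfl⟩ := (mem_bx x k).1 hk
    simp [List.count_append, ih a1 h1, List.count_eq_zero_of_not_mem hb]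

theorem last_of_mem_bx_pow (x : α) (n : ℕ) (a : List α) (h : a ∈ (bx x).lang ^ (n + 1)) :
    ∃ a', a = a' ++ [x] ∧ a'.count x = n := by
  rw [pow_succ] at h
  obtain ⟨a1, h1, k, hk, rfl⟩ := Language.mem_mul.1 h
  obtain ⟨b, hb, rfl⟩ := (mem_bx x k).1 hk
  refine ⟨a1 ++ b, by simp, ?_⟩
  simp [List.count_append, count_of_mem_bx_pow x n a1 h1, List.count_eq_zero_of_not_mem hb]

theorem exists_bx_pow (x : α) (n : ℕ) (w : List α) (h : n ≤ w.count x) :
    ∃ v w', w = v ++ w' ∧ v ∈ (bx x).lang ^ n := by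
  induction n generalizing w with
  | zero => exact ⟨[], w, rfl, by rw [pow_zero]; exact Language.nil_mem_one⟩
  | succ n ih =>
    have hx : x ∈ w := List.count_pos_iff.1 (by omega)
    obtain ⟨u, w1, rfl, hu⟩ := split_first x w hx
    have hc : n ≤ w1.count x := by
      have : (u ++ x :: w1).count x = w1.count x + 1 := by
        simp [List.count_append, List.count_eq_zero_of_not_mem hu]
      omega
    obtain ⟨v1, w', rfl, hv1⟩ := ih w1 hc
    refine ⟨(u ++ [x]) ++ v1, w', by simp, ?_⟩
    rw [pow_succ']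
    exact Language.mem_mul.2 ⟨u ++ [x], (mem_bx x _).2 ⟨u, hu, rfl⟩, v1, hv1, rfl⟩


/-! ### The code `K`, the remainders `R` and the factor count -/

/-- The code `K`: a word without `x`, `z` followed by `z`, or a word without `x`, `z` followed
by `x` and then by `p - 1` blocks of the form (word without `x`) `x`. -/
def kexp (x z : α) (p : ℕ) : GExp α :=
  .plus (.comp (noXZ x z) (.letter z))
    (.comp (.comp (noXZ x z) (.letter x)) (gpow (bx x) (p - 1)))

theorem mem_kexp (x z : α) (p : ℕ) (w : List α) :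
    w ∈ (kexp x z p).lang ↔
      (∃ u, x ∉ u ∧ z ∉ u ∧ w = u ++ [z]) ∨
      (∃ u v, x ∉ u ∧ z ∉ u ∧ v ∈ (bx x).lang ^ (p - 1) ∧ w = u ++ x :: v) := by
  simp only [kexp, GExp.lang, lang_gpow]
  rw [Language.mem_add]
  constructor
  · rintro (h | h)
    · obtain ⟨u, hu, s, hs, rfl⟩ := Language.mem_mul.1 h
      have hs' : s = [z] := hs
      obtain ⟨h1, h2⟩ := (mem_noXZ x z u).1 hu
      exact Or.inl ⟨u, h1, h2, by rw [hs']⟩
    · obtain ⟨ux, hux, v, hv, rfl⟩ := Language.mem_mul.1 h
      obtain ⟨u, hu, s, hs, rfl⟩ := Language.mem_mul.1 hux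
      have hs' : s = [x] := hs
      obtain ⟨h1, h2⟩ := (mem_noXZ x z u).1 hu
      exact Or.inr ⟨u, v, h1, h2, hv, by rw [hs']; simp⟩
  · rintro (⟨u, h1, h2, rfl⟩ | ⟨u, v, h1, h2, hv, rfl⟩)
    · exact Or.inl (Language.mem_mul.2 ⟨u, (mem_noXZ x z u).2 ⟨h1, h2⟩, [z], rfl, rfl⟩)
    · refine Or.inr (Language.mem_mul.2 ⟨u ++ [x], ?_, v, hv, by simp⟩)
      exact Language.mem_mul.2 ⟨u, (mem_noXZ x z u).2 ⟨h1, h2⟩, [x], rfl, rfl⟩

theorem succ_mod_of_dvd (p c : ℕ) (hp : 1 < p) (hc : p ∣ c) : (c + 1) % p = 1 := by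
  rw [Nat.add_mod, Nat.mod_eq_zero_of_dvd hc, zero_add, Nat.mod_mod, Nat.mod_eq_of_lt hp]

theorem kword (x z : α) (hxz : x ≠ z) (p : ℕ) (hp : 0 < p) (k : List α)
    (hk : k ∈ (kexp x z p).lang) (c : ℕ) (hc : p ∣ c) :
    pc x z p c k + k.count x / p = 1 ∧ p ∣ k.count x := by
  rcases (mem_kexp x z p k).1 hk with ⟨u, h1, h2, rfl⟩ | ⟨u, v, h1, h2, hv, rfl⟩
  · have hcnt : (u ++ [z]).count x = 0 :=
      List.count_eq_zero.2 (by simp [h1, hxz])
    rw [hcnt, pc_append, pc_eq_zero_of_notMem x z p u c h2, List.count_eq_zero_of_not_mem h1]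
    simp [pc, hc]
  · have hv' := count_of_mem_bx_pow x (p - 1) v hv
    have hcnt : (u ++ x :: v).count x = p := by
      simp [List.count_append, List.count_eq_zero_of_not_mem h1, hv']; omega
    rw [hcnt, pc_append, pc_eq_zero_of_notMem x z p u c h2, List.count_eq_zero_of_not_mem h1]
    have hpcv : pc x z p (c + 1) v = 0 := by
      rcases Nat.lt_or_ge 1 p with hp2 | hp1
      · obtain ⟨v', rfl, hv'c⟩ := last_of_mem_bx_pow x (p - 2) v (by
          have : p - 2 + 1 = p - 1 := by omega
          rw [this]; exact hv)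
        have hmod : (c + 1) % p = 1 := succ_mod_of_dvd p c hp2 hc
        rw [pc_append, pc_eq_zero_mid x z p v' (c + 1) (by omega) (by omega)]
        simp [pc, hxz]
      · have hp1' : p = 1 := by omega
        subst hp1'
        rw [Nat.sub_self, pow_zero] at hv
        have : v = [] := (Language.mem_one v).1 hv
        simp [this, pc]
    simp [pc, hxz, hpcv, Nat.div_self hp]

/-- The remainders `R`: a word without `x`, `z`, or such a word followed by `x` and then by a
word with fewer than `p - 1` occurrences of `x`. -/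
def rexp (x z : α) (p : ℕ) : GExp α :=
  .plus (noXZ x z) (.comp (.comp (noXZ x z) (.letter x)) (few x (p - 1)))

theorem mem_rexp (x z : α) (p : ℕ) (w : List α) :
    w ∈ (rexp x z p).lang ↔
      (x ∉ w ∧ z ∉ w) ∨
      (∃ u t, x ∉ u ∧ z ∉ u ∧ t.count x < p - 1 ∧ w = u ++ x :: t) := by
  simp only [rexp, GExp.lang]
  rw [Language.mem_add, mem_noXZ]
  constructor
  · rintro (h | h)
    · exact Or.inl h
    · obtain ⟨ux, hux, t, ht, rfl⟩ := Language.mem_mul.1 h
      obtain ⟨u, hu, s, hs, rfl⟩ := Language.mem_mul.1 hux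
      have hs' : s = [x] := hs
      obtain ⟨h1, h2⟩ := (mem_noXZ x z u).1 hu
      exact Or.inr ⟨u, t, h1, h2, (mem_few x _ t).1 ht, by rw [hs']; simp⟩
  · rintro (h | ⟨u, t, h1, h2, ht, rfl⟩)
    · exact Or.inl h
    · refine Or.inr (Language.mem_mul.2 ⟨u ++ [x], ?_, t, (mem_few x _ t).2 ht, by simp⟩)
      exact Language.mem_mul.2 ⟨u, (mem_noXZ x z u).2 ⟨h1, h2⟩, [x], rfl, rfl⟩

theorem rword (x z : α) (hxz : x ≠ z) (p : ℕ) (hp : 0 < p) (w : List α)
    (hw : w ∈ (rexp x z p).lang) (c : ℕ) (hc : p ∣ c) :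
    pc x z p c w = 0 ∧ w.count x < p := by
  rcases (mem_rexp x z p w).1 hw with ⟨h1, h2⟩ | ⟨u, t, h1, h2, ht, rfl⟩
  · exact ⟨pc_eq_zero_of_notMem x z p w c h2, by
      rw [List.count_eq_zero_of_not_mem h1]; exact hp⟩
  · have hp2 : 1 < p := by omega
    have hcnt : (u ++ x :: t).count x = t.count x + 1 := by
      simp [List.count_append, List.count_eq_zero_of_not_mem h1]
    refine ⟨?_, by rw [hcnt]; omega⟩
    rw [pc_append, pc_eq_zero_of_notMem x z p u c h2, List.count_eq_zero_of_not_mem h1]
    have hmod : (c + 1) % p = 1 := succ_mod_of_dvd p c hp2 hc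
    have := pc_eq_zero_mid x z p t (c + 1) (by omega) (by omega)
    simp [pc, hxz, this]

theorem kpow_score (x z : α) (hxz : x ≠ z) (p : ℕ) (hp : 0 < p) (n : ℕ) (a : List α)
    (ha : a ∈ (kexp x z p).lang ^ n) (c : ℕ) (hc : p ∣ c) :
    pc x z p c a + a.count x / p = n ∧ p ∣ a.count x := by
  induction n generalizing a with
  | zero =>
    rw [pow_zero] at ha
    have : a = [] := (Language.mem_one a).1 ha
    subst this
    simp [pc]
  | succ n ih =>
    rw [pow_succ] at ha
    obtain ⟨a1, h1, k, hk, rfl⟩ := Language.mem_mul.1 ha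
    obtain ⟨e1, d1⟩ := ih a1 h1
    obtain ⟨e2, d2⟩ := kword x z hxz p hp k hk (c + a1.count x) (dvd_add hc d1)
    rw [pc_append, List.count_append]
    refine ⟨?_, dvd_add d1 d2⟩
    rw [Nat.add_div_of_dvd_right d1]
    omega

theorem score (x z : α) (hxz : x ≠ z) (p : ℕ) (hp : 0 < p) (n : ℕ) (w : List α)
    (hw : w ∈ (kexp x z p).lang ^ n * (rexp x z p).lang) :
    pc x z p 0 w + w.count x / p = n := by
  obtain ⟨a, ha, t, ht, rfl⟩ := Language.mem_mul.1 hw
  obtain ⟨e1, d1⟩ := kpow_score x z hxz p hp n a ha 0 (dvd_zero p)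
  obtain ⟨e2, l2⟩ := rword x z hxz p hp t ht (0 + a.count x) (by simpa using d1)
  rw [pc_append, List.count_append, Nat.add_div_of_dvd_right d1, Nat.div_eq_of_lt l2]
  omega

theorem scan (x z : α) (w : List α) :
    (x ∉ w ∧ z ∉ w) ∨
      ∃ u rest, x ∉ u ∧ z ∉ u ∧ (w = u ++ z :: rest ∨ w = u ++ x :: rest) := by
  induction w with
  | nil => left; simp
  | cons a w ih =>
    by_cases haz : a = z
    · right; exact ⟨[], w, by simp, by simp, Or.inl (by simp [haz])⟩
    · by_cases hax : a = x
      · right; exact ⟨[], w, by simp, by simp, Or.inr (by simp [hax])⟩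
      · have hxa : x ≠ a := fun h => hax h.symm
        have hza : z ≠ a := fun h => haz h.symm
        rcases ih with ⟨h1, h2⟩ | ⟨u, rest, h1, h2, h3⟩
        · left
          exact ⟨by simp [hxa, h1], by simp [hza, h2]⟩
        · right
          refine ⟨a :: u, rest, by simp [hxa, h1], by simp [hza, h2], ?_⟩
          rcases h3 with rfl | rfl <;> simp

theorem exists_decomp (x z : α) (p : ℕ) :
    ∀ (N : ℕ) (w : List α), w.length < N →
      ∃ n, w ∈ (kexp x z p).lang ^ n * (rexp x z p).lang := by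
  intro N
  induction N with
  | zero => intro w h; omega
  | succ N ih =>
    intro w hw
    rcases scan x z w with ⟨h1, h2⟩ | ⟨u, rest, h1, h2, h3 | h3⟩
    · exact ⟨0, by rw [pow_zero, one_mul]; exact (mem_rexp x z p w).2 (Or.inl ⟨h1, h2⟩)⟩
    · subst h3
      obtain ⟨n, hn⟩ := ih rest (by simp at hw; omega)
      refine ⟨n + 1, ?_⟩
      rw [pow_succ', mul_assoc]
      exact Language.mem_mul.2 ⟨u ++ [z], (mem_kexp x z p _).2 (Or.inl ⟨u, h1, h2, rfl⟩),
        rest, hn, by simp⟩
    · subst h3
      rcases Nat.lt_or_ge (rest.count x) (p - 1) with hlt | hge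
      · exact ⟨0, by
          rw [pow_zero, one_mul]
          exact (mem_rexp x z p _).2 (Or.inr ⟨u, rest, h1, h2, hlt, rfl⟩)⟩
      · obtain ⟨v, w', rfl, hv⟩ := exists_bx_pow x (p - 1) rest hge
        obtain ⟨n, hn⟩ := ih w' (by simp at hw; omega)
        refine ⟨n + 1, ?_⟩
        rw [pow_succ', mul_assoc]
        exact Language.mem_mul.2 ⟨u ++ x :: v,
          (mem_kexp x z p _).2 (Or.inr ⟨u, v, h1, h2, hv, rfl⟩), w', hn, by simp⟩


/-! ### Counting factors modulo `m` -/

/-- Words with a number of `K`-factors congruent to `s` modulo `m`. -/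
def fexp (x z : α) (p m s : ℕ) : GExp α :=
  .comp (.comp (.star (gpow (kexp x z p) m)) (gpow (kexp x z p) s)) (rexp x z p)

theorem mem_fexp (x z : α) (hxz : x ≠ z) (p : ℕ) (hp : 0 < p) (m s : ℕ) (hs : s < m)
    (w : List α) :
    w ∈ (fexp x z p m s).lang ↔ (pc x z p 0 w + w.count x / p) % m = s := by
  simp only [fexp, GExp.lang, lang_gpow]
  constructor
  · intro h
    obtain ⟨ab, hab, t, ht, rfl⟩ := Language.mem_mul.1 h
    obtain ⟨a, ha, b, hb, rfl⟩ := Language.mem_mul.1 hab
    rw [Language.kstar_eq_iSup_pow] at ha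
    obtain ⟨q, hq⟩ := Language.mem_iSup.1 ha
    rw [← pow_mul] at hq
    have hab' : a ++ b ∈ (kexp x z p).lang ^ (m * q + s) := by
      rw [pow_add]; exact Language.mem_mul.2 ⟨a, hq, b, hb, rfl⟩
    have hsc := score x z hxz p hp (m * q + s) (a ++ b ++ t)
      (Language.mem_mul.2 ⟨a ++ b, hab', t, ht, rfl⟩)
    rw [hsc, Nat.mul_add_mod, Nat.mod_eq_of_lt hs]
  · intro h
    obtain ⟨n, hn⟩ := exists_decomp x z p (w.length + 1) w (Nat.lt_succ_self _)
    have hsc := score x z hxz p hp n w hn
    rw [hsc] at h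
    obtain ⟨a, ha, t, ht, rfl⟩ := Language.mem_mul.1 hn
    have hn' : n = m * (n / m) + s := by rw [← h]; exact (Nat.div_add_mod n m).symm
    rw [hn', pow_add, pow_mul] at ha
    obtain ⟨a1, ha1, b, hb, rfl⟩ := Language.mem_mul.1 ha
    refine Language.mem_mul.2 ⟨a1 ++ b, Language.mem_mul.2 ⟨a1, ?_, b, hb, rfl⟩, t, ht, rfl⟩
    exact (pow_le_kstar : ((kexp x z p).lang ^ m) ^ (n / m) ≤ KStar.kstar ((kexp x z p).lang ^ m)) ha1

/-- Words whose number of `x` is congruent to `t` modulo `p * m`. -/
def xexp (x : α) (p m t : ℕ) : GExp α :=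
  .comp (.comp (gpow (bx x) t) (.star (gpow (bx x) (p * m)))) (noX x)

theorem mem_xexp (x : α) (p m t : ℕ) (ht : t < p * m) (w : List α) :
    w ∈ (xexp x p m t).lang ↔ w.count x % (p * m) = t := by
  simp only [xexp, GExp.lang, lang_gpow]
  constructor
  · intro h
    obtain ⟨ab, hab, c, hc, rfl⟩ := Language.mem_mul.1 h
    obtain ⟨a, ha, b, hb, rfl⟩ := Language.mem_mul.1 hab
    rw [Language.kstar_eq_iSup_pow] at hb
    obtain ⟨q, hq⟩ := Language.mem_iSup.1 hb
    rw [← pow_mul] at hq
    have h1 := count_of_mem_bx_pow x t a ha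
    have h2 := count_of_mem_bx_pow x _ b hq
    have h3 : c.count x = 0 := List.count_eq_zero_of_not_mem ((mem_noX x c).1 hc)
    rw [List.count_append, List.count_append, h1, h2, h3, add_zero, Nat.add_mul_mod_self_left,
      Nat.mod_eq_of_lt ht]
  · intro h
    obtain ⟨v, w', rfl, hv⟩ := exists_bx_pow x (w.count x) w le_rfl
    have hcv := count_of_mem_bx_pow x _ v hv
    have hw' : x ∉ w' := by
      rw [List.count_append] at hcv
      exact List.count_eq_zero.1 (by omega)
    obtain ⟨q, hq⟩ : ∃ q, (v ++ w').count x = t + p * m * q :=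
      ⟨(v ++ w').count x / (p * m), by
        have := Nat.div_add_mod ((v ++ w').count x) (p * m)
        rw [h] at this
        rw [add_comm]; exact this.symm⟩
    rw [hq, pow_add, pow_mul] at hv
    obtain ⟨a, ha, b, hb, rfl⟩ := Language.mem_mul.1 hv
    refine Language.mem_mul.2 ⟨a ++ b, Language.mem_mul.2 ⟨a, ha, b, ?_, rfl⟩, w',
      (mem_noX x w').2 hw', rfl⟩
    exact (pow_le_kstar : ((bx x).lang ^ (p * m)) ^ q ≤ KStar.kstar ((bx x).lang ^ (p * m))) hb

/-- Intersection, expressed by complement and union. -/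
def inter (P Q : GExp α) : GExp α := .neg (.plus (.neg P) (.neg Q))

theorem mem_inter (P Q : GExp α) (w : List α) :
    w ∈ (inter P Q).lang ↔ w ∈ P.lang ∧ w ∈ Q.lang := by
  show w ∈ ((P.lang)ᶜ + (Q.lang)ᶜ)ᶜ ↔ _
  rw [mem_compl_lang, Language.mem_add, mem_compl_lang, mem_compl_lang]; tauto

/-- Finite union `f 0 + f 1 + ... + f (n - 1)`. -/
def gsum : ℕ → (ℕ → GExp α) → GExp α
  | 0, _ => .zero
  | n + 1, f => .plus (gsum n f) (f n)

theorem mem_gsum (n : ℕ) (f : ℕ → GExp α) (w : List α) :
    w ∈ (gsum n f).lang ↔ ∃ t, t < n ∧ w ∈ (f t).lang := by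
  induction n with
  | zero => simp [gsum, GExp.lang]
  | succ n ih =>
    simp only [gsum, GExp.lang, Language.mem_add, ih]
    constructor
    · rintro (⟨t, ht, h⟩ | h)
      · exact ⟨t, by omega, h⟩
      · exact ⟨n, by omega, h⟩
    · rintro ⟨t, ht, h⟩
      rcases Nat.lt_succ_iff_lt_or_eq.1 ht with h' | rfl
      · exact Or.inl ⟨t, h', h⟩
      · exact Or.inr h

/-- The expression for phase `0`. -/
def mainExp (x z : α) (p m r : ℕ) : GExp α :=
  gsum (p * m) (fun t => inter (xexp x p m t) (fexp x z p m ((r + t / p) % m)))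

theorem mem_mainExp (x z : α) (hxz : x ≠ z) (p : ℕ) (hp : 0 < p) (m : ℕ) (hm : 0 < m) (r : ℕ)
    (w : List α) :
    w ∈ (mainExp x z p m r).lang ↔ pc x z p 0 w % m = r % m := by
  have hpm : 0 < p * m := Nat.mul_pos hp hm
  rw [mainExp, mem_gsum]
  have key : ∀ t, w.count x % (p * m) = t → (t / p) % m = (w.count x / p) % m := by
    intro t ht; rw [← ht, Nat.mod_mul_right_div_self, Nat.mod_mod]
  constructor
  · rintro ⟨t, ht, h⟩
    rw [mem_inter, mem_xexp x p m t ht, mem_fexp x z hxz p hp m _ (Nat.mod_lt _ hm)] at h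
    obtain ⟨h1, h2⟩ := h
    have hk := key t h1
    have h3 : (pc x z p 0 w + w.count x / p) % m = (r + w.count x / p) % m := by
      rw [h2, Nat.add_mod r (t / p), hk, ← Nat.add_mod]
    exact Nat.ModEq.add_right_cancel' _ h3
  · intro h
    refine ⟨w.count x % (p * m), Nat.mod_lt _ hpm, ?_⟩
    rw [mem_inter, mem_xexp x p m _ (Nat.mod_lt _ hpm),
      mem_fexp x z hxz p hp m _ (Nat.mod_lt _ hm)]
    refine ⟨rfl, ?_⟩
    have hk := key _ rfl
    rw [Nat.add_mod r, hk, ← Nat.add_mod]
    exact Nat.ModEq.add_right _ h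

/-! ### Star heights -/

omit [DecidableEq α] in
theorem sh_atLeast (x : α) (n : ℕ) : (atLeast x n).sh = 0 := by
  induction n with
  | zero => rfl
  | succ n ih => simp [atLeast, GExp.sh, ih, top]

omit [DecidableEq α] in
theorem sh_gpow_le (e : GExp α) (n : ℕ) : (gpow e n).sh ≤ e.sh := by
  induction n with
  | zero => simp [gpow, GExp.sh]
  | succ n ih => simp [gpow, GExp.sh, ih]

omit [DecidableEq α] in
theorem sh_gsum_le (n : ℕ) (f : ℕ → GExp α) (h : ℕ) (hf : ∀ t, (f t).sh ≤ h) :
    (gsum n f).sh ≤ h := by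
  induction n with
  | zero => simp [gsum, GExp.sh]
  | succ n ih => simp [gsum, GExp.sh, ih, hf n]

omit [DecidableEq α] in
theorem sh_noXZ (x z : α) : (noXZ x z).sh = 0 := by simp [noXZ, GExp.sh, sh_atLeast]

omit [DecidableEq α] in
theorem sh_few (x : α) (n : ℕ) : (few x n).sh = 0 := by simp [few, GExp.sh, sh_atLeast]

omit [DecidableEq α] in
theorem sh_bx (x : α) : (bx x).sh = 0 := by simp [bx, noX, GExp.sh, sh_few]

omit [DecidableEq α] in
theorem sh_kexp (x z : α) (p : ℕ) : (kexp x z p).sh = 0 := by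
  have h := sh_gpow_le (bx x) (p - 1)
  rw [sh_bx] at h
  simp only [kexp, GExp.sh, sh_noXZ]
  omega

omit [DecidableEq α] in
theorem sh_rexp (x z : α) (p : ℕ) : (rexp x z p).sh = 0 := by
  simp [rexp, GExp.sh, sh_noXZ, sh_few]

omit [DecidableEq α] in
theorem sh_fexp (x z : α) (p m s : ℕ) : (fexp x z p m s).sh ≤ 1 := by
  have h1 := sh_gpow_le (kexp x z p) m
  have h2 := sh_gpow_le (kexp x z p) s
  rw [sh_kexp] at h1 h2
  simp only [fexp, GExp.sh, sh_rexp]
  omega

omit [DecidableEq α] in
theorem sh_xexp (x : α) (p m t : ℕ) : (xexp x p m t).sh ≤ 1 := by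
  have h1 := sh_gpow_le (bx x) t
  have h2 := sh_gpow_le (bx x) (p * m)
  rw [sh_bx] at h1 h2
  have h3 : (noX x).sh = 0 := sh_few x 1
  simp only [xexp, GExp.sh, h3]
  omega

omit [DecidableEq α] in
theorem sh_mainExp (x z : α) (p m r : ℕ) : (mainExp x z p m r).sh ≤ 1 := by
  apply sh_gsum_le
  intro t
  have h1 := sh_xexp x p m t
  have h2 := sh_fexp x z p m ((r + t / p) % m)
  simp only [inter, GExp.sh]
  omega

/-! ### General phase -/

theorem phase_iff (p l n : ℕ) (hp : 0 < p) : n % p = l % p ↔ p ∣ (p - l % p) + n := by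
  have hj : l % p < p := Nat.mod_lt _ hp
  have hs : n % p < p := Nat.mod_lt _ hp
  rw [Nat.dvd_iff_mod_eq_zero]
  have h1 : (p - l % p + n) % p = (p - l % p + n % p) % p := by
    rw [Nat.add_mod_mod]
  rw [h1]
  constructor
  · intro h
    rw [h]
    have h2 : p - l % p + l % p = p := by omega
    rw [h2]
    exact Nat.mod_self p
  · intro h
    by_cases hlt : p - l % p + n % p < p
    · rw [Nat.mod_eq_of_lt hlt] at h
      omega
    · have h3 : (p - l % p + n % p) % p = p - l % p + n % p - p := by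
        rw [Nat.mod_eq_sub_mod (by omega)]
        exact Nat.mod_eq_of_lt (by omega)
      rw [h3] at h
      omega

theorem phaseCount_eq_pc (x z : α) (p l : ℕ) (hp : 0 < p) (w : List α) :
    phaseCount x z p l w = pc x z p (p - l % p) w := by
  rw [← countP_range_eq_pc]
  unfold phaseCount
  apply List.countP_congr
  intro i _
  simp [phase_iff p l _ hp]

theorem pc_few (x z : α) (p j : ℕ) (hj : j < p) (w : List α) (hw : w.count x < j) :
    pc x z p (p - j) w = 0 := by
  have h1 : (p - j) % p = p - j := Nat.mod_eq_of_lt (by omega)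
  exact pc_eq_zero_mid x z p w (p - j) (by omega) (by omega)

theorem pc_shift (x z : α) (hxz : x ≠ z) (p j : ℕ) (hj : j < p) (a b : List α)
    (ha : a ∈ (bx x).lang ^ j) : pc x z p (p - j) (a ++ b) = pc x z p 0 b := by
  have hcnt := count_of_mem_bx_pow x j a ha
  rw [pc_append, hcnt]
  have h1 : pc x z p (p - j + j) b = pc x z p 0 b := by
    apply pc_congr_mod
    have : p - j + j = p := by omega
    rw [this]
    simp
  rw [h1]
  have h2 : pc x z p (p - j) a = 0 := by
    rcases j with _ | j'
    · rw [pow_zero] at ha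
      have : a = [] := (Language.mem_one a).1 ha
      simp [this, pc]
    · obtain ⟨a', rfl, ha'⟩ := last_of_mem_bx_pow x j' a ha
      rw [pc_append]
      have h3 : pc x z p (p - (j' + 1)) a' = 0 :=
        pc_few x z p (j' + 1) hj a' (by omega)
      rw [h3]
      simp [pc, hxz]
  rw [h2, zero_add]

/-- The expression for phase `l`: either fewer than `l % p` occurrences of `x` (when the
target residue is `0`), or `l % p` blocks ending in `x` followed by a word of phase `0`. -/
def phaseExp (x z : α) (p l m r : ℕ) : GExp α :=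
  .plus (if r % m = 0 then few x (l % p) else .zero)
    (.comp (gpow (bx x) (l % p)) (mainExp x z p m r))

theorem mem_phaseExp (x z : α) (hxz : x ≠ z) (p l : ℕ) (hp : 0 < p) (m : ℕ) (hm : 0 < m)
    (r : ℕ) (w : List α) :
    w ∈ (phaseExp x z p l m r).lang ↔ phaseCount x z p l w % m = r % m := by
  have hj : l % p < p := Nat.mod_lt _ hp
  rw [phaseCount_eq_pc x z p l hp]
  simp only [phaseExp, GExp.lang]
  rw [Language.mem_add]
  constructor
  · rintro (h | h)
    · split_ifs at h with hr
      · have hc := (mem_few x (l % p) w).1 h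
        rw [pc_few x z p (l % p) hj w hc, hr]
        simp
      · exact absurd h (Language.notMem_zero w)
    · obtain ⟨a, ha, b, hb, rfl⟩ := Language.mem_mul.1 h
      rw [lang_gpow] at ha
      rw [pc_shift x z hxz p (l % p) hj a b ha]
      exact (mem_mainExp x z hxz p hp m hm r b).1 hb
  · intro h
    by_cases hc : w.count x < l % p
    · left
      rw [pc_few x z p (l % p) hj w hc] at h
      have hr : r % m = 0 := by
        rw [← h]; simp
      rw [if_pos hr]
      exact (mem_few x (l % p) w).2 hc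
    · right
      obtain ⟨a, b, rfl, ha⟩ := exists_bx_pow x (l % p) w (by omega)
      rw [pc_shift x z hxz p (l % p) hj a b ha] at h
      refine Language.mem_mul.2 ⟨a, ?_, b, (mem_mainExp x z hxz p hp m hm r b).2 h, rfl⟩
      rw [lang_gpow]
      exact ha

omit [DecidableEq α] in
theorem sh_phaseExp (x z : α) (p l m r : ℕ) : (phaseExp x z p l m r).sh ≤ 1 := by
  have h1 := sh_mainExp x z p m r
  have h2 := sh_gpow_le (bx x) (l % p)
  rw [sh_bx] at h2
  have h3 : (if r % m = 0 then few x (l % p) else (GExp.zero : GExp α)).sh = 0 := by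
    split_ifs
    · exact sh_few x (l % p)
    · rfl
  simp only [phaseExp, GExp.sh, h3]
  omega

end Vale.Agent.Lib.P329
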