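import Vale.Agent.Lib.P329.Group

/-!
# P329: automata that are partially ordered away from one state

Let `δ : Q → α → Q` be the transition function of a complete deterministic automaton over a
finite alphabet, `o` a state and `r : Q → ℕ` a rank function such that every letter sends every
state `q ≠ o` to `q` itself, to `o`, or to a state of strictly larger rank. Then for all states
`p`, `q'` the language of the words leading from `p` to `q'` is denoted by a generalized regular
expression of star height at most one.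
-/

namespace Vale.Agent.Lib.P329

open Language

section Basic

variable {α : Type}

theorem mem_plus (P R : GExp α) (w : List α) :
    w ∈ (GExp.plus P R).lang ↔ w ∈ P.lang ∨ w ∈ R.lang := Language.mem_add _ _ _

theorem mem_comp (P R : GExp α) (w : List α) :
    w ∈ (GExp.comp P R).lang ↔ ∃ u v, w = u ++ v ∧ u ∈ P.lang ∧ v ∈ R.lang := by
  constructor
  · intro h
    obtain ⟨u, hu, v, hv, rfl⟩ := Language.mem_mul.1 h
    exact ⟨u, v, rfl, hu, hv⟩
  · rintro ⟨u, v, rfl, hu, hv⟩
    exact Language.mem_mul.2 ⟨u, hu, v, hv, rfl⟩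

theorem mem_letter (a : α) (w : List α) : w ∈ (GExp.letter a).lang ↔ w = [a] := Iff.rfl

theorem mem_one (w : List α) : w ∈ (GExp.one : GExp α).lang ↔ w = [] := Language.mem_one w

theorem notMem_zero (w : List α) : w ∉ (GExp.zero : GExp α).lang := Language.notMem_zero w

theorem mem_neg (P : GExp α) (w : List α) : w ∈ (GExp.neg P).lang ↔ w ∉ P.lang := Iff.rfl

theorem mem_star (P : GExp α) (w : List α) :
    w ∈ (GExp.star P).lang ↔ ∃ S : List (List α), w = S.flatten ∧ ∀ y ∈ S, y ∈ P.lang :=
  Language.mem_kstar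

theorem mem_letter_comp (a : α) (R : GExp α) (w : List α) :
    w ∈ (GExp.comp (.letter a) R).lang ↔ ∃ v, w = a :: v ∧ v ∈ R.lang := by
  rw [mem_comp]
  constructor
  · rintro ⟨u, v, rfl, hu, hv⟩
    rw [mem_letter] at hu
    subst hu
    exact ⟨v, rfl, hv⟩
  · rintro ⟨v, rfl, hv⟩
    exact ⟨[a], v, rfl, (mem_letter a _).2 rfl, hv⟩

theorem mem_top' (w : List α) : w ∈ (top : GExp α).lang := by
  show w ∈ ((0 : Language α))ᶜ
  exact Language.notMem_zero w

/-- The union of a list of expressions. -/
def lsum : List (GExp α) → GExp α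
  | [] => .zero
  | e :: l => .plus e (lsum l)

theorem mem_lsum (l : List (GExp α)) (w : List α) :
    w ∈ (lsum l).lang ↔ ∃ e ∈ l, w ∈ e.lang := by
  induction l with
  | nil =>
    simp only [lsum, List.not_mem_nil, false_and, exists_false, iff_false]
    exact notMem_zero w
  | cons e l ih =>
    rw [lsum, mem_plus, ih]
    simp

theorem sh_lsum_le (l : List (GExp α)) (h : ℕ) (hl : ∀ e ∈ l, e.sh ≤ h) : (lsum l).sh ≤ h := by
  induction l with
  | nil => simp [lsum, GExp.sh]
  | cons e l ih =>
    have h1 := hl e List.mem_cons_self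
    have h2 := ih (fun e he => hl e (List.mem_cons_of_mem _ he))
    simp only [lsum, GExp.sh]
    omega

variable [Fintype α]

/-- The union of the expressions `f a` over all letters `a`. -/
noncomputable def asum (f : α → GExp α) : GExp α := lsum (Finset.univ.toList.map f)

theorem mem_asum (f : α → GExp α) (w : List α) :
    w ∈ (asum f).lang ↔ ∃ a, w ∈ (f a).lang := by
  rw [asum, mem_lsum]
  constructor
  · rintro ⟨e, he, hw⟩
    obtain ⟨a, -, rfl⟩ := List.mem_map.1 he
    exact ⟨a, hw⟩
  · rintro ⟨a, hw⟩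
    exact ⟨f a, List.mem_map.2 ⟨a, Finset.mem_toList.2 (Finset.mem_univ a), rfl⟩, hw⟩

theorem sh_asum_le (f : α → GExp α) (h : ℕ) (hf : ∀ a, (f a).sh ≤ h) : (asum f).sh ≤ h := by
  apply sh_lsum_le
  intro e he
  obtain ⟨a, -, rfl⟩ := List.mem_map.1 he
  exact hf a

/-- The words all of whose letters satisfy `S`. -/
noncomputable def allIn (S : α → Prop) [DecidablePred S] : GExp α :=
  .neg (.comp top (.comp (asum (fun a => if S a then .zero else .letter a)) top))

theorem mem_allIn (S : α → Prop) [DecidablePred S] (w : List α) :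
    w ∈ (allIn S).lang ↔ ∀ c ∈ w, S c := by
  rw [allIn, mem_neg, mem_comp]
  constructor
  · intro h c hc
    by_contra hS
    apply h
    obtain ⟨s, t, rfl⟩ := List.mem_iff_append.1 hc
    refine ⟨s, c :: t, rfl, mem_top' s, ?_⟩
    rw [mem_comp]
    refine ⟨[c], t, rfl, ?_, mem_top' t⟩
    rw [mem_asum]
    exact ⟨c, by rw [if_neg hS]; exact (mem_letter c _).2 rfl⟩
  · rintro h ⟨u, v, rfl, -, hv⟩
    rw [mem_comp] at hv
    obtain ⟨x, t, rfl, hx, -⟩ := hv
    rw [mem_asum] at hx
    obtain ⟨a, ha⟩ := hx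
    by_cases hS : S a
    · rw [if_pos hS] at ha
      exact notMem_zero _ ha
    · rw [if_neg hS, mem_letter] at ha
      subst ha
      exact hS (h a (by simp))

theorem sh_allIn (S : α → Prop) [DecidablePred S] : (allIn S).sh = 0 := by
  have h1 : (asum (fun a => if S a then (GExp.zero : GExp α) else .letter a)).sh ≤ 0 := by
    apply sh_asum_le
    intro a
    split_ifs <;> simp [GExp.sh]
  simp only [allIn, GExp.sh, top]
  omega

end Basic

section Runs

variable {α : Type} {Q : Type}

/-- The state reached from `p` by reading the word `w`. -/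
def run (δ : Q → α → Q) (p : Q) (w : List α) : Q := w.foldl δ p

@[simp] theorem run_nil (δ : Q → α → Q) (p : Q) : run δ p [] = p := rfl

@[simp] theorem run_cons (δ : Q → α → Q) (p : Q) (a : α) (w : List α) :
    run δ p (a :: w) = run δ (δ p a) w := rfl

theorem run_append (δ : Q → α → Q) (p : Q) (u v : List α) :
    run δ p (u ++ v) = run δ (run δ p u) v := by
  simp [run, List.foldl_append]

/-- All the states met when reading `w` from `q`, both ends included, differ from `o`. -/
def avoids (δ : Q → α → Q) (o : Q) : Q → List α → Prop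
  | q, [] => q ≠ o
  | q, a :: w => q ≠ o ∧ avoids δ o (δ q a) w

theorem avoids_ne (δ : Q → α → Q) (o q : Q) (w : List α) (h : avoids δ o q w) : q ≠ o := by
  cases w with
  | nil => exact h
  | cons a w => exact h.1

theorem avoids_append (δ : Q → α → Q) (o q : Q) (u v : List α) :
    avoids δ o q (u ++ v) ↔ avoids δ o q u ∧ avoids δ o (run δ q u) v := by
  induction u generalizing q with
  | nil =>
    simp only [List.nil_append, run_nil, avoids]
    exact ⟨fun h => ⟨avoids_ne δ o q v h, h⟩, fun h => h.2⟩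
  | cons a u ih =>
    simp only [List.cons_append, avoids, run_cons, ih, and_assoc]

theorem avoids_run_ne (δ : Q → α → Q) (o q : Q) (w : List α) (h : avoids δ o q w) :
    run δ q w ≠ o := by
  induction w generalizing q with
  | nil => exact h
  | cons a w ih => exact ih (δ q a) h.2

theorem run_stay (δ : Q → α → Q) (q : Q) (u : List α) (h : ∀ c ∈ u, δ q c = q) :
    run δ q u = q := by
  induction u with
  | nil => rfl
  | cons a u ih =>
    rw [run_cons, h a (by simp)]
    exact ih (fun c hc => h c (by simp [hc]))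

theorem avoids_stay (δ : Q → α → Q) (o q : Q) (hq : q ≠ o) (u : List α)
    (h : ∀ c ∈ u, δ q c = q) : avoids δ o q u := by
  induction u with
  | nil => exact hq
  | cons a u ih =>
    refine ⟨hq, ?_⟩
    rw [h a (by simp)]
    exact ih (fun c hc => h c (by simp [hc]))

theorem split_pred (S : α → Prop) (w : List α) :
    (∀ c ∈ w, S c) ∨ ∃ u b v, w = u ++ b :: v ∧ (∀ c ∈ u, S c) ∧ ¬ S b := by
  induction w with
  | nil => left; simp
  | cons a w ih =>
    by_cases ha : S a
    · rcases ih with h | ⟨u, b, v, rfl, hu, hb⟩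
      · left
        intro c hc
        rcases List.mem_cons.1 hc with rfl | hc
        · exact ha
        · exact h c hc
      · right
        refine ⟨a :: u, b, v, rfl, ?_, hb⟩
        intro c hc
        rcases List.mem_cons.1 hc with rfl | hc
        · exact ha
        · exact hu c hc
    · right
      exact ⟨[], a, w, rfl, by simp, ha⟩

/-- The run of `w` from `q` meets `o` for the first time exactly at its end. -/
def Hit (δ : Q → α → Q) (o q : Q) (w : List α) : Prop :=
  ∃ u b, w = u ++ [b] ∧ avoids δ o q u ∧ δ (run δ q u) b = o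

theorem run_of_hit (δ : Q → α → Q) (o q : Q) (w : List α) (h : Hit δ o q w) :
    run δ q w = o := by
  obtain ⟨u, b, rfl, -, hb⟩ := h
  rw [run_append]
  exact hb

theorem avoid_or_hit (δ : Q → α → Q) (o q : Q) (hq : q ≠ o) (w : List α) :
    avoids δ o q w ∨ ∃ u b v, w = u ++ b :: v ∧ avoids δ o q u ∧ δ (run δ q u) b = o := by
  induction w generalizing q with
  | nil => left; exact hq
  | cons c w ih =>
    by_cases hc : δ q c = o
    · right
      exact ⟨[], c, w, rfl, hq, hc⟩
    · rcases ih (δ q c) hc with h | ⟨u, b, v, rfl, hu, hb⟩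
      · left; exact ⟨hq, h⟩
      · right
        exact ⟨c :: u, b, v, rfl, ⟨hq, hu⟩, hb⟩

theorem avoid_char (δ : Q → α → Q) (o q q' : Q) (hq : q ≠ o) (w : List α) :
    (avoids δ o q w ∧ run δ q w = q') ↔
      ∃ u v, w = u ++ v ∧ (∀ c ∈ u, δ q c = q) ∧
        ((v = [] ∧ q = q') ∨ ∃ a v', v = a :: v' ∧ (δ q a ≠ q ∧ δ q a ≠ o) ∧
          (avoids δ o (δ q a) v' ∧ run δ (δ q a) v' = q')) := by
  constructor
  · rintro ⟨hav, hrun⟩
    rcases split_pred (fun c => δ q c = q) w with h | ⟨u, b, v, rfl, hu, hb⟩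
    · refine ⟨w, [], by simp, h, Or.inl ⟨rfl, ?_⟩⟩
      rw [← hrun, run_stay δ q w h]
    · refine ⟨u, b :: v, rfl, hu, Or.inr ⟨b, v, rfl, ?_, ?_⟩⟩
      · have h1 := (avoids_append δ o q u (b :: v)).1 hav
        rw [run_stay δ q u hu] at h1
        exact ⟨hb, avoids_ne δ o _ v h1.2.2⟩
      · have h1 := (avoids_append δ o q u (b :: v)).1 hav
        rw [run_stay δ q u hu] at h1
        refine ⟨h1.2.2, ?_⟩
        rw [run_append, run_stay δ q u hu] at hrun
        exact hrun
  · rintro ⟨u, v, rfl, hu, h | ⟨a, v', rfl, -, hav, hrun⟩⟩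
    · obtain ⟨rfl, rfl⟩ := h
      rw [List.append_nil]
      exact ⟨avoids_stay δ o q hq u hu, run_stay δ q u hu⟩
    · refine ⟨?_, ?_⟩
      · rw [avoids_append, run_stay δ q u hu]
        exact ⟨avoids_stay δ o q hq u hu, hq, hav⟩
      · rw [run_append, run_stay δ q u hu]
        exact hrun

theorem hit_char (δ : Q → α → Q) (o q : Q) (hq : q ≠ o) (w : List α) :
    Hit δ o q w ↔
      ∃ u v, w = u ++ v ∧ (∀ c ∈ u, δ q c = q) ∧
        ∃ a, (δ q a = o ∧ v = [a]) ∨
          (δ q a ≠ o ∧ δ q a ≠ q ∧ ∃ v', v = a :: v' ∧ Hit δ o (δ q a) v') := by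
  constructor
  · rintro ⟨u0, b, rfl, hav, hb⟩
    rcases split_pred (fun c => δ q c = q) u0 with h | ⟨u, a, v, rfl, hu, ha⟩
    · refine ⟨u0, [b], rfl, h, b, Or.inl ⟨?_, rfl⟩⟩
      rw [run_stay δ q u0 h] at hb
      exact hb
    · have h1 := (avoids_append δ o q u (a :: v)).1 hav
      rw [run_stay δ q u hu] at h1
      refine ⟨u, a :: (v ++ [b]), by simp, hu, a, Or.inr ⟨avoids_ne δ o _ v h1.2.2, ha, v ++ [b], rfl, ?_⟩⟩
      refine ⟨v, b, rfl, h1.2.2, ?_⟩
      rw [run_append, run_stay δ q u hu] at hb
      exact hb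
  · rintro ⟨u, v, rfl, hu, a, ⟨ha, rfl⟩ | ⟨-, -, v', rfl, u', b, rfl, hav, hb⟩⟩
    · refine ⟨u, a, rfl, avoids_stay δ o q hq u hu, ?_⟩
      rw [run_stay δ q u hu]
      exact ha
    · refine ⟨u ++ a :: u', b, by simp, ?_, ?_⟩
      · rw [avoids_append, run_stay δ q u hu]
        exact ⟨avoids_stay δ o q hq u hu, hq, hav⟩
      · rw [run_append, run_stay δ q u hu]
        exact hb

end Runs

section Expr

variable {α : Type} [Fintype α] {Q : Type} [DecidableEq Q]

/-- The runs from `q` that avoid `o` and the runs from `q` that meet `o` for the first time at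
their end are both denoted by star-free expressions. -/
def Good (δ : Q → α → Q) (o q : Q) : Prop :=
  (∀ q', ∃ e : GExp α, e.sh = 0 ∧ ∀ w, w ∈ e.lang ↔ (avoids δ o q w ∧ run δ q w = q')) ∧
  (∃ e : GExp α, e.sh = 0 ∧ ∀ w, w ∈ e.lang ↔ Hit δ o q w)

theorem good_step (δ : Q → α → Q) (o q : Q) (hq : q ≠ o)
    (hup : ∀ a, δ q a ≠ q → δ q a ≠ o → Good δ o (δ q a)) : Good δ o q := by
  constructor
  · intro q'
    have hex : ∀ a, ∃ e : GExp α, (δ q a ≠ q ∧ δ q a ≠ o) →
        (e.sh = 0 ∧ ∀ w, w ∈ e.lang ↔ (avoids δ o (δ q a) w ∧ run δ (δ q a) w = q')) := by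
      intro a
      by_cases h1 : δ q a ≠ q ∧ δ q a ≠ o
      · obtain ⟨e, he⟩ := (hup a h1.1 h1.2).1 q'
        exact ⟨e, fun _ => he⟩
      · exact ⟨.zero, fun h2 => absurd h2 h1⟩
    choose f hf using hex
    refine ⟨.comp (allIn (fun c => δ q c = q))
      (.plus (if q = q' then .one else .zero)
        (asum (fun a => if δ q a ≠ q ∧ δ q a ≠ o then .comp (.letter a) (f a) else .zero))),
      ?_, ?_⟩
    · have h1 : (asum (fun a => if δ q a ≠ q ∧ δ q a ≠ o then GExp.comp (.letter a) (f a)
          else .zero)).sh ≤ 0 := by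
        apply sh_asum_le
        intro a
        split_ifs with h2
        · simp [GExp.sh, (hf a h2).1]
        · simp [GExp.sh]
      have h2 : (if q = q' then (GExp.one : GExp α) else .zero).sh = 0 := by
        split_ifs <;> rfl
      simp only [GExp.sh, sh_allIn, h2]
      omega
    · intro w
      rw [avoid_char δ o q q' hq w, mem_comp]
      constructor
      · rintro ⟨u, v, rfl, hu, hv⟩
        refine ⟨u, v, rfl, (mem_allIn _ u).1 hu, ?_⟩
        rw [mem_plus] at hv
        rcases hv with hv | hv
        · left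
          split_ifs at hv with hqq
          · exact ⟨(mem_one v).1 hv, hqq⟩
          · exact absurd hv (notMem_zero v)
        · right
          rw [mem_asum] at hv
          obtain ⟨a, ha⟩ := hv
          split_ifs at ha with h2
          · rw [mem_letter_comp] at ha
            obtain ⟨v', rfl, hv'⟩ := ha
            exact ⟨a, v', rfl, h2, ((hf a h2).2 v').1 hv'⟩
          · exact absurd ha (notMem_zero v)
      · rintro ⟨u, v, rfl, hu, hv⟩
        refine ⟨u, v, rfl, (mem_allIn _ u).2 hu, ?_⟩
        rw [mem_plus]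
        rcases hv with ⟨rfl, hqq⟩ | ⟨a, v', rfl, h2, hv'⟩
        · left
          rw [if_pos hqq]
          exact (mem_one _).2 rfl
        · right
          rw [mem_asum]
          refine ⟨a, ?_⟩
          rw [if_pos h2, mem_letter_comp]
          exact ⟨v', rfl, ((hf a h2).2 v').2 hv'⟩
  · have hex : ∀ a, ∃ e : GExp α, (δ q a ≠ o ∧ δ q a ≠ q) →
        (e.sh = 0 ∧ ∀ w, w ∈ e.lang ↔ Hit δ o (δ q a) w) := by
      intro a
      by_cases h1 : δ q a ≠ o ∧ δ q a ≠ q
      · obtain ⟨e, he⟩ := (hup a h1.2 h1.1).2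
        exact ⟨e, fun _ => he⟩
      · exact ⟨.zero, fun h2 => absurd h2 h1⟩
    choose g hg using hex
    refine ⟨.comp (allIn (fun c => δ q c = q))
      (asum (fun a => if δ q a = o then .letter a else
        if δ q a = q then .zero else .comp (.letter a) (g a))), ?_, ?_⟩
    · have h1 : (asum (fun a => if δ q a = o then GExp.letter a else
          if δ q a = q then .zero else .comp (.letter a) (g a))).sh ≤ 0 := by
        apply sh_asum_le
        intro a
        split_ifs with h2 h3
        · simp [GExp.sh]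
        · simp [GExp.sh]
        · simp [GExp.sh, (hg a ⟨h2, h3⟩).1]
      simp only [GExp.sh, sh_allIn]
      omega
    · intro w
      rw [hit_char δ o q hq w, mem_comp]
      constructor
      · rintro ⟨u, v, rfl, hu, hv⟩
        refine ⟨u, v, rfl, (mem_allIn _ u).1 hu, ?_⟩
        rw [mem_asum] at hv
        obtain ⟨a, ha⟩ := hv
        refine ⟨a, ?_⟩
        split_ifs at ha with h2 h3
        · exact Or.inl ⟨h2, (mem_letter a v).1 ha⟩
        · exact absurd ha (notMem_zero v)
        · rw [mem_letter_comp] at ha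
          obtain ⟨v', rfl, hv'⟩ := ha
          exact Or.inr ⟨h2, h3, v', rfl, ((hg a ⟨h2, h3⟩).2 v').1 hv'⟩
      · rintro ⟨u, v, rfl, hu, a, h⟩
        refine ⟨u, v, rfl, (mem_allIn _ u).2 hu, ?_⟩
        rw [mem_asum]
        refine ⟨a, ?_⟩
        rcases h with ⟨ha, rfl⟩ | ⟨h2, h3, v', rfl, hv'⟩
        · rw [if_pos ha]
          exact (mem_letter a _).2 rfl
        · rw [if_neg h2, if_neg h3, mem_letter_comp]
          exact ⟨v', rfl, ((hg a ⟨h2, h3⟩).2 v').2 hv'⟩

theorem good_of_rank (δ : Q → α → Q) (o : Q) (r : Q → ℕ)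
    (h : ∀ q a, q ≠ o → δ q a = q ∨ δ q a = o ∨ r q < r (δ q a)) (M : ℕ)
    (hM : ∀ q, r q ≤ M) : ∀ n q, q ≠ o → M ≤ r q + n → Good δ o q := by
  intro n
  induction n with
  | zero =>
    intro q hq hMq
    apply good_step δ o q hq
    intro a h1 h2
    rcases h q a hq with h3 | h3 | h3
    · exact absurd h3 h1
    · exact absurd h3 h2
    · have := hM (δ q a)
      omega
  | succ n ih =>
    intro q hq hMq
    apply good_step δ o q hq
    intro a h1 h2
    rcases h q a hq with h3 | h3 | h3
    · exact absurd h3 h1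
    · exact absurd h3 h2
    · exact ih (δ q a) h2 (by omega)

/-- A first return block at `o`: a letter fixing `o`, or a letter leaving `o` followed by a
run that comes back to `o` for the first time at its end. -/
def IsBlock (δ : Q → α → Q) (o : Q) (w : List α) : Prop :=
  ∃ a, (δ o a = o ∧ w = [a]) ∨ (δ o a ≠ o ∧ ∃ v, w = a :: v ∧ Hit δ o (δ o a) v)

theorem run_block (δ : Q → α → Q) (o : Q) (w : List α) (h : IsBlock δ o w) :
    run δ o w = o := by
  obtain ⟨a, ⟨ha, rfl⟩ | ⟨-, v, rfl, hv⟩⟩ := h
  · simpa using ha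
  · rw [run_cons]
    exact run_of_hit δ o _ v hv

theorem run_blocks (δ : Q → α → Q) (o : Q) (S : List (List α))
    (h : ∀ y ∈ S, IsBlock δ o y) : run δ o S.flatten = o := by
  induction S with
  | nil => rfl
  | cons y S ih =>
    rw [List.flatten_cons, run_append, run_block δ o y (h y (by simp))]
    exact ih (fun z hz => h z (by simp [hz]))

theorem decomp (δ : Q → α → Q) (o : Q) : ∀ n (w : List α), w.length ≤ n →
    ∃ (S : List (List α)) (t : List α), w = S.flatten ++ t ∧ (∀ y ∈ S, IsBlock δ o y) ∧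
      (t = [] ∨ ∃ a u, t = a :: u ∧ δ o a ≠ o ∧ avoids δ o (δ o a) u) := by
  intro n
  induction n with
  | zero =>
    intro w hw
    have : w = [] := List.length_eq_zero_iff.1 (by omega)
    subst this
    exact ⟨[], [], rfl, by simp, Or.inl rfl⟩
  | succ n ih =>
    intro w hw
    cases w with
    | nil => exact ⟨[], [], rfl, by simp, Or.inl rfl⟩
    | cons a w' =>
      have hw' : w'.length ≤ n := by simpa using hw
      by_cases ha : δ o a = o
      · obtain ⟨S, t, rfl, hS, ht⟩ := ih w' hw'
        refine ⟨[a] :: S, t, by simp, ?_, ht⟩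
        intro y hy
        rcases List.mem_cons.1 hy with rfl | hy
        · exact ⟨a, Or.inl ⟨ha, rfl⟩⟩
        · exact hS y hy
      · rcases avoid_or_hit δ o (δ o a) ha w' with hav | ⟨u, b, v, rfl, hu, hb⟩
        · exact ⟨[], a :: w', rfl, by simp, Or.inr ⟨a, w', rfl, ha, hav⟩⟩
        · have hv : v.length ≤ n := by
            simp only [List.length_append, List.length_cons] at hw'
            omega
          obtain ⟨S, t, rfl, hS, ht⟩ := ih v hv
          refine ⟨(a :: (u ++ [b])) :: S, t, by simp, ?_, ht⟩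
          intro y hy
          rcases List.mem_cons.1 hy with rfl | hy
          · exact ⟨a, Or.inr ⟨ha, u ++ [b], rfl, u, b, rfl, hu, hb⟩⟩
          · exact hS y hy

theorem reach (δ : Q → α → Q) (o : Q) (hgood : ∀ q, q ≠ o → Good δ o q) (p q' : Q) :
    ∃ e : GExp α, e.sh ≤ 1 ∧ ∀ w, w ∈ e.lang ↔ run δ p w = q' := by
  have hexP : ∀ q, ∃ e : GExp α, q ≠ o → (e.sh = 0 ∧ ∀ w, w ∈ e.lang ↔ Hit δ o q w) := by
    intro q
    by_cases hq : q ≠ o
    · obtain ⟨e, he⟩ := (hgood q hq).2
      exact ⟨e, fun _ => he⟩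
    · exact ⟨.zero, fun h => absurd h hq⟩
  choose P hP using hexP
  have hexA : ∀ q, ∃ e : GExp α, q ≠ o →
      (e.sh = 0 ∧ ∀ w, w ∈ e.lang ↔ (avoids δ o q w ∧ run δ q w = q')) := by
    intro q
    by_cases hq : q ≠ o
    · obtain ⟨e, he⟩ := (hgood q hq).1 q'
      exact ⟨e, fun _ => he⟩
    · exact ⟨.zero, fun h => absurd h hq⟩
  choose A hA using hexA
  -- the first return code at `o`
  have hC : ∃ C : GExp α, C.sh = 0 ∧ ∀ w, w ∈ C.lang ↔ IsBlock δ o w := by
    refine ⟨asum (fun a => if δ o a = o then .letter a else .comp (.letter a) (P (δ o a))),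
      ?_, ?_⟩
    · have h1 : (asum (fun a => if δ o a = o then GExp.letter a
          else .comp (.letter a) (P (δ o a)))).sh ≤ 0 := by
        apply sh_asum_le
        intro a
        split_ifs with h2
        · simp [GExp.sh]
        · simp [GExp.sh, (hP (δ o a) h2).1]
      omega
    · intro w
      rw [mem_asum]
      constructor
      · rintro ⟨a, ha⟩
        refine ⟨a, ?_⟩
        split_ifs at ha with h2
        · exact Or.inl ⟨h2, (mem_letter a w).1 ha⟩
        · rw [mem_letter_comp] at ha
          obtain ⟨v, rfl, hv⟩ := ha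
          exact Or.inr ⟨h2, v, rfl, ((hP (δ o a) h2).2 v).1 hv⟩
      · rintro ⟨a, ⟨ha, rfl⟩ | ⟨h2, v, rfl, hv⟩⟩
        · refine ⟨a, ?_⟩
          rw [if_pos ha]
          exact (mem_letter a _).2 rfl
        · refine ⟨a, ?_⟩
          rw [if_neg h2, mem_letter_comp]
          exact ⟨v, rfl, ((hP (δ o a) h2).2 v).2 hv⟩
  obtain ⟨C, hCsh, hCmem⟩ := hC
  have hstar : ∀ s, s ∈ (GExp.star C).lang → run δ o s = o := by
    intro s hs
    rw [mem_star] at hs
    obtain ⟨S, rfl, hS⟩ := hs
    exact run_blocks δ o S (fun y hy => (hCmem y).1 (hS y hy))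
  -- runs from `o`
  have hO : ∃ e : GExp α, e.sh ≤ 1 ∧ ∀ w, w ∈ e.lang ↔ run δ o w = q' := by
    by_cases hq' : q' = o
    · subst hq'
      refine ⟨.star C, by simp [GExp.sh, hCsh], fun w => ⟨hstar w, fun hw => ?_⟩⟩
      obtain ⟨S, t, rfl, hS, ht⟩ := decomp δ q' w.length w le_rfl
      rcases ht with rfl | ⟨a, u, rfl, ha, hu⟩
      · rw [List.append_nil, mem_star]
        exact ⟨S, rfl, fun y hy => (hCmem y).2 (hS y hy)⟩
      · rw [run_append, run_blocks δ q' S hS, run_cons] at hw
        exact absurd hw (avoids_run_ne δ q' _ u hu)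
    · refine ⟨.comp (.star C)
        (asum (fun a => if δ o a = o then .zero else .comp (.letter a) (A (δ o a)))), ?_, ?_⟩
      · have h1 : (asum (fun a => if δ o a = o then (GExp.zero : GExp α)
            else .comp (.letter a) (A (δ o a)))).sh ≤ 0 := by
          apply sh_asum_le
          intro a
          split_ifs with h2
          · simp [GExp.sh]
          · simp [GExp.sh, (hA (δ o a) h2).1]
        simp only [GExp.sh, hCsh]
        omega
      · intro w
        rw [mem_comp]
        constructor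
        · rintro ⟨s, v, rfl, hs, hv⟩
          rw [mem_asum] at hv
          obtain ⟨a, ha⟩ := hv
          split_ifs at ha with h2
          · exact absurd ha (notMem_zero v)
          · rw [mem_letter_comp] at ha
            obtain ⟨v', rfl, hv'⟩ := ha
            rw [run_append, hstar s hs, run_cons]
            exact (((hA (δ o a) h2).2 v').1 hv').2
        · intro hw
          obtain ⟨S, t, rfl, hS, ht⟩ := decomp δ o w.length w le_rfl
          rcases ht with rfl | ⟨a, u, rfl, ha, hu⟩
          · rw [List.append_nil, run_blocks δ o S hS] at hw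
            exact absurd hw.symm hq'
          · rw [run_append, run_blocks δ o S hS, run_cons] at hw
            refine ⟨S.flatten, a :: u, rfl, ?_, ?_⟩
            · rw [mem_star]
              exact ⟨S, rfl, fun y hy => (hCmem y).2 (hS y hy)⟩
            · rw [mem_asum]
              refine ⟨a, ?_⟩
              rw [if_neg ha, mem_letter_comp]
              exact ⟨u, rfl, ((hA (δ o a) ha).2 u).2 ⟨hu, hw⟩⟩
  by_cases hp : p = o
  · subst hp
    exact hO
  · obtain ⟨E, hEsh, hEmem⟩ := hO
    refine ⟨.plus (A p) (.comp (P p) E), ?_, ?_⟩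
    · simp only [GExp.sh, (hA p hp).1, (hP p hp).1]
      omega
    · intro w
      rw [mem_plus, mem_comp]
      constructor
      · rintro (hw | ⟨w1, w2, rfl, h1, h2⟩)
        · exact (((hA p hp).2 w).1 hw).2
        · rw [run_append, run_of_hit δ o p w1 (((hP p hp).2 w1).1 h1)]
          exact (hEmem w2).1 h2
      · intro hw
        rcases avoid_or_hit δ o p hp w with hav | ⟨u, b, v, rfl, hu, hb⟩
        · exact Or.inl (((hA p hp).2 w).2 ⟨hav, hw⟩)
        · right
          refine ⟨u ++ [b], v, by simp, ((hP p hp).2 _).2 ⟨u, b, rfl, hu, hb⟩, (hEmem v).2 ?_⟩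
          rw [run_append, run_cons, hb] at hw
          exact hw

end Expr

/-- Main statement for automata: if every letter sends every state other than `o` to itself,
to `o`, or to a state of larger rank, then every language accepted by the automaton has
generalized star height at most one. -/
theorem reset_automaton (α Q : Type) [Fintype α] [DecidableEq α] [Fintype Q] [DecidableEq Q]
    (δ : Q → α → Q) (o : Q) (r : Q → ℕ)
    (h : ∀ q a, q ≠ o → δ q a = q ∨ δ q a = o ∨ r q < r (δ q a)) (p : Q) (F : Set Q) :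
    ∃ e : GExp α, e.sh ≤ 1 ∧ ∀ w : List α, w ∈ e.lang ↔ w.foldl δ p ∈ F := by
  have hM : ∀ q, r q ≤ Finset.univ.sup r := fun q => Finset.le_sup (Finset.mem_univ q)
  have hgood : ∀ q, q ≠ o → Good δ o q := fun q hq =>
    good_of_rank δ o r h (Finset.univ.sup r) hM (Finset.univ.sup r) q hq (by omega)
  choose E hE using fun q' => reach δ o hgood p q'
  refine saturated_list 1 (Finset.univ.toList.map E) ?_ {w | w.foldl δ p ∈ F} ?_
  · intro t ht
    obtain ⟨q', -, rfl⟩ := List.mem_map.1 ht
    exact (hE q').1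
  · intro w w' hww
    have key : run δ p w = run δ p w' := by
      have ht : E (run δ p w) ∈ Finset.univ.toList.map E :=
        List.mem_map.2 ⟨_, Finset.mem_toList.2 (Finset.mem_univ _), rfl⟩
      have h1 := (hww _ ht).1 (((hE (run δ p w)).2 w).2 rfl)
      exact (((hE (run δ p w)).2 w').1 h1).symm
    show run δ p w ∈ F ↔ run δ p w' ∈ F
    rw [key]

end Vale.Agent.Lib.P329
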