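import Vale.Agent.Lib.P329.Prime3

/-!
# P329: phase counts for weights zero and one, modulo any number of phases

If every letter has weight `0` or `1` in `ZMod M` (no assumption on `M` besides `M ≠ 0`), the
phase automaton with marked returns to phase zero has a counter-free automaton of unmarked
transitions: a run without marked transitions that starts at a nonzero phase cannot wrap
around. Hence the number of occurrences of a letter of weight zero read at a given phase is
determined modulo any `N` by finitely many tests of star height at most one.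
-/

namespace Vale.Agent.Lib.P329

section ZeroOne

variable {α : Type} [DecidableEq α] {M : ℕ}

/-- The number of letters of nonzero weight. -/
def wn (ω : α → ZMod M) (w : List α) : ℕ := (w.map (fun a => if ω a = 0 then 0 else 1)).sum

omit [DecidableEq α] in
theorem wn_nil (ω : α → ZMod M) : wn ω [] = 0 := rfl

omit [DecidableEq α] in
theorem wn_cons (ω : α → ZMod M) (a : α) (w : List α) :
    wn ω (a :: w) = (if ω a = 0 then 0 else 1) + wn ω w := by
  simp [wn]

omit [DecidableEq α] in
theorem wn_append (ω : α → ZMod M) (u v : List α) : wn ω (u ++ v) = wn ω u + wn ω v := by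
  simp [wn]

omit [DecidableEq α] in
theorem wn_rep (ω : α → ZMod M) (n : ℕ) (u : List α) : wn ω (rep n u) = n * wn ω u := by
  induction n with
  | zero => simp [rep_zero, wn_nil]
  | succ n ih =>
    rw [rep_succ, wn_append, ih]
    ring

omit [DecidableEq α] in
theorem wz_eq_wn (ω : α → ZMod M) (hω : ∀ a, ω a = 0 ∨ ω a = 1) (w : List α) :
    wz ω w = ((wn ω w : ℕ) : ZMod M) := by
  induction w with
  | nil => simp [wz_nil, wn_nil]
  | cons a w ih =>
    rw [wz_cons, wn_cons, ih]
    rcases hω a with h | h
    · rw [if_pos h, h]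
      simp
    · by_cases h0 : ω a = 0
      · rw [if_pos h0, h0]
        simp
      · rw [if_neg h0, h]
        push_cast
        ring

/-- A run without marked transitions from a nonzero phase does not wrap around. -/
theorem no_wrap (ω : α → ZMod M) (hω : ∀ a, ω a = 0 ∨ ω a = 1) (b : α) (wb : Bool)
    (w : List α) : ∀ k : ℕ, 0 < k → k < M →
      cntN (DRp ω) (CRp ω b wb) ((k : ℕ) : ZMod M) w = 0 → k + wn ω w < M := by
  induction w with
  | nil =>
    intro k _ hk _
    rw [wn_nil]
    omega
  | cons a w ih =>
    intro k hk0 hkM hc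
    have hc' : (if CRp ω b wb ((k : ℕ) : ZMod M) a = true then 1 else 0) +
        cntN (DRp ω) (CRp ω b wb) (DRp ω ((k : ℕ) : ZMod M) a) w = 0 := hc
    have h1 : CRp ω b wb ((k : ℕ) : ZMod M) a = false := by
      by_contra hne
      have : CRp ω b wb ((k : ℕ) : ZMod M) a = true := by
        cases hcr : CRp ω b wb ((k : ℕ) : ZMod M) a with
        | true => rfl
        | false => exact absurd hcr hne
      rw [if_pos this] at hc'
      omega
    have h2 : cntN (DRp ω) (CRp ω b wb) (DRp ω ((k : ℕ) : ZMod M) a) w = 0 := by omega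
    rw [wn_cons]
    by_cases h0 : ω a = 0
    · rw [if_pos h0]
      have e : DRp ω ((k : ℕ) : ZMod M) a = ((k : ℕ) : ZMod M) := by
        unfold DRp
        rw [h0, add_zero]
      rw [e] at h2
      have := ih k hk0 hkM h2
      omega
    · rw [if_neg h0]
      have h1' : ω a = 1 := by
        rcases hω a with h | h
        · exact absurd h h0
        · exact h
      have e : DRp ω ((k : ℕ) : ZMod M) a = ((k + 1 : ℕ) : ZMod M) := by
        unfold DRp
        rw [h1']
        push_cast
        rfl
      have hne : ((k + 1 : ℕ) : ZMod M) ≠ 0 := by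
        intro hz
        unfold CRp at h1
        rw [if_neg h0, h1'] at h1
        have : ((k : ℕ) : ZMod M) + 1 = 0 := by
          have := hz
          push_cast at this
          exact this
        simp [this] at h1
      have hk1 : k + 1 < M := by
        by_contra hge
        have hkeq : k + 1 = M := by omega
        apply hne
        rw [hkeq]
        exact ZMod.natCast_self M
      rw [e] at h2
      have := ih (k + 1) (by omega) hk1 h2
      omega

/-- The automaton of the unmarked transitions of the phase automaton is counter-free when all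
weights are zero or one. -/
theorem cf_R01 [NeZero M] (ω : α → ZMod M) (hω : ∀ a, ω a = 0 ∨ ω a = 1) (b : α)
    (wb : Bool) : CF (dUnc (DRp ω) (CRp ω b wb)) := by
  apply cf_of_phase (DRp ω) (CRp ω b wb) (fun s => s) ω (fun _ => 0) 0
  · intro q a
    rfl
  · intro q a ha
    show q + ω a = q
    rw [ha, add_zero]
  · intro q a _ h
    exact h
  · intro q a _ _
    exact le_rfl
  · intro q q' h _
    exact h
  · intro s u m hw hper
    obtain ⟨x, hx, hx0⟩ := exists_nonzero_letter ω u hw
    obtain ⟨u₁, u₂, hu⟩ := List.append_of_mem hx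
    rw [hu] at hper
    have hr := hper.rot
    obtain ⟨hc, -, -⟩ := hr.first
    have hr' : Per (DRp ω) (CRp ω b wb) (run (DRp ω) s u₁) ([x] ++ (u₂ ++ u₁)) (m + 1) := hr
    have hr2 := hr'.rot
    have ht : run (DRp ω) (run (DRp ω) s u₁) [x] = run (DRp ω) s u₁ + ω x := rfl
    rw [ht] at hr2
    have htne : run (DRp ω) s u₁ + ω x ≠ 0 := by
      intro hz
      unfold CRp at hc
      rw [if_neg hx0] at hc
      simp [hz] at hc
    obtain ⟨hrun, hcnt⟩ := hr2
    have hMpos : 0 < M := Nat.pos_of_ne_zero (NeZero.ne M)
    have hval : (((run (DRp ω) s u₁ + ω x).val : ℕ) : ZMod M) = run (DRp ω) s u₁ + ω x :=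
      ZMod.natCast_zmod_val _
    have hpos : 0 < (run (DRp ω) s u₁ + ω x).val := (ZMod.val_pos).2 htne
    have hlt : (run (DRp ω) s u₁ + ω x).val < M := ZMod.val_lt _
    rw [← hval] at hcnt
    have hnw := no_wrap ω hω b wb _ _ hpos hlt hcnt
    rw [run_DRp] at hrun
    have hz : wz ω (rep (m + 1) (u₂ ++ u₁ ++ [x])) = 0 := by
      have := hrun
      exact add_eq_left.1 this
    rw [wz_eq_wn ω hω] at hz
    have hdvd : M ∣ wn ω (rep (m + 1) (u₂ ++ u₁ ++ [x])) :=
      (ZMod.natCast_eq_zero_iff _ _).1 hz
    have hzero : wn ω (rep (m + 1) (u₂ ++ u₁ ++ [x])) = 0 :=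
      Nat.eq_zero_of_dvd_of_lt hdvd (by omega)
    rw [wn_rep] at hzero
    have hv : wn ω (u₂ ++ u₁ ++ [x]) = 0 := by
      rcases Nat.mul_eq_zero.1 hzero with h | h
      · omega
      · exact h
    apply hw
    rw [hu, wz_eq_wn ω hω]
    have e : wn ω (u₁ ++ x :: u₂) = wn ω (u₂ ++ u₁ ++ [x]) := by
      rw [wn_append, wn_cons, wn_append, wn_append, wn_cons, wn_nil]
      omega
    rw [e, hv]
    simp

end ZeroOne

section Det01

variable {α : Type} [Fintype α] [DecidableEq α] {M : ℕ} [NeZero M]

theorem detects_tcz01 (ω : α → ZMod M) (hω : ∀ a, ω a = 0 ∨ ω a = 1) (b : α) (hb : ω b = 0)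
    (c : ZMod M) (N : ℕ) (hN : 0 < N) : Detects (fun w : List α => tcz ω b c w % N) := by
  have h1 := detects_cnt (DRp ω) (CRp ω b true) N hN 0 (fun s a h => CRp_home ω b true s a h)
    (cf_R01 ω hω b true) c
  have h2 := detects_cnt (DRp ω) (CRp ω b false) N hN 0
    (fun s a h => CRp_home ω b false s a h) (cf_R01 ω hω b false) c
  refine (h1.prod h2).of_eq _ ?_
  intro w w' h
  have e1 : cntN (DRp ω) (CRp ω b true) c w % N = cntN (DRp ω) (CRp ω b true) c w' % N :=
    congrArg (fun x => x.1.2) h
  have e2 : cntN (DRp ω) (CRp ω b false) c w % N = cntN (DRp ω) (CRp ω b false) c w' % N :=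
    congrArg (fun x => x.2.2) h
  rw [cnt_Rp ω b hb c w, cnt_Rp ω b hb c w'] at e1
  exact Nat.ModEq.add_left_cancel e2 e1

end Det01

end Vale.Agent.Lib.P329
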