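import Vale.Agent.Lib.P329.Sub2

/-!
# P329: scattered subwords of length at most three

`sc u w` is the number of occurrences of `u` as a scattered subword of `w`. The counts for
`|u| ≤ 3` are expressed by letter counts and pivot sums of letter counts.
-/

namespace Vale.Agent.Lib.P329

section Sub

variable {α : Type} [DecidableEq α]

/-- The number of occurrences of `u` as a scattered subword of `w`. -/
def sc (u w : List α) : ℕ := (List.sublists w).count u

theorem sc_snoc (u w : List α) (c x : α) :
    sc (u ++ [c]) (w ++ [x]) = sc (u ++ [c]) w + (if x = c then sc u w else 0) := by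
  unfold sc
  rw [List.sublists_concat, List.count_append]
  congr 1
  by_cases hx : x = c
  · subst hx
    rw [if_pos rfl]
    exact List.count_map_of_injective _ _ (List.append_left_injective [x]) u
  · rw [if_neg hx]
    apply List.count_eq_zero_of_not_mem
    intro hmem
    obtain ⟨l, -, hl⟩ := List.mem_map.1 hmem
    have := List.append_inj' hl rfl
    simp at this
    exact hx this.2

theorem sc_nil (w : List α) : sc [] w = 1 := by
  induction w using List.reverseRecOn with
  | nil => simp [sc]
  | append_singleton w x ih =>
    unfold sc at ih ⊢
    rw [List.sublists_concat, List.count_append, ih]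
    have : List.count [] (List.map (fun l => l ++ [x]) (List.sublists w)) = 0 := by
      apply List.count_eq_zero_of_not_mem
      intro hmem
      obtain ⟨l, -, hl⟩ := List.mem_map.1 hmem
      simp at hl
    rw [this]

theorem sc_cons_nil (a : α) (u : List α) : sc (a :: u) [] = 0 := by
  simp [sc]

theorem sc1_snoc (a : α) (w : List α) (x : α) :
    sc [a] (w ++ [x]) = sc [a] w + (if x = a then 1 else 0) := by
  have h := sc_snoc [] w a x
  rw [sc_nil] at h
  exact h

theorem sc2_snoc (a b : α) (w : List α) (x : α) :
    sc [a, b] (w ++ [x]) = sc [a, b] w + (if x = b then sc [a] w else 0) :=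
  sc_snoc [a] w b x

theorem sc3_snoc (a b c : α) (w : List α) (x : α) :
    sc [a, b, c] (w ++ [x]) = sc [a, b, c] w + (if x = c then sc [a, b] w else 0) :=
  sc_snoc [a, b] w c x

theorem count_snoc (a : α) (w : List α) (x : α) :
    (w ++ [x]).count a = w.count a + (if x = a then 1 else 0) := by
  rw [List.count_append, List.count_singleton]
  by_cases hx : x = a
  · simp [hx]
  · simp [hx]

theorem sc_one (a : α) (w : List α) : sc [a] w = w.count a := by
  induction w using List.reverseRecOn with
  | nil => simp [sc_cons_nil]
  | append_singleton w x ih => rw [sc1_snoc, count_snoc, ih]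

theorem sc_pair (a b : α) (w : List α) : sc [a, b] w = psum b (fun pre => pre.count a) w := by
  induction w using List.reverseRecOn with
  | nil => simp [sc_cons_nil, psum_nil]
  | append_singleton w x ih => rw [sc2_snoc, psum_snoc, ih, sc_one]

theorem choose_two_succ (k : ℕ) : (k + 1).choose 2 = k + k.choose 2 := by
  rw [Nat.choose_succ_succ' k 1, Nat.choose_one_right]

theorem choose_three_succ (k : ℕ) : (k + 1).choose 3 = k.choose 2 + k.choose 3 :=
  Nat.choose_succ_succ' k 2

theorem two_choose_two (k : ℕ) : 2 * k.choose 2 + k = k * k := by
  induction k with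
  | zero => simp
  | succ k ih =>
    rw [choose_two_succ]
    have e : (k + 1) * (k + 1) = k * k + 2 * k + 1 := by ring
    rw [e]
    omega

theorem sc_aa (a : α) (w : List α) : sc [a, a] w = (w.count a).choose 2 := by
  induction w using List.reverseRecOn with
  | nil => simp [sc_cons_nil]
  | append_singleton w x ih =>
    rw [sc2_snoc, count_snoc, ih, sc_one]
    by_cases hx : x = a
    · rw [if_pos hx, if_pos hx, choose_two_succ]
      omega
    · rw [if_neg hx, if_neg hx]
      rfl

theorem sc_aaa (a : α) (w : List α) : sc [a, a, a] w = (w.count a).choose 3 := by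
  induction w using List.reverseRecOn with
  | nil => simp [sc_cons_nil]
  | append_singleton w x ih =>
    rw [sc3_snoc, count_snoc, ih, sc_aa]
    by_cases hx : x = a
    · rw [if_pos hx, if_pos hx, choose_three_succ]
      omega
    · rw [if_neg hx, if_neg hx]
      rfl

theorem sc_pair_sum (a b : α) (hab : a ≠ b) (w : List α) :
    sc [a, b] w + sc [b, a] w = w.count a * w.count b := by
  induction w using List.reverseRecOn with
  | nil => simp [sc_cons_nil]
  | append_singleton w x ih =>
    rw [sc2_snoc, sc2_snoc, count_snoc, count_snoc, sc_one, sc_one]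
    by_cases hxa : x = a
    · have hxb : x ≠ b := fun h => hab (hxa.symm.trans h)
      rw [if_pos hxa, if_neg hxb, if_pos hxa, if_neg hxb, add_zero, add_zero, add_mul, one_mul,
        ← ih]
      omega
    · by_cases hxb : x = b
      · rw [if_neg hxa, if_pos hxb, if_neg hxa, if_pos hxb, add_zero, add_zero, mul_add, mul_one,
          ← ih]
        omega
      · rw [if_neg hxa, if_neg hxb, if_neg hxa, if_neg hxb]
        exact ih

/-- Middle pivot. -/
theorem sc_mid (a b c : α) (hbc : b ≠ c) (w : List α) :
    sc [a, b, c] w + psum b (fun pre => pre.count a * pre.count c) w =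
      w.count c * sc [a, b] w := by
  induction w using List.reverseRecOn with
  | nil => simp [sc_cons_nil, psum_nil]
  | append_singleton w x ih =>
    rw [sc3_snoc, psum_snoc, count_snoc, sc2_snoc, sc_one]
    by_cases hxc : x = c
    · have hxb : x ≠ b := fun h => hbc (h.symm.trans hxc)
      rw [if_pos hxc, if_neg hxb, if_pos hxc, if_neg hxb, add_zero, add_zero, add_mul, one_mul,
        ← ih]
      omega
    · by_cases hxb : x = b
      · rw [if_neg hxc, if_pos hxb, if_neg hxc, if_pos hxb, add_zero, add_zero, mul_add, ← ih,
          mul_comm (w.count c)]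
        omega
      · rw [if_neg hxc, if_neg hxb, if_neg hxc, if_neg hxb]
        exact ih

/-- Last pivot. -/
theorem sc_last (a c : α) (w : List α) :
    sc [a, a, c] w = psum c (fun pre => (pre.count a).choose 2) w := by
  induction w using List.reverseRecOn with
  | nil => simp [sc_cons_nil, psum_nil]
  | append_singleton w x ih => rw [sc3_snoc, psum_snoc, ih, sc_aa]

/-- First pivot. -/
theorem sc_first (a b : α) (hab : a ≠ b) (w : List α) :
    sc [a, b, b] w + w.count b * sc [b, a] w =
      w.count a * (w.count b).choose 2 + psum a (fun pre => (pre.count b + 1).choose 2) w := by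
  induction w using List.reverseRecOn with
  | nil => simp [sc_cons_nil, psum_nil]
  | append_singleton w x ih =>
    rw [sc3_snoc, psum_snoc, count_snoc, count_snoc, sc2_snoc, sc_one]
    by_cases hxa : x = a
    · have hxb : x ≠ b := fun h => hab (hxa.symm.trans h)
      simp only [if_pos hxa, if_neg hxb, add_zero]
      rw [mul_add, add_mul, one_mul, choose_two_succ]
      have h2 := two_choose_two (w.count b)
      omega
    · by_cases hxb : x = b
      · have h3 := sc_pair_sum a b hab w
        simp only [if_pos hxb, if_neg hxa, add_zero]
        rw [add_mul, one_mul, choose_two_succ, mul_add]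
        omega
      · simp only [if_neg hxb, if_neg hxa, add_zero]
        exact ih

end Sub

end Vale.Agent.Lib.P329
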