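import Vale.Agent.Lib.P329.Sub3

/-!
# P329: subword counts of length at most three are determined by tests of star height one

For every modulus `N > 0`, the numbers of occurrences modulo `N` of all scattered subwords of
length at most three are determined by finitely many tests of star height at most one.
-/

namespace Vale.Agent.Lib.P329

section Arith

theorem choose_two_add (k m : ℕ) : (k + m).choose 2 = k.choose 2 + k * m + m.choose 2 := by
  induction m with
  | zero => simp
  | succ m ih =>
    have e : k + (m + 1) = (k + m) + 1 := by ring
    rw [e, choose_two_succ (k + m), ih, choose_two_succ m, mul_add, mul_one]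
    omega

theorem choose_three_add (k m : ℕ) :
    (k + m).choose 3 = k.choose 3 + k.choose 2 * m + k * m.choose 2 + m.choose 3 := by
  induction m with
  | zero => simp
  | succ m ih =>
    have e : k + (m + 1) = (k + m) + 1 := by ring
    rw [e, choose_three_succ (k + m), ih, choose_two_add k m, choose_three_succ m,
      choose_two_succ m, mul_add, mul_add, mul_one]
    omega

theorem dvd_choose_two (N : ℕ) : N ∣ (2 * N).choose 2 := by
  have h1 := choose_two_add N N
  have h2 := two_choose_two N
  have e : 2 * N = N + N := by ring
  rw [e, h1]
  have h3 : N.choose 2 + N * N + N.choose 2 + N = N * N + N * N := by omega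
  have h4 : N ∣ N.choose 2 + N * N + N.choose 2 + N := by
    rw [h3]
    exact dvd_add (dvd_mul_right N N) (dvd_mul_right N N)
  have h5 := Nat.dvd_sub h4 (dvd_refl N)
  simpa using h5

theorem dvd_choose_three (N : ℕ) : N ∣ (6 * N).choose 3 := by
  rcases Nat.eq_zero_or_pos N with h | h
  · subst h
    simp
  · have h1 := Nat.add_one_mul_choose_eq (6 * N - 1) 2
    have e : 6 * N - 1 + 1 = 6 * N := by omega
    rw [e] at h1
    have h2 : (6 * N).choose 3 = N * (2 * (6 * N - 1).choose 2) := by
      have h3 : 3 * (6 * N).choose 3 = 3 * (N * (2 * (6 * N - 1).choose 2)) := by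
        rw [mul_comm 3 ((6 * N).choose 3), ← h1]
        ring
      exact Nat.eq_of_mul_eq_mul_left (by norm_num) h3
    rw [h2]
    exact dvd_mul_right _ _

theorem choose_two_shift (N k q : ℕ) : (k + q * (2 * N)).choose 2 % N = k.choose 2 % N := by
  rw [choose_two_add]
  have d : N ∣ (q * (2 * N)).choose 2 := by
    have e : q * (2 * N) = 2 * (q * N) := by ring
    rw [e]
    exact dvd_trans (dvd_mul_left N q) (dvd_choose_two (q * N))
  obtain ⟨t, ht⟩ := d
  rw [ht]
  have e2 : k.choose 2 + k * (q * (2 * N)) + N * t = k.choose 2 + N * (k * q * 2 + t) := by ring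
  rw [e2, Nat.add_mul_mod_self_left]

theorem choose_two_mod (N a b : ℕ) (h : a % (2 * N) = b % (2 * N)) :
    a.choose 2 % N = b.choose 2 % N := by
  have ha := Nat.mod_add_div a (2 * N)
  have hb := Nat.mod_add_div b (2 * N)
  calc a.choose 2 % N = (a % (2 * N) + a / (2 * N) * (2 * N)).choose 2 % N := by
        rw [mul_comm (a / (2 * N)), ha]
    _ = (a % (2 * N)).choose 2 % N := choose_two_shift N _ _
    _ = (b % (2 * N)).choose 2 % N := by rw [h]
    _ = (b % (2 * N) + b / (2 * N) * (2 * N)).choose 2 % N := (choose_two_shift N _ _).symm
    _ = b.choose 2 % N := by rw [mul_comm (b / (2 * N)), hb]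

theorem choose_three_shift (N k q : ℕ) : (k + q * (6 * N)).choose 3 % N = k.choose 3 % N := by
  rw [choose_three_add]
  have d1 : N ∣ q * (6 * N) := ⟨q * 6, by ring⟩
  have d2 : N ∣ (q * (6 * N)).choose 2 := by
    have e : q * (6 * N) = 2 * (3 * q * N) := by ring
    rw [e]
    exact dvd_trans (dvd_mul_left N (3 * q)) (dvd_choose_two (3 * q * N))
  have d3 : N ∣ (q * (6 * N)).choose 3 := by
    have e : q * (6 * N) = 6 * (q * N) := by ring
    rw [e]
    exact dvd_trans (dvd_mul_left N q) (dvd_choose_three (q * N))
  have d : N ∣ k.choose 2 * (q * (6 * N)) + (k * (q * (6 * N)).choose 2 +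
      (q * (6 * N)).choose 3) :=
    dvd_add (dvd_mul_of_dvd_right d1 _) (dvd_add (dvd_mul_of_dvd_right d2 _) d3)
  obtain ⟨t, ht⟩ := d
  rw [add_assoc, add_assoc, ht, Nat.add_mul_mod_self_left]

theorem choose_three_mod (N a b : ℕ) (h : a % (6 * N) = b % (6 * N)) :
    a.choose 3 % N = b.choose 3 % N := by
  have ha := Nat.mod_add_div a (6 * N)
  have hb := Nat.mod_add_div b (6 * N)
  calc a.choose 3 % N = (a % (6 * N) + a / (6 * N) * (6 * N)).choose 3 % N := by
        rw [mul_comm (a / (6 * N)), ha]
    _ = (a % (6 * N)).choose 3 % N := choose_three_shift N _ _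
    _ = (b % (6 * N)).choose 3 % N := by rw [h]
    _ = (b % (6 * N) + b / (6 * N) * (6 * N)).choose 3 % N := (choose_three_shift N _ _).symm
    _ = b.choose 3 % N := by rw [mul_comm (b / (6 * N)), hb]

end Arith

section Det3

variable {α : Type} [Fintype α] [DecidableEq α]

theorem detects_psum_count (M : ℕ) [NeZero M] (a b : α) (hba : b ≠ a) (F : ℕ → ℕ) (N : ℕ)
    (hN : 0 < N) (hF : ∀ k, F k % N = F (k % M) % N) :
    Detects (fun w : List α => psum b (fun pre => F (pre.count a)) w % N) :=
  detects_psum M (fun x => x == a) b (by simpa using hba) F N hN hF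

omit [Fintype α] in
theorem countP_two (a c : α) (hac : a ≠ c) (l : List α) :
    l.countP (fun x => x == a || x == c) = l.count a + l.count c := by
  induction l with
  | nil => rfl
  | cons x l ih =>
    rw [List.countP_cons, List.count_cons, List.count_cons, ih]
    by_cases hxa : x = a
    · have hxc : x ≠ c := fun h => hac (hxa.symm.trans h)
      subst hxa
      simp [hxc]
      omega
    · by_cases hxc : x = c
      · have hca : ¬ c = a := fun h => hac h.symm
        simp [hxc, hca]
        omega
      · simp [hxa, hxc]

theorem detects_psum_count2 (M : ℕ) [NeZero M] (a c b : α) (hba : b ≠ a) (hbc : b ≠ c)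
    (hac : a ≠ c) (F : ℕ → ℕ) (N : ℕ) (hN : 0 < N) (hF : ∀ k, F k % N = F (k % M) % N) :
    Detects (fun w : List α => psum b (fun pre => F (pre.count a + pre.count c)) w % N) := by
  have h := detects_psum M (fun x => x == a || x == c) b (by simp [hba, hbc]) F N hN hF
  refine h.congr ?_
  intro w
  have e : (fun pre : List α => F (pre.countP (fun x => x == a || x == c))) =
      (fun pre => F (pre.count a + pre.count c)) := by
    funext pre
    rw [countP_two a c hac]
  show psum b (fun pre : List α => F (pre.countP (fun x => x == a || x == c))) w % N = _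
  rw [e]

theorem detects_prod_sum (N : ℕ) (hN : 0 < N) (a b c : α) (hba : b ≠ a) (hbc : b ≠ c) :
    Detects (fun w : List α => psum b (fun pre => pre.count a * pre.count c) w % N) := by
  by_cases hac : a = c
  · subst hac
    have : NeZero N := ⟨by omega⟩
    exact detects_psum_count N a b hba (fun k => k * k) N hN (fun k => Nat.mul_mod k k N)
  · have h2N : 0 < 2 * N := by omega
    have : NeZero (2 * N) := ⟨by omega⟩
    have hsq : ∀ k, (k * k) % (2 * N) = ((k % (2 * N)) * (k % (2 * N))) % (2 * N) :=
      fun k => Nat.mul_mod k k (2 * N)
    have h1 := detects_psum_count (2 * N) a b hba (fun k => k * k) (2 * N) h2N hsq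
    have h2 := detects_psum_count (2 * N) c b hbc (fun k => k * k) (2 * N) h2N hsq
    have h3 := detects_psum_count2 (2 * N) a c b hba hbc hac (fun k => k * k) (2 * N) h2N hsq
    refine ((h1.prod h2).prod h3).of_eq _ ?_
    intro w w' h
    have e1 : psum b (fun pre => pre.count a * pre.count a) w % (2 * N) =
        psum b (fun pre => pre.count a * pre.count a) w' % (2 * N) :=
      congrArg (fun x => x.1.1) h
    have e2 : psum b (fun pre => pre.count c * pre.count c) w % (2 * N) =
        psum b (fun pre => pre.count c * pre.count c) w' % (2 * N) :=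
      congrArg (fun x => x.1.2) h
    have e3 : psum b (fun pre => (pre.count a + pre.count c) * (pre.count a + pre.count c)) w
          % (2 * N) =
        psum b (fun pre => (pre.count a + pre.count c) * (pre.count a + pre.count c)) w'
          % (2 * N) :=
      congrArg Prod.snd h
    have key : ∀ v : List α,
        psum b (fun pre => (pre.count a + pre.count c) * (pre.count a + pre.count c)) v =
          psum b (fun pre => pre.count a * pre.count a) v +
            psum b (fun pre => pre.count c * pre.count c) v +
            2 * psum b (fun pre => pre.count a * pre.count c) v := by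
      intro v
      rw [← psum_mul, ← psum_add, ← psum_add]
      congr 1
      funext pre
      ring
    rw [key w, key w'] at e3
    have e12 : psum b (fun pre => pre.count a * pre.count a) w +
        psum b (fun pre => pre.count c * pre.count c) w ≡
        psum b (fun pre => pre.count a * pre.count a) w' +
        psum b (fun pre => pre.count c * pre.count c) w' [MOD 2 * N] := Nat.ModEq.add e1 e2
    have e4 : 2 * psum b (fun pre => pre.count a * pre.count c) w ≡
        2 * psum b (fun pre => pre.count a * pre.count c) w' [MOD 2 * N] :=
      Nat.ModEq.add_left_cancel e12 e3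
    exact Nat.ModEq.mul_left_cancel' (by norm_num) e4

theorem detects_pair (N : ℕ) (hN : 0 < N) (a b : α) :
    Detects (fun w : List α => sc [a, b] w % N) := by
  by_cases hab : a = b
  · subst hab
    have h := detects_letter_count a (2 * N) (by omega)
    refine h.of_eq _ ?_
    intro w w' hww
    show sc [a, a] w % N = sc [a, a] w' % N
    rw [sc_aa, sc_aa]
    exact choose_two_mod N _ _ hww
  · have : NeZero N := ⟨by omega⟩
    have h := detects_psum_count N a b (fun h => hab h.symm) (fun k => k) N hN
      (fun k => (Nat.mod_mod k N).symm)
    refine h.congr ?_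
    intro w
    show psum b (fun pre => pre.count a) w % N = sc [a, b] w % N
    rw [sc_pair]

theorem detects_triple (N : ℕ) (hN : 0 < N) (a b c : α) :
    Detects (fun w : List α => sc [a, b, c] w % N) := by
  have : NeZero (2 * N) := ⟨by omega⟩
  by_cases hab : a = b
  · by_cases hbc : b = c
    · subst hab
      subst hbc
      have h := detects_letter_count a (6 * N) (by omega)
      refine h.of_eq _ ?_
      intro w w' hww
      show sc [a, a, a] w % N = sc [a, a, a] w' % N
      rw [sc_aaa, sc_aaa]
      exact choose_three_mod N _ _ hww
    · subst hab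
      have h := detects_psum_count (2 * N) a c (fun h => hbc h.symm) (fun k => k.choose 2) N hN
        (fun k => choose_two_mod N _ _ (Nat.mod_mod k (2 * N)).symm)
      refine h.congr ?_
      intro w
      show psum c (fun pre => (pre.count a).choose 2) w % N = sc [a, a, c] w % N
      rw [sc_last]
  · by_cases hbc : b = c
    · subst hbc
      have g1 := detects_letter_count b (2 * N) (by omega)
      have g2 := detects_pair N hN b a
      have g3 := detects_letter_count a N hN
      have g4 := detects_psum_count (2 * N) b a hab (fun k => (k + 1).choose 2) N hN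
        (fun k => choose_two_mod N _ _
          ((Nat.ModEq.add_right 1 (Nat.mod_modEq k (2 * N))).symm))
      refine (((g1.prod g2).prod g3).prod g4).of_eq _ ?_
      intro w w' h
      have e1 : w.count b % (2 * N) = w'.count b % (2 * N) := congrArg (fun x => x.1.1.1) h
      have e2 : sc [b, a] w % N = sc [b, a] w' % N := congrArg (fun x => x.1.1.2) h
      have e3 : w.count a % N = w'.count a % N := congrArg (fun x => x.1.2) h
      have e4 : psum a (fun pre => (pre.count b + 1).choose 2) w % N =
          psum a (fun pre => (pre.count b + 1).choose 2) w' % N := congrArg Prod.snd h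
      have e1' : w.count b ≡ w'.count b [MOD N] := Nat.ModEq.of_mul_left 2 e1
      have e5 : (w.count b).choose 2 ≡ (w'.count b).choose 2 [MOD N] :=
        choose_two_mod N _ _ e1
      have f1 := sc_first a b hab w
      have f2 := sc_first a b hab w'
      have l1 : w.count b * sc [b, a] w ≡ w'.count b * sc [b, a] w' [MOD N] :=
        Nat.ModEq.mul e1' e2
      have r1 : w.count a * (w.count b).choose 2 +
          psum a (fun pre => (pre.count b + 1).choose 2) w ≡
          w'.count a * (w'.count b).choose 2 +
          psum a (fun pre => (pre.count b + 1).choose 2) w' [MOD N] :=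
        Nat.ModEq.add (Nat.ModEq.mul e3 e5) e4
      rw [← f1, ← f2] at r1
      exact Nat.ModEq.add_right_cancel l1 r1
    · have g1 := detects_letter_count c N hN
      have g2 := detects_pair N hN a b
      have g3 := detects_prod_sum N hN a b c (fun h => hab h.symm) hbc
      refine ((g1.prod g2).prod g3).of_eq _ ?_
      intro w w' h
      have e1 : w.count c % N = w'.count c % N := congrArg (fun x => x.1.1) h
      have e2 : sc [a, b] w % N = sc [a, b] w' % N := congrArg (fun x => x.1.2) h
      have e3 : psum b (fun pre => pre.count a * pre.count c) w % N =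
          psum b (fun pre => pre.count a * pre.count c) w' % N := congrArg Prod.snd h
      have f1 := sc_mid a b c hbc w
      have f2 := sc_mid a b c hbc w'
      have r1 : w.count c * sc [a, b] w ≡ w'.count c * sc [a, b] w' [MOD N] :=
        Nat.ModEq.mul e1 e2
      rw [← f1, ← f2] at r1
      exact Nat.ModEq.add_right_cancel e3 r1

/-- The numbers modulo `N` of occurrences of all scattered subwords of length at most three
are determined by finitely many tests of star height at most one. -/
theorem detects_profile (N : ℕ) (hN : 0 < N) :
    Detects (fun (w : List α) (u : List α) =>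
      if u.length ≤ 3 then (List.sublists w).count u % N else 0) := by
  have h1 := Detects.pi (fun (a : α) (w : List α) => w.count a % N)
    (fun a => detects_letter_count a N hN)
  have h2 := Detects.pi (fun (p : α × α) (w : List α) => sc [p.1, p.2] w % N)
    (fun p => detects_pair N hN p.1 p.2)
  have h3 := Detects.pi (fun (t : α × α × α) (w : List α) => sc [t.1, t.2.1, t.2.2] w % N)
    (fun t => detects_triple N hN t.1 t.2.1 t.2.2)
  refine ((h1.prod h2).prod h3).of_eq _ ?_
  intro w w' h
  have e1 : ∀ a : α, w.count a % N = w'.count a % N :=
    fun a => congrFun (congrArg (fun x => x.1.1) h) a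
  have e2 : ∀ a b : α, sc [a, b] w % N = sc [a, b] w' % N :=
    fun a b => congrFun (congrArg (fun x => x.1.2) h) (a, b)
  have e3 : ∀ a b c : α, sc [a, b, c] w % N = sc [a, b, c] w' % N :=
    fun a b c => congrFun (congrArg Prod.snd h) (a, b, c)
  funext u
  show (if u.length ≤ 3 then sc u w % N else 0) = (if u.length ≤ 3 then sc u w' % N else 0)
  match u with
  | [] => rw [sc_nil, sc_nil]
  | [a] => rw [sc_one, sc_one, e1 a]
  | [a, b] => rw [e2 a b]
  | [a, b, c] => rw [e3 a b c]
  | a :: b :: c :: d :: u =>
    have hlen : ¬ (a :: b :: c :: d :: u).length ≤ 3 := by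
      simp
    rw [if_neg hlen, if_neg hlen]

/-- Every language that is a union of classes of the relation `same numbers modulo N of
occurrences of every scattered subword of length at most three` has an expression of star
height at most one. -/
theorem subword_three (N : ℕ) (hN : 0 < N) (S : Set (List α → ℕ)) :
    ∃ e : GExp α, e.sh ≤ 1 ∧ ∀ w : List α, w ∈ e.lang ↔
      (fun u : List α => if u.length ≤ 3 then (List.sublists w).count u % N else 0) ∈ S := by
  apply (detects_profile (α := α) N hN).expr
    {w | (fun u : List α => if u.length ≤ 3 then (List.sublists w).count u % N else 0) ∈ S}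
  intro w w' h
  show (fun u : List α => if u.length ≤ 3 then (List.sublists w).count u % N else 0) ∈ S ↔
    (fun u : List α => if u.length ≤ 3 then (List.sublists w').count u % N else 0) ∈ S
  rw [h]

end Det3

end Vale.Agent.Lib.P329
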