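import Vale.Agent.Lib.P329.SubwordProfile

/-!
# P329: products of elements `1 + ν a` in a ring and subword counts

In any semiring, the product of the elements `1 + ν a` along a word `w` is the sum, over all
scattered subwords `u` of `w` (with multiplicity), of the products of the `ν`-values along `u`.
If all products of four `ν`-values vanish and `n = 0` in the ring, this product only depends on
the numbers of occurrences modulo `n` of the subwords of length at most three. Consequently, if
these numbers are determined by tests of star height at most one, every language defined by a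
condition on the product has generalized star height at most one. This applies to all maps from
the alphabet to the upper unitriangular `4 × 4` matrices over `ZMod n`.
-/

namespace Vale.Agent.Lib.P329

open Language

section Expansion

variable {α : Type} {R : Type} [Semiring R]

/-- Expansion of a product of elements `1 + ν a` over the scattered subwords. -/
theorem prod_one_add_eq_sum (ν : α → R) (w : List α) :
    (w.map (fun a => 1 + ν a)).prod =
      ((List.sublists w).map (fun u => (u.map ν).prod)).sum := by
  induction w using List.reverseRecOn with
  | nil => simp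
  | append_singleton w x ih =>
    rw [List.map_append, List.prod_append, List.sublists_concat, List.map_append,
      List.sum_append, List.map_map, ih]
    have e : ((fun u : List α => (u.map ν).prod) ∘ fun s => s ++ [x]) =
        fun u : List α => (u.map ν).prod * ν x := by
      funext u
      simp
    rw [e, List.sum_map_mul_right]
    simp [mul_add]

/-- If all products of four values vanish, so does the product along a word of length at
least four. -/
theorem prod_eq_zero_of_four (ν : α → R) (h4 : ∀ a b c d, ν a * ν b * ν c * ν d = 0)
    (u : List α) (hu : 4 ≤ u.length) : (u.map ν).prod = 0 := by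
  match u, hu with
  | a :: b :: c :: d :: r, _ =>
    simp only [List.map_cons, List.prod_cons]
    rw [← mul_assoc, ← mul_assoc, ← mul_assoc, h4, zero_mul]

theorem natCast_eq_of_mod_eq (n : ℕ) (hn : (n : R) = 0) (c c' : ℕ) (h : c % n = c' % n) :
    (c : R) = (c' : R) := by
  have e : ∀ d : ℕ, (d : R) = ((d % n : ℕ) : R) := by
    intro d
    conv_lhs => rw [← Nat.div_add_mod d n]
    rw [Nat.cast_add, Nat.cast_mul, hn, zero_mul, zero_add]
  rw [e c, e c', h]

variable [DecidableEq α]

omit [Semiring R] in
/-- The two ways of comparing lists (structurally, or via decidable equality) give the same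
count. -/
theorem count_inst (m : List α) (L : List (List α)) :
    @List.count (List α) instBEqOfDecidableEq m L = List.count m L := by
  unfold List.count
  apply List.countP_congr
  intro x _
  simp

/-- The product of the `1 + ν a` along a word only depends on the subword counts of length at
most three modulo `n`, when `n = 0` in the semiring and all products of four values vanish. -/
theorem prod_one_add_eq_of_profile (n : ℕ) (hn : (n : R) = 0) (ν : α → R)
    (h4 : ∀ a b c d, ν a * ν b * ν c * ν d = 0) (w w' : List α)
    (hprof : ∀ u : List α, u.length ≤ 3 →
      List.count u (List.sublists w) % n = List.count u (List.sublists w') % n) :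
    (w.map (fun a => 1 + ν a)).prod = (w'.map (fun a => 1 + ν a)).prod := by
  rw [prod_one_add_eq_sum, prod_one_add_eq_sum, Finset.sum_list_map_count,
    Finset.sum_list_map_count]
  simp only [count_inst]
  refine (Finset.sum_subset (s₂ := (List.sublists w).toFinset ∪ (List.sublists w').toFinset)
    Finset.subset_union_left ?_).trans ((Finset.sum_congr rfl ?_).trans
    (Finset.sum_subset Finset.subset_union_right ?_).symm)
  · intro m _ hm
    rw [List.count_eq_zero_of_not_mem (fun h => hm (List.mem_toFinset.2 h)), zero_smul]
  · intro m _
    by_cases hm : m.length ≤ 3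
    · rw [nsmul_eq_mul, nsmul_eq_mul, natCast_eq_of_mod_eq n hn _ _ (hprof m hm)]
    · rw [prod_eq_zero_of_four ν h4 m (by omega), smul_zero, smul_zero]
  · intro m _ hm
    rw [List.count_eq_zero_of_not_mem (fun h => hm (List.mem_toFinset.2 h)), zero_smul]

end Expansion

section Language

variable {α : Type} [Fintype α] [DecidableEq α] {R : Type} [Semiring R]

/-- The profile of subword counts of length at most three is determined by tests of star height
at most one, if each count is. -/
theorem detects_subword_profile (n : ℕ)
    (hdet : ∀ u : List α, u.length ≤ 3 →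
      Detects (fun w : List α => List.count u (List.sublists w) % n)) :
    Detects (fun (w : List α) (u : {u : List α // u.length ≤ 3}) =>
      List.count u.1 (List.sublists w) % n) := by
  classical
  have : Fintype {u : List α // u.length ≤ 3} := (List.finite_length_le α 3).fintype
  exact Detects.pi (ι := {u : List α // u.length ≤ 3}) (β := fun _ => ℕ)
    (fun u w => List.count u.1 (List.sublists w) % n) (fun u => hdet u.1 u.2)

/-- Ring form: if `n = 0` in `R`, all products of four values of `ν` vanish and the subword
counts of length at most three are detected modulo `n`, then every language defined by a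
condition on the product of the elements `1 + ν a` has generalized star height at most one. -/
theorem language_one_add (n : ℕ) (hn : (n : R) = 0) (ν : α → R)
    (h4 : ∀ a b c d, ν a * ν b * ν c * ν d = 0)
    (hdet : ∀ u : List α, u.length ≤ 3 →
      Detects (fun w : List α => List.count u (List.sublists w) % n))
    (P : Set R) :
    ∃ e : GExp α, e.sh ≤ 1 ∧ ∀ w : List α, w ∈ e.lang ↔
      (w.map (fun a => 1 + ν a)).prod ∈ P := by
  refine (detects_subword_profile n hdet).expr {w | (w.map (fun a => 1 + ν a)).prod ∈ P} ?_
  intro w w' h
  show (w.map (fun a => 1 + ν a)).prod ∈ P ↔ (w'.map (fun a => 1 + ν a)).prod ∈ P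
  rw [prod_one_add_eq_of_profile n hn ν h4 w w' (fun u hu => congrFun h ⟨u, hu⟩)]

end Language

section Unitriangular

variable {S : Type} [Semiring S]

/-- `M i j = 0` unless `j ≥ i + k`. -/
def Shifted (k : ℕ) (M : Matrix (Fin 4) (Fin 4) S) : Prop :=
  ∀ i j : Fin 4, (j : ℕ) < (i : ℕ) + k → M i j = 0

theorem Shifted.mul {k l : ℕ} {M N : Matrix (Fin 4) (Fin 4) S} (hM : Shifted k M)
    (hN : Shifted l N) : Shifted (k + l) (M * N) := by
  intro i j hij
  rw [Matrix.mul_apply]
  apply Finset.sum_eq_zero
  intro m _
  by_cases hm : (m : ℕ) < (i : ℕ) + k
  · rw [hM i m hm, zero_mul]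
  · rw [hN m j (by omega), mul_zero]

theorem Shifted.eq_zero {M : Matrix (Fin 4) (Fin 4) S} (hM : Shifted 4 M) : M = 0 := by
  ext i j
  exact hM i j (by have := j.isLt; omega)

/-- A product of four strictly upper triangular `4 × 4` matrices vanishes. -/
theorem strict_upper_four (A B C D : Matrix (Fin 4) (Fin 4) S)
    (hA : ∀ i j : Fin 4, j ≤ i → A i j = 0) (hB : ∀ i j : Fin 4, j ≤ i → B i j = 0)
    (hC : ∀ i j : Fin 4, j ≤ i → C i j = 0) (hD : ∀ i j : Fin 4, j ≤ i → D i j = 0) :
    A * B * C * D = 0 := by
  have conv : ∀ X : Matrix (Fin 4) (Fin 4) S, (∀ i j : Fin 4, j ≤ i → X i j = 0) →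
      Shifted 1 X := by
    intro X hX i j hij
    exact hX i j (by rw [Fin.le_def]; omega)
  exact ((((conv A hA).mul (conv B hB)).mul (conv C hC)).mul (conv D hD)).eq_zero

end Unitriangular

section UnitriangularLanguage

variable {α : Type} [Fintype α] [DecidableEq α]

/-- All maps from the alphabet to the upper unitriangular `4 × 4` matrices over `ZMod n`: if the
subword counts of length at most three are detected modulo `n`, every language defined by a
condition on the product of the matrices along the word has generalized star height at most
one. -/
theorem language_unitriangular4 (n : ℕ)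
    (hdet : ∀ u : List α, u.length ≤ 3 →
      Detects (fun w : List α => List.count u (List.sublists w) % n))
    (U : α → Matrix (Fin 4) (Fin 4) (ZMod n))
    (hlow : ∀ a (i j : Fin 4), j < i → U a i j = 0) (hdiag : ∀ a (i : Fin 4), U a i i = 1)
    (P : Set (Matrix (Fin 4) (Fin 4) (ZMod n))) :
    ∃ e : GExp α, e.sh ≤ 1 ∧ ∀ w : List α, w ∈ e.lang ↔ (w.map U).prod ∈ P := by
  have hν : ∀ a (i j : Fin 4), j ≤ i → (U a - 1) i j = 0 := by
    intro a i j hij
    rcases lt_or_eq_of_le hij with h | h
    · rw [Matrix.sub_apply, hlow a i j h, Matrix.one_apply_ne (ne_of_gt h), sub_zero]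
    · subst h
      rw [Matrix.sub_apply, hdiag a j, Matrix.one_apply_eq, sub_self]
  have hn : ((n : ℕ) : Matrix (Fin 4) (Fin 4) (ZMod n)) = 0 := by
    ext i j
    rw [Matrix.natCast_apply]
    simp
  have h := language_one_add n hn (fun a => U a - 1)
    (fun a b c d => strict_upper_four _ _ _ _ (hν a) (hν b) (hν c) (hν d)) hdet P
  have e : (fun a => 1 + (U a - 1)) = U := by
    funext a
    abel
  rw [e] at h
  exact h

end UnitriangularLanguage

end Vale.Agent.Lib.P329
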