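import Vale.Agent.Lib.P329.Sub4
import Vale.Agent.Lib.P329.SubwordRing

/-!
# P329: unipotent elements of a ring and upper unitriangular `4 × 4` matrices

Languages recognized through products of elements `1 + x a` of a ring in which `n = 0` and all
products of four of the `x a` vanish have generalized star height at most one; in particular all
languages recognized by maps from the alphabet into the upper unitriangular `4 × 4` matrices
over `ZMod n`. The input is the detection of the subword counts of length at most three
(`detects_profile`) and the expansion of the product over scattered subwords.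
-/

namespace Vale.Agent.Lib.P329

open Language

variable {α : Type} [Fintype α] [DecidableEq α]

/-- Each subword count of length at most three is determined modulo `n` by finitely many tests
of star height at most one. -/
theorem detects_count_le3 (n : ℕ) (hn : 0 < n) (u : List α) (hu : u.length ≤ 3) :
    Detects (fun w : List α => List.count u (List.sublists w) % n) := by
  refine ((detects_profile (α := α) n hn).comp (fun f => f u)).congr ?_
  intro w
  show (if u.length ≤ 3 then (List.sublists w).count u % n else 0) = _
  rw [if_pos hu]

/-- Ring form: if `n = 0` in the ring `R` and all products of four of the elements `x a` vanish,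
then every language defined by a condition on the product of the elements `1 + x a` along the
word has generalized star height at most one. -/
theorem unipotent_four (α R : Type) [Fintype α] [DecidableEq α] [Ring R] (n : ℕ) (hn : 0 < n)
    (hR : (n : R) = 0) (x : α → R) (hx : ∀ a b c d, x a * x b * x c * x d = 0) (P : Set R) :
    ∃ e : GExp α, e.sh ≤ 1 ∧ ∀ w : List α, w ∈ e.lang ↔
      (w.map (fun a => 1 + x a)).prod ∈ P :=
  language_one_add n hR x hx (fun u hu => detects_count_le3 n hn u hu) P

/-- Every language recognized by a map from the alphabet into the upper unitriangular `4 × 4`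
matrices over `ZMod n` has generalized star height at most one. -/
theorem unitriangular_four (α : Type) [Fintype α] [DecidableEq α] (n : ℕ) (hn : 0 < n)
    (φ : α → Matrix (Fin 4) (Fin 4) (ZMod n))
    (hφ : ∀ a (i j : Fin 4), j ≤ i → φ a i j = if i = j then 1 else 0)
    (P : Set (Matrix (Fin 4) (Fin 4) (ZMod n))) :
    ∃ e : GExp α, e.sh ≤ 1 ∧ ∀ w : List α, w ∈ e.lang ↔ (w.map φ).prod ∈ P := by
  refine language_unitriangular4 n (fun u hu => detects_count_le3 n hn u hu) φ ?_ ?_ P
  · intro a i j hji
    rw [hφ a i j (le_of_lt hji), if_neg (ne_of_gt hji)]
  · intro a i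
    rw [hφ a i i le_rfl, if_pos rfl]

/-- The same over any ring `S` in which `n = 0`: every language recognized by a map from the
alphabet into the upper unitriangular `4 × 4` matrices over `S` has generalized star height at
most one. -/
theorem unitriangular_four_ring (α S : Type) [Fintype α] [DecidableEq α] [Ring S] (n : ℕ)
    (hn : 0 < n) (hS : (n : S) = 0) (φ : α → Matrix (Fin 4) (Fin 4) S)
    (hφ : ∀ a (i j : Fin 4), j ≤ i → φ a i j = if i = j then 1 else 0)
    (P : Set (Matrix (Fin 4) (Fin 4) S)) :
    ∃ e : GExp α, e.sh ≤ 1 ∧ ∀ w : List α, w ∈ e.lang ↔ (w.map φ).prod ∈ P := by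
  have hν : ∀ a (i j : Fin 4), j ≤ i → (φ a - 1) i j = 0 := by
    intro a i j hij
    rw [Matrix.sub_apply, hφ a i j hij]
    by_cases h : i = j
    · subst h
      rw [if_pos rfl, Matrix.one_apply_eq, sub_self]
    · rw [if_neg h, Matrix.one_apply_ne h, sub_zero]
  have hM : ((n : ℕ) : Matrix (Fin 4) (Fin 4) S) = 0 := by
    ext i j
    rw [Matrix.natCast_apply]
    simp [hS]
  have h := unipotent_four α (Matrix (Fin 4) (Fin 4) S) n hn hM (fun a => φ a - 1)
    (fun a b c d => strict_upper_four _ _ _ _ (hν a) (hν b) (hν c) (hν d)) P
  have e : (fun a => 1 + (φ a - 1)) = φ := by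
    funext a
    abel
  rw [e] at h
  exact h

end Vale.Agent.Lib.P329
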