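import Vale.Agent.Lib.P329.SubwordAux

/-!
# P329: from the subwords of the five basic shapes to all subwords of length at most three

Every word of length at most three is a power of a letter (`[]`, `a`, `aa`, `aaa`) or has one
of the shapes `ab`, `aab`, `abb`, `aba`, `abc` with distinct letters `a`, `b`, `c`. If the
subword counts of the last five shapes are determined modulo `n` by tests of star height at most
one, then so is the whole profile of subword counts of length at most three, and every language
defined by a condition on this profile has generalized star height at most one.
-/

namespace Vale.Agent.Lib.P329

open Language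

variable {α : Type} [Fintype α] [DecidableEq α]

/-- Reduction of all words of length at most three to the five shapes with at least two distinct
letters. -/
theorem detects_len3 (n : ℕ) (hn : 0 < n)
    (hab : ∀ a b : α, a ≠ b →
      Detects (fun w : List α => List.count [a, b] (List.sublists w) % n))
    (haab : ∀ a b : α, a ≠ b →
      Detects (fun w : List α => List.count [a, a, b] (List.sublists w) % n))
    (habb : ∀ a b : α, a ≠ b →
      Detects (fun w : List α => List.count [a, b, b] (List.sublists w) % n))
    (haba : ∀ a b : α, a ≠ b →
      Detects (fun w : List α => List.count [a, b, a] (List.sublists w) % n))
    (habc : ∀ a b c : α, a ≠ b → b ≠ c → a ≠ c →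
      Detects (fun w : List α => List.count [a, b, c] (List.sublists w) % n)) :
    ∀ u : List α, u.length ≤ 3 →
      Detects (fun w : List α => List.count u (List.sublists w) % n) := by
  intro u hu
  match u, hu with
  | [], _ =>
    refine ⟨[], by simp, fun w w' _ => ?_⟩
    show List.count ([] : List α) (List.sublists w) % n =
      List.count ([] : List α) (List.sublists w') % n
    rw [count_sublists_nil, count_sublists_nil]
  | [a], _ => exact detects_replicate a 1 n hn
  | [a, b], _ =>
    by_cases h : a = b
    · subst h
      exact detects_replicate a 2 n hn
    · exact hab a b h
  | [a, b, c], _ =>
    by_cases h1 : a = b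
    · subst h1
      by_cases h2 : a = c
      · subst h2
        exact detects_replicate a 3 n hn
      · exact haab a c h2
    · by_cases h2 : b = c
      · subst h2
        exact habb a b h1
      · by_cases h3 : a = c
        · subst h3
          exact haba a b h1
        · exact habc a b c h1 h2 h3
  | _ :: _ :: _ :: _ :: _, hu => simp at hu; omega

/-- If every subword count of length at most three is determined modulo `n` by tests of star
height at most one, then every language defined by a condition on the profile of these counts
modulo `n` is denoted by a generalized regular expression of star height at most one. -/
theorem profile_of_detects (n : ℕ)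
    (hdet : ∀ u : List α, u.length ≤ 3 →
      Detects (fun w : List α => List.count u (List.sublists w) % n))
    (S : Set ({u : List α // u.length ≤ 3} → ℕ)) :
    ∃ e : GExp α, e.sh ≤ 1 ∧ ∀ w : List α, w ∈ e.lang ↔
      (fun u : {u : List α // u.length ≤ 3} => List.count u.1 (List.sublists w) % n) ∈ S := by
  classical
  have : Fintype {u : List α // u.length ≤ 3} := (List.finite_length_le α 3).fintype
  have hpi := Detects.pi (ι := {u : List α // u.length ≤ 3}) (β := fun _ => ℕ)
    (fun u w => List.count u.1 (List.sublists w) % n) (fun u => hdet u.1 u.2)
  exact hpi.expr
    {w | (fun u : {u : List α // u.length ≤ 3} => List.count u.1 (List.sublists w) % n) ∈ S}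
    (fun w w' h => by
      show (fun u : {u : List α // u.length ≤ 3} => List.count u.1 (List.sublists w) % n) ∈ S ↔
        (fun u : {u : List α // u.length ≤ 3} => List.count u.1 (List.sublists w') % n) ∈ S
      rw [show (fun u : {u : List α // u.length ≤ 3} => List.count u.1 (List.sublists w) % n) =
        (fun u : {u : List α // u.length ≤ 3} => List.count u.1 (List.sublists w') % n) from h])

end Vale.Agent.Lib.P329
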