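import Vale.Agent.Lib.P329.SubwordAux

/-!
# P329: discrete derivatives of functions on words with values in a commutative group

For `h : List α → B`, `B` a commutative group, `der d h w = (h w)⁻¹ * h (w ++ [d])`. The
function `h` vanishes to order `k` (`Van k h`) if all its `k`-fold derivatives are identically
one. The Taylor formula writes `h w` as the product, over the scattered subwords `u` of `w`
(with multiplicity), of the iterated derivatives `cof u h` at the empty word. Consequently, if
`Van k h` and every element of `B` has order dividing `N`, then `h w` only depends on the numbers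
of occurrences modulo `N` of the subwords of length less than `k`.
-/

namespace Vale.Agent.Lib.P329

variable {α : Type} {B : Type} [CommGroup B]

/-- The derivative of `h` in the direction of the letter `d`. -/
def der (d : α) (h : List α → B) (w : List α) : B := (h w)⁻¹ * h (w ++ [d])

/-- `Van k h`: all `k`-fold derivatives of `h` are identically one. -/
def Van : ℕ → (List α → B) → Prop
  | 0, h => ∀ w, h w = 1
  | k + 1, h => ∀ d, Van k (der d h)

theorem van_zero_iff (h : List α → B) : Van 0 h ↔ ∀ w, h w = 1 := Iff.rfl

theorem van_succ_iff (k : ℕ) (h : List α → B) : Van (k + 1) h ↔ ∀ d, Van k (der d h) := Iff.rfl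

theorem Van.succ {k : ℕ} {h : List α → B} (hv : Van k h) : Van (k + 1) h := by
  induction k generalizing h with
  | zero =>
    intro d w
    show (h w)⁻¹ * h (w ++ [d]) = 1
    rw [hv w, hv (w ++ [d]), inv_one, one_mul]
  | succ k ih =>
    intro d
    exact ih (hv d)

theorem Van.mono {k k' : ℕ} (hkk : k ≤ k') {h : List α → B} (hv : Van k h) : Van k' h := by
  induction hkk with
  | refl => exact hv
  | step _ ih => exact ih.succ

theorem der_mul (d : α) (h h' : List α → B) :
    der d (fun w => h w * h' w) = fun w => der d h w * der d h' w := by
  funext w
  show (h w * h' w)⁻¹ * (h (w ++ [d]) * h' (w ++ [d])) =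
    (h w)⁻¹ * h (w ++ [d]) * ((h' w)⁻¹ * h' (w ++ [d]))
  rw [mul_inv, mul_mul_mul_comm]

theorem Van.mul {k : ℕ} {h h' : List α → B} (hv : Van k h) (hv' : Van k h') :
    Van k (fun w => h w * h' w) := by
  induction k generalizing h h' with
  | zero =>
    intro w
    show h w * h' w = 1
    rw [hv w, hv' w, one_mul]
  | succ k ih =>
    intro d
    rw [der_mul]
    exact ih (hv d) (hv' d)

theorem van_const (c : B) : Van 1 (fun _ : List α => c) := by
  intro d w
  show c⁻¹ * c = 1
  exact inv_mul_cancel c

theorem der_map {B' : Type} [CommGroup B'] (f : B →* B') (d : α) (h : List α → B) :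
    der d (fun w => f (h w)) = fun w => f (der d h w) := by
  funext w
  show (f (h w))⁻¹ * f (h (w ++ [d])) = f ((h w)⁻¹ * h (w ++ [d]))
  rw [map_mul, map_inv]

theorem Van.map {B' : Type} [CommGroup B'] (f : B →* B') {k : ℕ} {h : List α → B}
    (hv : Van k h) : Van k (fun w => f (h w)) := by
  induction k generalizing h with
  | zero =>
    intro w
    show f (h w) = 1
    rw [hv w, map_one]
  | succ k ih =>
    intro d
    rw [der_map]
    exact ih (hv d)

/-- Iterated derivative at the empty word, the directions read from the head of the list
inwards. -/
def cofR : List α → (List α → B) → B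
  | [], h => h []
  | d :: r, h => cofR r (der d h)

/-- The Taylor coefficient of `h` at the word `u`. -/
def cof (u : List α) (h : List α → B) : B := cofR u.reverse h

theorem cof_nil (h : List α → B) : cof [] h = h [] := rfl

theorem cof_snoc (u : List α) (d : α) (h : List α → B) :
    cof (u ++ [d]) h = cof u (der d h) := by
  unfold cof
  rw [List.reverse_append]
  rfl

theorem cofR_eq_one {k : ℕ} : ∀ (r : List α) (h : List α → B), Van k h → k ≤ r.length →
    cofR r h = 1 := by
  induction k with
  | zero =>
    intro r
    induction r with
    | nil => intro h hv _; exact hv []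
    | cons d r ih =>
      intro h hv _
      exact ih (der d h) (Van.succ hv d) (Nat.zero_le _)
  | succ k ih =>
    intro r h hv hk
    match r, hk with
    | d :: r, hk => exact ih r (der d h) (hv d) (by simpa using hk)

theorem cof_eq_one {k : ℕ} (u : List α) (h : List α → B) (hv : Van k h) (hk : k ≤ u.length) :
    cof u h = 1 :=
  cofR_eq_one u.reverse h hv (by simpa using hk)

/-- The Taylor formula. -/
theorem taylor (h : List α → B) (w : List α) :
    h w = ((List.sublists w).map (fun u => cof u h)).prod := by
  induction w using List.reverseRecOn generalizing h with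
  | nil => simp [cof_nil]
  | append_singleton w x ih =>
    rw [List.sublists_concat, List.map_append, List.prod_append, List.map_map, ← ih h]
    have e : ((fun u => cof u h) ∘ fun s : List α => s ++ [x]) = fun u => cof u (der x h) := by
      funext u
      exact cof_snoc u x h
    rw [e, ← ih (der x h)]
    show h (w ++ [x]) = h w * ((h w)⁻¹ * h (w ++ [x]))
    rw [mul_inv_cancel_left]

variable [DecidableEq α]

omit [CommGroup B] in
/-- The two ways of comparing lists (structurally, or via decidable equality) give the same
count. -/
theorem count_beq_inst (m : List α) (L : List (List α)) :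
    @List.count (List α) instBEqOfDecidableEq m L = List.count m L := by
  unfold List.count
  apply List.countP_congr
  intro x _
  simp

theorem pow_eq_of_mod_eq (N : ℕ) (hN : ∀ b : B, b ^ N = 1) (b : B) (c c' : ℕ)
    (h : c % N = c' % N) : b ^ c = b ^ c' := by
  have e : ∀ d : ℕ, b ^ d = b ^ (d % N) := by
    intro d
    conv_lhs => rw [← Nat.div_add_mod d N]
    rw [pow_add, pow_mul, hN, one_pow, one_mul]
  rw [e c, e c', h]

/-- If `h` vanishes to order `k` and `N` kills `B`, then `h w` only depends on the numbers of
occurrences modulo `N` of the scattered subwords of length less than `k`. -/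
theorem van_profile (k N : ℕ) (hN : ∀ b : B, b ^ N = 1) (h : List α → B) (hv : Van k h)
    (w w' : List α)
    (hp : ∀ u : List α, u.length < k →
      List.count u (List.sublists w) % N = List.count u (List.sublists w') % N) :
    h w = h w' := by
  rw [taylor h w, taylor h w', Finset.prod_list_map_count, Finset.prod_list_map_count]
  simp only [count_beq_inst]
  refine (Finset.prod_subset (s₂ := (List.sublists w).toFinset ∪ (List.sublists w').toFinset)
    Finset.subset_union_left ?_).trans ((Finset.prod_congr rfl ?_).trans
    (Finset.prod_subset Finset.subset_union_right ?_).symm)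
  · intro m _ hm
    rw [List.count_eq_zero_of_not_mem (fun hmem => hm (List.mem_toFinset.2 hmem)), pow_zero]
  · intro m _
    by_cases hm : m.length < k
    · exact pow_eq_of_mod_eq N hN _ _ _ (hp m hm)
    · rw [cof_eq_one m h hv (by omega), one_pow, one_pow]
  · intro m _ hm
    rw [List.count_eq_zero_of_not_mem (fun hmem => hm (List.mem_toFinset.2 hmem)), pow_zero]

end Vale.Agent.Lib.P329
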