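import Vale.Agent.Lib.P329.Views2

/-!
# P329: groups with a normal subgroup of exponent two and a quotient of order three

Let `N` be a normal subgroup of a group `G` all of whose elements satisfy `x * x = 1`, and let
`c` be an element with `c ^ 3 = 1`. If a map `φ` from a finite alphabet to `G` sends every
letter into `N`, `N c` or `N c ^ 2`, then every language recognized by `φ` has generalized star
height at most one. This covers every morphism into the alternating group on four points.
-/

namespace Vale.Agent.Lib.P329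

open Language

section GroupPart

variable {α : Type} [DecidableEq α] {G : Type} [Group G] {A : Type} [CommGroup A]

theorem image_formula3 [Fintype α] (φ : α → G) (ι : A →* G) (g0 : G) (hg : g0 ^ 3 = 1)
    (k : α → ℕ) (ν : α → A) (hφ : ∀ a, φ a = ι (ν a) * g0 ^ k a) (γ : α → ℕ → A)
    (hγ : ∀ b c, c < 3 → ι (γ b c) = g0 ^ (2 * c) * ι (ν b) * (g0 ^ (2 * c))⁻¹)
    (w : List α) :
    (w.map φ).prod =
      ι (∏ b : α, ∏ c ∈ Finset.range 3, γ b c ^ tc k b c w) * g0 ^ wsum k w := by
  induction w using List.reverseRecOn with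
  | nil => simp [tc, wsum]
  | append_singleton w a ih =>
    rw [List.map_append, List.prod_append, ih]
    simp only [List.map_cons, List.map_nil, List.prod_cons, List.prod_nil, mul_one]
    have hc3 : (3 - wsum k w % 3) % 3 < 3 := Nat.mod_lt _ (by norm_num)
    have h1 : ∀ b ∈ (Finset.univ : Finset α), ∀ c ∈ Finset.range 3,
        γ b c ^ tc k b c (w ++ [a]) = γ b c ^ tc k b c w *
          (if b = a ∧ c = (3 - wsum k w % 3) % 3 then γ b c else 1) := by
      intro b _ c hc
      have hc' : c < 3 := Finset.mem_range.1 hc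
      rw [tc_snoc, pow_add]
      congr 1
      have hiff : (a = b ∧ (c + wsum k w) % 3 = 0) ↔
          (b = a ∧ c = (3 - wsum k w % 3) % 3) := by
        constructor
        · rintro ⟨h4, h5⟩; exact ⟨h4.symm, by omega⟩
        · rintro ⟨h4, h5⟩; exact ⟨h4.symm, by omega⟩
      by_cases h : b = a ∧ c = (3 - wsum k w % 3) % 3
      · rw [if_pos h, if_pos (hiff.2 h), pow_one]
      · rw [if_neg h, if_neg (fun h' => h (hiff.1 h')), pow_zero]
    rw [Finset.prod_congr rfl (fun b hb => Finset.prod_congr rfl (h1 b hb))]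
    simp only [Finset.prod_mul_distrib]
    have h2 : (∏ b : α, ∏ c ∈ Finset.range 3,
        (if b = a ∧ c = (3 - wsum k w % 3) % 3 then γ b c else 1)) =
          γ a ((3 - wsum k w % 3) % 3) := by
      rw [Finset.prod_eq_single a]
      · rw [Finset.prod_eq_single ((3 - wsum k w % 3) % 3)]
        · simp
        · intro l _ hl; simp [hl]
        · intro h; exact absurd (Finset.mem_range.2 hc3) h
      · intro b _ hb; simp [hb]
      · intro h; exact absurd (Finset.mem_univ a) h
    rw [h2, map_mul, hγ a _ hc3, hφ a, wsum_snoc]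
    have h3 : g0 ^ (2 * ((3 - wsum k w % 3) % 3)) = g0 ^ wsum k w := by
      rw [pow_eq_pow_mod (2 * ((3 - wsum k w % 3) % 3)) hg, pow_eq_pow_mod (wsum k w) hg]
      congr 1
      omega
    rw [h3, pow_add]
    group

theorem image_congr3 [Fintype α] (φ : α → G) (ι : A →* G) (g0 : G) (hg : g0 ^ 3 = 1)
    (k : α → ℕ) (ν : α → A) (hφ : ∀ a, φ a = ι (ν a) * g0 ^ k a) (γ : α → ℕ → A)
    (hγ : ∀ b c, c < 3 → ι (γ b c) = g0 ^ (2 * c) * ι (ν b) * (g0 ^ (2 * c))⁻¹)
    (hA : ∀ x : A, x ^ 2 = 1) (w w' : List α) (h1 : wsum k w % 3 = wsum k w' % 3)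
    (h2 : ∀ b c, c < 3 → tc k b c w % 2 = tc k b c w' % 2) :
    (w.map φ).prod = (w'.map φ).prod := by
  rw [image_formula3 φ ι g0 hg k ν hφ γ hγ w, image_formula3 φ ι g0 hg k ν hφ γ hγ w']
  rw [pow_eq_pow_mod (wsum k w) hg, pow_eq_pow_mod (wsum k w') hg, h1]
  congr 2
  apply Finset.prod_congr rfl
  intro b _
  apply Finset.prod_congr rfl
  intro c hc
  rw [pow_eq_pow_mod (tc k b c w) (hA (γ b c)), pow_eq_pow_mod (tc k b c w') (hA (γ b c)),
    h2 b c (Finset.mem_range.1 hc)]

end GroupPart

/-! ### Phases and phase counts are determined by tests of height at most one -/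

section Tests

variable {α : Type} [Fintype α] [DecidableEq α]

theorem detects_phase (k : α → ℕ) : Detects (fun w : List α => phF k w) := by
  have h := detects_run (dP k) 0 (dP_good k) 0
  refine h.congr ?_
  intro w
  rw [run_dP, zero_add]

theorem detects_count (k : α → ℕ) (b : α) (l : Fin 3) :
    Detects (fun w : List α => (tc k b l.val w).bodd) := by
  have h3 : wcl k b = 0 ∨ wcl k b = 1 ∨ wcl k b = 2 := by
    rcases wcl k b with ⟨v, hv⟩
    interval_cases v
    · left; rfl
    · right; left; rfl
    · right; right; rfl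
  rcases h3 with hb | hb | hb
  · have h1 := detects_run (dB k b) oB (dB_good k b) (l, false)
    have h2 := detects_run (dB' k) oB (dB'_good k) (l, false)
    refine ((h1.prod h2).comp (fun x => xor x.1.2 x.2.2)).congr ?_
    intro w
    exact (tc_bodd_of_returns k b hb l w).symm
  · have h1 := detects_phase k
    have h2 := detects_run (dA k b) oA1 (dA_good1 k b hb) (false, false)
    have h4 := detects_run (dZ b) false (dZ_good b) false
    refine (((h1.prod h2).prod h4).comp (fun x => invA x.1.1 x.1.2 x.2 l)).congr ?_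
    intro w
    exact (tc_bodd_of_views k b l w).symm
  · have h1 := detects_phase k
    have h2 := detects_run (dA k b) oA2 (dA_good2 k b hb) (false, false)
    have h4 := detects_run (dZ b) false (dZ_good b) false
    refine (((h1.prod h2).prod h4).comp (fun x => invA x.1.1 x.1.2 x.2 l)).congr ?_
    intro w
    exact (tc_bodd_of_views k b l w).symm

theorem detects_profile (k : α → ℕ) :
    Detects (fun w : List α => (phF k w, fun (b : α) (l : Fin 3) => (tc k b l.val w).bodd)) := by
  refine (detects_phase k).prod ?_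
  exact Detects.pi (fun (b : α) (w : List α) (l : Fin 3) => (tc k b l.val w).bodd)
    (fun b => Detects.pi (fun (l : Fin 3) (w : List α) => (tc k b l.val w).bodd)
      (fun l => detects_count k b l))

end Tests

/-! ### The main statement -/

theorem recognized_two_by_three (α : Type) [Fintype α] [DecidableEq α] (G : Type) [Group G]
    (N : Subgroup G) [hn : N.Normal] (hN : ∀ x ∈ N, x * x = 1) (c : G) (hc : c ^ 3 = 1)
    (φ : α → G) (hφ : ∀ a, ∃ j : ℕ, φ a * c ^ j ∈ N) (P : Set G) :
    ∃ e : GExp α, e.sh ≤ 1 ∧ ∀ w : List α, w ∈ e.lang ↔ (w.map φ).prod ∈ P := by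
  classical
  have hcomm : ∀ x ∈ N, ∀ y ∈ N, x * y = y * x := by
    intro x hx y hy
    have hx' : x⁻¹ = x := inv_eq_of_mul_eq_one_right (hN x hx)
    have hy' : y⁻¹ = y := inv_eq_of_mul_eq_one_right (hN y hy)
    have hxy : (x * y)⁻¹ = x * y := inv_eq_of_mul_eq_one_right (hN _ (N.mul_mem hx hy))
    calc x * y = (x * y)⁻¹ := hxy.symm
      _ = y⁻¹ * x⁻¹ := mul_inv_rev x y
      _ = y * x := by rw [hx', hy']
  let _ : CommGroup N := { (inferInstance : Group N) with
    mul_comm := fun a b => Subtype.ext (hcomm a a.2 b b.2) }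
  let ι : N →* G := { toFun := fun a => a.1, map_one' := rfl, map_mul' := fun _ _ => rfl }
  choose j hj using hφ
  let k : α → ℕ := fun a => 2 * j a
  let ν : α → N := fun a => ⟨φ a * c ^ j a, hj a⟩
  have hφ' : ∀ a, φ a = ι (ν a) * c ^ k a := by
    intro a
    show φ a = φ a * c ^ j a * c ^ (2 * j a)
    rw [mul_assoc, ← pow_add, show j a + 2 * j a = 3 * j a by ring, pow_mul, hc, one_pow,
      mul_one]
  let γ : α → ℕ → N := fun b l =>
    ⟨c ^ (2 * l) * (ν b).1 * (c ^ (2 * l))⁻¹, hn.conj_mem _ (ν b).2 _⟩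
  have hγ : ∀ b l, l < 3 → ι (γ b l) = c ^ (2 * l) * ι (ν b) * (c ^ (2 * l))⁻¹ := by
    intro b l _
    rfl
  have hA : ∀ x : N, x ^ 2 = 1 := by
    intro x
    apply Subtype.ext
    rw [Subgroup.coe_pow, pow_two]
    exact hN x.1 x.2
  refine (detects_profile k).expr {w | (w.map φ).prod ∈ P} ?_
  intro w w' hww
  have key : (w.map φ).prod = (w'.map φ).prod := by
    apply image_congr3 φ ι c hc k ν hφ' γ hγ hA
    · have h1 := congrArg Fin.val (congrArg Prod.fst hww)
      exact h1
    · intro b l hl
      have h1 := congrFun (congrFun (congrArg Prod.snd hww) b) ⟨l, hl⟩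
      change (tc k b l w).bodd = (tc k b l w').bodd at h1
      rw [Nat.mod_two_of_bodd, Nat.mod_two_of_bodd, h1]
  show (w.map φ).prod ∈ P ↔ (w'.map φ).prod ∈ P
  rw [key]

end Vale.Agent.Lib.P329
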