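import Vale.Agent.Lib.P329.PairExpr

/-!
# P329: small automata that count letters by phase modulo three

Letters carry weights `k a`; the phase of a position is the total weight of the earlier
letters modulo three. The parity of the number of occurrences of a letter `b` at a given phase
is read off from the runs of a few small automata, all of which are ranked away from one state
up to two-element classes, so that their languages have generalized star height at most one.
-/

namespace Vale.Agent.Lib.P329

open Language

/-! ### Functions of a word that are determined by finitely many tests -/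

section Detect

variable {α : Type}

/-- `f` is determined by finitely many tests of star height at most one. -/
def Detects {β : Type} (f : List α → β) : Prop :=
  ∃ T : List (GExp α), (∀ t ∈ T, t.sh ≤ 1) ∧
    ∀ w w', (∀ t ∈ T, (w ∈ t.lang ↔ w' ∈ t.lang)) → f w = f w'

theorem Detects.comp {β γ : Type} {f : List α → β} (h : Detects f) (g : β → γ) :
    Detects (fun w => g (f w)) := by
  obtain ⟨T, hT, hf⟩ := h
  exact ⟨T, hT, fun w w' hw => congrArg g (hf w w' hw)⟩

theorem Detects.congr {β : Type} {f g : List α → β} (h : Detects f) (hfg : ∀ w, f w = g w) :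
    Detects g := by
  obtain ⟨T, hT, hf⟩ := h
  exact ⟨T, hT, fun w w' hw => (hfg w).symm.trans ((hf w w' hw).trans (hfg w'))⟩

theorem Detects.prod {β γ : Type} {f : List α → β} {g : List α → γ} (hf : Detects f)
    (hg : Detects g) : Detects (fun w => (f w, g w)) := by
  obtain ⟨T, hT, hf⟩ := hf
  obtain ⟨S, hS, hg⟩ := hg
  refine ⟨T ++ S, ?_, ?_⟩
  · intro t ht
    rcases List.mem_append.1 ht with ht | ht
    · exact hT t ht
    · exact hS t ht
  · intro w w' hw
    have h1 := hf w w' (fun t ht => hw t (List.mem_append_left _ ht))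
    have h2 := hg w w' (fun t ht => hw t (List.mem_append_right _ ht))
    show (f w, g w) = (f w', g w')
    rw [h1, h2]

theorem Detects.pi {ι : Type} [Fintype ι] {β : ι → Type} (f : ∀ i, List α → β i)
    (h : ∀ i, Detects (f i)) : Detects (fun w i => f i w) := by
  choose T hT hf using h
  refine ⟨(Finset.univ : Finset ι).toList.flatMap T, ?_, ?_⟩
  · intro t ht
    obtain ⟨i, -, hi⟩ := List.mem_flatMap.1 ht
    exact hT i t hi
  · intro w w' hw
    funext i
    apply hf i w w'
    intro t ht
    exact hw t (List.mem_flatMap.2 ⟨i, Finset.mem_toList.2 (Finset.mem_univ i), ht⟩)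

theorem detects_run [Fintype α] {Q : Type} [Fintype Q] [DecidableEq Q] (δ : Q → α → Q) (o : Q)
    (hgood : ∀ q, q ≠ o → Good δ o q) (p : Q) : Detects (fun w => run δ p w) := by
  choose E hE using fun q' => reach δ o hgood p q'
  refine ⟨(Finset.univ : Finset Q).toList.map E, ?_, ?_⟩
  · intro t ht
    obtain ⟨q', -, rfl⟩ := List.mem_map.1 ht
    exact (hE q').1
  · intro w w' hww
    have ht : E (run δ p w) ∈ (Finset.univ : Finset Q).toList.map E :=
      List.mem_map.2 ⟨_, Finset.mem_toList.2 (Finset.mem_univ _), rfl⟩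
    have h1 := (hww _ ht).1 (((hE (run δ p w)).2 w).2 rfl)
    exact (((hE (run δ p w)).2 w').1 h1).symm

theorem Detects.expr [DecidableEq α] {β : Type} {f : List α → β} (h : Detects f)
    (L : Set (List α)) (hL : ∀ w w', f w = f w' → (w ∈ L ↔ w' ∈ L)) :
    ∃ e : GExp α, e.sh ≤ 1 ∧ ∀ w, w ∈ e.lang ↔ w ∈ L := by
  obtain ⟨T, hT, hf⟩ := h
  exact saturated_list 1 T hT L (fun w w' hw => hL w w' (hf w w' hw))

end Detect

/-! ### Weights, phases and phase counts -/

section Counts

variable {α : Type} [DecidableEq α]

/-- The total weight of a word. -/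
def wsum (k : α → ℕ) (w : List α) : ℕ := (w.map k).sum

omit [DecidableEq α] in
theorem wsum_append (k : α → ℕ) (u v : List α) : wsum k (u ++ v) = wsum k u + wsum k v := by
  simp [wsum]

omit [DecidableEq α] in
theorem wsum_snoc (k : α → ℕ) (w : List α) (a : α) : wsum k (w ++ [a]) = wsum k w + k a := by
  simp [wsum]

/-- `tc k b c w` counts the occurrences of `b` in `w` for which `c` plus the total weight of
the earlier letters is divisible by three. -/
def tc (k : α → ℕ) (b : α) : ℕ → List α → ℕ
  | _, [] => 0
  | c, a :: w => (if a = b ∧ c % 3 = 0 then 1 else 0) + tc k b (c + k a) w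

theorem tc_append (k : α → ℕ) (b : α) (u v : List α) (c : ℕ) :
    tc k b c (u ++ v) = tc k b c u + tc k b (c + wsum k u) v := by
  induction u generalizing c with
  | nil => simp [tc, wsum]
  | cons a u ih =>
    simp only [List.cons_append, tc, ih, wsum, List.map_cons, List.sum_cons]
    rw [add_assoc, add_assoc]

theorem tc_snoc (k : α → ℕ) (b : α) (c : ℕ) (w : List α) (a : α) :
    tc k b c (w ++ [a]) =
      tc k b c w + (if a = b ∧ (c + wsum k w) % 3 = 0 then 1 else 0) := by
  rw [tc_append]; simp [tc]

theorem bodd_add_ite (n : ℕ) (P : Prop) [Decidable P] :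
    (n + if P then 1 else 0).bodd = xor n.bodd (decide P) := by
  split_ifs with h
  · simp [h]
  · simp [h]

/-- The weight class of a letter. -/
def wcl (k : α → ℕ) (a : α) : Fin 3 := ⟨k a % 3, Nat.mod_lt _ (by norm_num)⟩

/-- The phase of a word. -/
def phF (k : α → ℕ) (w : List α) : Fin 3 := ⟨wsum k w % 3, Nat.mod_lt _ (by norm_num)⟩

omit [DecidableEq α] in
theorem phF_snoc (k : α → ℕ) (w : List α) (a : α) :
    phF k (w ++ [a]) = phF k w + wcl k a := by
  apply Fin.ext
  rw [Fin.val_add]
  simp only [phF, wcl, wsum_snoc]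
  omega

end Counts

/-! ### The phase automaton -/

section Phase

variable {α : Type}

/-- The phase automaton on `Fin 3`. -/
def dP (k : α → ℕ) (q : Fin 3) (a : α) : Fin 3 := q + wcl k a

theorem run_dP (k : α → ℕ) (q : Fin 3) (w : List α) :
    run (dP k) q w = q + phF k w := by
  induction w using List.reverseRecOn with
  | nil =>
    apply Fin.ext
    rw [Fin.val_add]
    simp [phF, wsum]
    omega
  | append_singleton w a ih =>
    rw [run_append, ih, phF_snoc]
    simp only [run_cons, run_nil, dP]
    rw [add_assoc]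

/-- The mate function of the phase automaton. -/
def mP (q : Fin 3) : Fin 3 := if q = 1 then 2 else if q = 2 then 1 else 0

theorem dP_good [Fintype α] [DecidableEq α] (k : α → ℕ) : ∀ q, q ≠ 0 → Good (dP k) 0 q := by
  have h1 : ∀ q : Fin 3, q ≠ 0 → mP q ≠ 0 := by decide
  have h2 : ∀ q : Fin 3, q ≠ 0 → mP (mP q) = q := by decide
  have h3 : ∀ q j : Fin 3, q ≠ 0 → q + j = q ∨ q + j = 0 ∨ q + j = mP q ∨ (0 : ℕ) < 0 := by
    decide
  have h4 : ∀ q j : Fin 3, q ≠ 0 → mP q ≠ q → ¬ (q + j = mP q ∧ mP q + j = q) := by decide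
  exact pair_good (dP k) 0 (fun _ => 0) mP h1 h2 (fun _ _ => rfl)
    (fun q a hq => h3 q (wcl k a) hq) (fun q a hq hm => h4 q (wcl k a) hq hm)

end Phase

/-! ### The parity automaton -/

section Parity

variable {α : Type} [DecidableEq α]

/-- The automaton on `Bool` that records the parity of the number of `b`. -/
def dZ (b : α) (j : Bool) (a : α) : Bool := if a = b then !j else j

theorem dZ_good [Fintype α] (b : α) : ∀ q, q ≠ false → Good (dZ b) false q := by
  apply pair_good (dZ b) false (fun _ => 0) (fun q => q)
  · intro q hq; exact hq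
  · intro q _; rfl
  · intro q _; rfl
  · intro q a hq
    cases q with
    | false => exact absurd rfl hq
    | true =>
      unfold dZ
      split_ifs
      · right; left; rfl
      · left; rfl
  · intro q a _ hm
    exact absurd rfl hm

theorem three_cases (s : ℕ) :
    ((0 + s) % 3 = 0 ∧ ¬ (1 + s) % 3 = 0 ∧ ¬ (2 + s) % 3 = 0) ∨
    (¬ (0 + s) % 3 = 0 ∧ (1 + s) % 3 = 0 ∧ ¬ (2 + s) % 3 = 0) ∨
    (¬ (0 + s) % 3 = 0 ∧ ¬ (1 + s) % 3 = 0 ∧ (2 + s) % 3 = 0) := by
  omega

theorem run_dZ (k : α → ℕ) (b : α) (w : List α) :
    run (dZ b) false w =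
      xor (xor (tc k b 0 w).bodd (tc k b 1 w).bodd) (tc k b 2 w).bodd := by
  induction w using List.reverseRecOn with
  | nil => simp [tc]
  | append_singleton w a ih =>
    rw [run_append, ih, tc_snoc, tc_snoc, tc_snoc, bodd_add_ite, bodd_add_ite, bodd_add_ite]
    simp only [run_cons, run_nil, dZ]
    by_cases hab : a = b
    · rcases three_cases (wsum k w) with ⟨h0, h1, h2⟩ | ⟨h0, h1, h2⟩ | ⟨h0, h1, h2⟩
      · simp only [hab, h0, h1, h2, if_true, true_and, decide_true, decide_false]
        cases (tc k b 0 w).bodd <;> cases (tc k b 1 w).bodd <;> cases (tc k b 2 w).bodd <;> rfl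
      · simp only [hab, h0, h1, h2, if_true, true_and, decide_true, decide_false]
        cases (tc k b 0 w).bodd <;> cases (tc k b 1 w).bodd <;> cases (tc k b 2 w).bodd <;> rfl
      · simp only [hab, h0, h1, h2, if_true, true_and, decide_true, decide_false]
        cases (tc k b 0 w).bodd <;> cases (tc k b 1 w).bodd <;> cases (tc k b 2 w).bodd <;> rfl
    · simp [hab]

end Parity

end Vale.Agent.Lib.P329
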