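import Vale.Agent.Lib.P329.Views

/-!
# P329: the four-point automaton and the return counting automaton

Two more small automata for counting letters by phase modulo three: a four-state automaton
for a counted letter of nonzero weight and a six-state automaton for a counted letter of
weight zero. Both are ranked away from one state up to two-element classes.
-/

namespace Vale.Agent.Lib.P329

open Language

/-! ### The four-point automaton -/

section FourPoint

variable {α : Type} [DecidableEq α]

/-- Change of frame after a letter of weight class `j`. -/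
def rotA (e : Bool × Bool) (j : Fin 3) : Bool × Bool :=
  if j = 0 then e else if j = 1 then (xor e.1 e.2, e.1) else (e.2, xor e.1 e.2)

/-- The transition of the four-point automaton for a letter of class `cl`: the first
component of `cl` says whether the letter is the counted one, the second is its weight class. -/
def DA (q : Bool × Bool) (cl : Bool × Fin 3) : Bool × Bool :=
  rotA (if cl.1 then (!q.1, !q.2) else q) cl.2

/-- The four-point automaton for the counted letter `b`. -/
def dA (k : α → ℕ) (b : α) (q : Bool × Bool) (a : α) : Bool × Bool :=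
  DA q (decide (a = b), wcl k a)

/-- The state of the four-point automaton in terms of the phase and the three parities. -/
def stA (σ : Fin 3) (u0 u1 u2 : Bool) : Bool × Bool :=
  if σ = 0 then (xor u2 u0, xor u1 u0) else if σ = 1 then (xor u1 u2, xor u0 u2)
  else (xor u0 u1, xor u2 u1)

theorem stA_step : ∀ (σ j : Fin 3) (t u0 u1 u2 : Bool),
    DA (stA σ u0 u1 u2) (t, j) = stA (σ + j) (xor u0 (t && decide (σ = 0)))
      (xor u1 (t && decide (σ = 2))) (xor u2 (t && decide (σ = 1))) := by decide

omit [DecidableEq α] in
theorem phase_zero (k : α → ℕ) (w : List α) : (0 + wsum k w) % 3 = 0 ↔ phF k w = 0 := by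
  constructor
  · intro h
    apply Fin.ext
    show wsum k w % 3 = 0
    omega
  · intro h
    have h1 := congrArg Fin.val h
    change wsum k w % 3 = 0 at h1
    omega

omit [DecidableEq α] in
theorem phase_one (k : α → ℕ) (w : List α) : (1 + wsum k w) % 3 = 0 ↔ phF k w = 2 := by
  constructor
  · intro h
    apply Fin.ext
    show wsum k w % 3 = 2
    omega
  · intro h
    have h1 := congrArg Fin.val h
    change wsum k w % 3 = 2 at h1
    omega

omit [DecidableEq α] in
theorem phase_two (k : α → ℕ) (w : List α) : (2 + wsum k w) % 3 = 0 ↔ phF k w = 1 := by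
  constructor
  · intro h
    apply Fin.ext
    show wsum k w % 3 = 1
    omega
  · intro h
    have h1 := congrArg Fin.val h
    change wsum k w % 3 = 1 at h1
    omega

theorem run_dA (k : α → ℕ) (b : α) (w : List α) :
    run (dA k b) (false, false) w =
      stA (phF k w) (tc k b 0 w).bodd (tc k b 1 w).bodd (tc k b 2 w).bodd := by
  induction w using List.reverseRecOn with
  | nil =>
    have h0 : phF k ([] : List α) = 0 := rfl
    rw [h0]
    simp [tc, stA]
  | append_singleton w a ih =>
    rw [run_append, ih, tc_snoc, tc_snoc, tc_snoc, bodd_add_ite, bodd_add_ite, bodd_add_ite,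
      phF_snoc]
    simp only [run_cons, run_nil, dA]
    rw [stA_step]
    simp only [Bool.decide_and, decide_eq_decide.2 (phase_zero k w),
      decide_eq_decide.2 (phase_one k w), decide_eq_decide.2 (phase_two k w)]

/-- Reset state when the counted letter has weight class one. -/
def oA1 : Bool × Bool := (false, true)

/-- Mates when the counted letter has weight class one. -/
def mA1 (q : Bool × Bool) : Bool × Bool :=
  if q = (true, false) then (true, true) else if q = (true, true) then (true, false) else q

/-- Reset state when the counted letter has weight class two. -/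
def oA2 : Bool × Bool := (true, false)

/-- Mates when the counted letter has weight class two. -/
def mA2 (q : Bool × Bool) : Bool × Bool :=
  if q = (false, true) then (true, true) else if q = (true, true) then (false, true) else q

/-- Rank of the four-point automaton. -/
def rA (q : Bool × Bool) : ℕ := if q = (false, false) then 1 else 0

theorem dA_good1 [Fintype α] (k : α → ℕ) (b : α) (hb : wcl k b = 1) :
    ∀ q, q ≠ oA1 → Good (dA k b) oA1 q := by
  have h1 : ∀ q : Bool × Bool, q ≠ oA1 → mA1 q ≠ oA1 := by decide
  have h2 : ∀ q : Bool × Bool, q ≠ oA1 → mA1 (mA1 q) = q := by decide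
  have h3 : ∀ q : Bool × Bool, q ≠ oA1 → rA (mA1 q) = rA q := by decide
  have h4 : ∀ (q : Bool × Bool) (cl : Bool × Fin 3), (cl.1 = true → cl.2 = 1) → q ≠ oA1 →
      DA q cl = q ∨ DA q cl = oA1 ∨ DA q cl = mA1 q ∨ rA q < rA (DA q cl) := by decide
  have h5 : ∀ (q : Bool × Bool) (cl : Bool × Fin 3), (cl.1 = true → cl.2 = 1) → q ≠ oA1 →
      mA1 q ≠ q → ¬ (DA q cl = mA1 q ∧ DA (mA1 q) cl = q) := by decide
  have hcl : ∀ a, decide (a = b) = true → wcl k a = 1 := by
    intro a ha
    rw [decide_eq_true_eq] at ha
    rw [ha]; exact hb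
  exact pair_good (dA k b) oA1 rA mA1 h1 h2 h3 (fun q a hq => h4 q _ (hcl a) hq)
    (fun q a hq hm => h5 q _ (hcl a) hq hm)

theorem dA_good2 [Fintype α] (k : α → ℕ) (b : α) (hb : wcl k b = 2) :
    ∀ q, q ≠ oA2 → Good (dA k b) oA2 q := by
  have h1 : ∀ q : Bool × Bool, q ≠ oA2 → mA2 q ≠ oA2 := by decide
  have h2 : ∀ q : Bool × Bool, q ≠ oA2 → mA2 (mA2 q) = q := by decide
  have h3 : ∀ q : Bool × Bool, q ≠ oA2 → rA (mA2 q) = rA q := by decide
  have h4 : ∀ (q : Bool × Bool) (cl : Bool × Fin 3), (cl.1 = true → cl.2 = 2) → q ≠ oA2 →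
      DA q cl = q ∨ DA q cl = oA2 ∨ DA q cl = mA2 q ∨ rA q < rA (DA q cl) := by decide
  have h5 : ∀ (q : Bool × Bool) (cl : Bool × Fin 3), (cl.1 = true → cl.2 = 2) → q ≠ oA2 →
      mA2 q ≠ q → ¬ (DA q cl = mA2 q ∧ DA (mA2 q) cl = q) := by decide
  have hcl : ∀ a, decide (a = b) = true → wcl k a = 2 := by
    intro a ha
    rw [decide_eq_true_eq] at ha
    rw [ha]; exact hb
  exact pair_good (dA k b) oA2 rA mA2 h1 h2 h3 (fun q a hq => h4 q _ (hcl a) hq)
    (fun q a hq hm => h5 q _ (hcl a) hq hm)

/-- Recover the three parities from the phase, the state and the total parity. -/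
def invA (σ : Fin 3) (d : Bool × Bool) (p : Bool) (l : Fin 3) : Bool :=
  if σ = 0 then
    (if l = 0 then xor p (xor d.1 d.2) else if l = 1 then xor d.2 (xor p (xor d.1 d.2))
      else xor d.1 (xor p (xor d.1 d.2)))
  else if σ = 1 then
    (if l = 0 then xor d.2 (xor p (xor d.1 d.2)) else if l = 1 then xor d.1 (xor p (xor d.1 d.2))
      else xor p (xor d.1 d.2))
  else
    (if l = 0 then xor d.1 (xor p (xor d.1 d.2)) else if l = 1 then xor p (xor d.1 d.2)
      else xor d.2 (xor p (xor d.1 d.2)))

theorem invA_stA : ∀ (σ : Fin 3) (u0 u1 u2 : Bool) (l : Fin 3),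
    invA σ (stA σ u0 u1 u2) (xor (xor u0 u1) u2) l =
      (if l = 0 then u0 else if l = 1 then u1 else u2) := by decide

theorem tc_bodd_of_views (k : α → ℕ) (b : α) (l : Fin 3) (w : List α) :
    (tc k b l.val w).bodd =
      invA (phF k w) (run (dA k b) (false, false) w) (run (dZ b) false w) l := by
  rw [run_dA, run_dZ k b w, invA_stA]
  rcases l with ⟨l, hl⟩
  interval_cases l <;> rfl

end FourPoint

/-! ### The return counting automaton -/

section Returns

variable {α : Type} [DecidableEq α]

/-- The transition of the return counting automaton: the second component of the state flips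
when the counted letter is read at phase zero and when a letter of nonzero weight leads to
phase zero. -/
def DB (q : Fin 3 × Bool) (cl : Bool × Fin 3) : Fin 3 × Bool :=
  if cl.1 then (q.1, xor q.2 (decide (q.1 = 0)))
  else if cl.2 = 0 then q else (q.1 + cl.2, xor q.2 (decide (q.1 + cl.2 = 0)))

/-- The return counting automaton with counted letter `b`. -/
def dB (k : α → ℕ) (b : α) (q : Fin 3 × Bool) (a : α) : Fin 3 × Bool :=
  DB q (decide (a = b), wcl k a)

/-- The return counting automaton without counted letter. -/
def dB' (k : α → ℕ) (q : Fin 3 × Bool) (a : α) : Fin 3 × Bool :=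
  DB q (false, wcl k a)

/-- Reset state of the return counting automaton. -/
def oB : Fin 3 × Bool := (0, false)

/-- Mates of the return counting automaton. -/
def mB (q : Fin 3 × Bool) : Fin 3 × Bool :=
  if q.1 = 1 then (2, q.2) else if q.1 = 2 then (1, q.2) else q

/-- Rank of the return counting automaton. -/
def rB (q : Fin 3 × Bool) : ℕ := if q.1 = 0 then 1 else if q.2 then 2 else 0

theorem DB_h1 : ∀ q : Fin 3 × Bool, q ≠ oB → mB q ≠ oB := by decide
theorem DB_h2 : ∀ q : Fin 3 × Bool, q ≠ oB → mB (mB q) = q := by decide
theorem DB_h3 : ∀ q : Fin 3 × Bool, q ≠ oB → rB (mB q) = rB q := by decide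
theorem DB_h4 : ∀ (q : Fin 3 × Bool) (cl : Bool × Fin 3), q ≠ oB →
    DB q cl = q ∨ DB q cl = oB ∨ DB q cl = mB q ∨ rB q < rB (DB q cl) := by decide
theorem DB_h5 : ∀ (q : Fin 3 × Bool) (cl : Bool × Fin 3), q ≠ oB → mB q ≠ q →
    ¬ (DB q cl = mB q ∧ DB (mB q) cl = q) := by decide

theorem dB_good [Fintype α] (k : α → ℕ) (b : α) : ∀ q, q ≠ oB → Good (dB k b) oB q :=
  pair_good (dB k b) oB rB mB DB_h1 DB_h2 DB_h3 (fun q _ hq => DB_h4 q _ hq)
    (fun q _ hq hm => DB_h5 q _ hq hm)

theorem dB'_good [Fintype α] (k : α → ℕ) : ∀ q, q ≠ oB → Good (dB' k) oB q :=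
  pair_good (dB' k) oB rB mB DB_h1 DB_h2 DB_h3 (fun q _ hq => DB_h4 q _ hq)
    (fun q _ hq hm => DB_h5 q _ hq hm)

theorem DB_fst : ∀ (q : Fin 3 × Bool) (i : Fin 3), (DB q (false, i)).1 = q.1 + i := by decide

theorem DB_lin : ∀ (p : Fin 3) (j u : Bool) (i : Fin 3),
    DB (p, xor j u) (false, i) = ((DB (p, j) (false, i)).1, xor (DB (p, j) (false, i)).2 u) := by
  decide

theorem DB_zero : ∀ (q : Fin 3 × Bool), DB q (false, 0) = q := by decide

omit [DecidableEq α] in
theorem run_dB'_fst (k : α → ℕ) (q : Fin 3 × Bool) (w : List α) :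
    (run (dB' k) q w).1 = q.1 + phF k w := by
  induction w using List.reverseRecOn with
  | nil =>
    apply Fin.ext
    rw [Fin.val_add]
    simp [phF, wsum]
    omega
  | append_singleton w a ih =>
    rw [run_append, phF_snoc]
    simp only [run_cons, run_nil, dB']
    rw [DB_fst, ih, add_assoc]

theorem run_dB (k : α → ℕ) (b : α) (hb : wcl k b = 0) (c : Fin 3) (w : List α) :
    run (dB k b) (c, false) w = ((run (dB' k) (c, false) w).1,
      xor (run (dB' k) (c, false) w).2 (tc k b c.val w).bodd) := by
  induction w using List.reverseRecOn with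
  | nil => simp [tc]
  | append_singleton w a ih =>
    rw [run_append, run_append, ih, tc_snoc, bodd_add_ite]
    simp only [run_cons, run_nil]
    have hfst := run_dB'_fst k (c, false) w
    by_cases hab : a = b
    · subst hab
      have h0 : decide ((run (dB' k) (c, false) w).1 = 0) =
          decide ((c.val + wsum k w) % 3 = 0) := by
        apply decide_eq_decide.2
        rw [hfst]
        constructor
        · intro h
          have h1 := congrArg Fin.val h
          rw [Fin.val_add] at h1
          change (c.val + wsum k w % 3) % 3 = 0 at h1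
          omega
        · intro h
          apply Fin.ext
          rw [Fin.val_add]
          show (c.val + wsum k w % 3) % 3 = 0
          omega
      have h1 : dB' k (run (dB' k) (c, false) w) a = run (dB' k) (c, false) w := by
        unfold dB'
        rw [hb]
        exact DB_zero _
      rw [h1]
      unfold dB
      rw [hb]
      simp only [DB, decide_true, if_true, true_and]
      rw [h0, Bool.xor_assoc]
    · have h1 : decide (a = b ∧ (c.val + wsum k w) % 3 = 0) = false := by
        simp [hab]
      rw [h1, Bool.xor_false]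
      unfold dB dB'
      rw [decide_eq_false hab]
      exact DB_lin _ _ _ _

theorem tc_bodd_of_returns (k : α → ℕ) (b : α) (hb : wcl k b = 0) (c : Fin 3) (w : List α) :
    (tc k b c.val w).bodd =
      xor (run (dB k b) (c, false) w).2 (run (dB' k) (c, false) w).2 := by
  rw [run_dB k b hb c w]
  cases (run (dB' k) (c, false) w).2 <;> cases (tc k b c.val w).bodd <;> rfl

end Returns

end Vale.Agent.Lib.P329
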